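import Crest.Agent.R245.BaseDefs

/-!
# R245: the sum of the wells: local finiteness, values, jets

Near a point with `rho > 0` only the levels with `h j ≥ rho/4` contribute.  For the jets: at a
point `p`, the term of `(j, m)` vanishes near `p` unless `rho + |p 1 - c|² ≤ 2 h j`, which holds
for at most one `m` (`cc_sep`); then `l a = (a 2 - conj c * a 1)/h` satisfies
`‖l a‖ ≤ (rho + √(2h) √rho) nP a / h ≤ 3 √(rho/h) nP a` (`a 2 - conj (p 1) a 1 = -rho sg a`), and
`jr_comap`, `Bd.comap`, `Bd.scale` (`l = 3 √(rho/h) ≤ 5`, `max l l⁴ ≤ 125 l`) give the bound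
`375 B √(rho/h j)`; the sum over the levels with `rho ≤ 2 h j` is geometric (`Λ ≥ 4`).
-/

set_option autoImplicit false

namespace Crest.Agent.R245

open scoped ComplexConjugate ContDiff Topology
open Filter

/-- the linear part of `zeta c / h` -/
noncomputable def baL (c : ℂ) (h : ℝ) : (Fin 3 → ℂ) →L[ℂ] ℂ :=
  (1 / h : ℂ) • ((ContinuousLinearMap.proj 2 : (Fin 3 → ℂ) →L[ℂ] ℂ) -
    conj c • (ContinuousLinearMap.proj 1 : (Fin 3 → ℂ) →L[ℂ] ℂ))

theorem baL_apply (c : ℂ) (h : ℝ) (a : Fin 3 → ℂ) : baL c h a = (a 2 - conj c * a 1) / h := by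
  simp only [baL, smul_apply, sub_apply,
    ContinuousLinearMap.proj_apply, smul_eq_mul]
  ring

theorem zeta_eq_baL (c : ℂ) (h : ℝ) (x : Fin 3 → ℂ) :
    zeta c (x 1) (x 2) / h = baL c h x + ((Complex.normSq c / 2 : ℝ) : ℂ) / h := by
  rw [baL_apply, zeta]; ring

theorem ba_contDiff {v : ℂ → ℝ} (hv : ContDiff ℝ ∞ v) (c : ℂ) (h : ℝ) :
    ContDiff ℝ ∞ fun x : Fin 3 → ℂ => v (zeta c (x 1) (x 2) / h) := by
  simp only [zeta_eq_baL]
  exact hv.comp ((((baL c h).restrictScalars ℝ).contDiff).add contDiff_const)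

theorem ba_jr {v : ℂ → ℝ} (hv : ContDiff ℝ ∞ v) (c : ℂ) (h : ℝ) (p : Fin 3 → ℂ) :
    jr (fun x : Fin 3 → ℂ => v (zeta c (x 1) (x 2) / h)) p =
      (jr v (zeta c (p 1) (p 2) / h)).comap (baL c h) := by
  simp only [zeta_eq_baL]
  exact jr_comap _ _ (Sm.of_contDiff hv _)

theorem ba_contDiff_lev {v : ℂ → ℝ} (hv : ContDiff ℝ ∞ v) (h : ℝ) :
    ContDiff ℝ ∞ fun x : Fin 3 → ℂ => lev v h (x 1) (x 2) :=
  ContDiff.sum fun _ _ => ba_contDiff hv _ _

theorem ba_term_bd {v : ℂ → ℝ} {ε B h : ℝ} (hv : IsWell v ε B) (hh : 0 < h) (c : ℂ)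
    {p : Fin 3 → ℂ} (hp : 0 < rho2 p) :
    (jr (fun x : Fin 3 → ℂ => v (zeta c (x 1) (x 2) / h)) p).Bd (nP p)
      (if rho2 p + Complex.normSq (p 1 - c) ≤ 9 / 5 * h then 375 * B * √(rho2 p / h) else 0) := by
  split_ifs with hc
  · rw [ba_jr hv.smooth]
    have hB : 0 ≤ B := zero_le_one.trans hv.one_le
    have h1 := (hv.bd _ (re_zeta_nonneg hh (c := c) (z₁ := p 1) (z₂ := p 2) hp.le)).comap (baL c h)
    set x := √(rho2 p / h) with hx
    have hx0 : 0 ≤ x := Real.sqrt_nonneg _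
    have hx2 : x ^ 2 = rho2 p / h := Real.sq_sqrt (by positivity)
    have hn := Complex.normSq_nonneg (p 1 - c)
    have hx3 : x ^ 2 ≤ 9 / 5 := by rw [hx2, div_le_iff₀ hh]; linarith
    have hx4 : x ≤ 3 / 2 := by nlinarith
    have h2 : ∀ a, ‖baL c h a‖ ≤ 3 * x * nP p a := by
      intro a
      have e : baL c h a = (-(rho2 p : ℂ) * sg p a + conj (p 1 - c) * a 1) / h := by
        have : (rho2 p : ℂ) ≠ 0 := by exact_mod_cast hp.ne'
        rw [baL_apply, sg, map_sub]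
        field_simp
        ring
      rw [e, norm_div, Complex.norm_real, Real.norm_of_nonneg hh.le, div_le_iff₀ hh]
      refine (norm_add_le _ _).trans ?_
      rw [norm_mul, norm_mul, norm_neg, Complex.norm_real, Real.norm_of_nonneg hp.le,
        Complex.norm_conj]
      have h3 := mul_le_mul_of_nonneg_left (norm_sg_le hp a) hp.le
      have h4 := mul_le_mul_of_nonneg_left (norm_one_le_nP hp a) (norm_nonneg (p 1 - c))
      have h5 : rho2 p = x ^ 2 * h := by rw [hx2]; field_simp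
      have h6 : ‖p 1 - c‖ * √(rho2 p) ≤ 3 / 2 * x * h := by
        refine (le_abs_self _).trans (abs_le_of_sq_le_sq ?_ (by positivity))
        rw [mul_pow, Real.sq_sqrt hp.le, ← Complex.normSq_eq_norm_sq]
        have h7 : Complex.normSq (p 1 - c) ≤ 9 / 4 * h := by linarith
        have := mul_le_mul_of_nonneg_right h7 hp.le
        calc Complex.normSq (p 1 - c) * rho2 p ≤ 9 / 4 * h * rho2 p := this
          _ = _ := by rw [h5]; ring
      have h7 : rho2 p ≤ 3 / 2 * x * h := by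
        rw [h5]
        exact mul_le_mul_of_nonneg_right (by nlinarith) hh.le
      have h8 := nP_nonneg p a
      have h9 := mul_le_mul_of_nonneg_right h6 h8
      have h10 := mul_le_mul_of_nonneg_right h7 h8
      nlinarith
    refine (h1.scale (fun a => norm_nonneg _) hB (by positivity) h2).mono (nP_nonneg p) ?_
    have h3 : max (3 * x) ((3 * x) ^ 4) ≤ 375 * x := by
      refine max_le (by linarith) ?_
      have : x ^ 3 ≤ (3 / 2) ^ 3 := pow_le_pow_left₀ hx0 hx4 3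
      nlinarith
    calc B * max (3 * x) ((3 * x) ^ 4) ≤ B * (375 * x) := mul_le_mul_of_nonneg_left h3 hB
      _ = _ := by ring
  · have hcont : Continuous fun x : Fin 3 → ℂ => rho2 x + Complex.normSq (x 1 - c) :=
      contDiff_rho2.continuous.add (Complex.continuous_normSq.comp (by fun_prop))
    have : (fun x : Fin 3 → ℂ => v (zeta c (x 1) (x 2) / h)) =ᶠ[𝓝 p] fun _ => (0 : ℝ) := by
      filter_upwards [hcont.continuousAt.eventually (lt_mem_nhds (not_le.1 hc))] with x hx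
      exact well_term_zero hv hh hx.le
    rw [jr_congr this, jr_const]
    exact J.bd_const _

theorem ba_lev_bd {v : ℂ → ℝ} {ε B h : ℝ} (hv : IsWell v ε B) (hh : 0 < h)
    {p : Fin 3 → ℂ} (hp : 0 < rho2 p) :
    (jr (fun x : Fin 3 → ℂ => lev v h (x 1) (x 2)) p).Bd (nP p)
      (375 * B * if rho2 p ≤ 2 * h then √(rho2 p / h) else 0) := by
  classical
  have hB : 0 ≤ B := zero_le_one.trans hv.one_le
  refine (bd_jr_sum (lat h) (fun m _ => Sm.of_contDiff (ba_contDiff hv.smooth (cc h m) h) p)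
    (fun m _ => ba_term_bd hv hh (cc h m) hp)).mono (nP_nonneg p) ?_
  rw [← Finset.sum_filter, Finset.sum_const, nsmul_eq_mul]
  have near : ∀ m, rho2 p + Complex.normSq (p 1 - cc h m) ≤ 9 / 5 * h → ‖p 1 - cc h m‖ < 2 * √h := by
    intro m hm
    refine lt_of_pow_lt_pow_left₀ 2 (by positivity) ?_
    rw [mul_pow, Real.sq_sqrt hh.le, ← Complex.normSq_eq_norm_sq]
    linarith
  split_ifs with hc
  · have h1 : ((lat h).filter fun m =>
        rho2 p + Complex.normSq (p 1 - cc h m) ≤ 9 / 5 * h).card ≤ 1 := by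
      refine Finset.card_le_one.2 fun m hm m' hm' => by_contra fun hne => ?_
      have h3 := cc_sep (h := h) hne
      have h4 : ‖cc h m - cc h m'‖ ≤ ‖p 1 - cc h m‖ + ‖p 1 - cc h m'‖ := by
        rw [← norm_neg (p 1 - cc h m)]
        exact (congrArg _ (by ring)).trans_le (norm_add_le _ _)
      have := near m (Finset.mem_filter.1 hm).2
      have := near m' (Finset.mem_filter.1 hm').2
      linarith
    have h2 : (((lat h).filter fun m =>
        rho2 p + Complex.normSq (p 1 - cc h m) ≤ 9 / 5 * h).card : ℝ) ≤ 1 := by exact_mod_cast h1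
    have h3 : 0 ≤ 375 * B * √(rho2 p / h) := by positivity
    nlinarith
  · rw [Finset.filter_eq_empty_iff.2 (fun m _ hm => hc ?_)]
    · simp
    · have := Complex.normSq_nonneg (p 1 - cc h m)
      linarith

namespace Par

variable {P : Par} (hP : P.OK)
include hP

theorem OK.h_pos (j : ℕ) : 0 < P.h j := by
  have h1 := hP.Λ_ge
  have h2 := hP.well.one_le
  have : 0 < P.Λ := lt_of_lt_of_le (by positivity) h1
  exact div_pos hP.ρ₀_pos (pow_pos this j)

theorem OK.Λ_ge' : 10 ^ 24 ≤ P.Λ := by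
  refine le_trans ?_ hP.Λ_ge
  have h2 := hP.well.one_le
  have : (1 : ℝ) ≤ P.B ^ 2 := one_le_pow₀ h2
  nlinarith

theorem OK.h_anti {J j : ℕ} (hj : J ≤ j) : P.h j ≤ P.h J := by
  have h1 : (1 : ℝ) ≤ P.Λ := le_trans (by norm_num) hP.Λ_ge'
  exact div_le_div_of_nonneg_left hP.ρ₀_pos.le (by positivity) (pow_le_pow_right₀ h1 hj)

/-- only the levels below `J` contribute where `rho ≥ 2 h J` -/
theorem OK.wells_eq_sum {z₁ z₂ : ℂ} {J : ℕ} (hz : 2 * P.h J ≤ rho z₁ z₂) :
    P.wells z₁ z₂ = ∑ j ∈ Finset.range J, lev P.v (P.h j) z₁ z₂ := by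
  refine tsum_eq_sum fun j hj => lev_zero hP.well (hP.h_pos j) ?_
  have := hP.h_anti (J := J) (j := j) (by simpa using hj)
  have := hP.h_pos j
  linarith

theorem OK.exists_level {ρ : ℝ} (hρ : 0 < ρ) : ∃ J, 2 * P.h J < ρ := by
  have h1 : (1 : ℝ) < P.Λ := lt_of_lt_of_le (by norm_num) hP.Λ_ge'
  obtain ⟨J, hJ⟩ := pow_unbounded_of_one_lt (2 * P.ρ₀ / ρ) h1
  refine ⟨J, ?_⟩
  rw [div_lt_iff₀ hρ] at hJ
  rw [Par.h, ← mul_div_assoc, div_lt_iff₀ (by positivity)]
  linarith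

theorem OK.wells_eventually {p : Fin 3 → ℂ} (hp : 0 < rho2 p) :
    ∃ J, (fun x : Fin 3 → ℂ => P.wells (x 1) (x 2)) =ᶠ[𝓝 p]
      fun x => ∑ j ∈ Finset.range J, lev P.v (P.h j) (x 1) (x 2) := by
  obtain ⟨J, hJ⟩ := hP.exists_level hp
  refine ⟨J, ?_⟩
  filter_upwards [contDiff_rho2.continuous.continuousAt.eventually (lt_mem_nhds hJ)] with x hx
  exact hP.wells_eq_sum hx.le

theorem OK.sm_wells {p : Fin 3 → ℂ} (hp : 0 < rho2 p) : Sm (fun x : Fin 3 → ℂ => P.wells (x 1) (x 2)) p := by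
  obtain ⟨J, hJ⟩ := hP.wells_eventually hp
  exact (Sm.of_contDiff (ContDiff.sum fun j _ => ba_contDiff_lev hP.well.smooth (P.h j)) p).congr hJ

theorem OK.wells_zero {z₁ z₂ : ℂ} (hz : 0 < rho z₁ z₂) (h : 1 / 3 ≤ ‖z₁‖ ∨ 2 * P.ρ₀ ≤ rho z₁ z₂) :
    P.wells z₁ z₂ = 0 := by
  rcases h with h | h
  · have : ∀ j, lev P.v (P.h j) z₁ z₂ = 0 := by
      intro j
      refine lev_zero' hP.well (hP.h_pos j) hz.le (le_trans ?_ h)
      have h1 := hP.h_anti (Nat.zero_le j)
      have h2 : P.h 0 = P.ρ₀ := by simp [Par.h]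
      have h3 : Real.exp (-(P.r₀ + P.L)) ≤ 1 :=
        Real.exp_le_one_iff.2 (by linarith [hP.r₀_ge, hP.L_ge])
      have h4 := hP.ρ₀_le
      have h5 : √(P.h j) ≤ 1 / 24 := Real.sqrt_le_iff.2 ⟨by norm_num, by linarith⟩
      linarith
    simp [Par.wells, this]
  · rw [hP.wells_eq_sum (J := 0) (by simpa [Par.h] using h)]
    simp

/-- at most `1 + log (2 ρ₀/rho)/log Λ` levels are active, each contributes at most `1/40000` -/
theorem OK.wells_le {z₁ z₂ : ℂ} (hz : 0 < rho z₁ z₂) (h : rho z₁ z₂ ≤ 2 * P.ρ₀) :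
    P.wells z₁ z₂ ≤ (1 + Real.log (2 * P.ρ₀ / rho z₁ z₂)) / 40000 := by
  set y := Real.log (2 * P.ρ₀ / rho z₁ z₂) with hy
  have hy0 : 0 ≤ y := Real.log_nonneg ((one_le_div hz).2 h)
  have hΛ : Real.exp 1 ≤ P.Λ := by
    have := Real.exp_one_lt_d9
    have := hP.Λ_ge'
    linarith
  have hΛ0 : 0 < P.Λ := (Real.exp_pos 1).trans_le hΛ
  have h1 : 2 * P.h (⌊y⌋₊ + 1) ≤ rho z₁ z₂ := by
    have h2 : 2 * P.ρ₀ / rho z₁ z₂ ≤ P.Λ ^ (⌊y⌋₊ + 1) := by
      have h3 : Real.exp 1 ^ (⌊y⌋₊ + 1) ≤ P.Λ ^ (⌊y⌋₊ + 1) :=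
        pow_le_pow_left₀ (Real.exp_pos 1).le hΛ _
      refine le_trans ?_ h3
      rw [← Real.exp_nat_mul, ← Real.exp_log (show 0 < 2 * P.ρ₀ / rho z₁ z₂ from
        div_pos (by linarith [hP.ρ₀_pos]) hz), ← hy]
      refine Real.exp_le_exp.2 ?_
      have := Nat.lt_floor_add_one y
      push_cast
      linarith
    rw [div_le_iff₀ hz] at h2
    rw [Par.h, ← mul_div_assoc, div_le_iff₀ (by positivity)]
    linarith
  rw [hP.wells_eq_sum h1]
  refine (Finset.sum_le_card_nsmul _ _ (1 / 40000) fun j _ =>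
    lev_le hP.well (hP.h_pos j) (by norm_num) hz.le).trans ?_
  rw [Finset.card_range, nsmul_eq_mul]
  have := Nat.floor_le hy0
  push_cast
  linarith

theorem OK.wells_psh {p : Fin 3 → ℂ} (hp : 0 < rho2 p) (a : Fin 3 → ℂ) :
    0 ≤ ((jr (fun x : Fin 3 → ℂ => P.wells (x 1) (x 2)) p).de a a).re := by
  obtain ⟨N, hJ⟩ := hP.wells_eventually hp
  rw [jr_congr hJ]
  refine de_jr_sum_nonneg _ (fun j _ => Sm.of_contDiff (ba_contDiff_lev hP.well.smooth _) p) a
    fun j _ => ?_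
  refine de_jr_sum_nonneg (lat (P.h j))
    (fun m _ => Sm.of_contDiff (ba_contDiff hP.well.smooth (cc (P.h j) m) (P.h j)) p) a fun m _ => ?_
  rw [ba_jr hP.well.smooth]
  simp only [J.comap]
  rw [J.de_of_one (jr_lin (Sm.of_contDiff hP.well.smooth _)), Complex.mul_conj,
    Complex.re_ofReal_mul]
  exact mul_nonneg (Complex.normSq_nonneg _) (hP.well.psh _)

theorem OK.wells_bd {p : Fin 3 → ℂ} (hp : 0 < rho2 p) :
    (jr (fun x : Fin 3 → ℂ => P.wells (x 1) (x 2)) p).Bd (nP p) (2000 * P.B) := by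
  obtain ⟨J, hJ⟩ := hP.wells_eventually hp
  rw [jr_congr hJ]
  refine (bd_jr_sum _ (fun j _ => Sm.of_contDiff (ba_contDiff_lev hP.well.smooth _) p)
    (fun j _ => ba_lev_bd hP.well (hP.h_pos j) hp)).mono (nP_nonneg p) ?_
  rw [← Finset.mul_sum]
  have hΛ : (4 : ℝ) ≤ P.Λ := le_trans (by norm_num) hP.Λ_ge'
  have hy : ∀ j, 2 * √(rho2 p / P.h j) ≤ √(rho2 p / P.h (j + 1)) := by
    intro j
    refine Real.le_sqrt_of_sq_le ?_
    have hj := hP.h_pos j
    have e : rho2 p / P.h (j + 1) = P.Λ * (rho2 p / P.h j) := by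
      have := hP.ρ₀_pos
      simp only [Par.h, pow_succ]
      field_simp
    rw [mul_pow, Real.sq_sqrt (by positivity), e]
    exact mul_le_mul_of_nonneg_right (by linarith) (by positivity)
  have h1 : ∀ J, ∑ j ∈ Finset.range J, (if rho2 p ≤ 2 * P.h j then √(rho2 p / P.h j) else 0) ≤
      √(rho2 p / P.h J) := by
    intro J
    induction J with
    | zero => simp
    | succ J ih =>
      rw [Finset.sum_range_succ]
      have := hy J
      have := Real.sqrt_nonneg (rho2 p / P.h J)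
      split_ifs <;> linarith
  have h2 : ∀ J, ∑ j ∈ Finset.range J, (if rho2 p ≤ 2 * P.h j then √(rho2 p / P.h j) else 0) ≤
      3 := by
    intro J
    induction J with
    | zero => simp
    | succ J ih =>
      rw [Finset.sum_range_succ]
      split_ifs with hc
      · have := h1 J
        have h3 : √(rho2 p / P.h J) ≤ 3 / 2 := by
          refine Real.sqrt_le_iff.2 ⟨by norm_num, ?_⟩
          rw [div_le_iff₀ (hP.h_pos J)]
          linarith [hP.h_pos J]
        linarith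
      · linarith
  have h3 := h2 J
  have hB := hP.well.one_le
  nlinarith

end Par

end Crest.Agent.R245
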