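import Crest.Agent.R245.BaseA

/-!
# R245: the slowly varying functions `ψ`, `η`

If `rr p < r₀` then `ψ = rr`, `η = 1` near `p`.  Otherwise `rho2 p ≤ exp (-r₀)` and
`X = jr (bump (p 1))` is bounded by `C √rho2` for `nP` (`norm_one_le_nP`, `Bd.scale`), while
`|gam (rr p)| ≤ rr p` and `√rho2 · (1 + rr p) ≤ 4 exp (-r₀/4)`.  With `R = jr rr p` (bounded by
`6`), `u = comp γ R`, `χ₀ = bump (p 1)`, `γ₁ = gam1 (rr p)`:
`jr ψ - a R = -(1 - a₀) (χ₀ (u - γ₁ R) + (X - χ₀) u)` on derivatives, `a = 1 - (1-a₀) χ₀ γ₁`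
(`Bd.comp_sub`, `Bd.mul`, `Bd.of_sub_const`).  For `η = exp (log κ · χ · gam1 (rr))` use
`Bd.mul`, `Bd.comp`, `jr_exp`.
-/

set_option autoImplicit false

namespace Crest.Agent.R245

open scoped ComplexConjugate ContDiff Topology
open Filter

theorem sm_bump_one (a b : ℝ) (p : Fin 3 → ℂ) : Sm (fun x : Fin 3 → ℂ => bump a b (x 1)) p :=
  Sm.of_contDiff ((contDiff_bump a b).comp (contDiff_apply ℝ ℂ 1)) p

theorem sm_comp_rr {f : ℝ → ℝ} (hf : ContDiff ℝ ∞ f) {p : Fin 3 → ℂ} (hp : 0 < rho2 p) :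
    Sm (fun x => f (rr x)) p := by
  filter_upwards [sm_rr hp] with x hx using hf.contDiffAt.comp x hx

theorem sm_mul_real {u w : (Fin 3 → ℂ) → ℝ} {p : Fin 3 → ℂ} (hu : Sm u p) (hw : Sm w p) :
    Sm (fun x => u x * w x) p := by
  filter_upwards [hu, hw] with x hx hy using hx.mul hy

theorem sm_const_real (t : ℝ) (p : Fin 3 → ℂ) : Sm (fun _ : Fin 3 → ℂ => t) p :=
  Sm.of_contDiff contDiff_const p

theorem gam_zero_of_le {r₀ L r : ℝ} (hL : 0 < L) (h : r ≤ r₀) :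
    gam r₀ L r = 0 ∧ gam1 r₀ L r = 0 := by
  have h1 : (r - r₀) / L ≤ 0 := div_nonpos_of_nonpos_of_nonneg (by linarith) hL.le
  exact ⟨by rw [gam, Gam_of_nonpos h1, mul_zero], Real.smoothTransition.zero_of_nonpos h1⟩

theorem gam_mem {r₀ L r : ℝ} (hL : 0 < L) (h₀ : 0 ≤ r₀) (h : 0 ≤ r) :
    0 ≤ gam r₀ L r ∧ gam r₀ L r ≤ r := by
  refine ⟨mul_nonneg hL.le (Gam_nonneg _), (mul_le_mul_of_nonneg_left (Gam_le _) hL.le).trans ?_⟩
  rw [mul_max_of_nonneg _ _ hL.le, mul_div_cancel₀ _ hL.ne', mul_zero]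
  exact max_le (by linarith) h

theorem gam_of_ge {r₀ L r : ℝ} (hL : 0 < L) (h : r₀ + L ≤ r) :
    gam r₀ L r = r - r₀ - L * (1 - Gam 1) ∧ gam1 r₀ L r = 1 := by
  have h1 : 1 ≤ (r - r₀) / L := by rw [le_div_iff₀ hL]; linarith
  exact ⟨by rw [gam, Gam_of_one_le h1, mul_sub, mul_div_cancel₀ _ hL.ne'],
    Real.smoothTransition.one_of_one_le h1⟩

theorem gam1_mem (r₀ L r : ℝ) : 0 ≤ gam1 r₀ L r ∧ gam1 r₀ L r ≤ 1 :=
  ⟨Real.smoothTransition.nonneg _, Real.smoothTransition.le_one _⟩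

/-- the cut-off varies slowly near the boundary -/
theorem bd_bump_one {a b C : ℝ} (hC : 0 ≤ C) (h : ∀ z, (jr (bump a b) z).Bd (fun x => ‖x‖) C)
    {p : Fin 3 → ℂ} (hp : 0 < rho2 p) (h1 : √(rho2 p) ≤ 1) :
    (jr (fun x : Fin 3 → ℂ => bump a b (x 1)) p).Bd (nP p) (C * √(rho2 p)) := by
  have e := jr_comap (ContinuousLinearMap.proj (R := ℂ) (φ := fun _ : Fin 3 => ℂ) 1) 0
    (u := bump a b) (p := p) (Sm.of_contDiff (contDiff_bump a b) _)
  simp only [ContinuousLinearMap.proj_apply, add_zero] at e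
  rw [e]
  have h2 := ((h (p 1)).comap
    (ContinuousLinearMap.proj (R := ℂ) (φ := fun _ : Fin 3 => ℂ) 1)).scale
    (fun a => norm_nonneg _) hC (Real.sqrt_nonneg _) (norm_one_le_nP hp)
  rwa [max_eq_left (pow_le_of_le_one (Real.sqrt_nonneg _) h1 (by norm_num))] at h2

namespace Par

theorem sm_ψ (P : Par) {p : Fin 3 → ℂ} (hp : 0 < rho2 p) : Sm P.ψ p := by
  filter_upwards [sm_rr hp, sm_mul_real (sm_const_real (1 - P.a₀) p) (sm_mul_real
    (sm_bump_one (1 / 4) (9 / 16) p) (sm_comp_rr (contDiff_gam P.r₀ P.L) hp))] with x h1 h2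
  exact h1.sub h2

theorem sm_η (P : Par) {p : Fin 3 → ℂ} (hp : 0 < rho2 p) : Sm P.η p := by
  filter_upwards [sm_mul_real (sm_const_real (Real.log P.κ) p) (sm_mul_real
    (sm_bump_one (1 / 4) (9 / 16) p) (sm_comp_rr (contDiff_gam1 P.r₀ P.L) hp))] with x h1
  exact h1.exp

theorem OK.sm_φ {P : Par} (hP : P.OK) {p : Fin 3 → ℂ} (hp : 0 < rho2 p) : Sm P.φ p := by
  filter_upwards [P.sm_ψ hp, hP.sm_wells hp] with x h1 h2
  exact h1.add h2

theorem OK.η_mem {P : Par} (hP : P.OK) (p : Fin 3 → ℂ) : P.κ ≤ P.η p ∧ P.η p ≤ 1 := by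
  have h1 : Real.log P.κ ≤ 0 := Real.log_nonpos hP.κ_pos.le hP.κ_le
  obtain ⟨a1, a2⟩ := bump_mem (1 / 4) (9 / 16) (p 1)
  obtain ⟨b1, b2⟩ := gam1_mem P.r₀ P.L (rr p)
  have h2 := mul_nonneg a1 b1
  have h3 := mul_le_one₀ a2 b1 b2
  refine ⟨?_, Real.exp_le_one_iff.2 (mul_nonpos_of_nonpos_of_nonneg h1 h2)⟩
  rw [η, ← Real.log_le_iff_le_exp hP.κ_pos]
  nlinarith

theorem OK.std {P : Par} (hP : P.OK) {p : Fin 3 → ℂ} (hp : 0 < rho2 p)
    (h : 3 / 4 ≤ ‖p 1‖ ∨ rr p ≤ 3) : P.φ p = rr p ∧ P.ψ p = rr p ∧ P.η p = 1 := by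
  have hL : 0 < P.L := by linarith [hP.L_ge]
  rcases h with h | h
  · have h1 : bump (1 / 4) (9 / 16) (p 1) = 0 :=
      bump_eq_zero (by norm_num) (by rw [Complex.normSq_eq_norm_sq]; nlinarith)
    have h2 := hP.wells_zero hp (Or.inl (by linarith))
    simp [φ, ψ, η, h2, -one_div, h1]
  · obtain ⟨h1, h1'⟩ := gam_zero_of_le hL (h.trans hP.r₀_ge)
    have h3 : Real.exp (-(P.r₀ + P.L)) ≤ rho2 p := by
      rw [← Real.le_log_iff_exp_le hp]
      have := hP.r₀_ge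
      unfold rr at h
      linarith
    have h2 := hP.wells_zero hp (Or.inr (by
      have := hP.ρ₀_le
      change _ ≤ rho2 p
      linarith [Real.exp_pos (-(P.r₀ + P.L))]))
    simp [φ, ψ, η, h1, h1', h2]

theorem OK.inner {P : Par} (hP : P.OK) {p : Fin 3 → ℂ} (h1 : ‖p 1‖ ≤ 1 / 2)
    (h2 : P.r₀ + P.L ≤ rr p) :
    P.ψ p = P.a₀ * rr p + (1 - P.a₀) * (P.r₀ + P.L * (1 - Gam 1)) ∧ P.η p = P.κ := by
  have hL : 0 < P.L := by linarith [hP.L_ge]
  have h3 : bump (1 / 4) (9 / 16) (p 1) = 1 := bump_eq_one (by norm_num) (by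
    rw [Complex.normSq_eq_norm_sq]; nlinarith [norm_nonneg (p 1)])
  obtain ⟨h4, h5⟩ := gam_of_ge hL h2
  refine ⟨by rw [ψ, h3, h4]; ring, ?_⟩
  rw [η, h3, h5, mul_one, mul_one, Real.exp_log hP.κ_pos]

theorem OK.ψ_ge {P : Par} (hP : P.OK) {p : Fin 3 → ℂ} (h : 0 ≤ rr p) : P.a₀ * rr p ≤ P.ψ p := by
  obtain ⟨a1, a2⟩ := bump_mem (1 / 4) (9 / 16) (p 1)
  obtain ⟨b1, b2⟩ := gam_mem (L := P.L) (by linarith [hP.L_ge]) (by linarith [hP.r₀_ge] : 0 ≤ P.r₀) h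
  have h1 : bump (1 / 4) (9 / 16) (p 1) * gam P.r₀ P.L (rr p) ≤ rr p := by nlinarith
  have h2 := mul_le_mul_of_nonneg_left h1 (by linarith [hP.a₀_le] : 0 ≤ 1 - P.a₀)
  unfold ψ
  linarith

/-- where a well is active, `(1 - a₀) gam (rr) ≥ (rr - r₀ - L)/2` beats `wells_le` -/
theorem OK.φ_le {P : Par} (hP : P.OK) {p : Fin 3 → ℂ} (hp : 0 < rho2 p) : P.φ p ≤ rr p := by
  have hL : 0 < P.L := by linarith [hP.L_ge]
  have ha : 1 / 2 ≤ 1 - P.a₀ := by linarith [hP.a₀_le]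
  by_cases h : 1 / 3 ≤ ‖p 1‖ ∨ 2 * P.ρ₀ ≤ rho (p 1) (p 2)
  · have h1 : 0 ≤ (1 - P.a₀) * (bump (1 / 4) (9 / 16) (p 1) * gam P.r₀ P.L (rr p)) :=
      mul_nonneg (by linarith) (mul_nonneg (bump_mem _ _ _).1 (mul_nonneg hL.le (Gam_nonneg _)))
    rw [φ, ψ, hP.wells_zero hp h]
    linarith
  rw [not_or, not_le, not_le] at h
  have hρ := hP.ρ₀_pos
  have h1 := hP.wells_le hp h.2.le
  have h2 : Real.log (2 * P.ρ₀) ≤ -(P.r₀ + P.L) - 1 := by
    rw [Real.log_le_iff_le_exp (by positivity), Real.exp_sub, le_div_iff₀ (Real.exp_pos _)]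
    have := hP.ρ₀_le
    nlinarith [Real.exp_one_lt_d9, Real.exp_pos (-(P.r₀ + P.L))]
  have h3 : Real.log (rho2 p) ≤ Real.log (2 * P.ρ₀) := Real.log_le_log hp h.2.le
  rw [Real.log_div (by positivity) (ne_of_gt (show 0 < rho (p 1) (p 2) from hp))] at h1
  have h4 : rr p = -Real.log (rho (p 1) (p 2)) := rfl
  have h4' : rr p = -Real.log (rho2 p) := rfl
  have h5 : bump (1 / 4) (9 / 16) (p 1) = 1 := bump_eq_one (by norm_num) (by
    rw [Complex.normSq_eq_norm_sq]; nlinarith [norm_nonneg (p 1)])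
  obtain ⟨h6, -⟩ := gam_of_ge hL (show P.r₀ + P.L ≤ rr p by linarith)
  have h7 : rr p - P.r₀ - P.L ≤ gam P.r₀ P.L (rr p) := by
    rw [h6]; nlinarith [Gam_nonneg 1]
  have h8 := mul_le_mul ha h7 (by linarith) (by linarith)
  rw [φ, ψ, h5, one_mul]
  linarith

/-- for `r₀`, `L` large the transition is as slow as we wish -/
theorem exists_slow {κ θ : ℝ} (hκ : 0 < κ) (hθ : 0 < θ) : ∃ R : ℝ, 3 ≤ R ∧ ∀ P : Par, P.κ = κ →
    0 ≤ P.a₀ → P.a₀ ≤ 1 → R ≤ P.r₀ → R ≤ P.L → ∀ p, 0 < rho2 p →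
      ((jr P.ψ p).sub ((jr rr p).smul
        ((1 - (1 - P.a₀) * (bump (1 / 4) (9 / 16) (p 1) * gam1 P.r₀ P.L (rr p)) : ℝ) : ℂ))).Bd
          (nP p) θ ∧
      (jr P.η p).Bd (nP p) (θ * P.η p) := by
  obtain ⟨C₁, hC₁, hγ⟩ := exists_gam_bound
  obtain ⟨C₂, hC₂, hχ⟩ := exists_bump_bd (a := 1 / 4) (b := 9 / 16) (by norm_num)
  obtain ⟨K, hK⟩ : ∃ K : ℝ, K = 2850 * C₁ + C₂ + 39900 * (C₁ * C₂) := ⟨_, rfl⟩
  have hK0 : 0 < K := by rw [hK]; positivity
  obtain ⟨ε, hε, hε1, hεθ⟩ : ∃ ε : ℝ, 0 < ε ∧ (1 + |Real.log κ|) * (ε * K) ≤ 1 ∧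
      15 * ((1 + |Real.log κ|) * (ε * K)) ≤ θ := by
    have h0 : 0 < min θ 1 := lt_min hθ one_pos
    have e : (1 + |Real.log κ|) * (min θ 1 / (15 * ((1 + |Real.log κ|) * K)) * K) =
        min θ 1 / 15 := by field_simp
    refine ⟨min θ 1 / (15 * ((1 + |Real.log κ|) * K)), by positivity, ?_, ?_⟩ <;> rw [e]
    · linarith [min_le_right θ 1]
    · linarith [min_le_left θ 1]
  refine ⟨max 3 (16 / ε), le_max_left _ _, fun P hPκ ha0 ha1 hr₀ hL p hp => ?_⟩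
  obtain ⟨hr3, hrε⟩ := max_le_iff.1 hr₀
  obtain ⟨hL3, hLε⟩ := max_le_iff.1 hL
  have hL0 : 0 < P.L := by linarith
  have hn := nP_nonneg p
  have hη0 : 0 < P.η p := Real.exp_pos _
  rcases lt_or_ge (rr p) P.r₀ with hr | hr
  · have hev : ∀ᶠ x in 𝓝 p, rr x < P.r₀ :=
      (sm_rr hp).contDiffAt.continuousAt.eventually_lt continuousAt_const hr
    have e1 : jr P.ψ p = jr rr p := jr_congr (hev.mono fun x hx => by
      rw [ψ, (gam_zero_of_le hL0 hx.le).1]; ring)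
    have e2 : jr P.η p = J.const (1 : ℝ) := (jr_congr (hev.mono fun x hx => by
      rw [η, (gam_zero_of_le hL0 hx.le).2]; simp)).trans (jr_const 1 p)
    have e3 : (jr rr p).sub ((jr rr p).smul ((1 - (1 - P.a₀) * (bump (1 / 4) (9 / 16) (p 1) *
        gam1 P.r₀ P.L (rr p)) : ℝ) : ℂ)) = J.const 0 := by
      rw [(gam_zero_of_le hL0 hr.le).2]
      ext <;> simp [J.sub, J.add, J.smul, J.const]
    rw [e1, e2, e3]
    exact ⟨(J.bd_const _).mono hn hθ.le, (J.bd_const _).mono hn (by positivity)⟩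
  -- the small quantities
  have hl0 : 0 ≤ √(rho2 p) := Real.sqrt_nonneg _
  have hl : √(rho2 p) * rr p ≤ ε := by
    have e1 : √(rho2 p) * Real.exp (rr p / 4) ^ 2 = 1 := by
      rw [← Real.exp_nat_mul, Real.sqrt_eq_rpow, Real.rpow_def_of_pos hp, ← Real.exp_add,
        Real.exp_eq_one_iff, rr]
      push_cast; ring
    have e2 : (rr p / 4) ^ 2 ≤ Real.exp (rr p / 4) ^ 2 :=
      pow_le_pow_left₀ (by linarith) (by linarith [Real.add_one_le_exp (rr p / 4)]) 2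
    have e3 := mul_le_mul_of_nonneg_left e2 hl0
    have e4 : 16 ≤ rr p * ε := by rw [← div_le_iff₀ hε]; linarith
    refine le_of_mul_le_mul_right ?_ (show 0 < rr p by linarith)
    nlinarith
  have hl' : √(rho2 p) ≤ ε := by nlinarith
  have hl1 : √(rho2 p) ≤ 1 := by
    rw [Real.sqrt_le_one, ← Real.log_nonpos_iff hp.le]
    have : rr p = -Real.log (rho2 p) := rfl
    linarith
  have hLe : C₁ / P.L ≤ C₁ * ε := by
    rw [div_le_iff₀ hε] at hLε
    rw [div_le_iff₀ hL0]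
    nlinarith
  have hL1 : C₁ / P.L ≤ C₁ := div_le_self (by linarith) (by linarith)
  have hL2 : 0 ≤ C₁ / P.L := by positivity
  obtain ⟨hγ1, hγ2, hγ3⟩ := hγ P.r₀ P.L (rr p) (by linarith)
  obtain ⟨a1, a2⟩ := bump_mem (1 / 4) (9 / 16) (p 1)
  obtain ⟨b1, b2⟩ := gam1_mem P.r₀ P.L (rr p)
  obtain ⟨c1, c2⟩ := gam_mem hL0 (by linarith : 0 ≤ P.r₀) (by linarith : 0 ≤ rr p)
  have hX := bd_bump_one (by linarith) hχ hp hl1
  have hR := jr_rr_bd hp
  have sχ := sm_bump_one (1 / 4) (9 / 16) p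
  have sg := sm_comp_rr (contDiff_gam P.r₀ P.L) hp
  have sg1 := sm_comp_rr (contDiff_gam1 P.r₀ P.L) hp
  have eu := jr_comp (sm_rr hp) (Sm.of_contDiff (contDiff_gam P.r₀ P.L) _)
  have ew := jr_comp (sm_rr hp) (Sm.of_contDiff (contDiff_gam1 P.r₀ P.L) _)
  have hCl : 0 ≤ C₂ * √(rho2 p) := by positivity
  have m1 := mul_le_mul_of_nonneg_left hl (show 0 ≤ C₂ by linarith)
  have m2 := mul_le_mul_of_nonneg_left hl' (show 0 ≤ C₂ by linarith)
  have m3 := mul_le_mul_of_nonneg_left hl' (show 0 ≤ C₁ * C₂ by positivity)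
  have m4 := mul_le_mul_of_nonneg_left hL1 hCl
  have m5 : 0 ≤ |Real.log κ| * (ε * K) := by positivity
  have m6 : 0 ≤ C₁ * ε := by positivity
  constructor
  · have hu := hR.comp (f := fun k => ((iteratedDeriv k (gam P.r₀ P.L) (rr p) : ℝ) : ℂ)) (F := C₁)
      hn (by norm_num) fun k h1 h2 => by
        rw [Complex.norm_real, Real.norm_eq_abs]
        rcases h1.eq_or_lt with rfl | h1
        · rw [hγ1, abs_of_nonneg b1]; linarith
        · exact (hγ2 k h1 h2).trans hL1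
    have hu' := hR.comp_sub (f := fun k => ((iteratedDeriv k (gam P.r₀ P.L) (rr p) : ℝ) : ℂ))
      hn (by norm_num) hL2 fun k h1 h2 => by
        rw [Complex.norm_real, Real.norm_eq_abs]; exact hγ2 k h1 h2
    rw [← eu] at hu
    rw [← eu, hγ1] at hu'
    have e1 : jr P.ψ p = (jr rr p).sub (((jr (fun x : Fin 3 → ℂ => bump (1 / 4) (9 / 16) (x 1))
        p).mul (jr (fun x => gam P.r₀ P.L (rr x)) p)).smul ((1 - P.a₀ : ℝ) : ℂ)) := by
      rw [← jr_mul sχ sg, ← jr_smul (sm_mul_real sχ sg),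
        ← jr_sub (sm_rr hp) (sm_mul_real (sm_const_real _ p) (sm_mul_real sχ sg))]
      rfl
    have hv : (jr (fun x : Fin 3 → ℂ => bump (1 / 4) (9 / 16) (x 1)) p).v =
        bump (1 / 4) (9 / 16) (p 1) := rfl
    have hm := (hX.of_sub_const (bump (1 / 4) (9 / 16) (p 1))).mul hu hn hCl (by positivity)
      (U := 0) (X := rr p) (by simp [J.sub, J.add, J.smul, J.const, hv, -one_div]) (by
        rw [jr_v, Complex.norm_real, Real.norm_eq_abs, abs_of_nonneg c1]; exact c2)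
    have hD := ((hu'.smul (bump (1 / 4) (9 / 16) (p 1))).add hm).smul ((-(1 - P.a₀) : ℝ) : ℂ)
    rw [e1]
    convert hD.mono hn (B' := θ) ?_ using 1
    · generalize jr (fun x : Fin 3 → ℂ => bump (1 / 4) (9 / 16) (x 1)) p = X at hv
      ext <;> simp only [J.sub, J.add, J.smul, J.mul, J.const, hv] <;> push_cast <;> ring
    · rw [Complex.norm_real, Complex.norm_real, Real.norm_eq_abs, Real.norm_eq_abs, abs_neg,
        abs_of_nonneg a1, abs_of_nonneg (sub_nonneg.2 ha1)]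
      refine (mul_le_of_le_one_left (by have : 0 ≤ rr p := by linarith
                                        positivity) (by linarith)).trans ?_
      have := mul_le_of_le_one_left hL2 a2
      rw [hK] at hεθ m5
      nlinarith
  · have hw := hR.comp (f := fun k => ((iteratedDeriv k (gam1 P.r₀ P.L) (rr p) : ℝ) : ℂ))
      (F := C₁ / P.L) hn (by norm_num) fun k h1 h2 => by
        rw [Complex.norm_real, Real.norm_eq_abs]; exact hγ3 k h1 h2
    rw [← ew] at hw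
    have hm := hX.mul hw hn hCl (by positivity) (U := 1) (X := 1)
      (by rw [jr_v, Complex.norm_real, Real.norm_eq_abs, abs_of_nonneg a1]; exact a2)
      (by rw [jr_v, Complex.norm_real, Real.norm_eq_abs, abs_of_nonneg b1]; exact b2)
    have hm' := ((hm.mono hn (B' := ε * K) (by rw [hK]; nlinarith)).smul
      ((Real.log P.κ : ℝ) : ℂ)).mono hn (B' := (1 + |Real.log κ|) * (ε * K)) (by
        rw [Complex.norm_real, Real.norm_eq_abs, hPκ]
        nlinarith [mul_pos hε hK0])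
    rw [← jr_mul sχ sg1, ← jr_smul (sm_mul_real sχ sg1)] at hm'
    have hB0 : 0 ≤ (1 + |Real.log κ|) * (ε * K) := by positivity
    have he := hm'.comp (f := fun _ => ((P.η p : ℝ) : ℂ)) (F := P.η p) hn hB0 fun k _ _ => by
      rw [Complex.norm_real, Real.norm_eq_abs, abs_of_pos hη0]
    have e2 := jr_exp (sm_mul_real (sm_const_real (Real.log P.κ) p) (sm_mul_real sχ sg1))
    have e3 : jr P.η p = _ := e2
    rw [e3]
    refine he.mono hn ?_
    rw [mul_comm θ]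
    refine mul_le_mul_of_nonneg_left ?_ hη0.le
    generalize (1 + |Real.log κ|) * (ε * K) = B at hB0 hε1 hεθ
    have := pow_le_of_le_one hB0 hε1 (n := 2) (by norm_num)
    have := pow_le_of_le_one hB0 hε1 (n := 3) (by norm_num)
    have := pow_le_of_le_one hB0 hε1 (n := 4) (by norm_num)
    linarith

end Par

end Crest.Agent.R245
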