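import Crest.Agent.R245.Gam

/-!
# R245: the subharmonic well

For `l = X + iY` put `f l = 1 - exp (1/2 - l)`, `u l = log (|f l|² + δ²)/2 + 40 (3/4 - X)`
(`0 < δ ≤ 1`).  `(jr u l).de 1 1 = |f'|² δ² / (2 (|f|² + δ²)²) ≥ 0` (`jr_log`, `jr_normSq`,
`jet_cexp`).  For `0.6 ≤ X ≤ 0.65`: `|f| ≥ 1 - exp (-0.1) ≥ 0.09`, so `u ≥ 1`; for `X ≥ 0.9`:
`u ≤ -1`; for `X ≥ 0`: `u ≤ 32`.  With `Mx s = 2 Gam ((s+1)/2)` (convex, nondecreasing, `0` for
`s ≤ -1`, `s - k` for `s ≥ 1`, `k = 1 - 2 Gam 1 ∈ [-1, 1]`) put `v₀ l = Mx (u l)` for `X > 0.6`,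
`v₀ l = u l - k` otherwise (both agree for `0.6 < X < 0.65`), `v = ε/40 * v₀`,
`log δ ≤ -11 - 80 log 2/ε`.  `v` is `2π i`-periodic and vanishes for `X ≥ 0.9`, so the bounds on
the half plane follow from those on the compact rectangle `[0,1] × [0, 2π]` (`exists_bd_compact`,
`jr_comap` for translations); the Lipschitz bound follows from `fderiv_eq_two_re` and convexity.
-/

set_option autoImplicit false

namespace Crest.Agent.R245

open scoped ComplexConjugate ContDiff Topology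
open Filter

structure IsWell (v : ℂ → ℝ) (ε B : ℝ) : Prop where
  smooth : ContDiff ℝ ∞ v
  zero : ∀ l : ℂ, 9 / 10 ≤ l.re → v l = 0
  le : ∀ l : ℂ, 0 ≤ l.re → v l ≤ ε
  deep : ∀ n : ℤ, v (1 / 2 + 2 * Real.pi * n * Complex.I) ≤ -2 * Real.log 2
  psh : ∀ l : ℂ, 0 ≤ ((jr v l).de 1 1).re
  one_le : 1 ≤ B
  bd : ∀ l : ℂ, 0 ≤ l.re → (jr v l).Bd (fun a => ‖a‖) B
  lip : ∀ l l' : ℂ, 0 ≤ l.re → 0 ≤ l'.re → |v l - v l'| ≤ B * ‖l - l'‖

private noncomputable def wf (l : ℂ) : ℂ := 1 - Complex.exp (1 / 2 - l)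

private noncomputable def wy (η : ℝ) (l : ℂ) : ℝ := Complex.normSq (wf l) + η

private noncomputable def ww (η : ℝ) (l : ℂ) : ℝ :=
  1 / 4 * Real.log (wy η l) + (31 / 2 - 10 * (2 * l.re))

private noncomputable def wv (η : ℝ) (l : ℂ) : ℝ :=
  if 3 / 5 < l.re then Gam (ww η l) else ww η l - (1 - Gam 1)

private theorem contDiff_wf : ContDiff ℝ ∞ wf := by
  unfold wf
  exact contDiff_const.sub (Complex.contDiff_exp.comp (contDiff_const.sub contDiff_id))

private theorem contDiff_nsq : ContDiff ℝ ∞ fun l => Complex.normSq (wf l) := by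
  have h : (fun l => Complex.normSq (wf l)) =
      fun l => (wf l).re * (wf l).re + (wf l).im * (wf l).im := by
    funext l; rw [Complex.normSq_apply]
  have h1 : ContDiff ℝ ∞ fun l => (wf l).re := Complex.reCLM.contDiff.comp contDiff_wf
  have h2 : ContDiff ℝ ∞ fun l => (wf l).im := Complex.imCLM.contDiff.comp contDiff_wf
  rw [h]
  exact (h1.mul h1).add (h2.mul h2)

private theorem contDiff_wy (η : ℝ) : ContDiff ℝ ∞ (wy η) := contDiff_nsq.add contDiff_const

private theorem wy_pos {η : ℝ} (hη : 0 < η) (l : ℂ) : 0 < wy η l :=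
  add_pos_of_nonneg_of_pos (Complex.normSq_nonneg _) hη

private theorem contDiff_logy {η : ℝ} (hη : 0 < η) : ContDiff ℝ ∞ fun l => Real.log (wy η l) :=
  (contDiff_wy η).log fun l => (wy_pos hη l).ne'

private theorem contDiff_two_re : ContDiff ℝ ∞ fun l : ℂ => 2 * l.re :=
  contDiff_const.mul Complex.reCLM.contDiff

private theorem contDiff_ww {η : ℝ} (hη : 0 < η) : ContDiff ℝ ∞ (ww η) :=
  (contDiff_const.mul (contDiff_logy hη)).add
    (contDiff_const.sub (contDiff_const.mul contDiff_two_re))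

private theorem jet_wf (l : ℂ) : jet wf l = (J.const 1).add
    (((J.aff (1 / 2 - l) fun a : ℂ => -a).comp fun _ => Complex.exp (1 / 2 - l)).smul (-1)) := by
  have h0 : ContDiff ℝ ∞ fun y : ℂ => 1 / 2 - y := contDiff_const.sub contDiff_id
  have h1 : jet (fun y : ℂ => 1 / 2 - y) l = J.aff (1 / 2 - l) fun a : ℂ => -a := by
    have h := jet_aff (-(ContinuousLinearMap.id ℂ ℂ)) (1 / 2) l
    have e1 : (fun y : ℂ => (-(ContinuousLinearMap.id ℂ ℂ)) y + 1 / 2) = fun y => 1 / 2 - y := by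
      funext y; simp; ring
    rw [e1] at h
    rw [h]
    congr 1
    simp; ring
  have h2 : ContDiff ℝ ∞ fun y : ℂ => Complex.exp (1 / 2 - y) := Complex.contDiff_exp.comp h0
  have e2 : wf = fun y => (fun _ : ℂ => (1 : ℂ)) y + (fun y => (-1 : ℂ) * Complex.exp (1 / 2 - y)) y := by
    funext y; simp only [wf]; ring
  rw [e2, jet_add (Sm.of_contDiff contDiff_const l) (Sm.of_contDiff (contDiff_const.mul h2) l),
    jet_const, jet_smul (Sm.of_contDiff h2 l), jet_cexp (Sm.of_contDiff h0 l), h1]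

private theorem psh_logy {η : ℝ} (hη : 0 < η) (l : ℂ) :
    0 ≤ ((jr (fun y => Real.log (wy η y)) l).de 1 1).re := by
  have hy := wy_pos hη l
  rw [jr_log (Sm.of_contDiff (contDiff_wy η) l) hy.ne']
  have h1 : jr (wy η) l = ((jet wf l).mul (jet wf l).bar).add (J.const η) := by
    have := jr_add (Sm.of_contDiff contDiff_nsq l) (Sm.of_contDiff (contDiff_const (c := η)) l)
    rw [jr_normSq (Sm.of_contDiff contDiff_wf l), jr_const] at this
    exact this
  have hv : (jet wf l).v = wf l := rfl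
  have hd : (jet wf l).d 1 = Complex.exp (1 / 2 - l) := by
    rw [jet_wf]; simp [J.add, J.const, J.smul, J.comp, J.aff]
  have he : (jet wf l).e 1 = 0 := by
    rw [jet_wf]; simp [J.add, J.const, J.smul, J.comp, J.aff]
  have hde : (jet wf l).de 1 1 = 0 := by
    rw [jet_wf]; simp [J.add, J.const, J.smul, J.comp, J.aff]
  rw [h1]
  simp only [J.comp, J.add, J.mul, J.bar, J.const, hv, hd, he, hde, logv, map_zero, mul_zero,
    zero_mul, add_zero, zero_add]
  set E := Complex.exp (1 / 2 - l)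
  have e1 : E * conj (wf l) * (wf l * conj E) =
      ((Complex.normSq E * Complex.normSq (wf l) : ℝ) : ℂ) := by
    push_cast
    rw [← Complex.mul_conj, ← Complex.mul_conj]; ring
  rw [e1, Complex.mul_conj, ← Complex.ofReal_mul, ← Complex.ofReal_mul, ← Complex.ofReal_add,
    Complex.ofReal_re]
  have e2 : 1 / wy η l * Complex.normSq E +
      -1 / wy η l ^ 2 * (Complex.normSq E * Complex.normSq (wf l)) =
      Complex.normSq E * η / wy η l ^ 2 := by
    have : Complex.normSq (wf l) = wy η l - η := by simp [wy]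
    rw [this]; field_simp; ring
  rw [e2]
  have := Complex.normSq_nonneg E
  positivity

private theorem psh_aff {w : ℂ → ℝ} (hw : ContDiff ℝ ∞ w) {a : ℝ} (ha : 0 ≤ a) (l : ℂ)
    (h : 0 ≤ ((jr w l).de 1 1).re) : 0 ≤ ((jr (fun y => a * w y) l).de 1 1).re := by
  rw [jr_smul (Sm.of_contDiff hw l)]
  simp only [J.smul, Complex.re_ofReal_mul]
  positivity

private theorem psh_ww {η : ℝ} (hη : 0 < η) (l : ℂ) : 0 ≤ ((jr (ww η) l).de 1 1).re := by
  have h1 := psh_aff (contDiff_logy hη) (a := 1 / 4) (by norm_num) l (psh_logy hη l)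
  have h2 : jr (fun y : ℂ => 2 * y.re) l =
      (J.aff l fun a : ℂ => a).add (J.aff l fun a : ℂ => a).bar := by
    have h := jet_aff (ContinuousLinearMap.id ℂ ℂ) 0 l
    have e1 : (fun y : ℂ => (ContinuousLinearMap.id ℂ ℂ) y + 0) = fun y => y := by
      funext y; simp
    rw [e1] at h
    have h' : jet (fun y : ℂ => y) l = J.aff l fun a : ℂ => a := by
      rw [h]; congr 1; simp
    rw [jr_two_re (u := fun y : ℂ => y) (Sm.of_contDiff contDiff_id l), h']
  have h3 := jr_add (Sm.of_contDiff ((contDiff_const (c := (1 / 4 : ℝ))).mul (contDiff_logy hη)) l)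
    (Sm.of_contDiff ((contDiff_const (c := (31 / 2 : ℝ))).sub
      ((contDiff_const (c := (10 : ℝ))).mul contDiff_two_re)) l)
  rw [jr_sub (Sm.of_contDiff contDiff_const l)
    (Sm.of_contDiff ((contDiff_const (c := (10 : ℝ))).mul contDiff_two_re) l), jr_const,
    jr_smul (Sm.of_contDiff contDiff_two_re l), h2] at h3
  have h4 : jr (ww η) l = _ := h3
  rw [h4]
  simpa [J.add, J.sub, J.smul, J.const, J.aff, J.bar] using h1

private theorem psh_Gam {w : ℂ → ℝ} (hw : ContDiff ℝ ∞ w) (l : ℂ)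
    (h : 0 ≤ ((jr w l).de 1 1).re) : 0 ≤ ((jr (fun y => Gam (w y)) l).de 1 1).re := by
  rw [jr_comp (Sm.of_contDiff hw l) (Sm.of_contDiff contDiff_Gam _)]
  simp only [J.comp]
  rw [(jr_herm (Sm.of_contDiff hw l)).e, Complex.mul_conj, Complex.add_re, Complex.re_ofReal_mul,
    ← Complex.ofReal_mul, Complex.ofReal_re, iteratedDeriv_one, iteratedDeriv_succ,
    iteratedDeriv_one, deriv_Gam]
  have h1 := Real.smoothTransition.nonneg (w l)
  have h2 := deriv_smoothTransition_nonneg (w l)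
  have h3 := Complex.normSq_nonneg ((jr w l).d 1)
  positivity

private theorem norm_wf_le (l : ℂ) : ‖wf l‖ ≤ 1 + Real.exp (1 / 2 - l.re) := by
  have h := norm_sub_le (1 : ℂ) (Complex.exp (1 / 2 - l))
  rw [norm_one, Complex.norm_exp] at h
  simpa [wf] using h

private theorem le_norm_wf (l : ℂ) : 1 - Real.exp (1 / 2 - l.re) ≤ ‖wf l‖ := by
  have h := norm_sub_norm_le (1 : ℂ) (Complex.exp (1 / 2 - l))
  rw [norm_one, Complex.norm_exp] at h
  simpa [wf] using h

private theorem ww_le {η : ℝ} (hη : 0 < η) (hη1 : η ≤ 1) {l : ℂ} (hl : 0 ≤ l.re) :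
    ww η l ≤ 18 - 20 * l.re := by
  have h1 : Real.exp (1 / 2 - l.re) ≤ 2 := by
    have h2 : Real.exp (1 / 2 - l.re) ≤ Real.exp (1 / 2) := Real.exp_le_exp.2 (by linarith)
    have h3 : Real.exp (1 / 2) * Real.exp (1 / 2) = Real.exp 1 := by
      rw [← Real.exp_add]; norm_num
    have h4 := Real.exp_one_lt_d9
    have h5 := Real.exp_pos (1 / 2)
    nlinarith
  have h2 := norm_wf_le l
  have h3 : wy η l ≤ 10 := by
    rw [wy, Complex.normSq_eq_norm_sq]
    have := norm_nonneg (wf l)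
    nlinarith
  have h4 := Real.log_le_sub_one_of_pos (wy_pos hη l)
  rw [ww]; linarith

private theorem one_le_ww {η : ℝ} (hη : 0 < η) {l : ℂ} (h1 : 3 / 5 < l.re) (h2 : l.re < 13 / 20) :
    1 ≤ ww η l := by
  have h3 : Real.exp (1 / 2 - l.re) ≤ 10 / 11 := by
    have h4 := Real.add_one_le_exp (l.re - 1 / 2)
    have h5 : Real.exp (1 / 2 - l.re) * Real.exp (l.re - 1 / 2) = 1 := by
      rw [← Real.exp_add]; simp
    have h6 := Real.exp_pos (1 / 2 - l.re)
    nlinarith
  have h4 := le_norm_wf l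
  have h5 : 1 / 121 ≤ wy η l := by
    rw [wy, Complex.normSq_eq_norm_sq]
    nlinarith
  have h6 : Real.exp (-6) ≤ 1 / 121 := by
    have h7 : Real.exp 6 = Real.exp 1 ^ 6 := by rw [← Real.exp_nat_mul]; norm_num
    have h8 := Real.exp_one_gt_d9
    have h9 : (2.7 : ℝ) ^ 6 ≤ Real.exp 1 ^ 6 := pow_le_pow_left₀ (by norm_num) (by linarith) 6
    rw [Real.exp_neg, h7, one_div]
    exact inv_anti₀ (by norm_num) (le_trans (by norm_num) h9)
  have h7 : -6 ≤ Real.log (wy η l) := (Real.le_log_iff_exp_le (wy_pos hη l)).2 (h6.trans h5)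
  rw [ww]; linarith

private theorem wv_hi (η : ℝ) {l : ℂ} (hl : 3 / 5 < l.re) :
    wv η =ᶠ[𝓝 l] fun y => Gam (ww η y) := by
  have : ∀ᶠ y in 𝓝 l, 3 / 5 < y.re :=
    Complex.continuous_re.continuousAt.eventually (lt_mem_nhds hl)
  filter_upwards [this] with y hy
  simp only [wv, if_pos hy]

private theorem wv_lo {η : ℝ} (hη : 0 < η) {l : ℂ} (hl : l.re < 13 / 20) :
    wv η =ᶠ[𝓝 l] fun y => ww η y - (1 - Gam 1) := by
  have : ∀ᶠ y in 𝓝 l, y.re < 13 / 20 :=
    Complex.continuous_re.continuousAt.eventually (gt_mem_nhds hl)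
  filter_upwards [this] with y hy
  by_cases h : 3 / 5 < y.re
  · simp only [wv, if_pos h]
    exact Gam_of_one_le (one_le_ww hη h hy)
  · simp only [wv, if_neg h]

private theorem contDiff_wv {η : ℝ} (hη : 0 < η) : ContDiff ℝ ∞ (wv η) := by
  refine contDiff_iff_contDiffAt.2 fun l => ?_
  by_cases h : 3 / 5 < l.re
  · exact (contDiff_Gam.comp (contDiff_ww hη)).contDiffAt.congr_of_eventuallyEq (wv_hi η h)
  · exact ((contDiff_ww hη).sub contDiff_const).contDiffAt.congr_of_eventuallyEq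
      (wv_lo hη (by linarith))

private theorem psh_wv {η : ℝ} (hη : 0 < η) (l : ℂ) : 0 ≤ ((jr (wv η) l).de 1 1).re := by
  by_cases h : 3 / 5 < l.re
  · rw [jr_congr (wv_hi η h)]
    exact psh_Gam (contDiff_ww hη) l (psh_ww hη l)
  · rw [jr_congr (wv_lo hη (by linarith)), jr_sub (Sm.of_contDiff (contDiff_ww hη) l)
      (Sm.of_contDiff contDiff_const l), jr_const]
    simpa [J.add, J.sub, J.smul, J.const] using psh_ww hη l

private theorem wv_zero {η : ℝ} (hη : 0 < η) (hη1 : η ≤ 1) {l : ℂ} (hl : 9 / 10 ≤ l.re) :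
    wv η l = 0 := by
  have h := ww_le hη hη1 (l := l) (by linarith)
  rw [wv, if_pos (by linarith)]
  exact Gam_of_nonpos (by linarith)

private theorem wv_le {η : ℝ} (hη : 0 < η) (hη1 : η ≤ 1) {l : ℂ} (hl : 0 ≤ l.re) :
    wv η l ≤ 20 := by
  have h := ww_le hη hη1 hl
  have h1 : Gam 1 ≤ 1 := by simpa using Gam_le 1
  rw [wv]
  split_ifs
  · exact (Gam_le _).trans (max_le (by linarith) (by norm_num))
  · linarith

private theorem wv_per (η : ℝ) (l : ℂ) (n : ℤ) :
    wv η (l + 2 * Real.pi * n * Complex.I) = wv η l := by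
  have h1 : (l + 2 * Real.pi * n * Complex.I).re = l.re := by simp
  have h2 : wf (l + 2 * Real.pi * n * Complex.I) = wf l := by
    have : (1 / 2 - (l + 2 * Real.pi * n * Complex.I) : ℂ) =
        1 / 2 - l + ((-n : ℤ) : ℂ) * (2 * Real.pi * Complex.I) := by push_cast; ring
    rw [wf, this, Complex.exp_add, Complex.exp_int_mul_two_pi_mul_I, mul_one, wf]
  simp only [wv, ww, wy, h1, h2]

private theorem wv_half (η : ℝ) : wv η (1 / 2) ≤ Real.log η / 4 + 11 / 2 := by
  have h1 : Gam 1 ≤ 1 := by simpa using Gam_le 1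
  have h2 : ((1 / 2 : ℂ)).re = 1 / 2 := by norm_num
  have h3 : wf (1 / 2) = 0 := by simp [wf]
  rw [wv, if_neg (by rw [h2]; norm_num), ww, wy, h2, h3, map_zero, zero_add]
  linarith

private theorem bd_of_per {v : ℂ → ℝ} (hv : ContDiff ℝ ∞ v)
    (hz : ∀ l : ℂ, 9 / 10 ≤ l.re → v l = 0)
    (hp : ∀ (l : ℂ) (n : ℤ), v (l + 2 * Real.pi * n * Complex.I) = v l) :
    ∃ B : ℝ, 1 ≤ B ∧ ∀ l : ℂ, 0 ≤ l.re → (jr v l).Bd (fun a => ‖a‖) B := by
  obtain ⟨B, hB1, hB⟩ := exists_bd_compact hv (isCompact_closedBall (0 : ℂ) 8)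
  refine ⟨B, hB1, fun l hl => ?_⟩
  by_cases h : l.re ≤ 1
  · have hpi := Real.pi_pos
    set n : ℤ := -⌊l.im / (2 * Real.pi)⌋ with hn
    have hK : (ContinuousLinearMap.id ℂ ℂ) l + 2 * Real.pi * n * Complex.I ∈
        Metric.closedBall (0 : ℂ) 8 := by
      rw [mem_closedBall_zero_iff]
      refine (Complex.norm_le_abs_re_add_abs_im _).trans ?_
      have e1 : ((ContinuousLinearMap.id ℂ ℂ) l + 2 * Real.pi * n * Complex.I).re = l.re := by simp
      have e2 : ((ContinuousLinearMap.id ℂ ℂ) l + 2 * Real.pi * n * Complex.I).im =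
          l.im - 2 * Real.pi * (⌊l.im / (2 * Real.pi)⌋ : ℝ) := by
        simp [hn]; ring
      rw [e1, e2]
      have h1 := Int.floor_le (l.im / (2 * Real.pi))
      have h2 := Int.lt_floor_add_one (l.im / (2 * Real.pi))
      rw [le_div_iff₀ (by positivity)] at h1
      rw [div_lt_iff₀ (by positivity)] at h2
      have h3 := Real.pi_lt_d2
      rw [abs_of_nonneg hl, abs_of_nonneg (by linarith)]
      nlinarith
    have h1 := jr_comap (ContinuousLinearMap.id ℂ ℂ) (2 * Real.pi * n * Complex.I) (p := l)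
      (Sm.of_contDiff hv _)
    have e3 : (fun y : ℂ => v ((ContinuousLinearMap.id ℂ ℂ) y + 2 * Real.pi * n * Complex.I)) = v :=
      funext fun y => hp y n
    rw [e3] at h1
    rw [h1]
    exact (hB _ hK).comap (ContinuousLinearMap.id ℂ ℂ)
  · have h1 : v =ᶠ[𝓝 l] fun _ => 0 := by
      have : ∀ᶠ y in 𝓝 l, 9 / 10 < y.re :=
        Complex.continuous_re.continuousAt.eventually (lt_mem_nhds (by linarith))
      filter_upwards [this] with y hy using hz y hy.le
    rw [jr_congr h1, jr_const]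
    exact (J.bd_const _).mono (fun a => norm_nonneg a) (by linarith)

private theorem lip_of_bd {v : ℂ → ℝ} (hv : ContDiff ℝ ∞ v) {B : ℝ} (hB0 : 0 ≤ B)
    (hB : ∀ l : ℂ, 0 ≤ l.re → (jr v l).Bd (fun a => ‖a‖) B) (l l' : ℂ) (hl : 0 ≤ l.re)
    (hl' : 0 ≤ l'.re) : |v l - v l'| ≤ 2 * B * ‖l - l'‖ := by
  have hc : Convex ℝ {z : ℂ | 0 ≤ z.re} := convex_halfSpace_re_ge 0
  refine Convex.norm_image_sub_le_of_norm_fderiv_le (𝕜 := ℝ) (f := v)
    (fun x _ => hv.differentiable (by simp) x) (fun x hx => ?_) hc hl' hl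
  refine ContinuousLinearMap.opNorm_le_bound _ (by positivity) fun a => ?_
  rw [fderiv_eq_two_re (Sm.of_contDiff hv x), Real.norm_eq_abs, abs_mul, abs_two]
  have h1 := Complex.abs_re_le_norm ((jr v x).d a)
  have h2 := (hB x hx).d a
  linarith

theorem exists_well {ε : ℝ} (hε : 0 < ε) : ∃ v B, IsWell v ε B := by
  have hl2 : 0 < Real.log 2 := Real.log_pos (by norm_num)
  set η : ℝ := Real.exp (-22 - 160 * Real.log 2 / ε) with hηdef
  have hη : 0 < η := Real.exp_pos _
  have hη1 : η ≤ 1 := by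
    have : 0 ≤ 160 * Real.log 2 / ε := by positivity
    exact Real.exp_le_one_iff.2 (by linarith)
  have hv : ContDiff ℝ ∞ fun l => ε / 20 * wv η l := contDiff_const.mul (contDiff_wv hη)
  have hz : ∀ l : ℂ, 9 / 10 ≤ l.re → ε / 20 * wv η l = 0 := fun l hl => by
    rw [wv_zero hη hη1 hl, mul_zero]
  obtain ⟨B, hB1, hB⟩ := bd_of_per hv hz fun l n => by rw [wv_per]
  refine ⟨fun l => ε / 20 * wv η l, 2 * B, hv, hz, fun l hl => ?_, fun n => ?_, fun l => ?_,
    by linarith, fun l hl => (hB l hl).mono (fun a => norm_nonneg a) (by linarith),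
    lip_of_bd hv (by linarith) hB⟩
  · have := wv_le hη hη1 hl
    nlinarith
  · have h1 := wv_half η
    rw [hηdef, Real.log_exp] at h1
    rw [wv_per]
    have h2 : ε / 20 * wv η (1 / 2) ≤ ε / 20 * ((-22 - 160 * Real.log 2 / ε) / 4 + 11 / 2) :=
      mul_le_mul_of_nonneg_left h1 (by positivity)
    refine h2.trans (le_of_eq ?_)
    field_simp
    ring
  · exact psh_aff (contDiff_wv hη) (by positivity) l (psh_wv hη l)

end Crest.Agent.R245
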