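import Crest.Agent.R245.Sieg
import Crest.Agent.R245.Well

/-!
# R245: the model functions on the base

Levels `h j = ρ₀ / Λ ^ j`; at level `h` wells are centred on the lattice `4 √h ℤ[i]` inside the
disc of radius `1/4`.  The term `v (zeta c z / h)` vanishes unless `rho z + |z₁ - c|² < 1.8 h`.
-/

set_option autoImplicit false

namespace Crest.Agent.R245

open scoped ComplexConjugate ContDiff Topology
open Filter

noncomputable def zeta (c z₁ z₂ : ℂ) : ℂ := z₂ - conj c * z₁ + (Complex.normSq c / 2 : ℝ)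

theorem two_re_zeta (c z₁ z₂ : ℂ) :
    2 * (zeta c z₁ z₂).re = rho z₁ z₂ + Complex.normSq (z₁ - c) := by
  simp only [zeta, rho, Complex.normSq_apply, Complex.add_re, Complex.sub_re, Complex.mul_re,
    Complex.conj_re, Complex.conj_im, Complex.ofReal_re, Complex.sub_im]
  ring

noncomputable def cc (h : ℝ) (m : ℤ × ℤ) : ℂ := (4 * √h : ℝ) * (m.1 + m.2 * Complex.I)

open Classical in
noncomputable def lat (h : ℝ) : Finset (ℤ × ℤ) :=
  (Finset.Icc (-⌈1 / √h⌉) ⌈1 / √h⌉ ×ˢ Finset.Icc (-⌈1 / √h⌉) ⌈1 / √h⌉).filter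
    fun m => ‖cc h m‖ ≤ 1 / 4

noncomputable def lev (v : ℂ → ℝ) (h : ℝ) (z₁ z₂ : ℂ) : ℝ :=
  ∑ m ∈ lat h, v (zeta (cc h m) z₁ z₂ / h)

/-- the data of the construction -/
structure Par where
  v : ℂ → ℝ
  B : ℝ
  Λ : ℝ
  a₀ : ℝ
  κ : ℝ
  r₀ : ℝ
  L : ℝ
  ρ₀ : ℝ

namespace Par

variable (P : Par)

noncomputable def h (j : ℕ) : ℝ := P.ρ₀ / P.Λ ^ j

noncomputable def wells (z₁ z₂ : ℂ) : ℝ := ∑' j : ℕ, lev P.v (P.h j) z₁ z₂

noncomputable def ψ (p : Fin 3 → ℂ) : ℝ :=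
  rr p - (1 - P.a₀) * (bump (1 / 4) (9 / 16) (p 1) * gam P.r₀ P.L (rr p))

noncomputable def η (p : Fin 3 → ℂ) : ℝ :=
  Real.exp (Real.log P.κ * (bump (1 / 4) (9 / 16) (p 1) * gam1 P.r₀ P.L (rr p)))

noncomputable def φ (p : Fin 3 → ℂ) : ℝ := P.ψ p + P.wells (p 1) (p 2)

/-- the relations between the constants that do not involve derivative bounds -/
structure OK : Prop where
  well : IsWell P.v (1 / 40000) P.B
  Λ_ge : (10 ^ 12 * P.B) ^ 2 ≤ P.Λ
  a₀_pos : 0 < P.a₀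
  a₀_le : P.a₀ ≤ 1 / 2
  a₀_log : P.a₀ * Real.log P.Λ ≤ 1 / 40000
  κ_pos : 0 < P.κ
  κ_le : P.κ ≤ 1
  r₀_ge : 3 ≤ P.r₀
  L_ge : 1 ≤ P.L
  ρ₀_pos : 0 < P.ρ₀
  ρ₀_le : P.ρ₀ ≤ Real.exp (-(P.r₀ + P.L)) / 10 ^ 12

theorem isBase_ψ : IsBase P.ψ := fun p => by simp [ψ, rr, rho2, hor]
theorem isBase_η : IsBase P.η := fun p => by simp [η, rr, rho2, hor]
theorem isBase_φ : IsBase P.φ := fun p => by simp [φ, ψ, rr, rho2, hor]

end Par

theorem norm_cc (h : ℝ) (m : ℤ × ℤ) : ‖cc h m‖ = 4 * √h * ‖(m.1 : ℂ) + m.2 * Complex.I‖ := by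
  rw [cc, norm_mul, Complex.norm_real, Real.norm_of_nonneg (by positivity)]

theorem cc_sub (h : ℝ) (m m' : ℤ × ℤ) : cc h m - cc h m' = cc h (m - m') := by
  simp only [cc, Prod.fst_sub, Prod.snd_sub]
  push_cast
  ring

theorem mem_lat {h : ℝ} (hh : 0 < h) {m : ℤ × ℤ} : m ∈ lat h ↔ ‖cc h m‖ ≤ 1 / 4 := by
  classical
  simp only [lat, Finset.mem_filter, Finset.mem_product, Finset.mem_Icc]
  refine ⟨fun h => h.2, fun hm => ⟨?_, hm⟩⟩
  have hs : 0 < √h := Real.sqrt_pos.2 hh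
  rw [norm_cc] at hm
  have h1 : ‖(m.1 : ℂ) + m.2 * Complex.I‖ ≤ 1 / √h := by
    rw [le_div_iff₀ hs]
    nlinarith [norm_nonneg ((m.1 : ℂ) + m.2 * Complex.I)]
  have h2 : |(m.1 : ℝ)| ≤ (⌈1 / √h⌉ : ℤ) := by
    have := Complex.abs_re_le_norm ((m.1 : ℂ) + m.2 * Complex.I)
    simp only [Complex.add_re, Complex.intCast_re, Complex.mul_re, Complex.I_re, mul_zero,
      Complex.intCast_im, Complex.I_im, zero_mul, sub_zero, add_zero] at this
    exact this.trans (h1.trans (Int.le_ceil _))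
  have h3 : |(m.2 : ℝ)| ≤ (⌈1 / √h⌉ : ℤ) := by
    have := Complex.abs_im_le_norm ((m.1 : ℂ) + m.2 * Complex.I)
    simp only [Complex.add_im, Complex.intCast_re, Complex.mul_im, Complex.I_re, mul_zero,
      Complex.intCast_im, Complex.I_im, mul_one, zero_add, add_zero] at this
    exact this.trans (h1.trans (Int.le_ceil _))
  have h2' : |m.1| ≤ ⌈1 / √h⌉ := by exact_mod_cast h2
  have h3' : |m.2| ≤ ⌈1 / √h⌉ := by exact_mod_cast h3
  exact ⟨abs_le.1 h2', abs_le.1 h3'⟩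

/-- distinct lattice points are `4 √h` apart -/
theorem cc_sep {h : ℝ} {m m' : ℤ × ℤ} (hm : m ≠ m') : 4 * √h ≤ ‖cc h m - cc h m'‖ := by
  rw [cc_sub, norm_cc]
  have h0 : m - m' ≠ 0 := sub_ne_zero.2 hm
  generalize m - m' = k at h0
  have h1 : 1 ≤ ‖(k.1 : ℂ) + k.2 * Complex.I‖ := by
    by_cases h2 : k.1 = 0
    · have h3 : k.2 ≠ 0 := fun h3 => h0 (Prod.ext h2 h3)
      have := Complex.abs_im_le_norm ((k.1 : ℂ) + k.2 * Complex.I)
      simp only [Complex.add_im, Complex.intCast_re, Complex.mul_im, Complex.I_re, mul_zero,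
        Complex.intCast_im, Complex.I_im, mul_one, zero_add, add_zero] at this
      refine le_trans ?_ this
      exact_mod_cast Int.one_le_abs h3
    · have := Complex.abs_re_le_norm ((k.1 : ℂ) + k.2 * Complex.I)
      simp only [Complex.add_re, Complex.intCast_re, Complex.mul_re, Complex.I_re, mul_zero,
        Complex.intCast_im, Complex.I_im, zero_mul, sub_zero, add_zero] at this
      refine le_trans ?_ this
      exact_mod_cast Int.one_le_abs h2
  nlinarith [Real.sqrt_nonneg h]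

theorem exists_cc {h : ℝ} (hh : 0 < h) (z : ℂ) : ∃ m, ‖z - cc h m‖ ≤ 3 * √h := by
  have hs : 0 < √h := Real.sqrt_pos.2 hh
  have key : ∀ x : ℝ, |x - 4 * √h * (round (x / (4 * √h)) : ℤ)| ≤ 2 * √h := by
    intro x
    have h1 := abs_sub_round (x / (4 * √h))
    have e : x - 4 * √h * (round (x / (4 * √h)) : ℤ) =
        4 * √h * (x / (4 * √h) - (round (x / (4 * √h)) : ℤ)) := by
      field_simp
    rw [e, abs_mul, abs_of_pos (by positivity)]
    nlinarith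
  refine ⟨(round (z.re / (4 * √h)), round (z.im / (4 * √h))), ?_⟩
  refine (le_abs_self _).trans (abs_le_of_sq_le_sq ?_ (by positivity))
  rw [← Complex.normSq_eq_norm_sq, Complex.normSq_apply]
  have h1 := abs_le.1 (key z.re)
  have h2 := abs_le.1 (key z.im)
  simp only [cc, Complex.sub_re, Complex.sub_im, Complex.mul_re, Complex.mul_im, Complex.ofReal_re,
    Complex.ofReal_im, Complex.add_re, Complex.add_im, Complex.intCast_re, Complex.intCast_im,
    Complex.I_re, Complex.I_im, mul_zero, mul_one, zero_mul, sub_zero, add_zero, zero_add]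
  nlinarith

section
variable {v : ℂ → ℝ} {ε B h : ℝ} (hv : IsWell v ε B) (hh : 0 < h)
include hv hh

theorem well_term_zero {c z₁ z₂ : ℂ} (hz : 9 / 5 * h ≤ rho z₁ z₂ + Complex.normSq (z₁ - c)) :
    v (zeta c z₁ z₂ / h) = 0 := by
  apply hv.zero
  rw [Complex.div_ofReal_re, le_div_iff₀ hh]
  have := two_re_zeta c z₁ z₂
  linarith

theorem well_term_zero' {c z₁ z₂ : ℂ} (hz : 0 ≤ rho z₁ z₂) (h1 : 2 * √h ≤ ‖z₁ - c‖) :
    v (zeta c z₁ z₂ / h) = 0 := by
  refine well_term_zero hv hh ?_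
  rw [Complex.normSq_eq_norm_sq]
  have h2 := pow_le_pow_left₀ (by positivity) h1 2
  rw [mul_pow, Real.sq_sqrt hh.le] at h2
  linarith

omit hv in
theorem re_zeta_nonneg {c z₁ z₂ : ℂ} (hz : 0 ≤ rho z₁ z₂) : 0 ≤ (zeta c z₁ z₂ / h).re := by
  rw [Complex.div_ofReal_re]
  have := two_re_zeta c z₁ z₂
  have := Complex.normSq_nonneg (z₁ - c)
  exact div_nonneg (by linarith) hh.le

theorem lev_zero {z₁ z₂ : ℂ} (hz : 9 / 5 * h ≤ rho z₁ z₂) : lev v h z₁ z₂ = 0 := by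
  exact Finset.sum_eq_zero fun m _ =>
    well_term_zero hv hh (hz.trans (le_add_of_nonneg_right (Complex.normSq_nonneg _)))

theorem lev_zero' {z₁ z₂ : ℂ} (hz : 0 ≤ rho z₁ z₂) (h1 : 1 / 4 + 2 * √h ≤ ‖z₁‖) :
    lev v h z₁ z₂ = 0 := by
  refine Finset.sum_eq_zero fun m hm => well_term_zero' hv hh hz ?_
  have h2 := (mem_lat hh).1 hm
  have := norm_sub_norm_le z₁ (cc h m)
  linarith

/-- near a lattice point only its own term survives -/
theorem lev_eq_single {z₁ z₂ : ℂ} (hz : 0 ≤ rho z₁ z₂) {m : ℤ × ℤ} (hm : m ∈ lat h)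
    (h1 : ‖z₁ - cc h m‖ ≤ 2 * √h) : lev v h z₁ z₂ = v (zeta (cc h m) z₁ z₂ / h) := by
  refine Finset.sum_eq_single_of_mem m hm fun m' _ hne => well_term_zero' hv hh hz ?_
  have h2 := cc_sep (h := h) hne
  have h3 : ‖cc h m' - cc h m‖ ≤ ‖z₁ - cc h m'‖ + ‖z₁ - cc h m‖ := by
    rw [← norm_neg (z₁ - cc h m')]
    exact (congrArg _ (by ring)).trans_le (norm_add_le _ _)
  linarith

theorem lev_le (hε : 0 ≤ ε) {z₁ z₂ : ℂ} (hz : 0 ≤ rho z₁ z₂) : lev v h z₁ z₂ ≤ ε := by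
  by_cases h1 : ∃ m ∈ lat h, ‖z₁ - cc h m‖ ≤ 2 * √h
  · obtain ⟨m, hm, h1⟩ := h1
    rw [lev_eq_single hv hh hz hm h1]
    exact hv.le _ (re_zeta_nonneg hh hz)
  · refine le_of_eq_of_le (Finset.sum_eq_zero fun m hm => well_term_zero' hv hh hz ?_) hε
    exact le_of_not_ge fun h2 => h1 ⟨m, hm, h2⟩

/-- oscillation of a level between two nearby points (at most two terms are nonzero; for such a
term `|zeta c z - zeta c x| ≤ |z₂ - x₂ - conj x₁ (z₁ - x₁)| + |c - x₁| |z₁ - x₁|` and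
`|c - x₁| ≤ 2 √h + δ`) -/
theorem lev_osc {z₁ z₂ x₁ x₂ : ℂ} (hz : 0 ≤ rho z₁ z₂) (hx : 0 ≤ rho x₁ x₂) {δ δ' : ℝ}
    (h1 : ‖z₁ - x₁‖ ≤ δ) (h2 : ‖z₂ - x₂ - conj x₁ * (z₁ - x₁)‖ ≤ δ') :
    |lev v h z₁ z₂ - lev v h x₁ x₂| ≤ 2 * B * (δ' + (2 * √h + δ) * δ) / h := by
  classical
  have hδ : 0 ≤ δ := (norm_nonneg _).trans h1
  have hδ' : 0 ≤ δ' := (norm_nonneg _).trans h2
  have hB : 0 ≤ B := zero_le_one.trans hv.one_le
  set E := B * (δ' + (2 * √h + δ) * δ) / h with hE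
  have hE0 : 0 ≤ E := by positivity
  have key : ∀ c : ℂ, ‖x₁ - c‖ ≤ 2 * √h + δ →
      |v (zeta c z₁ z₂ / h) - v (zeta c x₁ x₂ / h)| ≤ E := by
    intro c hc
    refine (hv.lip _ _ (re_zeta_nonneg hh hz) (re_zeta_nonneg hh hx)).trans ?_
    rw [hE, mul_div_assoc]
    refine mul_le_mul_of_nonneg_left ?_ hB
    have e : zeta c z₁ z₂ / h - zeta c x₁ x₂ / h =
        ((z₂ - x₂ - conj x₁ * (z₁ - x₁)) + conj (x₁ - c) * (z₁ - x₁)) / h := by
      simp only [zeta, map_sub]; ring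
    rw [e, norm_div, Complex.norm_real, Real.norm_of_nonneg hh.le]
    refine div_le_div_of_nonneg_right ((norm_add_le _ _).trans (add_le_add h2 ?_)) hh.le
    rw [norm_mul, Complex.norm_conj]
    exact mul_le_mul hc h1 (norm_nonneg _) (by positivity)
  have card1 : ∀ y : ℂ, ((lat h).filter fun m => ‖y - cc h m‖ < 2 * √h).card ≤ 1 := by
    intro y
    refine Finset.card_le_one.2 fun m hm m' hm' => by_contra fun hne => ?_
    have h3 := cc_sep (h := h) hne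
    have h4 : ‖cc h m - cc h m'‖ ≤ ‖y - cc h m‖ + ‖y - cc h m'‖ := by
      rw [← norm_neg (y - cc h m)]
      exact (congrArg _ (by ring)).trans_le (norm_add_le _ _)
    have := (Finset.mem_filter.1 hm).2
    have := (Finset.mem_filter.1 hm').2
    linarith
  set S := ((lat h).filter fun m => ‖z₁ - cc h m‖ < 2 * √h) ∪
    ((lat h).filter fun m => ‖x₁ - cc h m‖ < 2 * √h) with hS
  have hS2 : (S.card : ℝ) ≤ 2 := by
    have := (Finset.card_union_le _ _).trans (add_le_add (card1 z₁) (card1 x₁))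
    exact_mod_cast this
  have hsub : S ⊆ lat h := Finset.union_subset (Finset.filter_subset _ _) (Finset.filter_subset _ _)
  rw [lev, lev, ← Finset.sum_sub_distrib, ← Finset.sum_subset hsub (fun m hm hn => by
    simp only [hS, Finset.mem_union, Finset.mem_filter, hm, true_and, not_or, not_lt] at hn
    rw [well_term_zero' hv hh hz hn.1, well_term_zero' hv hh hx hn.2, sub_zero])]
  refine (Finset.abs_sum_le_sum_abs _ _).trans ((Finset.sum_le_card_nsmul _ _ E ?_).trans ?_)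
  · intro m hm
    refine key _ ?_
    simp only [hS, Finset.mem_union, Finset.mem_filter] at hm
    rcases hm with hm | hm
    · have : ‖x₁ - cc h m‖ ≤ ‖z₁ - cc h m‖ + ‖z₁ - x₁‖ :=
        (congrArg _ (by ring)).trans_le (norm_sub_le _ _)
      linarith [hm.2]
    · linarith [hm.2]
  · rw [nsmul_eq_mul]
    calc (S.card : ℝ) * E ≤ 2 * E := mul_le_mul_of_nonneg_right hS2 hE0
      _ = _ := by rw [hE]; ring

end

end Crest.Agent.R245
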