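import Crest.Agent.R245.JetB

/-!
# R245: jets of smooth functions

`Sm u p`: `u` is smooth near `p`.  `del u a`, `delb u b` are the Wirtinger derivatives along
`a`, `b`; `jet u p` collects them.  Suggested route: put `dl (s : ℂ) u a x :=
(fderiv ℝ u x a + s * fderiv ℝ u x (I • a)) / 2` (`del = dl (-I)`, `delb = dl I`), prove for `dl`
that it preserves `Sm`, respects `=ᶠ[𝓝 p]` (`Filter.EventuallyEq.fderiv`), satisfies the Leibniz
and chain rules *eventually* near `p`, and commutes (`ContDiffAt.isSymmSndFDerivAt`); then iterate.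
-/

set_option autoImplicit false
set_option linter.unusedSectionVars false

namespace Crest.Agent.R245

open scoped ComplexConjugate ContDiff Topology
open Filter

section
variable {V W : Type*} [NormedAddCommGroup V] [NormedSpace ℝ V] [NormedSpace ℂ V]
  [NormedAddCommGroup W] [NormedSpace ℝ W] [NormedSpace ℂ W]

/-- smooth in a neighbourhood of `p` -/
def Sm {F : Type*} [NormedAddCommGroup F] [NormedSpace ℝ F] (u : V → F) (p : V) : Prop :=
  ∀ᶠ x in 𝓝 p, ContDiffAt ℝ ∞ u x

noncomputable def del (u : V → ℂ) (a : V) (x : V) : ℂ :=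
  (fderiv ℝ u x a - Complex.I * fderiv ℝ u x (Complex.I • a)) / 2

noncomputable def delb (u : V → ℂ) (b : V) (x : V) : ℂ :=
  (fderiv ℝ u x b + Complex.I * fderiv ℝ u x (Complex.I • b)) / 2

noncomputable def jet (u : V → ℂ) (p : V) : J V where
  v := u p
  d a := del u a p
  e b := delb u b p
  dd a c := del (del u c) a p
  de a b := del (delb u b) a p
  ee b d := delb (delb u d) b p
  dde a c b := del (del (delb u b) c) a p
  dee a b d := del (delb (delb u d) b) a p
  ddee a c b d := del (del (delb (delb u d) b) c) a p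

/-- jet of a real function -/
noncomputable def jr (u : V → ℝ) (p : V) : J V := jet (fun x => (u x : ℂ)) p

omit [NormedSpace ℂ V] in
theorem Sm.of_contDiffOn {F : Type*} [NormedAddCommGroup F] [NormedSpace ℝ F] {u : V → F}
    {U : Set V} (hU : IsOpen U) (h : ContDiffOn ℝ ∞ u U) {p : V} (hp : p ∈ U) : Sm u p := by
  filter_upwards [hU.mem_nhds hp] with x hx using h.contDiffAt (hU.mem_nhds hx)

omit [NormedSpace ℂ V] in
theorem Sm.of_contDiff {F : Type*} [NormedAddCommGroup F] [NormedSpace ℝ F] {u : V → F}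
    (h : ContDiff ℝ ∞ u) (p : V) : Sm u p :=
  Eventually.of_forall fun _ => h.contDiffAt

omit [NormedSpace ℂ V] in
theorem Sm.contDiffAt {F : Type*} [NormedAddCommGroup F] [NormedSpace ℝ F] {u : V → F} {p : V}
    (h : Sm u p) : ContDiffAt ℝ ∞ u p := h.self_of_nhds

omit [NormedSpace ℂ V] in
theorem Sm.eventually {F : Type*} [NormedAddCommGroup F] [NormedSpace ℝ F] {u : V → F} {p : V}
    (h : Sm u p) : ∀ᶠ x in 𝓝 p, Sm u x := h.eventually_nhds

omit [NormedSpace ℂ V] in
theorem Sm.congr {F : Type*} [NormedAddCommGroup F] [NormedSpace ℝ F] {u w : V → F} {p : V}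
    (h : Sm u p) (he : w =ᶠ[𝓝 p] u) : Sm w p := by
  filter_upwards [h, he.eventually_nhds] with x hx hx' using hx.congr_of_eventuallyEq hx'

omit [NormedSpace ℂ V] in
theorem Sm.ofReal {u : V → ℝ} {p : V} (h : Sm u p) : Sm (fun x => (u x : ℂ)) p := by
  filter_upwards [h] with x hx using Complex.ofRealCLM.contDiff.contDiffAt.comp x hx

/-- common form of `del` and `delb` -/
noncomputable def dl (s : ℂ) (u : V → ℂ) (a : V) (x : V) : ℂ :=
  (fderiv ℝ u x a + s * fderiv ℝ u x (Complex.I • a)) / 2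

theorem del_eq_dl (u : V → ℂ) (a : V) : del u a = dl (-Complex.I) u a := by
  funext x; simp only [del, dl]; ring

theorem delb_eq_dl (u : V → ℂ) (a : V) : delb u a = dl Complex.I u a := rfl

omit [NormedSpace ℂ V] in
theorem Sm.diff {F : Type*} [NormedAddCommGroup F] [NormedSpace ℝ F] {u : V → F} {p : V}
    (h : Sm u p) : ∀ᶠ x in 𝓝 p, DifferentiableAt ℝ u x :=
  h.mono fun _ hx => hx.differentiableAt (by simp)

theorem Sm.dl {u : V → ℂ} {p : V} (h : Sm u p) (s : ℂ) (a : V) : Sm (dl s u a) p := by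
  filter_upwards [h] with x hx
  have h1 : ContDiffAt ℝ ∞ (fderiv ℝ u) x := hx.fderiv_right (m := ∞) le_rfl
  exact ((h1.clm_apply contDiffAt_const).add
    (contDiffAt_const.mul (h1.clm_apply contDiffAt_const))).div_const 2

theorem dl_congr {u w : V → ℂ} {p : V} (h : u =ᶠ[𝓝 p] w) (s : ℂ) (a : V) :
    dl s u a =ᶠ[𝓝 p] dl s w a := by
  filter_upwards [h.fderiv (𝕜 := ℝ)] with x hx
  simp only [dl, hx]

theorem dl_add {u w : V → ℂ} {p : V} (hu : Sm u p) (hw : Sm w p) (s : ℂ) (a : V) :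
    dl s (u + w) a =ᶠ[𝓝 p] dl s u a + dl s w a := by
  filter_upwards [hu.diff, hw.diff] with x h1 h2
  simp only [dl, fderiv_add h1 h2, add_apply, Pi.add_apply]
  ring

theorem dl_mul {u w : V → ℂ} {p : V} (hu : Sm u p) (hw : Sm w p) (s : ℂ) (a : V) :
    dl s (u * w) a =ᶠ[𝓝 p] dl s u a * w + u * dl s w a := by
  filter_upwards [hu.diff, hw.diff] with x h1 h2
  simp only [dl, fderiv_mul h1 h2, add_apply, Pi.add_apply, Pi.mul_apply,
    smul_apply, smul_eq_mul]
  ring

theorem fderiv_dl {u : V → ℂ} {x : V} (h : ContDiffAt ℝ ∞ u x) (s : ℂ) (c a : V) :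
    fderiv ℝ (dl s u c) x a = (fderiv ℝ (fderiv ℝ u) x a c +
      s * fderiv ℝ (fderiv ℝ u) x a (Complex.I • c)) / 2 := by
  have h1 : HasFDerivAt (fderiv ℝ u) (fderiv ℝ (fderiv ℝ u) x) x :=
    ((h.fderiv_right (m := ∞) le_rfl).differentiableAt (by simp)).hasFDerivAt
  have h2 := ((h1.clm_apply (hasFDerivAt_const c x)).add
    ((h1.clm_apply (hasFDerivAt_const (Complex.I • c) x)).const_mul s)).mul_const (2⁻¹ : ℂ)
  have h3 : dl s u c = fun y => (fderiv ℝ u y c + s * fderiv ℝ u y (Complex.I • c)) * 2⁻¹ := by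
    funext y; rw [dl, div_eq_mul_inv]
  rw [h3]
  refine (congrArg (fun L : V →L[ℝ] ℂ => L a) h2.fderiv).trans ?_
  simp
  ring

theorem dl_comm {u : V → ℂ} {p : V} (hu : Sm u p) (s t : ℂ) (a c : V) :
    dl s (dl t u c) a =ᶠ[𝓝 p] dl t (dl s u a) c := by
  filter_upwards [hu] with x hx
  have hs := (hx.isSymmSndFDerivAt (by simp; exact WithTop.coe_le_coe.2 le_top)).eq
  rw [dl, dl, fderiv_dl hx, fderiv_dl hx, fderiv_dl hx, fderiv_dl hx, hs a c,
    hs a (Complex.I • c), hs (Complex.I • a) c, hs (Complex.I • a) (Complex.I • c)]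
  ring

/-- the ring of smooth germs -/
def SG (p : V) : Subring (Germ (𝓝 p) ℂ) where
  carrier := {g | ∃ u : V → ℂ, Sm u p ∧ g = (u : Germ (𝓝 p) ℂ)}
  mul_mem' := by
    rintro _ _ ⟨u, hu, rfl⟩ ⟨w, hw, rfl⟩
    exact ⟨u * w, (hu.and hw).mono fun _ h => h.1.mul h.2, rfl⟩
  one_mem' := ⟨1, Eventually.of_forall fun _ => contDiffAt_const, rfl⟩
  add_mem' := by
    rintro _ _ ⟨u, hu, rfl⟩ ⟨w, hw, rfl⟩
    exact ⟨u + w, (hu.and hw).mono fun _ h => h.1.add h.2, rfl⟩
  zero_mem' := ⟨0, Eventually.of_forall fun _ => contDiffAt_const, rfl⟩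
  neg_mem' := by
    rintro _ ⟨u, hu, rfl⟩
    exact ⟨-u, hu.mono fun _ h => h.neg, rfl⟩

/-- the germ of a smooth function -/
def Sm.g {u : V → ℂ} {p : V} (h : Sm u p) : SG p := ⟨u, u, h, rfl⟩

/-- `dl` on smooth germs -/
noncomputable def dG {p : V} (s : ℂ) (a : V) (g : SG p) : SG p :=
  ⟨Germ.map' (lc := 𝓝 p) (fun u => dl s u a) (fun _ _ h => dl_congr h s a) g.1, by
    obtain ⟨_, u, hu, rfl⟩ := g
    exact ⟨_, hu.dl s a, rfl⟩⟩

/-- evaluation of a germ -/
def evG {p : V} : SG p →+* ℂ := Germ.valueRingHom.comp (SG p).subtype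

theorem dG_add {p : V} (s : ℂ) (a : V) (g h : SG p) : dG s a (g + h) = dG s a g + dG s a h := by
  obtain ⟨_, u, hu, rfl⟩ := g
  obtain ⟨_, w, hw, rfl⟩ := h
  exact Subtype.ext (Germ.coe_eq.2 (dl_add hu hw s a))

theorem dG_mul {p : V} (s : ℂ) (a : V) (g h : SG p) :
    dG s a (g * h) = dG s a g * h + g * dG s a h := by
  obtain ⟨_, u, hu, rfl⟩ := g
  obtain ⟨_, w, hw, rfl⟩ := h
  exact Subtype.ext (Germ.coe_eq.2 (dl_mul hu hw s a))

theorem dG_comm {p : V} (s t : ℂ) (a c : V) (g : SG p) :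
    dG s a (dG t c g) = dG t c (dG s a g) := by
  obtain ⟨_, u, hu, rfl⟩ := g
  exact Subtype.ext (Germ.coe_eq.2 (dl_comm hu s t a c))

/-- the jet of a smooth germ -/
noncomputable def jetG {p : V} (g : SG p) : J V where
  v := evG g
  d a := evG (dG (-Complex.I) a g)
  e b := evG (dG Complex.I b g)
  dd a c := evG (dG (-Complex.I) a (dG (-Complex.I) c g))
  de a b := evG (dG (-Complex.I) a (dG Complex.I b g))
  ee b d := evG (dG Complex.I b (dG Complex.I d g))
  dde a c b := evG (dG (-Complex.I) a (dG (-Complex.I) c (dG Complex.I b g)))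
  dee a b d := evG (dG (-Complex.I) a (dG Complex.I b (dG Complex.I d g)))
  ddee a c b d := evG (dG (-Complex.I) a (dG (-Complex.I) c (dG Complex.I b (dG Complex.I d g))))

theorem jet_eq_jetG {u : V → ℂ} {p : V} (h : Sm u p) : jet u p = jetG h.g := by
  simp only [jet, del_eq_dl, delb_eq_dl]
  rfl

theorem dl_const (s x : ℂ) (a : V) : dl s (fun _ : V => x) a = fun _ => 0 := by
  funext y; simp [dl]

variable [IsScalarTower ℝ ℂ V] [IsScalarTower ℝ ℂ W]

theorem Sm.del {u : V → ℂ} {p : V} (h : Sm u p) (a : V) : Sm (del u a) p :=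
  del_eq_dl u a ▸ h.dl _ a

theorem Sm.delb {u : V → ℂ} {p : V} (h : Sm u p) (b : V) : Sm (delb u b) p := h.dl _ b

theorem jet_congr {u w : V → ℂ} {p : V} (h : u =ᶠ[𝓝 p] w) : jet u p = jet w p := by
  simp only [jet, del_eq_dl, delb_eq_dl]
  ext
  · exact h.eq_of_nhds
  · exact (dl_congr h _ _).eq_of_nhds
  · exact (dl_congr h _ _).eq_of_nhds
  · exact (dl_congr (dl_congr h _ _) _ _).eq_of_nhds
  · exact (dl_congr (dl_congr h _ _) _ _).eq_of_nhds
  · exact (dl_congr (dl_congr h _ _) _ _).eq_of_nhds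
  · exact (dl_congr (dl_congr (dl_congr h _ _) _ _) _ _).eq_of_nhds
  · exact (dl_congr (dl_congr (dl_congr h _ _) _ _) _ _).eq_of_nhds
  · exact (dl_congr (dl_congr (dl_congr (dl_congr h _ _) _ _) _ _) _ _).eq_of_nhds

theorem jet_const (x : ℂ) (p : V) : jet (fun _ : V => x) p = J.const x := by
  simp only [jet, del_eq_dl, delb_eq_dl, dl_const]
  rfl

theorem jet_add {u w : V → ℂ} {p : V} (hu : Sm u p) (hw : Sm w p) :
    jet (fun x => u x + w x) p = (jet u p).add (jet w p) := by
  have h : Sm (fun x => u x + w x) p := (hu.and hw).mono fun _ h => h.1.add h.2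
  rw [jet_eq_jetG h, jet_eq_jetG hu, jet_eq_jetG hw, show h.g = hu.g + hw.g from rfl]
  ext <;> simp only [jetG, J.add, dG_add, map_add]

theorem jet_mul {u w : V → ℂ} {p : V} (hu : Sm u p) (hw : Sm w p) :
    jet (fun x => u x * w x) p = (jet u p).mul (jet w p) := by
  have h : Sm (fun x => u x * w x) p := (hu.and hw).mono fun _ h => h.1.mul h.2
  rw [jet_eq_jetG h, jet_eq_jetG hu, jet_eq_jetG hw, show h.g = hu.g * hw.g from rfl]
  ext <;> simp only [jetG, J.mul, dG_add, dG_mul, map_add, map_mul] <;> ring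

theorem jet_smul {u : V → ℂ} {p : V} (hu : Sm u p) (t : ℂ) :
    jet (fun x => t * u x) p = (jet u p).smul t := by
  rw [jet_mul (Sm.of_contDiff contDiff_const p) hu, jet_const]
  ext <;> simp [J.mul, J.const, J.smul]

/-- abstract chain rule: `F (k+1)` plays the role of `f^{(k+1)} ∘ u` -/
theorem jet_chain {u : V → ℂ} {p : V} (hu : Sm u p) (F : ℕ → V → ℂ) (hF : ∀ k, Sm (F k) p)
    (hd : ∀ k, ∀ᶠ x in 𝓝 p, ∀ a, fderiv ℝ (F k) x a = F (k + 1) x * fderiv ℝ u x a) :
    jet (F 0) p = (jet u p).comp fun k => F k p := by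
  have h1 : ∀ k s a, dG s a (hF k).g = (hF (k + 1)).g * dG s a hu.g := by
    intro k s a
    refine Subtype.ext (Germ.coe_eq.2 ?_)
    filter_upwards [hd k] with x hx
    simp only [dl, hx]
    ring
  have h2 : ∀ k, evG (hF k).g = F k p := fun _ => rfl
  rw [jet_eq_jetG (hF 0), jet_eq_jetG hu]
  ext <;> simp only [jetG, J.comp, h1, dG_add, dG_mul, map_add, map_mul, h2] <;> ring

/-- real derivative in terms of the Wirtinger derivatives -/
theorem fderiv_eq_del_add_delb (u : V → ℂ) (p a : V) :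
    fderiv ℝ u p a = del u a p + delb u a p := by
  simp only [del, delb]; ring

/-- commutation of two holomorphic derivatives -/
theorem del_del_comm {u : V → ℂ} {p : V} (hu : Sm u p) (a c : V) :
    del (del u c) a p = del (del u a) c p := by
  simp only [del_eq_dl]
  exact (dl_comm hu _ _ _ _).eq_of_nhds

theorem delb_del_comm {u : V → ℂ} {p : V} (hu : Sm u p) (a b : V) :
    delb (del u a) b p = del (delb u b) a p := by
  simp only [del_eq_dl, delb_eq_dl]
  exact (dl_comm hu _ _ _ _).eq_of_nhds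

theorem delb_delb_comm {u : V → ℂ} {p : V} (hu : Sm u p) (b d : V) :
    delb (delb u d) b p = delb (delb u b) d p :=
  (dl_comm hu _ _ _ _).eq_of_nhds

theorem clm_smul_eq (L : V →L[ℝ] ℂ) (t : ℂ) (a : V) :
    L (t • a) = t.re * L a + t.im * L (Complex.I • a) := by
  have : t • a = t.re • a + t.im • (Complex.I • a) := by
    rw [← smul_assoc, ← smul_one_smul ℂ t.re a, ← add_smul, Complex.real_smul,
      Complex.real_smul, mul_one, Complex.re_add_im]
  rw [this, map_add, map_smul, map_smul, Complex.real_smul, Complex.real_smul]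

theorem isL_dG {p : V} (g : SG p) : IsL fun a => evG (dG (-Complex.I) a g) := by
  obtain ⟨_, u, hu, rfl⟩ := g
  change IsL fun a => dl (-Complex.I) u a p
  refine ⟨fun a b => ?_, fun t a => ?_⟩
  · simp only [dl, smul_add, map_add]; ring
  · simp only [dl, smul_smul]
    rw [clm_smul_eq _ t, clm_smul_eq _ (Complex.I * t)]
    conv_rhs => rw [← Complex.re_add_im t]
    simp only [Complex.mul_re, Complex.mul_im, Complex.I_re, Complex.I_im]
    push_cast
    linear_combination (t.im * fderiv ℝ u p (Complex.I • a) / 2) * Complex.I_sq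

theorem isA_dG {p : V} (g : SG p) : IsA fun a => evG (dG Complex.I a g) := by
  obtain ⟨_, u, hu, rfl⟩ := g
  change IsA fun a => dl Complex.I u a p
  refine ⟨fun a b => ?_, fun t a => ?_⟩
  · simp only [dl, smul_add, map_add]; ring
  · simp only [dl, smul_smul]
    rw [clm_smul_eq _ t, clm_smul_eq _ (Complex.I * t)]
    conv_rhs => rw [← Complex.re_add_im t]
    simp only [Complex.mul_re, Complex.mul_im, Complex.I_re, Complex.I_im, map_add, map_mul,
      Complex.conj_ofReal, Complex.conj_I]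
    push_cast
    linear_combination (t.im * fderiv ℝ u p (Complex.I • a) / 2) * Complex.I_sq

theorem jet_lin {u : V → ℂ} {p : V} (hu : Sm u p) : (jet u p).Lin := by
  rw [jet_eq_jetG hu]
  generalize hu.g = g
  refine ⟨isL_dG _, isA_dG _, fun a c => ?_, fun c => isL_dG _, fun b => isL_dG _, fun a => ?_,
    fun b d => ?_, fun d => isA_dG _, fun a c b => ?_, fun c b => isL_dG _, fun a c => ?_,
    fun a b d => ?_, fun b d => isL_dG _, fun a d => ?_, fun a c b d => ?_, fun a c b d => ?_,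
    fun c b d => isL_dG _, fun a c d => ?_⟩ <;> simp only [jetG]
  · rw [dG_comm]
  · simp only [dG_comm (-Complex.I) Complex.I]; exact isA_dG _
  · rw [dG_comm]
  · rw [dG_comm]
  · simp only [dG_comm (-Complex.I) Complex.I]; exact isA_dG _
  · rw [dG_comm Complex.I Complex.I b d]
  · simp only [dG_comm (-Complex.I) Complex.I]; exact isA_dG _
  · rw [dG_comm]
  · rw [dG_comm Complex.I Complex.I b d]
  · simp only [dG_comm (-Complex.I) Complex.I]; exact isA_dG _

omit [IsScalarTower ℝ ℂ V] in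
theorem dl_conj (s : ℂ) (u : V → ℂ) (a : V) :
    dl s (fun x => conj (u x)) a = fun x => conj (dl (conj s) u a x) := by
  funext x
  have h := Complex.conjCLE.comp_fderiv (f := u) (x := x)
  have h' : ∀ v, fderiv ℝ (fun x => conj (u x)) x v = conj (fderiv ℝ u x v) := fun v =>
    congrArg (fun L : V →L[ℝ] ℂ => L v) h
  simp [dl, h', map_ofNat]

theorem jet_bar {u : V → ℂ} {p : V} (hu : Sm u p) :
    jet (fun x => conj (u x)) p = (jet u p).bar := by
  have h1 : jet (fun x => conj (u x)) p = J.mk (conj (evG hu.g))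
      (fun a => conj (evG (dG Complex.I a hu.g))) (fun b => conj (evG (dG (-Complex.I) b hu.g)))
      (fun a c => conj (evG (dG Complex.I a (dG Complex.I c hu.g))))
      (fun a b => conj (evG (dG Complex.I a (dG (-Complex.I) b hu.g))))
      (fun b d => conj (evG (dG (-Complex.I) b (dG (-Complex.I) d hu.g))))
      (fun a c b => conj (evG (dG Complex.I a (dG Complex.I c (dG (-Complex.I) b hu.g)))))
      (fun a b d => conj (evG (dG Complex.I a (dG (-Complex.I) b (dG (-Complex.I) d hu.g)))))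
      (fun a c b d => conj (evG (dG Complex.I a (dG Complex.I c (dG (-Complex.I) b
        (dG (-Complex.I) d hu.g)))))) := by
    simp only [jet, del_eq_dl, delb_eq_dl, dl_conj, map_neg, Complex.conj_I, neg_neg]
    rfl
  rw [h1, jet_eq_jetG hu]
  simp only [J.bar, jetG, dG_comm (-Complex.I) Complex.I]

/-- holomorphic affine functions -/
theorem jet_aff (l : V →L[ℂ] ℂ) (x : ℂ) (p : V) :
    jet (fun y => l y + x) p = J.aff (l p + x) l := by
  have h : ∀ s a, dl s (fun y => l y + x) a = fun _ => (1 + s * Complex.I) / 2 * l a := by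
    intro s a
    funext y
    have := ((l.restrictScalars ℝ).hasFDerivAt (x := y)).add_const x
    rw [dl, show fderiv ℝ (fun y => l y + x) y = l.restrictScalars ℝ from this.fderiv]
    simp
    ring
  simp only [jet, del_eq_dl, delb_eq_dl, h, dl_const]
  ext <;> simp [J.aff]

theorem dl_comap (L : V →L[ℂ] W) (x : W) {p : V} {f : V → ℂ} {g : W → ℂ}
    (h : Sm g (L p + x) ∧ f =ᶠ[𝓝 p] fun y => g (L y + x)) (s : ℂ) (a : V) :
    Sm (dl s g (L a)) (L p + x) ∧ dl s f a =ᶠ[𝓝 p] fun y => dl s g (L a) (L y + x) := by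
  refine ⟨h.1.dl _ _, (dl_congr h.2 s a).trans ?_⟩
  have hc : Tendsto (fun y => L y + x) (𝓝 p) (𝓝 (L p + x)) :=
    (L.continuous.add continuous_const).tendsto p
  filter_upwards [hc.eventually h.1.diff] with y hy
  have := hy.hasFDerivAt.comp y (((L.restrictScalars ℝ).hasFDerivAt (x := y)).add_const x)
  rw [dl, show fderiv ℝ (fun y => g (L y + x)) y = _ from this.fderiv]
  simp [dl]

/-- pull-back by a complex affine map -/
theorem jet_comap (L : V →L[ℂ] W) (x : W) {u : W → ℂ} {p : V} (hu : Sm u (L p + x)) :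
    jet (fun y => u (L y + x)) p = (jet u (L p + x)).comap L := by
  have h : Sm u (L p + x) ∧ (fun y => u (L y + x)) =ᶠ[𝓝 p] fun y => u (L y + x) :=
    ⟨hu, EventuallyEq.rfl⟩
  simp only [jet, del_eq_dl, delb_eq_dl, J.comap]
  ext
  · rfl
  · exact (dl_comap L x h _ _).2.eq_of_nhds
  · exact (dl_comap L x h _ _).2.eq_of_nhds
  · exact (dl_comap L x (dl_comap L x h _ _) _ _).2.eq_of_nhds
  · exact (dl_comap L x (dl_comap L x h _ _) _ _).2.eq_of_nhds
  · exact (dl_comap L x (dl_comap L x h _ _) _ _).2.eq_of_nhds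
  · exact (dl_comap L x (dl_comap L x (dl_comap L x h _ _) _ _) _ _).2.eq_of_nhds
  · exact (dl_comap L x (dl_comap L x (dl_comap L x h _ _) _ _) _ _).2.eq_of_nhds
  · exact (dl_comap L x (dl_comap L x (dl_comap L x (dl_comap L x h _ _) _ _) _ _)
      _ _).2.eq_of_nhds

end

end Crest.Agent.R245
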