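import Crest.Agent.R245.Calc

/-!
# R245: jets of real functions, compositions, uniform bounds
-/

set_option autoImplicit false

namespace Crest.Agent.R245

open scoped ComplexConjugate ContDiff Topology
open Filter

section
variable {V W : Type*} [NormedAddCommGroup V] [NormedSpace ℝ V] [NormedSpace ℂ V]
  [NormedAddCommGroup W] [NormedSpace ℝ W] [NormedSpace ℂ W]
  [IsScalarTower ℝ ℂ V] [IsScalarTower ℝ ℂ W]

omit [NormedSpace ℂ V] [IsScalarTower ℝ ℂ V] in
theorem calcB_fderiv_ofReal {u : V → ℝ} {p : V} (hu : DifferentiableAt ℝ u p) (a : V) :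
    fderiv ℝ (fun x => (u x : ℂ)) p a = (fderiv ℝ u p a : ℝ) := by
  have := (Complex.ofRealCLM.hasFDerivAt.comp p hu.hasFDerivAt).fderiv
  exact congrArg (fun L => L a) this

omit [NormedSpace ℂ V] [IsScalarTower ℝ ℂ V] in
theorem calcB_sm_conj {u : V → ℂ} {p : V} (hu : Sm u p) : Sm (fun x => conj (u x)) p := by
  filter_upwards [hu] with x hx using Complex.conjCLE.contDiff.contDiffAt.comp x hx

omit [NormedSpace ℂ V] [IsScalarTower ℝ ℂ V] in
theorem calcB_sm_sum {ι : Type*} (s : Finset ι) {f : ι → V → ℝ} {p : V}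
    (hf : ∀ i ∈ s, Sm (f i) p) : Sm (fun x => ∑ i ∈ s, f i x) p := by
  have : ∀ᶠ x in 𝓝 p, ∀ i ∈ s, ContDiffAt ℝ ∞ (f i) x := (Finset.eventually_all s).2 hf
  filter_upwards [this] with x hx using ContDiffAt.sum hx

theorem calcB_comp_congr {X : Type*} (u : J X) {f g : ℕ → ℂ} (h0 : f 0 = g 0) (h1 : f 1 = g 1)
    (h2 : f 2 = g 2) (h3 : f 3 = g 3) (h4 : f 4 = g 4) : u.comp f = u.comp g := by
  unfold J.comp; rw [h0, h1, h2, h3, h4]

theorem jr_v (u : V → ℝ) (p : V) : (jr u p).v = u p := rfl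

theorem jr_congr {u w : V → ℝ} {p : V} (h : u =ᶠ[𝓝 p] w) : jr u p = jr w p := by
  refine jet_congr ?_
  filter_upwards [h] with x hx using by rw [hx]

theorem jr_lin {u : V → ℝ} {p : V} (hu : Sm u p) : (jr u p).Lin := jet_lin hu.ofReal

theorem jr_herm {u : V → ℝ} {p : V} (hu : Sm u p) : (jr u p).Herm := by
  unfold J.Herm jr
  rw [← jet_bar hu.ofReal]
  simp only [Complex.conj_ofReal]

theorem jr_const (x : ℝ) (p : V) : jr (fun _ : V => x) p = J.const x := jet_const _ _

theorem jr_add {u w : V → ℝ} {p : V} (hu : Sm u p) (hw : Sm w p) :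
    jr (fun x => u x + w x) p = (jr u p).add (jr w p) := by
  unfold jr
  rw [← jet_add hu.ofReal hw.ofReal]
  simp only [Complex.ofReal_add]

theorem jr_sub {u w : V → ℝ} {p : V} (hu : Sm u p) (hw : Sm w p) :
    jr (fun x => u x - w x) p = (jr u p).sub (jr w p) := by
  unfold jr J.sub
  have h1 : Sm (fun x => (-1 : ℂ) * (w x : ℂ)) p := by
    filter_upwards [hw.ofReal] with x hx using contDiffAt_const.mul hx
  rw [← jet_smul hw.ofReal, ← jet_add hu.ofReal h1]
  congr 1; funext x; push_cast; ring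

theorem jr_smul {u : V → ℝ} {p : V} (hu : Sm u p) (t : ℝ) :
    jr (fun x => t * u x) p = (jr u p).smul t := by
  unfold jr
  rw [← jet_smul hu.ofReal]
  simp only [Complex.ofReal_mul]

theorem jr_mul {u w : V → ℝ} {p : V} (hu : Sm u p) (hw : Sm w p) :
    jr (fun x => u x * w x) p = (jr u p).mul (jr w p) := by
  unfold jr
  rw [← jet_mul hu.ofReal hw.ofReal]
  simp only [Complex.ofReal_mul]

/-- real chain rule (use `jet_chain` with `F k x = iteratedDeriv k f (u x)`) -/
theorem jr_comp {u : V → ℝ} {p : V} (hu : Sm u p) {f : ℝ → ℝ} (hf : Sm f (u p)) :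
    jr (fun x => f (u x)) p = (jr u p).comp fun k => ((iteratedDeriv k f (u p) : ℝ) : ℂ) := by
  have hc : Tendsto u (𝓝 p) (𝓝 (u p)) := hu.contDiffAt.continuousAt
  have h1 : ∀ k, Sm (iteratedDeriv k f) (u p) := by
    intro k
    induction k with
    | zero => simpa using hf
    | succ k ih =>
      rw [iteratedDeriv_succ]
      filter_upwards [ih] with y hy using hy.derivWithin (m := ∞) (by simp)
  have h2 : ∀ k, Sm (fun x => iteratedDeriv k f (u x)) p := fun k => by
    filter_upwards [hu, hc.eventually (h1 k)] with x hx hy using hy.comp x hx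
  have := jet_chain hu.ofReal (fun k x => ((iteratedDeriv k f (u x) : ℝ) : ℂ))
    (fun k => (h2 k).ofReal) (fun k => by
      filter_upwards [hu, hc.eventually (h1 k)] with x hx hy a
      have hx' := hx.differentiableAt (by simp)
      have hy' := hy.differentiableAt (by simp)
      have h3 : HasFDerivAt (fun x => iteratedDeriv k f (u x)) _ x :=
        hy'.hasDerivAt.comp_hasFDerivAt x hx'.hasFDerivAt
      rw [calcB_fderiv_ofReal hx', calcB_fderiv_ofReal h3.differentiableAt, h3.fderiv,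
        iteratedDeriv_succ]
      simp)
  simpa [jr] using this

theorem jr_exp {u : V → ℝ} {p : V} (hu : Sm u p) :
    jr (fun x => Real.exp (u x)) p = (jr u p).comp fun _ => ((Real.exp (u p) : ℝ) : ℂ) := by
  rw [jr_comp hu (Sm.of_contDiff Real.contDiff_exp _)]
  congr 1; funext k
  rw [iteratedDeriv_eq_iterate, Real.iter_deriv_exp]

/-- derivatives of `log` -/
noncomputable def logv (x : ℝ) : ℕ → ℂ
  | 0 => (Real.log x : ℝ)
  | 1 => (1 / x : ℝ)
  | 2 => (-1 / x ^ 2 : ℝ)
  | 3 => (2 / x ^ 3 : ℝ)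
  | 4 => (-6 / x ^ 4 : ℝ)
  | _ => 0

theorem jr_log {u : V → ℝ} {p : V} (hu : Sm u p) (h0 : u p ≠ 0) :
    jr (fun x => Real.log (u x)) p = (jr u p).comp (logv (u p)) := by
  have h1 : Sm Real.log (u p) := by
    filter_upwards [isOpen_ne.mem_nhds h0] with y hy using Real.contDiffAt_log.2 hy
  rw [jr_comp hu h1]
  have h2 : ∀ k, iteratedDeriv (k + 1) Real.log (u p)
      = (-1) ^ k * k.factorial * (u p) ^ (-1 - k : ℤ) := fun k => by
    rw [iteratedDeriv_succ', Real.deriv_log', iteratedDeriv_eq_iterate, iter_deriv_inv]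
  refine calcB_comp_congr _ ?_ ?_ ?_ ?_ ?_
  · simp [logv]
  · rw [h2 0]; simp [logv]
  · rw [h2 1, logv]; congr 1; norm_num [zpow_neg, zpow_ofNat]; field_simp
  · rw [h2 2, logv]; congr 1; norm_num [zpow_neg, zpow_ofNat, Nat.factorial]; field_simp
  · rw [h2 3, logv]; congr 1; norm_num [zpow_neg, zpow_ofNat, Nat.factorial]; field_simp

/-- derivatives of `s ↦ -log (1 - s)` -/
noncomputable def Lv (s : ℝ) : ℕ → ℂ
  | 0 => (-Real.log (1 - s) : ℝ)
  | 1 => (1 / (1 - s) : ℝ)
  | 2 => (1 / (1 - s) ^ 2 : ℝ)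
  | 3 => (2 / (1 - s) ^ 3 : ℝ)
  | 4 => (6 / (1 - s) ^ 4 : ℝ)
  | _ => 0

theorem jr_L {u : V → ℝ} {p : V} (hu : Sm u p) (h0 : u p < 1) :
    jr (fun x => -Real.log (1 - u x)) p = (jr u p).comp (Lv (u p)) := by
  have h1 : Sm (fun x => 1 - u x) p := by
    filter_upwards [hu] with x hx using contDiffAt_const.sub hx
  have h2 : (1 - u p) ≠ 0 := by linarith
  have h3 : Sm (fun x => Real.log (1 - u x)) p := by
    have hc : Tendsto (fun x => 1 - u x) (𝓝 p) (𝓝 (1 - u p)) := h1.contDiffAt.continuousAt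
    filter_upwards [h1, hc.eventually (isOpen_ne.mem_nhds h2)] with x hx hy using hx.log hy
  have h4 : (fun x => -Real.log (1 - u x)) = fun x => (-1 : ℝ) * Real.log (1 - u x) := by
    funext x; ring
  rw [h4, jr_smul h3, jr_log h1 h2, jr_sub (Sm.of_contDiff contDiff_const p) hu, jr_const]
  ext <;> simp only [J.smul, J.comp, J.sub, J.add, J.const, logv, Lv] <;> push_cast <;> ring

theorem jet_cexp {u : V → ℂ} {p : V} (hu : Sm u p) :
    jet (fun x => Complex.exp (u x)) p = (jet u p).comp fun _ => Complex.exp (u p) := by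
  have h1 : Sm (fun x => Complex.exp (u x)) p := by
    filter_upwards [hu] with x hx using hx.cexp
  exact jet_chain hu (fun _ x => Complex.exp (u x)) (fun _ => h1) (fun _ => by
    filter_upwards [hu] with x hx a
    rw [((hx.differentiableAt (by simp)).hasFDerivAt.cexp).fderiv]
    simp)

theorem jr_normSq {u : V → ℂ} {p : V} (hu : Sm u p) :
    jr (fun x => Complex.normSq (u x)) p = (jet u p).mul (jet u p).bar := by
  unfold jr
  rw [← jet_bar hu, ← jet_mul hu (calcB_sm_conj hu)]
  simp only [Complex.mul_conj]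

theorem jr_two_re {u : V → ℂ} {p : V} (hu : Sm u p) :
    jr (fun x => 2 * (u x).re) p = (jet u p).add (jet u p).bar := by
  unfold jr
  rw [← jet_bar hu, ← jet_add hu (calcB_sm_conj hu)]
  simp only [Complex.add_conj]

theorem jr_comap (L : V →L[ℂ] W) (x : W) {u : W → ℝ} {p : V} (hu : Sm u (L p + x)) :
    jr (fun y => u (L y + x)) p = (jr u (L p + x)).comap L :=
  jet_comap L x hu.ofReal

theorem fderiv_eq_two_re {u : V → ℝ} {p : V} (hu : Sm u p) (a : V) :
    fderiv ℝ u p a = 2 * ((jr u p).d a).re := by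
  have h1 := hu.contDiffAt.differentiableAt (by simp)
  change _ = 2 * (del (fun x => (u x : ℂ)) a p).re
  unfold del
  rw [calcB_fderiv_ofReal h1, calcB_fderiv_ofReal h1]
  simp
  ring

/-- bounds and positivity for finite sums -/
theorem bd_jr_sum {ι : Type*} (s : Finset ι) {f : ι → V → ℝ} {p : V} (hf : ∀ i ∈ s, Sm (f i) p)
    {n : V → ℝ} {B : ι → ℝ} (hB : ∀ i ∈ s, (jr (f i) p).Bd n (B i)) :
    (jr (fun x => ∑ i ∈ s, f i x) p).Bd n (∑ i ∈ s, B i) := by
  classical
  induction s using Finset.induction_on with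
  | empty =>
    simp only [Finset.sum_empty]
    rw [jr_const]; exact J.bd_const _
  | insert i s hi ih =>
    simp only [Finset.sum_insert hi]
    rw [jr_add (hf i (Finset.mem_insert_self _ _))
      (calcB_sm_sum s fun j hj => hf j (Finset.mem_insert_of_mem hj))]
    exact (hB i (Finset.mem_insert_self _ _)).add
      (ih (fun j hj => hf j (Finset.mem_insert_of_mem hj))
        fun j hj => hB j (Finset.mem_insert_of_mem hj))

theorem de_jr_sum_nonneg {ι : Type*} (s : Finset ι) {f : ι → V → ℝ} {p : V}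
    (hf : ∀ i ∈ s, Sm (f i) p) (a : V) (h : ∀ i ∈ s, 0 ≤ ((jr (f i) p).de a a).re) :
    0 ≤ ((jr (fun x => ∑ i ∈ s, f i x) p).de a a).re := by
  classical
  induction s using Finset.induction_on with
  | empty =>
    simp only [Finset.sum_empty]
    rw [jr_const]; simp [J.const]
  | insert i s hi ih =>
    simp only [Finset.sum_insert hi]
    rw [jr_add (hf i (Finset.mem_insert_self _ _))
      (calcB_sm_sum s fun j hj => hf j (Finset.mem_insert_of_mem hj))]
    simp only [J.add, Complex.add_re]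
    exact add_nonneg (h i (Finset.mem_insert_self _ _))
      (ih (fun j hj => hf j (Finset.mem_insert_of_mem hj))
        fun j hj => h j (Finset.mem_insert_of_mem hj))

end

/-- uniform bound on a compact set (the eight scalar components are continuous; `bd_of_one`) -/
theorem exists_bd_compact {v : ℂ → ℝ} (hv : ContDiff ℝ ∞ v) {K : Set ℂ} (hK : IsCompact K) :
    ∃ B : ℝ, 1 ≤ B ∧ ∀ z ∈ K, (jr v z).Bd (fun a => ‖a‖) B := by
  have h0 : ∀ z, Sm (fun x => (v x : ℂ)) z := fun z => (Sm.of_contDiff hv z).ofReal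
  have hb : ∀ g : ℂ → ℂ, (∀ z, Sm g z) → ∃ B : ℝ, ∀ z ∈ K, ‖g z‖ ≤ B := fun g hg =>
    hK.exists_bound_of_continuousOn fun z _ => (hg z).contDiffAt.continuousAt.continuousWithinAt
  obtain ⟨B1, h1⟩ := hb _ fun z => (h0 z).del 1
  obtain ⟨B2, h2⟩ := hb _ fun z => (h0 z).delb 1
  obtain ⟨B3, h3⟩ := hb _ fun z => ((h0 z).del 1).del 1
  obtain ⟨B4, h4⟩ := hb _ fun z => ((h0 z).delb 1).del 1
  obtain ⟨B5, h5⟩ := hb _ fun z => ((h0 z).delb 1).delb 1
  obtain ⟨B6, h6⟩ := hb _ fun z => (((h0 z).delb 1).del 1).del 1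
  obtain ⟨B7, h7⟩ := hb _ fun z => (((h0 z).delb 1).delb 1).del 1
  obtain ⟨B8, h8⟩ := hb _ fun z => ((((h0 z).delb 1).delb 1).del 1).del 1
  refine ⟨1 + |B1| + |B2| + |B3| + |B4| + |B5| + |B6| + |B7| + |B8|, ?_, fun z hz => ?_⟩
  · have := abs_nonneg B1; have := abs_nonneg B2; have := abs_nonneg B3; have := abs_nonneg B4
    have := abs_nonneg B5; have := abs_nonneg B6; have := abs_nonneg B7; have := abs_nonneg B8
    linarith
  · have := abs_nonneg B1; have := abs_nonneg B2; have := abs_nonneg B3; have := abs_nonneg B4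
    have := abs_nonneg B5; have := abs_nonneg B6; have := abs_nonneg B7; have := abs_nonneg B8
    have := le_abs_self B1; have := le_abs_self B2; have := le_abs_self B3; have := le_abs_self B4
    have := le_abs_self B5; have := le_abs_self B6; have := le_abs_self B7; have := le_abs_self B8
    refine J.bd_of_one (jr_lin (Sm.of_contDiff hv z)) ((h1 z hz).trans ?_) ((h2 z hz).trans ?_)
      ((h3 z hz).trans ?_) ((h4 z hz).trans ?_) ((h5 z hz).trans ?_) ((h6 z hz).trans ?_)
      ((h7 z hz).trans ?_) ((h8 z hz).trans ?_) <;> linarith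

end Crest.Agent.R245
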