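import Crest.Prelude.Def_KahlerDomain

/-!
# R245: a completeness criterion

If `u` is `C¹` on `U` with `|du(X)| ≤ C √g(X,X)` then `|u p - u q| ≤ C dist p q` (fundamental
theorem of calculus along each admissible curve; the set of lengths is nonempty).  For
completeness apply this to `Ξ` (a Cauchy sequence stays in `{Ξ ≤ a}`), and to the real and
imaginary parts of `χ(Ξ z) * z i`, where `χ = 1` on `(-∞, a]`, `χ = 0` on `[a+1, ∞)`: their
gradient vanishes off the compact set containing `{Ξ ≤ a + 2}`, on which `g ≥ c ‖·‖²`.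
-/

set_option autoImplicit false

namespace Crest.Agent.R245

open scoped ContDiff Topology
open Filter Crest.GeometryTopology

theorem continuousOn_riem {n : ℕ} {U : Set (Fin n → ℂ)} (g : HermitianMetricOn n U) :
    ContinuousOn (fun z : (Fin n → ℂ) × (Fin n → ℂ) => g.riem z.1 z.2 z.2) (U ×ˢ Set.univ) := by
  unfold HermitianMetricOn.riem HermitianMetricOn.herm
  refine Complex.continuous_re.comp_continuousOn (continuousOn_finset_sum _ fun i _ =>
    continuousOn_finset_sum _ fun j _ => ?_)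
  refine (((g.smooth i j).continuousOn.comp continuousOn_fst fun z hz => hz.1).mul ?_).mul ?_
  · fun_prop
  · exact (Complex.continuous_conj.comp (by fun_prop)).continuousOn

theorem riem_smul_self {n : ℕ} {U : Set (Fin n → ℂ)} (g : HermitianMetricOn n U)
    (p X : Fin n → ℂ) (r : ℝ) : g.riem p (r • X) (r • X) = r ^ 2 * g.riem p X X := by
  unfold HermitianMetricOn.riem HermitianMetricOn.herm
  rw [← Complex.re_ofReal_mul, Finset.mul_sum]
  congr 1
  refine Finset.sum_congr rfl fun i _ => ?_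
  rw [Finset.mul_sum]
  refine Finset.sum_congr rfl fun j _ => ?_
  simp only [Pi.smul_apply, Complex.real_smul, map_mul, Complex.conj_ofReal]
  push_cast
  ring

/-- On a compact set the metric dominates the norm. -/
theorem exists_norm_le_riem {n : ℕ} {U : Set (Fin n → ℂ)} (g : HermitianMetricOn n U)
    {K : Set (Fin n → ℂ)} (hK : IsCompact K) (hKU : K ⊆ U) :
    ∃ c : ℝ, 0 ≤ c ∧ ∀ p ∈ K, ∀ X, ‖X‖ ≤ c * Real.sqrt (g.riem p X X) := by
  obtain ⟨a, ha, h⟩ := (hK.prod (isCompact_sphere (0 : Fin n → ℂ) 1)).exists_forall_le'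
    ((continuousOn_riem g).mono (Set.prod_mono hKU (Set.subset_univ _))) (a := 0) fun z hz =>
      g.posDef z.1 (hKU hz.1) z.2 fun h0 => by simpa [h0] using hz.2
  have hs : 0 < Real.sqrt a := Real.sqrt_pos.2 ha
  refine ⟨(Real.sqrt a)⁻¹, by positivity, fun p hp X => ?_⟩
  rcases eq_or_ne X 0 with rfl | hX
  · rw [norm_zero]; positivity
  have hn : 0 < ‖X‖ := norm_pos_iff.2 hX
  have h1 := h (p, ‖X‖⁻¹ • X) ⟨hp, by simp [norm_smul, hn.ne']⟩
  have h2 : g.riem p X X = ‖X‖ ^ 2 * g.riem p (‖X‖⁻¹ • X) (‖X‖⁻¹ • X) := by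
    rw [riem_smul_self]; field_simp
  rw [h2, Real.sqrt_mul (sq_nonneg _), Real.sqrt_sq hn.le, le_inv_mul_iff₀ hs, mul_comm]
  exact mul_le_mul_of_nonneg_left (Real.sqrt_le_sqrt h1) hn.le

theorem abs_sub_le_dist {n : ℕ} {U : Set (Fin n → ℂ)} (hU : IsOpen U) (g : HermitianMetricOn n U)
    (hpath : ∀ p ∈ U, ∀ q ∈ U, ∃ γ : ℝ → (Fin n → ℂ), ContDiff ℝ 1 γ ∧ γ 0 = p ∧ γ 1 = q ∧
      ∀ t ∈ Set.Icc (0 : ℝ) 1, γ t ∈ U)
    {u : (Fin n → ℂ) → ℝ} (hu : ContDiffOn ℝ 1 u U) {C : ℝ} (hC : 0 ≤ C)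
    (hg : ∀ p ∈ U, ∀ X, |fderiv ℝ u p X| ≤ C * Real.sqrt (g.riem p X X))
    {p q : Fin n → ℂ} (hp : p ∈ U) (hq : q ∈ U) : |u p - u q| ≤ C * g.dist p q := by
  have key : ∀ γ : ℝ → (Fin n → ℂ), ContDiff ℝ 1 γ → γ 0 = p → γ 1 = q →
      (∀ t ∈ Set.Icc (0 : ℝ) 1, γ t ∈ U) → |u p - u q| ≤ C * g.length γ := by
    intro γ hγ h0 h1 hU'
    have hd : ∀ t ∈ Set.Icc (0 : ℝ) 1,
        HasDerivAt (fun t => u (γ t)) (fderiv ℝ u (γ t) (deriv γ t)) t := fun t ht =>
      ((hu.contDiffAt (hU.mem_nhds (hU' t ht))).differentiableAt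
        one_ne_zero).hasFDerivAt.comp_hasDerivAt t (hγ.differentiable one_ne_zero t).hasDerivAt
    have hc : ContinuousOn (fun t => Real.sqrt (g.riem (γ t) (deriv γ t) (deriv γ t)))
        (Set.Icc 0 1) :=
      ((continuousOn_riem g).comp (hγ.continuous.prodMk (hγ.continuous_deriv le_rfl)).continuousOn
        fun t ht => ⟨hU' t ht, Set.mem_univ _⟩).sqrt
    have h2 := norm_sub_le_integral_of_norm_deriv_le_of_le (f := fun t => u (γ t))
      (B := fun t => C * Real.sqrt (g.riem (γ t) (deriv γ t) (deriv γ t))) zero_le_one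
      (fun t ht => (hd t ht).continuousAt.continuousWithinAt)
      (fun t ht => (hd t (Set.Ioo_subset_Icc_self ht)).differentiableAt.differentiableWithinAt)
      (Eventually.of_forall fun t ht => by
        rw [(hd t (Set.Ioo_subset_Icc_self ht)).deriv]
        exact hg _ (hU' t (Set.Ioo_subset_Icc_self ht)) _)
      ((hc.intervalIntegrable_of_Icc zero_le_one).const_mul C)
    rwa [h0, h1, intervalIntegral.integral_const_mul, Real.norm_eq_abs, abs_sub_comm] at h2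
  obtain ⟨γ, a1, a2, a3, a4⟩ := hpath p hp q hq
  rcases hC.eq_or_lt with rfl | hC'
  · simpa using key γ a1 a2 a3 a4
  · rw [← div_le_iff₀' hC']
    refine le_csInf ⟨_, γ, a1, a2, a3, a4, rfl⟩ ?_
    rintro _ ⟨γ', b1, b2, b3, b4, rfl⟩
    rw [div_le_iff₀' hC']
    exact key γ' b1 b2 b3 b4

theorem isComplete_of_proper {n : ℕ} {U : Set (Fin n → ℂ)} (hU : IsOpen U)
    (g : HermitianMetricOn n U)
    (hpath : ∀ p ∈ U, ∀ q ∈ U, ∃ γ : ℝ → (Fin n → ℂ), ContDiff ℝ 1 γ ∧ γ 0 = p ∧ γ 1 = q ∧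
      ∀ t ∈ Set.Icc (0 : ℝ) 1, γ t ∈ U)
    {Ξ : (Fin n → ℂ) → ℝ} (hΞ : ContDiffOn ℝ 1 Ξ U) {C : ℝ} (hC : 0 ≤ C)
    (hg : ∀ p ∈ U, ∀ X, |fderiv ℝ Ξ p X| ≤ C * Real.sqrt (g.riem p X X))
    (hK : ∀ a : ℝ, ∃ K : Set (Fin n → ℂ), IsCompact K ∧ K ⊆ U ∧ ∀ p ∈ U, Ξ p ≤ a → p ∈ K) :
    g.IsComplete := by
  intro u hu hc
  have cau : ∀ {f : (Fin n → ℂ) → ℝ} {D : ℝ}, ContDiffOn ℝ 1 f U → 0 ≤ D →
      (∀ p ∈ U, ∀ X, |fderiv ℝ f p X| ≤ D * Real.sqrt (g.riem p X X)) →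
      CauchySeq fun m => f (u m) := by
    intro f D hf hD hb
    refine Metric.cauchySeq_iff.2 fun ε hε => ?_
    obtain ⟨N, hN⟩ := hc (ε / (D + 1)) (by positivity)
    refine ⟨N, fun m hm k hk => ?_⟩
    have h1 := abs_sub_le_dist hU g hpath hf hD hb (hu m) (hu k)
    have h2 := mul_le_mul_of_nonneg_left (hN m k hm hk).le hD
    have h3 : D * (ε / (D + 1)) < ε := by
      rw [mul_div_assoc', div_lt_iff₀ (by positivity)]; nlinarith
    rw [Real.dist_eq]
    linarith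
  obtain ⟨a, ha⟩ := (cau hΞ hC hg).isBounded_range.bddAbove
  obtain ⟨K, hK1, hK2, hK3⟩ := hK a
  obtain ⟨q, hq, φ, hφ, hlim⟩ := hK1.tendsto_subseq fun m => hK3 _ (hu m) (ha ⟨m, rfl⟩)
  refine ⟨q, hK2 hq, tendsto_def.2 fun s hs => ?_⟩
  obtain ⟨f, h1, h2, h3, -, h4⟩ := exists_contDiff_tsupport_subset (n := 1)
    (inter_mem hs (hU.mem_nhds (hK2 hq)))
  obtain ⟨c, hc0, hc1⟩ := exists_norm_le_riem g h2.isCompact fun x hx => (h1 hx).2
  obtain ⟨M, hM⟩ := (h3.continuous_fderiv one_ne_zero).bounded_above_of_compact_support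
    (h2.fderiv ℝ)
  have hM0 : 0 ≤ M := (norm_nonneg _).trans (hM 0)
  have h5 : CauchySeq fun m => f (u m) := cau h3.contDiffOn (mul_nonneg hM0 hc0) fun p _ X => by
    by_cases hp : p ∈ tsupport f
    · rw [mul_assoc]
      exact ((fderiv ℝ f p).le_opNorm X).trans (mul_le_mul (hM p) (hc1 p hp X) (norm_nonneg _) hM0)
    · rw [fderiv_of_notMem_tsupport ℝ hp]
      simp only [ContinuousLinearMap.zero_apply, abs_zero]
      positivity
  have h6 : Tendsto (fun m => f (u m)) atTop (𝓝 (f q)) :=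
    tendsto_nhds_of_cauchySeq_of_subseq h5 hφ.tendsto_atTop
      ((h3.continuous.tendsto q).comp hlim)
  filter_upwards [h6.eventually_ne (show f q ≠ 0 by rw [h4]; exact one_ne_zero)] with m hm
  exact (h1 (subset_tsupport f hm)).1

end Crest.Agent.R245
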