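import Crest.Agent.R245.JetB

/-!
# R245: curvature bounds at the level of jets

For the jet `u` of a Kähler potential, `u.de` is the metric, a Christoffel map `B` satisfies
`u.de (B a c) b = u.dde a c b`, `mR u B a b c d = -R(a, b̄, c, d̄)` and the sectional curvature of
the plane `ξ, η` is `-Nm u B ξ η / Wd u ξ η`.
-/

set_option autoImplicit false
set_option linter.unusedSectionVars false

namespace Crest.Agent.R245

open scoped ComplexConjugate

variable {V W : Type*}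

def IsChr (u : J V) (B : V → V → V) : Prop := ∀ a c b, u.de (B a c) b = u.dde a c b

def mR (u : J V) (B : V → V → V) (a b c d : V) : ℂ := u.ddee a c b d - u.de (B a c) (B b d)

def Nm (u : J V) (B : V → V → V) (ξ η : V) : ℝ := (mR u B ξ η η ξ - mR u B η ξ η ξ).re

def Wd (u : J V) (ξ η : V) : ℝ := (u.de ξ ξ).re * (u.de η η).re - (u.de ξ η).re ^ 2

/-- symmetrised sectional combination of a 4-form `F a b c d` -/
noncomputable def Sf (F : V → V → V → V → ℂ) (ξ η : V) : ℝ :=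
  (F ξ ξ η η - (F ξ η ξ η + F η ξ η ξ) / 2).re

theorem Sf_add (F G : V → V → V → V → ℂ) (ξ η : V) :
    Sf (fun a b c d => F a b c d + G a b c d) ξ η = Sf F ξ η + Sf G ξ η := by
  simp only [Sf, ← Complex.add_re]; congr 1; ring

theorem Sf_sub (F G : V → V → V → V → ℂ) (ξ η : V) :
    Sf (fun a b c d => F a b c d - G a b c d) ξ η = Sf F ξ η - Sf G ξ η := by
  simp only [Sf, ← Complex.sub_re]; congr 1; ring

/-- a form bounded by a product of seminorms has a bounded sectional combination -/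
theorem abs_Sf_le {F : V → V → V → V → ℂ} {n : V → ℝ} {C : ℝ}
    (h : ∀ a b c d, ‖F a b c d‖ ≤ C * (n a * n b * n c * n d)) (ξ η : V) :
    |Sf F ξ η| ≤ 2 * C * (n ξ ^ 2 * n η ^ 2) := by
  have h1 := h ξ ξ η η
  have h2 := h ξ η ξ η
  have h3 := h η ξ η ξ
  have h4 : ‖F ξ ξ η η - (F ξ η ξ η + F η ξ η ξ) / 2‖ ≤
      ‖F ξ ξ η η‖ + (‖F ξ η ξ η‖ + ‖F η ξ η ξ‖) / 2 := by
    refine (norm_sub_le _ _).trans ?_
    rw [norm_div, Complex.norm_ofNat]
    have := norm_add_le (F ξ η ξ η) (F η ξ η ξ)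
    linarith
  have h5 := Complex.abs_re_le_norm (F ξ ξ η η - (F ξ η ξ η + F η ξ η ξ) / 2)
  have e1 : C * (n ξ * n ξ * n η * n η) = C * (n ξ ^ 2 * n η ^ 2) := by ring
  have e2 : C * (n ξ * n η * n ξ * n η) = C * (n ξ ^ 2 * n η ^ 2) := by ring
  have e3 : C * (n η * n ξ * n η * n ξ) = C * (n ξ ^ 2 * n η ^ 2) := by ring
  unfold Sf
  linarith

variable [AddCommGroup V] [Module ℂ V] [AddCommGroup W] [Module ℂ W]

/-- positive Levi form and sectional curvature in `[-hi, -lo]` -/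
structure Good (u : J V) (lo hi : ℝ) : Prop where
  pos : ∀ a, a ≠ 0 → 0 < (u.de a a).re
  curv : ∀ B, IsChr u B → ∀ ξ η, lo * Wd u ξ η ≤ Nm u B ξ η ∧ Nm u B ξ η ≤ hi * Wd u ξ η

/-- some sectional curvature is at most `-K` -/
def Big (u : J V) (K : ℝ) : Prop :=
  ∀ B, IsChr u B → ∃ ξ η, 0 < Wd u ξ η ∧ K * Wd u ξ η ≤ Nm u B ξ η

theorem de_expand {u : J V} (hl : u.Lin) (ξ η : V) (t : ℝ) :
    u.de (η + (t : ℂ) • ξ) (η + (t : ℂ) • ξ) =
      u.de η η + t * u.de η ξ + t * u.de ξ η + t * (t * u.de ξ ξ) := by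
  rw [(hl.de1 _).add, (hl.de1 _).smul, (hl.de2 _).add, (hl.de2 _).add, (hl.de2 _).smul,
    (hl.de2 _).smul, Complex.conj_ofReal]
  ring

/-- Cauchy-Schwarz -/
theorem Wd_nonneg {u : J V} (hl : u.Lin) (hh : u.Herm) (hp : ∀ a, a ≠ 0 → 0 < (u.de a a).re)
    (ξ η : V) : 0 ≤ Wd u ξ η := by
  have hq : ∀ a, 0 ≤ (u.de a a).re := fun a => by
    by_cases ha : a = 0
    · subst ha; rw [(hl.de1 0).zero]; simp
    · exact (hp a ha).le
  have hs : (u.de η ξ).re = (u.de ξ η).re := by rw [hh.de η ξ, Complex.conj_re]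
  have := discrim_le_zero (a := (u.de ξ ξ).re) (b := 2 * (u.de ξ η).re) (c := (u.de η η).re)
    (fun t => by
      have := hq (η + (t : ℂ) • ξ)
      rw [de_expand hl] at this
      simp only [Complex.add_re, Complex.re_ofReal_mul, hs] at this
      linarith)
  unfold Wd
  unfold discrim at this
  linarith

theorem Good.mono {u : J V} (hl : u.Lin) (hh : u.Herm) {lo hi lo' hi' : ℝ} (h : Good u lo hi)
    (h1 : lo' ≤ lo) (h2 : hi ≤ hi') : Good u lo' hi' := by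
  refine ⟨h.pos, fun B hB ξ η => ?_⟩
  have h0 := Wd_nonneg hl hh h.pos ξ η
  obtain ⟨a, b⟩ := h.curv B hB ξ η
  exact ⟨(mul_le_mul_of_nonneg_right h1 h0).trans a, b.trans (mul_le_mul_of_nonneg_right h2 h0)⟩

theorem Big.mono {u : J V} {K K' : ℝ} (h : Big u K) (h1 : K' ≤ K) : Big u K' := by
  intro B hB
  obtain ⟨ξ, η, h0, h2⟩ := h B hB
  exact ⟨ξ, η, h0, (mul_le_mul_of_nonneg_right h1 h0.le).trans h2⟩

/-- a Christoffel map of a nondegenerate jet is symmetric bilinear -/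
theorem IsChr.isBil {u : J V} (hl : u.Lin) (hp : ∀ a, a ≠ 0 → 0 < (u.de a a).re)
    {B : V → V → V} (hB : IsChr u B) : IsBil B := by
  have ext : ∀ x y, (∀ b, u.de x b = u.de y b) → x = y := fun x y hxy => by
    by_contra hne
    have := hp (x - y) (sub_ne_zero.2 hne)
    rw [(hl.de1 (x - y)).sub, hxy, sub_self] at this
    simp at this
  refine ⟨fun a c => ext _ _ fun b => ?_, fun a a' c => ext _ _ fun b => ?_,
    fun t a c => ext _ _ fun b => ?_⟩
  · rw [hB, hB, hl.dde_symm]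
  · rw [(hl.de1 b).add, hB, hB, hB, (hl.dde1 c b).add]
  · rw [(hl.de1 b).smul, hB, hB, (hl.dde1 c b).smul]

theorem Nm_eq_Sf {u : J V} (hl : u.Lin) (hh : u.Herm) (hp : ∀ a, a ≠ 0 → 0 < (u.de a a).re)
    {B : V → V → V} (hB : IsChr u B) (ξ η : V) : Nm u B ξ η = Sf (mR u B) ξ η := by
  have hb := hB.isBil hl hp
  have e1 : mR u B ξ η η ξ = mR u B ξ ξ η η := by
    simp only [mR]; rw [hl.ddee_symm2 ξ η η ξ, hb.symm η ξ]
  have e2 : mR u B ξ η ξ η = conj (mR u B η ξ η ξ) := by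
    simp only [mR, map_sub]; rw [hh.ddee ξ ξ η η, hh.de (B ξ ξ) (B η η)]
  simp only [Nm, Sf, e1, e2, Complex.sub_re, Complex.div_ofNat_re, Complex.add_re,
    Complex.conj_re]
  ring

/-- `B - G` is a Christoffel map for `cov G u` with the same curvature tensor -/
theorem IsChr.cov {u : J V} (hl : u.Lin) (hh : u.Herm) {B : V → V → V} (hB : IsChr u B)
    (G : V → V → V) : IsChr (u.cov G) (fun a c => B a c - G a c) ∧
      ∀ a b c d, mR (u.cov G) (fun a c => B a c - G a c) a b c d = mR u B a b c d := by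
  refine ⟨fun a c b => ?_, fun a b c d => ?_⟩
  · simp only [J.cov]
    rw [(hl.de1 b).sub, hB]
  · have e : u.de (G a c) (B b d) = u.dee (G a c) b d := by rw [hh.de, hB, ← hh.dee]
    simp only [mR, J.cov]
    rw [(hl.de1 _).sub, (hl.de2 _).sub, (hl.de2 _).sub, e, hB a c (G b d)]
    ring

theorem Good.of_cov {u : J V} (hl : u.Lin) (hh : u.Herm) (G : V → V → V) {lo hi : ℝ}
    (h : Good (u.cov G) lo hi) : Good u lo hi := by
  refine ⟨h.pos, fun B hB ξ η => ?_⟩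
  obtain ⟨h1, h2⟩ := hB.cov hl hh G
  have := h.curv _ h1 ξ η
  simp only [Nm, h2] at this
  exact this

theorem Big.of_cov {u : J V} (hl : u.Lin) (hh : u.Herm) (G : V → V → V) {K : ℝ}
    (h : Big (u.cov G) K) : Big u K := by
  intro B hB
  obtain ⟨h1, h2⟩ := hB.cov hl hh G
  obtain ⟨ξ, η, h3⟩ := h _ h1
  simp only [Nm, h2] at h3
  exact ⟨ξ, η, h3⟩

theorem IsChr.lift {u : J V} {B : V → V → V} (hB : IsChr u B) (M : W →ₗ[ℂ] V)
    (hM : Function.Surjective M) :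
    ∃ B', IsChr (u.comap M) B' ∧ ∀ x y, Nm (u.comap M) B' x y = Nm u B (M x) (M y) := by
  obtain ⟨s, hs⟩ := hM.hasRightInverse
  refine ⟨fun x y => s (B (M x) (M y)), fun x y z => ?_, fun x y => ?_⟩
  · simp only [J.comap]; rw [hs, hB]
  · simp only [Nm, mR, J.comap, hs _]

theorem IsChr.push {u : J V} (M : W →ₗ[ℂ] V) {B : W → W → W} (hB : IsChr (u.comap M) B)
    (hM : Function.Bijective M) :
    ∃ B', IsChr u B' ∧ ∀ x y, Nm (u.comap M) B x y = Nm u B' (M x) (M y) := by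
  obtain ⟨s, hs1, hs2⟩ := Function.bijective_iff_has_inverse.1 hM
  refine ⟨fun a c => M (B (s a) (s c)), fun a c b => ?_, fun x y => ?_⟩
  · have := hB (s a) (s c) (s b)
    simp only [J.comap, hs2 _] at this
    exact this
  · simp only [Nm, mR, J.comap, hs1 _]

/-- descent along a surjective linear map -/
theorem Good.of_comap {u : J V} (M : W →ₗ[ℂ] V) (hM : Function.Surjective M) {lo hi : ℝ}
    (h : Good (u.comap M) lo hi) : Good u lo hi := by
  refine ⟨fun a ha => ?_, fun B hB ξ η => ?_⟩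
  · obtain ⟨x, rfl⟩ := hM a
    exact h.pos x (fun hx => ha (by rw [hx, map_zero]))
  · obtain ⟨x, rfl⟩ := hM ξ
    obtain ⟨y, rfl⟩ := hM η
    obtain ⟨B', h1, h2⟩ := hB.lift M hM
    have := h.curv _ h1 x y
    rw [h2] at this
    exact this

theorem Big.of_comap {u : J V} (M : W →ₗ[ℂ] V) (hM : Function.Surjective M) {K : ℝ}
    (h : Big (u.comap M) K) : Big u K := by
  intro B hB
  obtain ⟨B', h1, h2⟩ := hB.lift M hM
  obtain ⟨x, y, h3⟩ := h _ h1
  rw [h2] at h3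
  exact ⟨M x, M y, h3⟩

/-- pull-back along a bijective linear map -/
theorem Good.comap {u : J V} (M : W →ₗ[ℂ] V) (hM : Function.Bijective M) {lo hi : ℝ}
    (h : Good u lo hi) : Good (u.comap M) lo hi := by
  refine ⟨fun a ha => h.pos (M a) fun hx => ha (hM.1 (by rw [hx, map_zero])), fun B hB ξ η => ?_⟩
  obtain ⟨B', h1, h2⟩ := hB.push M hM
  rw [h2]
  exact h.curv _ h1 (M ξ) (M η)

theorem Big.comap {u : J V} (M : W →ₗ[ℂ] V) (hM : Function.Bijective M) {K : ℝ}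
    (h : Big u K) : Big (u.comap M) K := by
  intro B hB
  obtain ⟨B', h1, h2⟩ := hB.push M hM
  obtain ⟨ξ, η, h3⟩ := h _ h1
  obtain ⟨x, rfl⟩ := hM.2 ξ
  obtain ⟨y, rfl⟩ := hM.2 η
  refine ⟨x, y, ?_⟩
  rw [h2]
  exact h3

omit [AddCommGroup V] [Module ℂ V] in
theorem IsChr.of_smul {u : J V} {t : ℝ} {B : V → V → V} (hB : IsChr (u.smul t) B) (ht : 0 < t) :
    IsChr u B := fun a c b =>
  mul_left_cancel₀ (Complex.ofReal_ne_zero.2 ht.ne') (hB a c b)

omit [AddCommGroup V] [Module ℂ V] in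
theorem Wd_smul (u : J V) (t : ℝ) (ξ η : V) : Wd (u.smul t) ξ η = t ^ 2 * Wd u ξ η := by
  simp only [Wd, J.smul, Complex.re_ofReal_mul]; ring

omit [AddCommGroup V] [Module ℂ V] in
theorem Nm_smul (u : J V) (t : ℝ) (B : V → V → V) (ξ η : V) :
    Nm (u.smul t) B ξ η = t * Nm u B ξ η := by
  simp only [Nm, mR, J.smul, Complex.sub_re, Complex.re_ofReal_mul]; ring

theorem Good.smul {u : J V} {lo hi t : ℝ} (ht : 0 < t) (h : Good u lo hi) :
    Good (u.smul t) (lo / t) (hi / t) := by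
  refine ⟨fun a ha => ?_, fun B hB ξ η => ?_⟩
  · simp only [J.smul, Complex.re_ofReal_mul]
    exact mul_pos ht (h.pos a ha)
  · obtain ⟨h1, h2⟩ := h.curv B (hB.of_smul ht) ξ η
    rw [Wd_smul, Nm_smul]
    constructor
    · calc lo / t * (t ^ 2 * Wd u ξ η) = t * (lo * Wd u ξ η) := by field_simp
        _ ≤ _ := mul_le_mul_of_nonneg_left h1 ht.le
    · calc _ ≤ t * (hi * Wd u ξ η) := mul_le_mul_of_nonneg_left h2 ht.le
        _ = _ := by field_simp

theorem Big.smul {u : J V} {K t : ℝ} (ht : 0 < t) (h : Big u K) : Big (u.smul t) (K / t) := by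
  intro B hB
  obtain ⟨ξ, η, h1, h2⟩ := h B (hB.of_smul ht)
  refine ⟨ξ, η, ?_, ?_⟩
  · rw [Wd_smul]; positivity
  · rw [Wd_smul, Nm_smul]
    calc K / t * (t ^ 2 * Wd u ξ η) = t * (K * Wd u ξ η) := by field_simp
      _ ≤ _ := mul_le_mul_of_nonneg_left h2 ht.le

theorem Wd_shear {u : J V} (hl : u.Lin) (hh : u.Herm) (ξ η : V) (t : ℝ) :
    Wd u ξ (η + (t : ℂ) • ξ) = Wd u ξ η := by
  have hs : (u.de η ξ).re = (u.de ξ η).re := by rw [hh.de η ξ, Complex.conj_re]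
  simp only [Wd]
  rw [de_expand hl, (hl.de2 ξ).add, (hl.de2 ξ).smul, Complex.conj_ofReal]
  simp only [Complex.add_re, Complex.re_ofReal_mul, hs]
  ring

theorem mR_symm1 {u : J V} (hl : u.Lin) {B : V → V → V} (hb : IsBil B) (a b c d : V) :
    mR u B a b c d = mR u B c b a d := by
  simp only [mR]; rw [hl.ddee_symm1, hb.symm a c]

theorem mR_symm2 {u : J V} (hl : u.Lin) {B : V → V → V} (hb : IsBil B) (a b c d : V) :
    mR u B a b c d = mR u B a d c b := by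
  simp only [mR]; rw [hl.ddee_symm2, hb.symm b d]

theorem mR_1 {u : J V} (hl : u.Lin) {B : V → V → V} (hb : IsBil B) (a a' b c d : V) (t : ℝ) :
    mR u B (a + (t : ℂ) • a') b c d = mR u B a b c d + t * mR u B a' b c d := by
  simp only [mR]
  rw [(hl.ddee1 c b d).add, (hl.ddee1 c b d).smul, hb.add, hb.smul, (hl.de1 _).add,
    (hl.de1 _).smul]
  ring

theorem mR_2 {u : J V} (hl : u.Lin) {B : V → V → V} (hb : IsBil B) (a b b' c d : V) (t : ℝ) :
    mR u B a (b + (t : ℂ) • b') c d = mR u B a b c d + t * mR u B a b' c d := by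
  simp only [mR]
  rw [(hl.ddee3 a c d).add, (hl.ddee3 a c d).smul, hb.add, hb.smul, (hl.de2 _).add,
    (hl.de2 _).smul, Complex.conj_ofReal]
  ring

theorem Sf_shear {u : J V} (hl : u.Lin) {B : V → V → V} (hb : IsBil B) (ξ η : V) (t : ℝ) :
    Sf (mR u B) ξ (η + (t : ℂ) • ξ) = Sf (mR u B) ξ η := by
  have h3 : ∀ a b c c' d, mR u B a b (c + (t : ℂ) • c') d =
      mR u B a b c d + t * mR u B a b c' d := fun a b c c' d => by
    rw [mR_symm1 hl hb, mR_1 hl hb, mR_symm1 hl hb c, mR_symm1 hl hb c']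
  have h4 : ∀ a b c d d', mR u B a b c (d + (t : ℂ) • d') =
      mR u B a b c d + t * mR u B a b c d' := fun a b c d d' => by
    rw [mR_symm2 hl hb, mR_2 hl hb, mR_symm2 hl hb a d, mR_symm2 hl hb a d']
  simp only [Sf, mR_1 hl hb, mR_2 hl hb, h3, h4]
  rw [mR_symm1 hl hb η ξ ξ ξ, mR_symm2 hl hb ξ η ξ ξ]
  congr 1
  ring

/-- it suffices to treat pairs that are orthogonal for an auxiliary real inner product `ip`:
`Nm` and `Wd` are invariant under `η ↦ η + t • ξ`, `t` real. -/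
theorem good_of_orth {u : J V} (hl : u.Lin) (hh : u.Herm) (hp : ∀ a, a ≠ 0 → 0 < (u.de a a).re)
    (ip : V → V → ℝ) (hip : ∀ ξ η (t : ℝ), ip ξ (η + (t : ℂ) • ξ) = ip ξ η + t * ip ξ ξ)
    (hip0 : ∀ ξ η, ip ξ ξ = 0 → ip ξ η = 0) {lo hi : ℝ}
    (h : ∀ B, IsChr u B → ∀ ξ η, ip ξ η = 0 →
      lo * Wd u ξ η ≤ Sf (mR u B) ξ η ∧ Sf (mR u B) ξ η ≤ hi * Wd u ξ η) : Good u lo hi := by
  refine ⟨hp, fun B hB ξ η => ?_⟩
  rw [Nm_eq_Sf hl hh hp hB]
  by_cases h0 : ip ξ ξ = 0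
  · exact h B hB ξ η (hip0 ξ η h0)
  · have := h B hB ξ (η + ((-ip ξ η / ip ξ ξ : ℝ) : ℂ) • ξ) (by rw [hip]; field_simp; ring)
    rwa [Wd_shear hl hh, Sf_shear hl (hB.isBil hl hp)] at this

end Crest.Agent.R245
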