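import Crest.Agent.R245.CalcB
import Crest.Agent.R245.Good

/-!
# R245: the Hartogs potential `ψ - η log (1 - |w|² e^φ)` in an adapted frame

Coordinates on `Fin 3 → ℂ`: index `0` is vertical, `1, 2` are horizontal.
-/

set_option autoImplicit false

namespace Crest.Agent.R245

open scoped ComplexConjugate

/-- jet of `s = |w|² e^φ` in the normalised gauge (`w'` is the normalised fibre coordinate, `α`
its covariant differential); only the mixed derivatives of `φ` enter. -/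
noncomputable def Sn {V : Type*} (w : ℂ) (α : V → ℂ) (φ : J V) : J V where
  v := w * conj w
  d a := conj w * α a
  e b := w * conj (α b)
  dd _ _ := 0
  de a b := α a * conj (α b) + w * conj w * φ.de a b
  ee _ _ := 0
  dde a c b := conj w * (α a * φ.de c b + α c * φ.de a b) + w * conj w * φ.dde a c b
  dee a b d := w * (conj (α b) * φ.de a d + conj (α d) * φ.de a b) + w * conj w * φ.dee a b d
  ddee a c b d :=
    w * conj w * (φ.ddee a c b d + φ.de a b * φ.de c d + φ.de a d * φ.de c b) +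
    conj w * (α a * φ.dee c b d + α c * φ.dee a b d) +
    w * (conj (α b) * φ.dde a c d + conj (α d) * φ.dde a c b) +
    (α a * conj (α b) * φ.de c d + α a * conj (α d) * φ.de c b +
      α c * conj (α b) * φ.de a d + α c * conj (α d) * φ.de a b)

/-- jet of `ψ + η · (-log (1 - s))` -/
noncomputable def Pjet {V : Type*} (ψ φ η : J V) (w : ℂ) (α : V → ℂ) : J V :=
  ψ.add (η.mul ((Sn w α φ).comp (Lv (Complex.normSq w))))

theorem comap_Pjet {V W : Type*} (M : W → V) (ψ φ η : J V) (w : ℂ) (α : V → ℂ) :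
    (Pjet ψ φ η w α).comap M =
      Pjet (ψ.comap M) (φ.comap M) (η.comap M) w (fun a => α (M a)) := rfl

noncomputable def ip (a b : Fin 3 → ℂ) : ℂ := a 0 * conj (b 0) + a 1 * conj (b 1) + a 2 * conj (b 2)

noncomputable def nn (a : Fin 3 → ℂ) : ℝ :=
  √(Complex.normSq (a 0) + Complex.normSq (a 1) + Complex.normSq (a 2))

noncomputable def hn (a : Fin 3 → ℂ) : ℝ := √(Complex.normSq (a 1) + Complex.normSq (a 2))

/-- diagonal horizontal Hermitian form -/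
noncomputable def dg (x₁ x₂ : ℝ) (a b : Fin 3 → ℂ) : ℂ :=
  x₁ * (a 1 * conj (b 1)) + x₂ * (a 2 * conj (b 2))

/-- the mixed part of the bivector `ξ ∧ η` -/
noncomputable def vv (ξ η : Fin 3 → ℂ) : Fin 3 → ℂ := conj (ξ 0) • η - conj (η 0) • ξ

/-- The numerical data of an adapted orthonormal frame: `κ = η`, `s = |w|²`, `τ = κ s / (1-s)`,
`ψ.de = dg p₁ p₂`, `φ.de = dg g₁ g₂`, the base is `A` times the Bergman metric up to errors,
`T` bounds `φ.de / ψ.de`. -/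
structure Fr where
  κ : ℝ
  w : ℂ
  p₁ : ℝ
  p₂ : ℝ
  g₁ : ℝ
  g₂ : ℝ
  A : ℝ
  T : ℝ

namespace Fr

variable (f : Fr)

noncomputable def s : ℝ := Complex.normSq f.w
noncomputable def r : ℝ := 1 - f.s
noncomputable def τ : ℝ := f.κ * f.s / f.r
noncomputable def t : ℝ := f.τ / (1 + f.τ)
noncomputable def q : ℝ := 1 + f.t ^ 3 / f.κ
noncomputable def mh : ℝ := 1 + f.t / f.κ
noncomputable def Φ : ℝ := f.τ / f.r
noncomputable def μ : ℂ := (√f.κ / f.r : ℝ) * conj f.w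
noncomputable def m₁ : ℝ := f.g₁ / f.r * (f.s + f.p₁)
noncomputable def m₂ : ℝ := f.g₂ / f.r * (f.s + f.p₂)
/-- the vertical covector in the orthonormal frame -/
noncomputable def α (a : Fin 3 → ℂ) : ℂ := (f.r / √f.κ : ℝ) * a 0
/-- `H⁻¹ Θ` -/
noncomputable def u (a : Fin 3 → ℂ) : Fin 3 → ℂ := ![0, f.g₁ * a 1, f.g₂ * a 2]
/-- the seminorm dominating the base norm -/
noncomputable def n (a : Fin 3 → ℂ) : ℝ := √(1 / (1 + f.τ)) * hn a

/-- Christoffel map of the model -/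
noncomputable def B0 (a c : Fin 3 → ℂ) : Fin 3 → ℂ :=
  ![(2 / √f.κ : ℝ) * conj f.w * (a 0 * c 0), f.μ * f.g₁ * (a 0 * c 1 + c 0 * a 1),
    f.μ * f.g₂ * (a 0 * c 2 + c 0 * a 2)]

/-- minus the curvature tensor of the model -/
noncomputable def R0 (a b c d : Fin 3 → ℂ) : ℂ :=
  ((1 + f.τ) / f.A : ℝ) * (dg f.p₁ f.p₂ a b * dg f.p₁ f.p₂ c d + dg f.p₁ f.p₂ a d * dg f.p₁ f.p₂ c b) +
  (f.Φ : ℝ) * (dg f.g₁ f.g₂ a b * dg f.g₁ f.g₂ c d + dg f.g₁ f.g₂ a d * dg f.g₁ f.g₂ c b) +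
  (2 / f.κ : ℝ) * (a 0 * c 0 * conj (b 0) * conj (d 0)) +
  (a 0 * conj (b 0) * dg f.m₁ f.m₂ c d + a 0 * conj (d 0) * dg f.m₁ f.m₂ c b +
    c 0 * conj (b 0) * dg f.m₁ f.m₂ a d + c 0 * conj (d 0) * dg f.m₁ f.m₂ a b)

structure OK : Prop where
  κ_pos : 0 < f.κ
  κ_le : f.κ ≤ 1
  s_lt : f.s < 1
  p₁_pos : 0 < f.p₁
  p₂_pos : 0 < f.p₂
  e₁ : f.p₁ + f.τ * f.g₁ = 1
  e₂ : f.p₂ + f.τ * f.g₂ = 1
  l₁ : f.p₁ ≤ f.g₁
  l₂ : f.p₂ ≤ f.g₂
  u₁ : f.g₁ ≤ f.T * f.p₁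
  u₂ : f.g₂ ≤ f.T * f.p₂
  A_pos : 0 < f.A
  A_le : f.A ≤ 1
  T_ge : 1 ≤ f.T
  κT : f.κ * f.T ^ 3 ≤ 1
  alt : (f.g₁ = f.p₁ ∧ f.g₂ = f.p₂) ∨ 3 * f.κ * f.T ^ 2 ≤ 1

/-- the quadratic quantity controlling all errors -/
noncomputable def Q (ξ η : Fin 3 → ℂ) : ℝ := f.q * (nn ξ ^ 2 * nn η ^ 2) + f.mh * hn (vv ξ η) ^ 2

/-- the upper curvature constant -/
noncomputable def hi : ℝ := 1000 * (1 / f.A + f.T + 1 / f.κ)

end Fr

theorem nn_nonneg (a : Fin 3 → ℂ) : 0 ≤ nn a := Real.sqrt_nonneg _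
theorem hn_nonneg (a : Fin 3 → ℂ) : 0 ≤ hn a := Real.sqrt_nonneg _

theorem nn_sq (a : Fin 3 → ℂ) :
    nn a ^ 2 = Complex.normSq (a 0) + Complex.normSq (a 1) + Complex.normSq (a 2) :=
  Real.sq_sqrt (by have := Complex.normSq_nonneg (a 0); have := Complex.normSq_nonneg (a 1)
                   have := Complex.normSq_nonneg (a 2); linarith)

theorem hn_sq (a : Fin 3 → ℂ) : hn a ^ 2 = Complex.normSq (a 1) + Complex.normSq (a 2) :=
  Real.sq_sqrt (add_nonneg (Complex.normSq_nonneg _) (Complex.normSq_nonneg _))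

theorem hn_le_nn (a : Fin 3 → ℂ) : hn a ≤ nn a :=
  Real.sqrt_le_sqrt (by have := Complex.normSq_nonneg (a 0); linarith)

theorem norm_zero_le_nn (a : Fin 3 → ℂ) : ‖a 0‖ ≤ nn a := by
  apply Real.le_sqrt_of_sq_le
  rw [← Complex.normSq_eq_norm_sq]
  have := Complex.normSq_nonneg (a 1); have := Complex.normSq_nonneg (a 2); linarith

theorem norm_one_le_hn (a : Fin 3 → ℂ) : ‖a 1‖ ≤ hn a := by
  apply Real.le_sqrt_of_sq_le
  rw [← Complex.normSq_eq_norm_sq]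
  have := Complex.normSq_nonneg (a 2); linarith

theorem norm_two_le_hn (a : Fin 3 → ℂ) : ‖a 2‖ ≤ hn a := by
  apply Real.le_sqrt_of_sq_le
  rw [← Complex.normSq_eq_norm_sq]
  have := Complex.normSq_nonneg (a 1); linarith

theorem ip_self_re (a : Fin 3 → ℂ) : (ip a a).re = nn a ^ 2 := by
  rw [nn_sq]; simp [ip, Complex.mul_conj]

end Crest.Agent.R245
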