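import Crest.Agent.R245.Pert

/-!
# R245: the jet of `L = -log (1 - s)` in the adapted frame, after `cov B0`

Pure algebra (`simp only [...]`, `field_simp`, `ring`), using `w * conj w = s`, `r = 1 - s`,
`τ = κ s / r`, `√κ² = κ`, `pᵢ + τ gᵢ = 1` and the fact that base jets kill vertical vectors
(`Bd` for the seminorm `f.n` together with `Lin`).
-/

set_option autoImplicit false
set_option linter.unusedSimpArgs false

namespace Crest.Agent.R245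

open scoped ComplexConjugate

namespace Fr

variable {f : Fr}

/-- the jet of `L` after both changes of coordinates -/
noncomputable def LB (f : Fr) (φ : J (Fin 3 → ℂ)) : J (Fin 3 → ℂ) :=
  ((Sn f.w f.α φ).comp (Lv f.s)).cov f.B0

theorem B0_eq (a c : Fin 3 → ℂ) : f.B0 a c =
    ![(2 / √f.κ : ℝ) * conj f.w * (a 0 * c 0), 0, 0] + (f.μ * a 0) • f.u c +
      (f.μ * c 0) • f.u a := by
  funext i
  fin_cases i <;> simp [B0, u] <;> ring

/-- a base jet evaluated on `B0 a c` -/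
theorem base_B0 {y : (Fin 3 → ℂ) → ℂ} (hy : IsL y) (h0 : ∀ t : ℂ, y ![t, 0, 0] = 0) (a c : Fin 3 → ℂ) :
    y (f.B0 a c) = f.μ * (a 0 * y (f.u c) + c 0 * y (f.u a)) := by
  rw [B0_eq, hy.add, hy.add, hy.smul, hy.smul, h0]
  ring

theorem base_B0' {y : (Fin 3 → ℂ) → ℂ} (hy : IsA y) (h0 : ∀ t : ℂ, y ![t, 0, 0] = 0) (b d : Fin 3 → ℂ) :
    y (f.B0 b d) = conj f.μ * (conj (b 0) * y (f.u d) + conj (d 0) * y (f.u b)) := by
  rw [B0_eq, hy.add, hy.add, hy.smul, hy.smul, h0, map_mul, map_mul]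
  ring

theorem n_vert (t : ℂ) : f.n ![t, 0, 0] = 0 := by
  simp [Fr.n, hn]

theorem n_nonneg (a : Fin 3 → ℂ) : 0 ≤ f.n a := mul_nonneg (Real.sqrt_nonneg _) (hn_nonneg _)

theorem OK.n_le (h : f.OK) (a : Fin 3 → ℂ) : f.n a ≤ hn a := by
  have h1 := h.τ_nonneg
  refine mul_le_of_le_one_left (hn_nonneg a) (Real.sqrt_le_one.2 ?_)
  rw [div_le_one (by linarith)]
  linarith

/-- the parameters as rational functions of `K = √κ`, `w`, `conj w`, `g₁`, `g₂` -/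
theorem OK.cplx (h : f.OK) : ((√f.κ : ℝ) : ℂ) ≠ 0 ∧ 1 - f.w * conj f.w ≠ 0 ∧
    (f.κ : ℂ) = ((√f.κ : ℝ) : ℂ) ^ 2 ∧ (f.s : ℂ) = f.w * conj f.w ∧
    (f.r : ℂ) = 1 - f.w * conj f.w ∧
    (f.τ : ℂ) = ((√f.κ : ℝ) : ℂ) ^ 2 * (f.w * conj f.w) / (1 - f.w * conj f.w) ∧
    (f.p₁ : ℂ) = 1 - ((√f.κ : ℝ) : ℂ) ^ 2 * (f.w * conj f.w) / (1 - f.w * conj f.w) * f.g₁ ∧
    (f.p₂ : ℂ) = 1 - ((√f.κ : ℝ) : ℂ) ^ 2 * (f.w * conj f.w) / (1 - f.w * conj f.w) * f.g₂ := by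
  have h1 : (f.κ : ℂ) = ((√f.κ : ℝ) : ℂ) ^ 2 := by
    rw [← Complex.ofReal_pow, Real.sq_sqrt h.κ_pos.le]
  have h2 : (f.s : ℂ) = f.w * conj f.w := (Complex.mul_conj f.w).symm
  have h3 : (f.r : ℂ) = 1 - f.w * conj f.w := by rw [← h2, Fr.r]; push_cast; rfl
  have h4 : (f.τ : ℂ) = ((√f.κ : ℝ) : ℂ) ^ 2 * (f.w * conj f.w) / (1 - f.w * conj f.w) := by
    rw [← h1, ← h3, ← h2, Fr.τ]; push_cast; rfl
  refine ⟨Complex.ofReal_ne_zero.2 (Real.sqrt_pos.2 h.κ_pos).ne', ?_, h1, h2, h3, h4, ?_, ?_⟩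
  · rw [← h3]; exact Complex.ofReal_ne_zero.2 h.r_pos.ne'
  · rw [← h4, eq_sub_of_add_eq h.e₁]; push_cast; rfl
  · rw [← h4, eq_sub_of_add_eq h.e₂]; push_cast; rfl

theorem vert_zero {z : ℂ} {C x y : ℝ} (t : ℂ) (h : ‖z‖ ≤ C * (f.n ![t, 0, 0] * x * y) ∨
    ‖z‖ ≤ C * (x * f.n ![t, 0, 0] * y) ∨ ‖z‖ ≤ C * (x * y * f.n ![t, 0, 0])) : z = 0 := by
  rw [n_vert] at h
  simpa using h

section
variable (h : f.OK) {φ : J (Fin 3 → ℂ)} (hΘ : ∀ a b, φ.de a b = dg f.g₁ f.g₂ a b)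
include h hΘ

theorem OK.LB_v : (f.LB φ).v = (Real.log (1 + f.τ / f.κ) : ℝ) := by
  have _ := hΘ
  rw [← h.facts.1, one_div, Real.log_inv]
  rfl

theorem OK.LB_d (a : Fin 3 → ℂ) : (f.LB φ).d a = (1 / √f.κ : ℝ) * conj f.w * a 0 := by
  obtain ⟨hK, hR, e1, e2, e3, e4, e5, e6⟩ := h.cplx
  simp only [LB, J.cov, J.comp, Sn, Lv, hΘ, dg, B0, α, μ, u, Matrix.cons_val_zero,
    Matrix.cons_val_one, Matrix.cons_val_two, Matrix.head_cons, Matrix.tail_cons, map_mul, map_add,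
    map_div₀, map_ofNat, Complex.conj_ofReal, Complex.conj_conj, Complex.ofReal_div,
    Complex.ofReal_sub, Complex.ofReal_pow, Complex.ofReal_one, Complex.ofReal_ofNat]
  generalize ((√f.κ : ℝ) : ℂ) = K at *
  simp only [e1, e2, e3, e4, e5, e6]
  field_simp

theorem OK.LB_e (b : Fin 3 → ℂ) : (f.LB φ).e b = (1 / √f.κ : ℝ) * f.w * conj (b 0) := by
  obtain ⟨hK, hR, e1, e2, e3, e4, e5, e6⟩ := h.cplx
  simp only [LB, J.cov, J.comp, Sn, Lv, hΘ, dg, B0, α, μ, u, Matrix.cons_val_zero,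
    Matrix.cons_val_one, Matrix.cons_val_two, Matrix.head_cons, Matrix.tail_cons, map_mul, map_add,
    map_div₀, map_ofNat, Complex.conj_ofReal, Complex.conj_conj, Complex.ofReal_div,
    Complex.ofReal_sub, Complex.ofReal_pow, Complex.ofReal_one, Complex.ofReal_ofNat]
  generalize ((√f.κ : ℝ) : ℂ) = K at *
  simp only [e1, e2, e3, e4, e5, e6]
  field_simp

theorem OK.LB_de (a b : Fin 3 → ℂ) :
    (f.LB φ).de a b = (1 / f.κ : ℝ) * (a 0 * conj (b 0) + f.τ * dg f.g₁ f.g₂ a b) := by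
  obtain ⟨hK, hR, e1, e2, e3, e4, e5, e6⟩ := h.cplx
  simp only [LB, J.cov, J.comp, Sn, Lv, hΘ, dg, B0, α, μ, u, Matrix.cons_val_zero,
    Matrix.cons_val_one, Matrix.cons_val_two, Matrix.head_cons, Matrix.tail_cons, map_mul, map_add,
    map_div₀, map_ofNat, Complex.conj_ofReal, Complex.conj_conj, Complex.ofReal_div,
    Complex.ofReal_sub, Complex.ofReal_pow, Complex.ofReal_one, Complex.ofReal_ofNat]
  generalize ((√f.κ : ℝ) : ℂ) = K at *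
  simp only [e1, e2, e3, e4, e5, e6]
  field_simp
  ring

theorem OK.LB_dd (a c : Fin 3 → ℂ) :
    (f.LB φ).dd a c = -(1 / f.κ : ℝ) * conj f.w ^ 2 * (a 0 * c 0) := by
  obtain ⟨hK, hR, e1, e2, e3, e4, e5, e6⟩ := h.cplx
  simp only [LB, J.cov, J.comp, Sn, Lv, hΘ, dg, B0, α, μ, u, Matrix.cons_val_zero,
    Matrix.cons_val_one, Matrix.cons_val_two, Matrix.head_cons, Matrix.tail_cons, map_mul, map_add,
    map_div₀, map_ofNat, Complex.conj_ofReal, Complex.conj_conj, Complex.ofReal_div,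
    Complex.ofReal_sub, Complex.ofReal_pow, Complex.ofReal_one, Complex.ofReal_ofNat]
  generalize ((√f.κ : ℝ) : ℂ) = K at *
  simp only [e1, e2, e3, e4, e5, e6]
  field_simp
  ring

theorem OK.LB_ee (b d : Fin 3 → ℂ) :
    (f.LB φ).ee b d = -(1 / f.κ : ℝ) * f.w ^ 2 * (conj (b 0) * conj (d 0)) := by
  obtain ⟨hK, hR, e1, e2, e3, e4, e5, e6⟩ := h.cplx
  simp only [LB, J.cov, J.comp, Sn, Lv, hΘ, dg, B0, α, μ, u, Matrix.cons_val_zero,
    Matrix.cons_val_one, Matrix.cons_val_two, Matrix.head_cons, Matrix.tail_cons, map_mul, map_add,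
    map_div₀, map_ofNat, Complex.conj_ofReal, Complex.conj_conj, Complex.ofReal_div,
    Complex.ofReal_sub, Complex.ofReal_pow, Complex.ofReal_one, Complex.ofReal_ofNat]
  generalize ((√f.κ : ℝ) : ℂ) = K at *
  simp only [e1, e2, e3, e4, e5, e6]
  field_simp
  ring

theorem OK.LB_dde (a c b : Fin 3 → ℂ) : (f.LB φ).dde a c b =
    (1 / f.κ : ℝ) * (f.μ * (a 0 * dg f.p₁ f.p₂ (f.u c) b + c 0 * dg f.p₁ f.p₂ (f.u a) b) +
      f.τ * φ.dde a c b) := by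
  obtain ⟨hK, hR, e1, e2, e3, e4, e5, e6⟩ := h.cplx
  simp only [LB, J.cov, J.comp, Sn, Lv, hΘ, dg, B0, α, μ, u, Matrix.cons_val_zero,
    Matrix.cons_val_one, Matrix.cons_val_two, Matrix.head_cons, Matrix.tail_cons, map_mul, map_add,
    map_div₀, map_ofNat, Complex.conj_ofReal, Complex.conj_conj, Complex.ofReal_div,
    Complex.ofReal_sub, Complex.ofReal_pow, Complex.ofReal_one, Complex.ofReal_ofNat]
  generalize ((√f.κ : ℝ) : ℂ) = K at *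
  simp only [e1, e2, e3, e4, e5, e6]
  field_simp
  ring

theorem OK.LB_dee (a b d : Fin 3 → ℂ) : (f.LB φ).dee a b d =
    (1 / f.κ : ℝ) * (conj f.μ * (conj (b 0) * dg f.p₁ f.p₂ a (f.u d) +
      conj (d 0) * dg f.p₁ f.p₂ a (f.u b)) + f.τ * φ.dee a b d) := by
  obtain ⟨hK, hR, e1, e2, e3, e4, e5, e6⟩ := h.cplx
  simp only [LB, J.cov, J.comp, Sn, Lv, hΘ, dg, B0, α, μ, u, Matrix.cons_val_zero,
    Matrix.cons_val_one, Matrix.cons_val_two, Matrix.head_cons, Matrix.tail_cons, map_mul, map_add,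
    map_div₀, map_ofNat, Complex.conj_ofReal, Complex.conj_conj, Complex.ofReal_div,
    Complex.ofReal_sub, Complex.ofReal_pow, Complex.ofReal_one, Complex.ofReal_ofNat]
  generalize ((√f.κ : ℝ) : ℂ) = K at *
  simp only [e1, e2, e3, e4, e5, e6]
  field_simp
  ring

/-- The constant-`η` potential `ψ + κ L` after `cov B0`. -/
theorem OK.const_jets {ψ : J (Fin 3 → ℂ)} (hψ : ∀ a b, ψ.de a b = dg f.p₁ f.p₂ a b)
    (hlψ : ψ.Lin) (hlφ : φ.Lin) {C : ℝ}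
    (hψ3 : ∀ a c b, ‖ψ.dde a c b‖ ≤ C * (f.n a * f.n c * f.n b))
    (hψ3' : ∀ a b d, ‖ψ.dee a b d‖ ≤ C * (f.n a * f.n b * f.n d))
    (hφ3 : ∀ a c b, ‖φ.dde a c b‖ ≤ C * (f.n a * f.n c * f.n b))
    (hφ3' : ∀ a b d, ‖φ.dee a b d‖ ≤ C * (f.n a * f.n b * f.n d)) :
    (∀ a b, ψ.de a b + f.κ * (f.LB φ).de a b = ip a b) ∧
    (∀ a c b, (ψ.cov f.B0).dde a c b + f.κ * (f.LB φ).dde a c b =
      ψ.dde a c b + f.τ * φ.dde a c b) ∧
    (∀ a b c d, (ψ.cov f.B0).ddee a c b d + f.κ * (f.LB φ).ddee a c b d =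
      f.R0 a b c d +
      ((ψ.ddee a c b d - (1 / f.A : ℝ) * (dg f.p₁ f.p₂ a b * dg f.p₁ f.p₂ c d +
          dg f.p₁ f.p₂ a d * dg f.p₁ f.p₂ c b)) +
        f.τ * (φ.ddee a c b d - (1 / f.A : ℝ) * (dg f.p₁ f.p₂ a b * dg f.p₁ f.p₂ c d +
          dg f.p₁ f.p₂ a d * dg f.p₁ f.p₂ c b))) +
      (conj (d 0) * (conj f.μ * (φ.dde a c b - f.τ * φ.dde a c (f.u b) - ψ.dde a c (f.u b))) +
        conj (b 0) * (conj f.μ * (φ.dde a c d - f.τ * φ.dde a c (f.u d) - ψ.dde a c (f.u d)))) +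
      (c 0 * (f.μ * (φ.dee a b d - f.τ * φ.dee (f.u a) b d - ψ.dee (f.u a) b d)) +
        a 0 * (f.μ * (φ.dee c b d - f.τ * φ.dee (f.u c) b d - ψ.dee (f.u c) b d)))) := by
  have hκ : (f.κ : ℂ) ≠ 0 := Complex.ofReal_ne_zero.2 h.κ_pos.ne'
  refine ⟨fun a b => ?_, fun a c b => ?_, fun a b c d => ?_⟩
  · obtain ⟨-, -, -, -, -, e4, e5, e6⟩ := h.cplx
    rw [← e4] at e5 e6
    rw [h.LB_de hΘ, hψ]
    simp only [dg, ip, e5, e6, Complex.ofReal_div, Complex.ofReal_one]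
    field_simp
    ring
  · rw [h.LB_dde hΘ]
    simp only [J.cov]
    rw [base_B0 (hlψ.de1 b) (fun t => by simp [hψ, dg]), hψ, hψ]
    simp only [Complex.ofReal_div, Complex.ofReal_one]
    field_simp
    ring
  · have a1 := base_B0 (f := f) (hlψ.dee1 b d) (fun t => vert_zero t (Or.inl (hψ3' _ _ _))) a c
    have a2 := base_B0' (f := f) (hlψ.dde3 a c)
      (fun t => vert_zero t (Or.inr (Or.inr (hψ3 _ _ _)))) b d
    have a3 := base_B0 (f := f) (hlφ.dee1 b d) (fun t => vert_zero t (Or.inl (hφ3' _ _ _))) a c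
    have a4 := base_B0' (f := f) (hlφ.dde3 a c)
      (fun t => vert_zero t (Or.inr (Or.inr (hφ3 _ _ _)))) b d
    obtain ⟨hK, hR, e1, e2, e3, e4, e5, e6⟩ := h.cplx
    simp only [LB, J.cov, J.comp, Sn, a1, a2, a3, a4, hΘ, hψ]
    simp only [R0, Φ, m₁, m₂, Lv, dg, B0, α, μ, u, Matrix.cons_val_zero,
      Matrix.cons_val_one, Matrix.cons_val_two, Matrix.head_cons, Matrix.tail_cons, map_mul, map_add,
      map_div₀, map_ofNat, Complex.conj_ofReal, Complex.conj_conj, Complex.ofReal_div,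
      Complex.ofReal_sub, Complex.ofReal_pow, Complex.ofReal_one, Complex.ofReal_ofNat,
      Complex.ofReal_add, Complex.ofReal_mul]
    generalize ((√f.κ : ℝ) : ℂ) = K at *
    simp only [e1, e2, e3, e4, e5, e6]
    have hA : (f.A : ℂ) ≠ 0 := Complex.ofReal_ne_zero.2 h.A_pos.ne'
    field_simp
    ring

end

end Fr

end Crest.Agent.R245
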