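import Crest.Agent.R245.CoreTA

/-!
# R245: the transition region (`φ = ψ`, `η` slowly varying)

Here `g₁ = g₂ = p₁ = p₂ = y² := 1/(1+τ)`, `f.n a = y hn a`, `f.u a = y² hor a`, so the odd terms
of `const_jets` vanish.  Write `η = κ + η'`, so that after `cov B0` the jet is
`(ψ.cov B0 + κ LB) + (η'.cov B0) * LB` (`cov_add`, `cov_mul`, `η'.v = 0`).  With `ℓ = LB.v`,
`ν = |μ| y²`, `ν² ≤ t mh` (`facts`), `ϑ = θ κ`:
`κ ℓ y² ≤ t` (`log (1+x) ≤ x`), `√κ ℓ y² ≤ 1` (`log (1+x) ≤ 2 √x`), `√κ ν ≤ √2`,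
`κ ℓ y² ν ≤ 2`, `κ ℓ y² ν² ≤ q`; the components of `η'.cov B0` are bounded (`base_B0`) by
`ϑ (y² + 2 ν y)` (`dd, ee`), `ϑ (y³ + 2 ν y²)` (`dde, dee`), `ϑ (y⁴ + 4 ν y³ + 4 ν² y²)` (`ddee`)
times the product of the `nn` norms.  All terms of the Leibniz rule are then bounded by
`O(θ) q` times the product of norms (`abs_Sf_le`), except
* `-μ (a 0 η.d (u c) + c 0 η.d (u a)) * LB.ee b d` and its conjugate (`Sf_odd3`, `Sf_odd4`,
  `‖y x‖ ≤ θ ν hn x`, `‖vv ξ η 0‖ ≤ 2 nn ξ nn η`),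
* `η.e b * (μ/κ)(a 0 dg (u c) d + c 0 dg (u a) d) + (b ↔ d)` (`Sf_odd2` with
  `Z c b d = μ/κ (η.e b dg (u c) d + η.e d dg (u c) b)`) and its conjugate (`Sf_odd1`),
each of which is at most `4 θ √mh hn (vv ξ η) nn ξ nn η ≤ 2 θ Q`.
-/

set_option autoImplicit false
set_option maxHeartbeats 400000

namespace Crest.Agent.R245

open scoped ComplexConjugate

namespace Fr

variable {f : Fr}

theorem OK.coreT (h : f.OK) (hg₁ : f.g₁ = f.p₁) (hg₂ : f.g₂ = f.p₂) {ψ η : J (Fin 3 → ℂ)}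
    (hlψ : ψ.Lin) (hhψ : ψ.Herm) (hlη : η.Lin) (hhη : η.Herm) (hη0 : η.v = f.κ) {θ D : ℝ}
    (hθ0 : 0 ≤ θ) (hθ : θ ≤ 1 / 10 ^ 6) (hψ2 : ∀ a b, ψ.de a b = dg f.p₁ f.p₂ a b)
    (hψ1 : ∀ a, ‖ψ.d a‖ ≤ D * f.n a) (hD : 0 ≤ D)
    (hψ3 : ∀ a c b, ‖ψ.dde a c b‖ ≤ θ * (f.n a * f.n c * f.n b))
    (hψ4 : ∀ a c b d, ‖ψ.ddee a c b d - (1 / f.A : ℝ) * (ψ.de a b * ψ.de c d + ψ.de a d * ψ.de c b)‖
      ≤ θ * (f.n a * f.n c * f.n b * f.n d))
    (hη : η.Bd f.n (θ * f.κ)) :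
    Good (Pjet ψ ψ η f.w f.α) (1 / 4000) f.hi ∧
      (∀ a, nn a ^ 2 / 2 ≤ ((Pjet ψ ψ η f.w f.α).de a a).re) ∧
      ∀ a, ‖(Pjet ψ ψ η f.w f.α).d a‖ ≤ (D + 3) * nn a := by
  have hκ := h.κ_pos
  have hτ := h.τ_nonneg
  have hX := nn_nonneg
  have hH := hn_nonneg
  obtain ⟨m, hm⟩ : ∃ m, m = 1 / (1 + f.τ) := ⟨_, rfl⟩
  obtain ⟨ν, hν⟩ : ∃ ν, ν = ‖f.μ‖ * m := ⟨_, rfl⟩
  obtain ⟨ℓ, hℓ⟩ : ∃ ℓ, ℓ = Real.log (1 + f.τ / f.κ) := ⟨_, rfl⟩
  have m0 : 0 ≤ m := by rw [hm]; positivity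
  have mτ : (1 + f.τ) * m = 1 := by rw [hm]; field_simp
  have τm : 0 ≤ f.τ * m := by positivity
  have m1 : m ≤ 1 := by linarith
  have ν0 : 0 ≤ ν := by rw [hν]; positivity
  have g1 : f.g₁ = m := by
    have := h.e₁
    rw [← hg₁] at this
    rw [hm, eq_div_iff (by positivity)]; linarith
  have g2 : f.g₂ = m := by
    have := h.e₂
    rw [← hg₂] at this
    rw [hm, eq_div_iff (by positivity)]; linarith
  have hq : 1 ≤ f.q := h.facts.2.2.2.2.2.2.1
  have hρ : 1 ≤ √f.q := Real.one_le_sqrt.2 hq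
  have θ1 : θ ≤ 1 := hθ.trans (by norm_num)
  obtain ⟨l0, n1, n2, n3, n4, n5, n6⟩ := CT.num h hm hν hℓ
  obtain ⟨K1, K2, K3, K4, K5, K6, K7, K8⟩ := CT.numK hθ0 hκ h.κ_le m1 ν0 hq n1 n2 n3 n4
  have ϑ0 : 0 ≤ θ * f.κ := by positivity
  have y0 : 0 ≤ √m := Real.sqrt_nonneg _
  have y1 : √m ≤ 1 := Real.sqrt_le_one.2 m1
  have y2 : √m ^ 2 = m := Real.sq_sqrt m0
  have hne : ∀ a, f.n a = √m * hn a := fun a => by rw [hm]; rfl
  have hn0 : ∀ a, 0 ≤ f.n a := n_nonneg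
  have hn1 : ∀ a, f.n a ≤ √m * nn a := fun a => by rw [hne]; gcongr; apply hn_le_nn
  have hn2 : ∀ a, f.n a ≤ nn a := fun a => (h.n_le a).trans (hn_le_nn a)
  have hn3 : ∀ a b, f.n a * f.n b ≤ m * (nn a * nn b) := fun a b =>
    (mul_le_mul (hn1 a) (hn1 b) (hn0 b) (mul_nonneg y0 (hX a))).trans_eq (by
      rw [mul_mul_mul_comm, ← sq, y2])
  have hΘ : ∀ a b, ψ.de a b = dg f.g₁ f.g₂ a b := by rw [hg₁, hg₂]; exact hψ2
  have hψ3' : ∀ a b d, ‖ψ.dee a b d‖ ≤ θ * (f.n a * f.n b * f.n d) := fun a b d => by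
    rw [hhψ.dee, Complex.norm_conj]; exact (hψ3 b d a).trans_eq (by ring)
  obtain ⟨c1, c2, c3⟩ := h.const_jets hΘ hψ2 hlψ hlψ hψ3 hψ3' hψ3 hψ3'
  obtain ⟨Ld, Le, Lde, Ldd, Lee⟩ := CT.LB_bd h hΘ m0 (by linarith) g1 g2
  have Lv : ‖(f.LB ψ).v‖ ≤ ℓ * 1 := by
    rw [h.LB_v hΘ, ← hℓ, Complex.norm_of_nonneg l0, mul_one]
  obtain ⟨Edd, Edde, Edee, Eddee⟩ := CT.cov_bd (G := f.B0) hη ϑ0 hn0 hX y0 y1 ν0 hn1 fun a c => by
    rw [hne, hν]; gcongr; exact CT.hn_B0 m0 g1 g2 a c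
  rw [y2] at Edde Edee Eddee
  have Ed : ∀ a, ‖η.d a‖ ≤ θ * f.κ * nn a := fun a => (hη.d a).trans (by gcongr; apply hn2)
  have Ee : ∀ a, ‖η.e a‖ ≤ θ * f.κ * nn a := fun a => (hη.e a).trans (by gcongr; apply hn2)
  have two : ∀ {x : ℂ} {a b : Fin 3 → ℂ}, ‖x‖ ≤ θ * f.κ * (f.n a * f.n b) →
      ‖x‖ ≤ θ * f.κ * (nn a * nn b) := fun {x a b} hx => by
    have := hX a; have := hn0 b
    exact hx.trans (by gcongr <;> apply hn2)
  have Ede : ∀ a b, ‖η.de a b‖ ≤ θ * f.κ * (nn a * nn b) := fun a b => two (hη.de a b)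
  have hττ : ∀ {t : ℝ}, 0 ≤ t → t ≤ 1 + f.τ → ∀ {x : ℂ} {a c : Fin 3 → ℂ} {P : ℝ}, 0 ≤ P →
      ‖x‖ ≤ θ * (f.n a * f.n c * P) → ‖(t : ℂ) * x‖ ≤ θ * (nn a * nn c * P) := by
    intro t t0 t1 x a c P hP hx
    have := hX a; have := hX c
    rw [norm_mul, Complex.norm_of_nonneg t0]
    calc _ ≤ (1 + f.τ) * (θ * (m * (nn a * nn c) * P)) := by
          gcongr
          exact hx.trans (mul_le_mul_of_nonneg_left (mul_le_mul_of_nonneg_right (hn3 a c) hP) hθ0)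
      _ = ((1 + f.τ) * m) * (θ * (nn a * nn c * P)) := by ring
      _ = _ := by rw [mτ, one_mul]
  have key := h.pert (u := Pjet ψ ψ η f.w f.α) (CT.Pjet_lin f hlψ hlψ hlη)
    (CT.Pjet_herm f hhψ hhψ hhη) (θ := 100 * θ) (by positivity) (by linarith) ?_ ?_ ?_
  · refine ⟨key.1, key.2, fun a => ?_⟩
    have e : (Pjet ψ ψ η f.w f.α).d a = ψ.d a + (η.d a * (f.LB ψ).v + η.v * (f.LB ψ).d a) := rfl
    have := hX a
    have e1 : ‖ψ.d a‖ ≤ D * nn a := (hψ1 a).trans (by gcongr; apply hn2)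
    have e2 : ‖η.d a * (f.LB ψ).v‖ ≤ 2 * (nn a * 1) :=
      CT.mb (A := θ * f.κ * √m) ((hη.d a).trans (by rw [mul_assoc _ √m]; gcongr; apply hn1)) Lv
        (by nlinarith [mul_le_mul θ1 n6 (by positivity) zero_le_one]) (by positivity)
    have e3 : ‖η.v * (f.LB ψ).d a‖ ≤ 1 * (1 * nn a) :=
      CT.mb (A := f.κ) (by rw [hη0, Complex.norm_of_nonneg hκ.le, mul_one]) (Ld a)
        (by rw [mul_one_div, Real.div_sqrt]; exact Real.sqrt_le_one.2 h.κ_le) (by positivity)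
    rw [e]
    exact (norm_add_le_of_le e1 (norm_add_le_of_le e2 e3)).trans (le_of_eq (by ring))
  · intro a b
    have := hX a; have := hX b
    have e : (Pjet ψ ψ η f.w f.α).de a b - ip a b =
        η.de a b * (f.LB ψ).v + η.d a * (f.LB ψ).e b + η.e b * (f.LB ψ).d a := by
      have e0 : (Pjet ψ ψ η f.w f.α).de a b = ψ.de a b + (η.de a b * (f.LB ψ).v +
        η.d a * (f.LB ψ).e b + η.e b * (f.LB ψ).d a + η.v * (f.LB ψ).de a b) := rfl
      rw [e0, hη0, ← c1]; ring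
    have e1 : ‖η.de a b‖ ≤ θ * f.κ * m * (nn a * nn b) :=
      (hη.de a b).trans (by rw [mul_assoc _ m]; exact mul_le_mul_of_nonneg_left (hn3 a b) ϑ0)
    rw [e]
    refine (norm_add_le_of_le (norm_add_le_of_le (CT.mb e1 Lv K1 (by positivity))
      (CT.mb (Ed a) (Le b) K2 (by positivity))) (CT.mb (Ee b) (Ld a) K2 (by positivity))).trans ?_
    have : 0 ≤ θ * (nn a * nn b) := by positivity
    linarith
  · intro a c b
    have := hX a; have := hX b; have := hX c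
    have e : ((Pjet ψ ψ η f.w f.α).cov f.B0).dde a c b = ((1 + f.τ : ℝ) : ℂ) * ψ.dde a c b +
        (η.cov f.B0).dde a c b * (f.LB ψ).v + (η.cov f.B0).dd a c * (f.LB ψ).e b +
        η.de a b * (f.LB ψ).d c + η.de c b * (f.LB ψ).d a + η.d a * (f.LB ψ).de c b +
        η.d c * (f.LB ψ).de a b + η.e b * (f.LB ψ).dd a c := by
      have e0 : ((Pjet ψ ψ η f.w f.α).cov f.B0).dde a c b = (ψ.cov f.B0).dde a c b +
        ((η.cov f.B0).dde a c b * (f.LB ψ).v + (η.cov f.B0).dd a c * (f.LB ψ).e b +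
        η.de a b * (f.LB ψ).d c + η.de c b * (f.LB ψ).d a + η.d a * (f.LB ψ).de c b +
        η.d c * (f.LB ψ).de a b + η.e b * (f.LB ψ).dd a c + η.v * (f.LB ψ).dde a c b) := by
        rw [CT.Pjet_cov]; rfl
      rw [e0, hη0]
      push_cast
      linear_combination c2 a c b
    have e1 := hττ (by linarith) le_rfl (hX b) ((hψ3 a c b).trans
      (by have := hn0 a; have := hn0 c; gcongr; apply hn2))
    rw [e]
    refine (norm_add_le_of_le (norm_add_le_of_le (norm_add_le_of_le (norm_add_le_of_le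
      (norm_add_le_of_le (norm_add_le_of_le (norm_add_le_of_le e1
      (CT.mb (Edde a c b) Lv K3 (by positivity))) (CT.mb (Edd a c) (Le b) K4 (by positivity)))
      (CT.mb (Ede a b) (Ld c) K2 (by positivity))) (CT.mb (Ede c b) (Ld a) K2 (by positivity)))
      (CT.mb (Ed a) (Lde c b) K6 (by positivity))) (CT.mb (Ed c) (Lde a b) K6 (by positivity)))
      (CT.mb (Ee b) (Ldd a c) K7 (by positivity))).trans ?_
    have k0 : 0 ≤ θ * (nn a * nn c * nn b) := by positivity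
    have k1 := mul_le_mul_of_nonneg_right hρ k0
    linarith
  · intro ξ ζ
    have mτ' : (1 + (f.τ : ℂ)) * m = 1 := by exact_mod_cast mτ
    have vert : ∀ {x : ℂ}, ‖x‖ ≤ 0 → x = 0 := norm_le_zero_iff.1
    have z1 : ∀ a c b, ψ.dde a c (f.u b) = m * ψ.dde a c b := fun a c =>
      CT.IsA_u g1 g2 (hlψ.dde3 a c) fun t => vert (by simpa [n_vert] using hψ3 a c ![t, 0, 0])
    have z2 : ∀ b d a, ψ.dee (f.u a) b d = m * ψ.dee a b d := fun b d =>
      CT.IsL_u g1 g2 (hlψ.dee1 b d) fun t => vert (by simpa [n_vert] using hψ3' ![t, 0, 0] b d)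
    have z3 : ∀ a b, ψ.de a (f.u b) = m * ψ.de a b := fun a =>
      CT.IsA_u g1 g2 (hlψ.de2 a) fun t => by simp [hψ2, dg]
    have z4 : ∀ b a, ψ.de (f.u a) b = m * ψ.de a b := fun b =>
      CT.IsL_u g1 g2 (hlψ.de1 b) fun t => by simp [hψ2, dg]
    have v5 : ∀ t : ℂ, η.d ![t, 0, 0] = 0 := fun t =>
      vert (by simpa [n_vert] using hη.d ![t, 0, 0])
    have v6 : ∀ t : ℂ, η.e ![t, 0, 0] = 0 := fun t =>
      vert (by simpa [n_vert] using hη.e ![t, 0, 0])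
    have z5 : ∀ a c, (η.cov f.B0).dd a c =
        η.dd a c - f.μ * (a 0 * (m * η.d c) + c 0 * (m * η.d a)) := fun a c => by
      rw [← CT.IsL_u g1 g2 hlη.d v5, ← CT.IsL_u g1 g2 hlη.d v5, ← base_B0 hlη.d v5]; rfl
    have z6 : ∀ b d, (η.cov f.B0).ee b d =
        η.ee b d - conj f.μ * (conj (b 0) * (m * η.e d) + conj (d 0) * (m * η.e b)) := fun b d => by
      rw [← CT.IsA_u g1 g2 hlη.e v6, ← CT.IsA_u g1 g2 hlη.e v6, ← base_B0' hlη.e v6]; rfl
    set ik : ℂ := ((1 / f.κ : ℝ) : ℂ) with hik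
    let Ev : (Fin 3 → ℂ) → (Fin 3 → ℂ) → (Fin 3 → ℂ) → (Fin 3 → ℂ) → ℂ := fun a b c d =>
      ((1 + f.τ : ℝ) : ℂ) * (ψ.ddee a c b d -
        (1 / f.A : ℝ) * (ψ.de a b * ψ.de c d + ψ.de a d * ψ.de c b)) +
      (η.cov f.B0).ddee a c b d * (f.LB ψ).v +
      ((η.cov f.B0).dde a c b * (f.LB ψ).e d + (η.cov f.B0).dde a c d * (f.LB ψ).e b +
        (η.cov f.B0).dee a b d * (f.LB ψ).d c + (η.cov f.B0).dee c b d * (f.LB ψ).d a) +
      (η.dd a c * (f.LB ψ).ee b d + η.ee b d * (f.LB ψ).dd a c) +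
      (η.de a b * (f.LB ψ).de c d + η.de a d * (f.LB ψ).de c b + η.de c b * (f.LB ψ).de a d +
        η.de c d * (f.LB ψ).de a b) +
      (η.d a * (ik * (f.τ * ψ.dee c b d)) + η.d c * (ik * (f.τ * ψ.dee a b d)) +
        η.e b * (ik * (f.τ * ψ.dde a c d)) + η.e d * (ik * (f.τ * ψ.dde a c b)))
    have hEv : ∀ a b c d, ‖Ev a b c d‖ ≤ 44 * θ * f.q * (nn a * nn b * nn c * nn d) := by
      intro a b c d
      have := hX a; have := hX b; have := hX c; have := hX d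
      have e1 := hττ (by linarith) le_rfl (P := nn b * nn d) (by positivity) ((hψ4 a c b d).trans
        (by have := hn0 a; have := hn0 c; have := hn0 d
            rw [mul_assoc (f.n a * f.n c)]; gcongr <;> apply hn2))
      have e2 : ∀ {x : ℂ} {a c b : Fin 3 → ℂ}, ‖x‖ ≤ θ * (f.n a * f.n c * f.n b) →
          ‖ik * (f.τ * x)‖ ≤ 1 / f.κ * (nn a * nn c * nn b) := by
        intro x a c b hx
        have := hn0 a; have := hn0 c; have := hX a; have := hX b; have := hX c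
        have e3 := hττ hτ (by linarith) (hX b) (hx.trans (by gcongr; apply hn2))
        rw [norm_mul, hik, Complex.norm_of_nonneg (by positivity)]
        gcongr
        exact e3.trans (mul_le_of_le_one_left (by positivity) θ1)
      refine (norm_add_le_of_le (norm_add_le_of_le (norm_add_le_of_le (norm_add_le_of_le
        (norm_add_le_of_le e1 (CT.mb (Eddee a c b d) Lv K8 (by positivity)))
        (norm_add_le_of_le (norm_add_le_of_le (norm_add_le_of_le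
          (CT.mb (Edde a c b) (Le d) K5 (by positivity))
          (CT.mb (Edde a c d) (Le b) K5 (by positivity)))
          (CT.mb (Edee a b d) (Ld c) K5 (by positivity)))
          (CT.mb (Edee c b d) (Ld a) K5 (by positivity))))
        (norm_add_le_of_le (CT.mb (two (hη.dd a c)) (Lee b d) K7 (by positivity))
          (CT.mb (two (hη.ee b d)) (Ldd a c) K7 (by positivity))))
        (norm_add_le_of_le (norm_add_le_of_le (norm_add_le_of_le
          (CT.mb (Ede a b) (Lde c d) K6 (by positivity))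
          (CT.mb (Ede a d) (Lde c b) K6 (by positivity)))
          (CT.mb (Ede c b) (Lde a d) K6 (by positivity)))
          (CT.mb (Ede c d) (Lde a b) K6 (by positivity))))
        (norm_add_le_of_le (norm_add_le_of_le (norm_add_le_of_le
          (CT.mb (Ed a) (e2 (hψ3' c b d)) K7 (by positivity))
          (CT.mb (Ed c) (e2 (hψ3' a b d)) K7 (by positivity)))
          (CT.mb (Ee b) (e2 (hψ3 a c d)) K7 (by positivity)))
          (CT.mb (Ee d) (e2 (hψ3 a c b)) K7 (by positivity)))).trans ?_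
      have k0 : 0 ≤ θ * (nn a * nn b * nn c * nn d) := by positivity
      have k1 := mul_le_mul_of_nonneg_right hq k0
      linarith
    have hz : ∀ {z : ℂ}, ‖z‖ ≤ ‖f.μ‖ → ‖ik * m * z‖ * (θ * f.κ) ≤ θ * ν := by
      intro z hz
      rw [norm_mul, norm_mul, hik, Complex.norm_of_nonneg (by positivity),
        Complex.norm_of_nonneg m0, hν]
      calc _ ≤ 1 / f.κ * m * ‖f.μ‖ * (θ * f.κ) := by gcongr
        _ = _ := by field_simp
    have hw2 : ‖f.w‖ ^ 2 ≤ 1 := pow_le_one₀ (norm_nonneg _) (CT.norm_w_le h)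
    have ho := CT.odd_bd hlψ hlη hq n5 hθ0 ϑ0
      (fun a => (hη.d a).trans (by gcongr; exact h.n_le a))
      (fun a => (hη.e a).trans (by gcongr; exact h.n_le a))
      (fun a b => by
        rw [hΘ, ← one_mul (_ * _)]
        exact norm_dg_le (by rw [g1, abs_of_nonneg m0]; exact m1)
          (by rw [g2, abs_of_nonneg m0]; exact m1) a b)
      (hz (z := conj f.μ) (by rw [Complex.norm_conj])) (hz (z := f.μ) le_rfl)
      (hz (z := f.μ * f.w ^ 2) (by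
        rw [norm_mul, norm_pow]; exact mul_le_of_le_one_right (norm_nonneg _) hw2))
      (hz (z := conj f.μ * conj f.w ^ 2) (by
        rw [norm_mul, norm_pow, Complex.norm_conj, Complex.norm_conj]
        exact mul_le_of_le_one_right (norm_nonneg _) hw2)) ξ ζ
    have he := abs_Sf_le hEv ξ ζ
    have hsum := (abs_add_le _ _).trans (add_le_add he ho)
    rw [← Sf_add] at hsum
    refine le_trans (le_of_eq ?_) (hsum.trans ?_)
    · congr 2
      funext a b c d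
      have e0 : ((Pjet ψ ψ η f.w f.α).cov f.B0).ddee a c b d = (ψ.cov f.B0).ddee a c b d +
        ((η.cov f.B0).ddee a c b d * (f.LB ψ).v +
        ((η.cov f.B0).dde a c b * (f.LB ψ).e d + (η.cov f.B0).dde a c d * (f.LB ψ).e b +
          (η.cov f.B0).dee a b d * (f.LB ψ).d c + (η.cov f.B0).dee c b d * (f.LB ψ).d a) +
        ((η.cov f.B0).dd a c * (f.LB ψ).ee b d + (η.cov f.B0).ee b d * (f.LB ψ).dd a c) +
        (η.de a b * (f.LB ψ).de c d + η.de a d * (f.LB ψ).de c b + η.de c b * (f.LB ψ).de a d +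
          η.de c d * (f.LB ψ).de a b) +
        (η.d a * (f.LB ψ).dee c b d + η.d c * (f.LB ψ).dee a b d + η.e b * (f.LB ψ).dde a c d +
          η.e d * (f.LB ψ).dde a c b) + η.v * (f.LB ψ).ddee a c b d) := by
        rw [CT.Pjet_cov]; rfl
      have c4 := c3 a b c d
      simp only [z1, z2, ← hψ2] at c4
      simp only [e0, Ev, hη0, z5, z6, h.LB_dee hΘ, h.LB_dde hΘ, h.LB_ee hΘ, h.LB_dd hΘ, ← hψ2,
        z3, z4, ← hik, Complex.ofReal_add, Complex.ofReal_one]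
      linear_combination c4 - (conj (d 0) * (conj f.μ * ψ.dde a c b) +
        conj (b 0) * (conj f.μ * ψ.dde a c d) + c 0 * (f.μ * ψ.dee a b d) +
        a 0 * (f.μ * ψ.dee c b d)) * mτ'
    · have k1 : 0 ≤ θ * (f.q * (nn ξ ^ 2 * nn ζ ^ 2)) := by positivity
      have k2 : 0 ≤ θ * (f.mh * hn (vv ξ ζ) ^ 2) := by
        have := (sq_nonneg ν).trans n5
        positivity
      rw [Fr.Q]
      linarith

end Fr

end Crest.Agent.R245
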