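import Crest.Agent.R245.CoreL

/-! # R245: auxiliary lemmas for `coreT` -/

set_option autoImplicit false
set_option maxHeartbeats 400000

namespace Crest.Agent.R245.CT

open scoped ComplexConjugate

theorem Sn_lin {V : Type*} [AddCommGroup V] [Module ℂ V] (w : ℂ) {α : V → ℂ} (hα : IsL α)
    {φ : J V} (h : φ.Lin) : (Sn w α φ).Lin := by
  refine ⟨⟨?_, ?_⟩, ⟨?_, ?_⟩, fun _ _ => rfl, fun _ => ⟨?_, ?_⟩, fun _ => ⟨?_, ?_⟩,
    fun _ => ⟨?_, ?_⟩, fun _ _ => rfl, fun _ => ⟨?_, ?_⟩, ?s1, fun _ _ => ⟨?_, ?_⟩,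
    fun _ _ => ⟨?_, ?_⟩, ?s2, fun _ _ => ⟨?_, ?_⟩,
    fun _ _ => ⟨?_, ?_⟩, ?s3, ?s4, fun _ _ _ => ⟨?_, ?_⟩, fun _ _ _ => ⟨?_, ?_⟩⟩
  case s1 => intro a c b; simp only [Sn]; rw [h.dde_symm a c]; ring
  case s2 => intro a b d; simp only [Sn]; rw [h.dee_symm a b]; ring
  case s3 =>
    intro a c b d; simp only [Sn]; rw [h.ddee_symm1 a c, h.dde_symm a c, h.dde_symm a c]; ring
  case s4 =>
    intro a c b d; simp only [Sn]
    rw [h.ddee_symm2 a c b d, h.dee_symm c b d, h.dee_symm a b d]; ring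
  all_goals intros
  all_goals simp only [Sn, hα.add, hα.smul, (h.de1 _).add, (h.de1 _).smul, (h.de2 _).add,
    (h.de2 _).smul, (h.dde1 _ _).add, (h.dde1 _ _).smul, (h.dde3 _ _).add, (h.dde3 _ _).smul,
    (h.dee1 _ _).add, (h.dee1 _ _).smul, (h.dee2 _ _).add, (h.dee2 _ _).smul,
    (h.ddee1 _ _ _).add, (h.ddee1 _ _ _).smul, (h.ddee3 _ _ _).add, (h.ddee3 _ _ _).smul,
    map_add, map_mul]
  all_goals ring

theorem Sn_herm {V : Type*} (w : ℂ) (α : V → ℂ) {φ : J V} (h : φ.Herm) : (Sn w α φ).Herm := by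
  refine J.herm_of ?_ (fun b => ?_) (fun b d => ?_) (fun a b => ?_) (fun a b d => ?_)
    fun a c b d => ?_
  all_goals simp only [Sn, map_add, map_mul, Complex.conj_conj, map_zero]
  · ring
  · rw [h.de a b]; ring
  · rw [h.de a d, h.de a b, h.dee a b d]; ring
  · rw [h.ddee a c b d, h.de a b, h.de c d, h.de a d, h.de c b, h.dee c b d, h.dee a b d,
      h.dee b a c, h.dee d a c]
    simp only [Complex.conj_conj]
    ring

theorem conj_Lv (s : ℝ) (k : ℕ) : conj (Lv s k) = Lv s k := by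
  unfold Lv
  split <;> simp only [Complex.conj_ofReal, map_zero]

theorem α_lin (f : Fr) : IsL f.α :=
  ⟨fun a b => by simp [Fr.α, mul_add], fun t a => by simp [Fr.α]; ring⟩

theorem Pjet_lin {ψ φ η : J (Fin 3 → ℂ)} (f : Fr) (h1 : ψ.Lin) (h2 : φ.Lin) (h3 : η.Lin) :
    (Pjet ψ φ η f.w f.α).Lin := h1.add (h3.mul ((Sn_lin _ (α_lin f) h2).comp _))

theorem Pjet_herm {ψ φ η : J (Fin 3 → ℂ)} (f : Fr) (h1 : ψ.Herm) (h2 : φ.Herm) (h3 : η.Herm) :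
    (Pjet ψ φ η f.w f.α).Herm := h1.add (h3.mul ((Sn_herm _ _ h2).comp (conj_Lv _)))

theorem Pjet_cov (f : Fr) (ψ φ η : J (Fin 3 → ℂ)) :
    (Pjet ψ φ η f.w f.α).cov f.B0 = (ψ.cov f.B0).add ((η.cov f.B0).mul (f.LB φ)) := by
  rw [Pjet, J.cov_add, J.cov_mul]; rfl

theorem mb {x z : ℂ} {A B P Q K : ℝ} (hx : ‖x‖ ≤ A * P) (hz : ‖z‖ ≤ B * Q) (hK : A * B ≤ K)
    (hPQ : 0 ≤ P * Q) : ‖x * z‖ ≤ K * (P * Q) :=
  (norm_mul_le_of_le hx hz).trans <| by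
    calc A * P * (B * Q) = A * B * (P * Q) := by ring
      _ ≤ _ := mul_le_mul_of_nonneg_right hK hPQ

theorem log_sq_le {x : ℝ} (hx : 0 ≤ x) : Real.log (1 + x) ^ 2 ≤ 4 * x := by
  have h1 : Real.log (1 + x) = 2 * Real.log √(1 + x) := by
    rw [Real.log_sqrt (by linarith)]; ring
  have h2 : Real.log √(1 + x) ≤ √(1 + x) - 1 :=
    Real.log_le_sub_one_of_pos (Real.sqrt_pos.2 (by linarith))
  have h3 : 1 ≤ √(1 + x) := Real.one_le_sqrt.2 (by linarith)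
  have h4 : √(1 + x) ^ 2 = 1 + x := Real.sq_sqrt (by linarith)
  have h5 : 0 ≤ Real.log √(1 + x) := Real.log_nonneg h3
  have h6 := pow_le_pow_left₀ h5 h2 2
  rw [h1]
  nlinarith

variable {f : Fr}

/-- the horizontal scaling -/
theorem u_eq {m : ℝ} (h₁ : f.g₁ = m) (h₂ : f.g₂ = m) (b : Fin 3 → ℂ) :
    f.u b = (m : ℂ) • (b - ![b 0, 0, 0]) := by
  funext i
  fin_cases i <;> simp [Fr.u, h₁, h₂, Matrix.vecHead, Matrix.vecTail]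

theorem IsA_u {m : ℝ} (h₁ : f.g₁ = m) (h₂ : f.g₂ = m) {y : (Fin 3 → ℂ) → ℂ} (hy : IsA y)
    (h0 : ∀ t : ℂ, y ![t, 0, 0] = 0) (b : Fin 3 → ℂ) : y (f.u b) = m * y b := by
  rw [u_eq h₁ h₂, hy.smul, hy.sub, h0]; simp

theorem IsL_u {m : ℝ} (h₁ : f.g₁ = m) (h₂ : f.g₂ = m) {y : (Fin 3 → ℂ) → ℂ} (hy : IsL y)
    (h0 : ∀ t : ℂ, y ![t, 0, 0] = 0) (b : Fin 3 → ℂ) : y (f.u b) = m * y b := by
  rw [u_eq h₁ h₂, hy.smul, hy.sub, h0]; simp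

theorem normSq_add_le (x z : ℂ) :
    Complex.normSq (x + z) ≤ 2 * Complex.normSq x + 2 * Complex.normSq z := by
  simp only [Complex.normSq_apply, Complex.add_re, Complex.add_im]
  nlinarith [sq_nonneg (x.re - z.re), sq_nonneg (x.im - z.im)]

theorem hn_B0 {m : ℝ} (hm : 0 ≤ m) (h₁ : f.g₁ = m) (h₂ : f.g₂ = m) (a c : Fin 3 → ℂ) :
    hn (f.B0 a c) ≤ 2 * (‖f.μ‖ * m) * (nn a * nn c) := by
  have := nn_nonneg a
  have := nn_nonneg c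
  refine (abs_le_of_sq_le_sq' ?_ (by positivity)).2
  have e : hn (f.B0 a c) ^ 2 = (‖f.μ‖ * m) ^ 2 * (Complex.normSq (a 0 * c 1 + c 0 * a 1) +
      Complex.normSq (a 0 * c 2 + c 0 * a 2)) := by
    rw [hn_sq]
    simp [Fr.B0, h₁, h₂, Complex.normSq_eq_norm_sq, abs_of_nonneg hm]
    ring
  have k1 := normSq_add_le (a 0 * c 1) (c 0 * a 1)
  have k2 := normSq_add_le (a 0 * c 2) (c 0 * a 2)
  simp only [map_mul] at k1 k2
  have k3 : Complex.normSq (a 0 * c 1 + c 0 * a 1) + Complex.normSq (a 0 * c 2 + c 0 * a 2) ≤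
      4 * (nn a ^ 2 * nn c ^ 2) := by
    rw [nn_sq, nn_sq]
    have a0 := Complex.normSq_nonneg (a 0)
    have a1 := Complex.normSq_nonneg (a 1)
    have a2 := Complex.normSq_nonneg (a 2)
    have c0 := Complex.normSq_nonneg (c 0)
    have c1 := Complex.normSq_nonneg (c 1)
    have c2 := Complex.normSq_nonneg (c 2)
    nlinarith [mul_nonneg a0 c0, mul_nonneg a0 c1, mul_nonneg a0 c2, mul_nonneg a1 c0,
      mul_nonneg a1 c1, mul_nonneg a1 c2, mul_nonneg a2 c0, mul_nonneg a2 c1, mul_nonneg a2 c2]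
  rw [e]
  calc _ ≤ (‖f.μ‖ * m) ^ 2 * (4 * (nn a ^ 2 * nn c ^ 2)) :=
        mul_le_mul_of_nonneg_left k3 (sq_nonneg _)
    _ = _ := by ring

theorem vv_zero_le (ξ η : Fin 3 → ℂ) : ‖vv ξ η 0‖ ≤ 2 * (nn ξ * nn η) := by
  have h1 := norm_zero_le_nn ξ
  have h2 := norm_zero_le_nn η
  have h3 := mul_le_mul h1 h2 (norm_nonneg _) (nn_nonneg _)
  simp only [vv, Pi.sub_apply, Pi.smul_apply, smul_eq_mul]
  refine (norm_sub_le _ _).trans ?_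
  simp only [norm_mul, Complex.norm_conj]
  linarith

/-- absorbing an odd term into `Q` -/
theorem odd_le {q mh ν N H θ : ℝ} (hq : 1 ≤ q) (hν : ν ^ 2 ≤ mh) (hθ : 0 ≤ θ) :
    2 * θ * ν * (N * H) ≤ θ * (q * N ^ 2 + mh * H ^ 2) := by
  have h1 : 2 * ν * (N * H) ≤ q * N ^ 2 + mh * H ^ 2 := by
    nlinarith [sq_nonneg (N - ν * H), mul_le_mul_of_nonneg_right hq (sq_nonneg N),
      mul_le_mul_of_nonneg_right hν (sq_nonneg H)]
  nlinarith [mul_le_mul_of_nonneg_left h1 hθ]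

theorem cov_bd {V : Type*} {η : J V} {n X : V → ℝ} {G : V → V → V} {ϑ y ν : ℝ} (h : η.Bd n ϑ)
    (hϑ : 0 ≤ ϑ) (hn : ∀ a, 0 ≤ n a) (hX : ∀ a, 0 ≤ X a) (hy : 0 ≤ y) (hy1 : y ≤ 1) (hν : 0 ≤ ν)
    (h1 : ∀ a, n a ≤ y * X a) (h2 : ∀ a c, n (G a c) ≤ y * (2 * ν * (X a * X c))) :
    (∀ a c, ‖(η.cov G).dd a c‖ ≤ ϑ * (1 + 2 * ν) * (X a * X c)) ∧
    (∀ a c b, ‖(η.cov G).dde a c b‖ ≤ ϑ * y ^ 2 * (1 + 2 * ν) * (X a * X c * X b)) ∧
    (∀ a b d, ‖(η.cov G).dee a b d‖ ≤ ϑ * y ^ 2 * (1 + 2 * ν) * (X a * X b * X d)) ∧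
    ∀ a c b d, ‖(η.cov G).ddee a c b d‖ ≤
      ϑ * y ^ 2 * (1 + 2 * ν) ^ 2 * (X a * X c * X b * X d) := by
  have h0 : ∀ a, n a ≤ X a := fun a => (h1 a).trans (mul_le_of_le_one_left (hX a) hy1)
  have h3 : ∀ a c, n (G a c) ≤ 2 * ν * (X a * X c) := fun a c =>
    (h2 a c).trans (mul_le_of_le_one_left (by have := hX a; have := hX c; positivity) hy1)
  refine ⟨fun a c => ?_, fun a c b => ?_, fun a b d => ?_, fun a c b d => ?_⟩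
  · have := hX a; have := hn c
    have e1 : ‖η.dd a c‖ ≤ ϑ * (X a * X c) := (h.dd a c).trans (by gcongr <;> apply h0)
    have e2 : ‖η.d (G a c)‖ ≤ ϑ * (2 * ν * (X a * X c)) := (h.d _).trans (by gcongr; apply h3)
    exact (norm_sub_le_of_le e1 e2).trans (le_of_eq (by ring))
  · have := hX a; have := hX c; have := hn c; have := hn b
    have e1 : ‖η.dde a c b‖ ≤ ϑ * (y * X a * (y * X c) * X b) :=
      (h.dde a c b).trans (by gcongr <;> first | apply h1 | apply h0)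
    have e2 : ‖η.de (G a c) b‖ ≤ ϑ * (y * (2 * ν * (X a * X c)) * (y * X b)) :=
      (h.de _ _).trans (by gcongr <;> first | apply h1 | apply h2)
    exact (norm_sub_le_of_le e1 e2).trans (le_of_eq (by ring))
  · have := hX a; have := hX b; have := hn b; have := hn d; have := hn (G b d)
    have e1 : ‖η.dee a b d‖ ≤ ϑ * (y * X a * (y * X b) * X d) :=
      (h.dee a b d).trans (by gcongr <;> first | apply h1 | apply h0)
    have e2 : ‖η.de a (G b d)‖ ≤ ϑ * (y * X a * (y * (2 * ν * (X b * X d)))) :=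
      (h.de _ _).trans (by gcongr <;> first | apply h1 | apply h2)
    exact (norm_sub_le_of_le e1 e2).trans (le_of_eq (by ring))
  · have := hX a; have := hX b; have := hX c; have := hn b; have := hn c; have := hn d
    have := hn (G b d)
    have e1 : ‖η.ddee a c b d‖ ≤ ϑ * (y * X a * (y * X c) * X b * X d) :=
      (h.ddee a c b d).trans (by gcongr <;> first | apply h1 | apply h0)
    have e2 : ‖η.dee (G a c) b d‖ ≤ ϑ * (y * (2 * ν * (X a * X c)) * (y * X b) * X d) :=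
      (h.dee _ _ _).trans (by gcongr <;> first | apply h1 | apply h2 | apply h0)
    have e3 : ‖η.dde a c (G b d)‖ ≤ ϑ * (y * X a * X c * (y * (2 * ν * (X b * X d)))) :=
      (h.dde _ _ _).trans (by gcongr <;> first | apply h1 | apply h2 | apply h0)
    have e4 : ‖η.de (G a c) (G b d)‖ ≤
        ϑ * (y * (2 * ν * (X a * X c)) * (y * (2 * ν * (X b * X d)))) :=
      (h.de _ _).trans (by gcongr <;> apply h2)
    exact (norm_add_le_of_le (norm_sub_le_of_le (norm_sub_le_of_le e1 e2) e3) e4).trans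
      (le_of_eq (by ring))

/-- the numerical facts; `m = 1/(1+τ)`, `ν = |μ| m`, `ℓ = log (1 + τ/κ)` -/
theorem num (h : f.OK) {m ν ℓ : ℝ} (hm : m = 1 / (1 + f.τ)) (hν : ν = ‖f.μ‖ * m)
    (hℓ : ℓ = Real.log (1 + f.τ / f.κ)) :
    0 ≤ ℓ ∧ f.κ * ℓ * m ≤ 1 ∧ f.κ * ℓ * m * ν ≤ √f.q ∧ f.κ * ℓ * m * ν ^ 2 ≤ f.q ∧
      √f.κ * ν ≤ 2 ∧ ν ^ 2 ≤ f.mh ∧ f.κ * ℓ * √m ≤ 2 := by
  obtain ⟨-, -, f3, f4, -, -, f7, f8, f9, f10⟩ := h.facts
  obtain ⟨t0, t1, -⟩ := h.t_bounds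
  have hκ := h.κ_pos
  have hτ := h.τ_nonneg
  have hx : 0 ≤ f.τ / f.κ := by positivity
  have m0 : 0 ≤ m := by rw [hm]; positivity
  have ν0 : 0 ≤ ν := by rw [hν]; positivity
  have l0 : 0 ≤ ℓ := hℓ ▸ Real.log_nonneg (by linarith)
  have l1 : f.κ * ℓ ≤ f.τ := by
    have := Real.log_le_sub_one_of_pos (by linarith : 0 < 1 + f.τ / f.κ)
    rw [← hℓ, add_sub_cancel_left, le_div_iff₀' hκ] at this
    exact this
  have ht : f.τ * m = f.t := by rw [hm, Fr.t]; ring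
  have l2 : f.κ * ℓ * m ≤ f.t := ht ▸ mul_le_mul_of_nonneg_right l1 m0
  have l3 : 0 ≤ f.κ * ℓ * m := by positivity
  have n1 : ν ^ 2 ≤ f.t * f.mh := by
    rw [hν, mul_pow, ← Complex.normSq_eq_norm_sq, f3, hm, f4]; exact f10
  have mh0 : 0 ≤ f.mh := by linarith
  have n2 : f.t * (f.t * f.mh) ≤ f.q := by
    have : f.t * (f.t * f.mh) = f.t ^ 2 + f.t ^ 3 / f.κ := by rw [Fr.mh]; ring
    rw [this, Fr.q]
    have := pow_le_one₀ t0 t1.le (n := 2)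
    linarith
  have n3 : f.κ * ℓ * m * ν ^ 2 ≤ f.q := (mul_le_mul l2 n1 (sq_nonneg _) t0).trans n2
  have n4 : ν ^ 2 ≤ f.mh := n1.trans (mul_le_of_le_one_left mh0 t1.le)
  refine ⟨l0, l2.trans t1.le, Real.le_sqrt_of_sq_le ?_, n3, ?_, n4, ?_⟩
  · calc (f.κ * ℓ * m * ν) ^ 2 = (f.κ * ℓ * m) * (f.κ * ℓ * m * ν ^ 2) := by ring
      _ ≤ 1 * f.q := mul_le_mul (l2.trans t1.le) n3 (by positivity) zero_le_one
      _ = _ := one_mul _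
  · refine (abs_le_of_sq_le_sq' ?_ (by norm_num)).2
    rw [mul_pow, Real.sq_sqrt hκ.le]
    have := mul_le_mul_of_nonneg_left (n4.trans f9) hκ.le
    rw [mul_div_cancel₀ _ hκ.ne'] at this
    linarith
  · refine (abs_le_of_sq_le_sq' ?_ (by norm_num)).2
    rw [mul_pow, mul_pow, Real.sq_sqrt m0]
    have h1 := log_sq_le hx
    rw [← hℓ] at h1
    calc f.κ ^ 2 * ℓ ^ 2 * m ≤ f.κ ^ 2 * (4 * (f.τ / f.κ)) * m := by gcongr
      _ = 4 * (f.κ * (f.τ * m)) := by field_simp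
      _ ≤ 4 * (1 * 1) := by rw [ht]; gcongr; exact h.κ_le
      _ = 2 ^ 2 := by norm_num

theorem norm_w_le (h : f.OK) : ‖f.w‖ ≤ 1 := by
  have := h.s_lt
  rw [Fr.s, Complex.normSq_eq_norm_sq] at this
  exact (abs_le_of_sq_le_sq' (by simpa using this.le) zero_le_one).2

/-- bounds for the jet of `L` -/
theorem LB_bd (h : f.OK) {φ : J (Fin 3 → ℂ)} (hΘ : ∀ a b, φ.de a b = dg f.g₁ f.g₂ a b)
    {m : ℝ} (hm : 0 ≤ m) (hτ : f.τ * m ≤ 1) (h₁ : f.g₁ = m) (h₂ : f.g₂ = m) :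
    (∀ a, ‖(f.LB φ).d a‖ ≤ 1 / √f.κ * nn a) ∧ (∀ a, ‖(f.LB φ).e a‖ ≤ 1 / √f.κ * nn a) ∧
    (∀ a b, ‖(f.LB φ).de a b‖ ≤ 2 / f.κ * (nn a * nn b)) ∧
    (∀ a b, ‖(f.LB φ).dd a b‖ ≤ 1 / f.κ * (nn a * nn b)) ∧
    ∀ a b, ‖(f.LB φ).ee a b‖ ≤ 1 / f.κ * (nn a * nn b) := by
  have hw := norm_w_le h
  have hκ := h.κ_pos
  have hw2 : ‖f.w‖ ^ 2 ≤ 1 := pow_le_one₀ (norm_nonneg _) hw
  have h0 := norm_zero_le_nn
  have hX := nn_nonneg
  refine ⟨fun a => ?_, fun a => ?_, fun a b => ?_, fun a b => ?_, fun a b => ?_⟩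
  · rw [h.LB_d hΘ, norm_mul, norm_mul, Complex.norm_conj, Complex.norm_of_nonneg (by positivity)]
    calc _ ≤ 1 / √f.κ * 1 * nn a := by gcongr; apply h0
      _ = _ := by ring
  · rw [h.LB_e hΘ, norm_mul, norm_mul, Complex.norm_conj, Complex.norm_of_nonneg (by positivity)]
    calc _ ≤ 1 / √f.κ * 1 * nn a := by gcongr; apply h0
      _ = _ := by ring
  · have e1 : ‖a 0 * conj (b 0)‖ ≤ nn a * nn b :=
      norm_mul_le_of_le (h0 a) (by rw [Complex.norm_conj]; exact h0 b)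
    have e2 : ‖(f.τ : ℂ) * dg f.g₁ f.g₂ a b‖ ≤ nn a * nn b := by
      have e3 := norm_dg_le (x₁ := f.g₁) (x₂ := f.g₂) (X := m) (by rw [h₁, abs_of_nonneg hm])
        (by rw [h₂, abs_of_nonneg hm]) a b
      have := hX a; have := hX b; have := hn_nonneg b; have := h.τ_nonneg
      rw [norm_mul, Complex.norm_of_nonneg h.τ_nonneg]
      calc _ ≤ f.τ * (m * (nn a * nn b)) := by
            gcongr; refine e3.trans ?_; gcongr <;> apply hn_le_nn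
        _ = (f.τ * m) * (nn a * nn b) := by ring
        _ ≤ _ := mul_le_of_le_one_left (by positivity) hτ
    rw [h.LB_de hΘ, norm_mul, Complex.norm_of_nonneg (by positivity)]
    calc _ ≤ 1 / f.κ * (nn a * nn b + nn a * nn b) := by gcongr; exact norm_add_le_of_le e1 e2
      _ = _ := by ring
  · have := hX a
    rw [h.LB_dd hΘ, norm_mul, norm_mul, norm_mul, norm_neg, norm_pow, Complex.norm_conj,
      Complex.norm_of_nonneg (by positivity)]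
    calc _ ≤ 1 / f.κ * 1 * (nn a * nn b) := by gcongr <;> apply h0
      _ = _ := by ring
  · have := hX a
    rw [h.LB_ee hΘ, norm_mul, norm_mul, norm_mul, norm_neg, norm_pow, Complex.norm_conj,
      Complex.norm_conj, Complex.norm_of_nonneg (by positivity)]
    calc _ ≤ 1 / f.κ * 1 * (nn a * nn b) := by gcongr <;> apply h0
      _ = _ := by ring

theorem numK {θ κ m ν ℓ q : ℝ} (hθ : 0 ≤ θ) (hκ : 0 < κ) (hκ1 : κ ≤ 1) (hm1 : m ≤ 1) (hν : 0 ≤ ν)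
    (hq : 1 ≤ q) (h1 : κ * ℓ * m ≤ 1) (h2 : κ * ℓ * m * ν ≤ √q) (h3 : κ * ℓ * m * ν ^ 2 ≤ q)
    (h4 : √κ * ν ≤ 2) :
    θ * κ * m * ℓ ≤ θ ∧ θ * κ * (1 / √κ) ≤ θ ∧ θ * κ * m * (1 + 2 * ν) * ℓ ≤ 3 * θ * √q ∧
      θ * κ * (1 + 2 * ν) * (1 / √κ) ≤ 5 * θ ∧ θ * κ * m * (1 + 2 * ν) * (1 / √κ) ≤ 5 * θ ∧
      θ * κ * (2 / κ) ≤ 2 * θ ∧ θ * κ * (1 / κ) ≤ θ ∧
      θ * κ * m * (1 + 2 * ν) ^ 2 * ℓ ≤ 9 * θ * q := by
  have k0 : 0 < √κ := Real.sqrt_pos.2 hκ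
  have k1 : √κ ≤ 1 := Real.sqrt_le_one.2 hκ1
  have k2 : κ * (1 / √κ) = √κ := by rw [mul_one_div, Real.div_sqrt]
  have r1 : 1 ≤ √q := Real.one_le_sqrt.2 hq
  have r2 : √q ≤ q := by rw [Real.sqrt_le_left (by linarith)]; nlinarith
  have k4 : θ * κ * (1 + 2 * ν) * (1 / √κ) ≤ 5 * θ := by
    calc _ = θ * (κ * (1 / √κ) * (1 + 2 * ν)) := by ring
      _ ≤ θ * 5 := by rw [k2]; exact mul_le_mul_of_nonneg_left (by linarith) hθ
      _ = _ := by ring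
  refine ⟨?_, ?_, ?_, k4, le_trans ?_ k4, le_of_eq (by field_simp), le_of_eq (by field_simp), ?_⟩
  · have := mul_le_mul_of_nonneg_left h1 hθ
    linarith
  · rw [mul_assoc, k2]; exact mul_le_of_le_one_right hθ k1
  · have := mul_le_mul_of_nonneg_left (by linarith : κ * ℓ * m + 2 * (κ * ℓ * m * ν) ≤ 3 * √q) hθ
    linarith
  · calc _ = m * (θ * κ * (1 + 2 * ν) * (1 / √κ)) := by ring
      _ ≤ _ := mul_le_of_le_one_left (by positivity) hm1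
  · have := mul_le_mul_of_nonneg_left
      (by linarith : κ * ℓ * m + 4 * (κ * ℓ * m * ν) + 4 * (κ * ℓ * m * ν ^ 2) ≤ 9 * q) hθ
    linarith

/-- the four odd forms -/
theorem odd_bd {ψ η : J (Fin 3 → ℂ)} (hlψ : ψ.Lin) (hlη : η.Lin) {q mh ν θ ϑ : ℝ} (hq : 1 ≤ q)
    (hν : ν ^ 2 ≤ mh) (hθ : 0 ≤ θ) (hϑ : 0 ≤ ϑ)
    (hd : ∀ a, ‖η.d a‖ ≤ ϑ * hn a) (he : ∀ a, ‖η.e a‖ ≤ ϑ * hn a)
    (hψ : ∀ a b, ‖ψ.de a b‖ ≤ hn a * hn b) {z₁ z₂ z₃ z₄ : ℂ} (h₁ : ‖z₁‖ * ϑ ≤ θ * ν)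
    (h₂ : ‖z₂‖ * ϑ ≤ θ * ν) (h₃ : ‖z₃‖ * ϑ ≤ θ * ν) (h₄ : ‖z₄‖ * ϑ ≤ θ * ν) (ξ ζ : Fin 3 → ℂ) :
    |Sf (fun a b c d =>
      (conj (d 0) * (z₁ * (η.d a * ψ.de c b + η.d c * ψ.de a b)) +
        conj (b 0) * (z₁ * (η.d a * ψ.de c d + η.d c * ψ.de a d))) +
      (c 0 * (z₂ * (η.e b * ψ.de a d + η.e d * ψ.de a b)) +
        a 0 * (z₂ * (η.e b * ψ.de c d + η.e d * ψ.de c b))) +
      (a 0 * (z₃ * η.d c) + c 0 * (z₃ * η.d a)) * (conj (b 0) * conj (d 0)) +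
      (conj (b 0) * (z₄ * η.e d) + conj (d 0) * (z₄ * η.e b)) * (a 0 * c 0)) ξ ζ| ≤
      6 * (θ * (q * (nn ξ * nn ζ) ^ 2 + mh * hn (vv ξ ζ) ^ 2)) := by
  have hH := hn_nonneg
  have hX := nn_nonneg
  have hle := hn_le_nn
  have ho := odd_le (N := nn ξ * nn ζ) (H := hn (vv ξ ζ)) hq hν hθ
  have b2 : ∀ {z : ℂ} {x₁ x₂ : ℂ} {a b c : Fin 3 → ℂ}, ‖z‖ * ϑ ≤ θ * ν →
      ‖x₁‖ ≤ ϑ * (nn a * nn b * hn c) → ‖x₂‖ ≤ ϑ * (nn a * nn b * hn c) →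
      ‖z * (x₁ + x₂)‖ ≤ 2 * θ * ν * (nn a * nn b * hn c) := by
    intro z x₁ x₂ a b c hz h1 h2
    have := hX a; have := hX b; have := hH c
    rw [norm_mul]
    calc _ ≤ ‖z‖ * (ϑ * (nn a * nn b * hn c) + ϑ * (nn a * nn b * hn c)) := by
          gcongr; exact norm_add_le_of_le h1 h2
      _ = (‖z‖ * ϑ) * (2 * (nn a * nn b * hn c)) := by ring
      _ ≤ (θ * ν) * (2 * (nn a * nn b * hn c)) := by gcongr
      _ = _ := by ring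
  have b3 : ∀ {x₁ x₂ : ℂ} {a b c : Fin 3 → ℂ}, ‖x₁‖ ≤ ϑ * hn a → ‖x₂‖ ≤ hn b * hn c →
      ‖x₁ * x₂‖ ≤ ϑ * (nn a * nn b * hn c) ∧ ‖x₁ * x₂‖ ≤ ϑ * (nn b * nn a * hn c) ∧
      ‖x₁ * x₂‖ ≤ ϑ * (nn a * nn c * hn b) ∧ ‖x₁ * x₂‖ ≤ ϑ * (nn c * nn a * hn b) ∧
      ‖x₁ * x₂‖ ≤ ϑ * (nn b * nn c * hn a) ∧ ‖x₁ * x₂‖ ≤ ϑ * (nn c * nn b * hn a) := by
    intro x₁ x₂ a b c h1 h2
    have h3 := norm_mul_le_of_le h1 h2
    have := hX a; have := hX b; have := hX c; have := hH a; have := hH b; have := hH c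
    have k1 : ‖x₁ * x₂‖ ≤ ϑ * nn a * (nn b * hn c) := h3.trans (by gcongr <;> apply hle)
    have k2 : ‖x₁ * x₂‖ ≤ ϑ * nn a * (hn b * nn c) := h3.trans (by gcongr <;> apply hle)
    have k3 : ‖x₁ * x₂‖ ≤ ϑ * hn a * (nn b * nn c) := h3.trans (by gcongr <;> apply hle)
    exact ⟨k1.trans_eq (by ring), k1.trans_eq (by ring), k2.trans_eq (by ring),
      k2.trans_eq (by ring), k3.trans_eq (by ring), k3.trans_eq (by ring)⟩
  have b4 : ∀ {z x v : ℂ}, ‖z‖ * ϑ ≤ θ * ν → ‖x‖ ≤ ϑ * hn (vv ξ ζ) → ‖v‖ ≤ 2 * (nn ξ * nn ζ) →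
      ‖v * (z * x)‖ ≤ 2 * θ * ν * (nn ξ * nn ζ * hn (vv ξ ζ)) := by
    intro z x v hz h1 h2
    have := hX ξ; have := hX ζ; have := hH (vv ξ ζ)
    rw [norm_mul, norm_mul]
    calc _ ≤ 2 * (nn ξ * nn ζ) * (‖z‖ * (ϑ * hn (vv ξ ζ))) := by gcongr
      _ = (‖z‖ * ϑ) * (2 * (nn ξ * nn ζ * hn (vv ξ ζ))) := by ring
      _ ≤ (θ * ν) * (2 * (nn ξ * nn ζ * hn (vv ξ ζ))) := by gcongr
      _ = _ := by ring
  rw [Sf_add, Sf_add, Sf_add,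
    Fr.Sf_odd1 (Y := fun a c b => z₁ * (η.d a * ψ.de c b + η.d c * ψ.de a b))
      (fun a c b => by ring) fun c b => ⟨fun a a' => by
        simp only [hlη.d.add, (hlψ.de1 _).add]; ring, fun t a => by
        simp only [hlη.d.smul, (hlψ.de1 _).smul]; ring⟩,
    Fr.Sf_odd2 (Z := fun a b d => z₂ * (η.e b * ψ.de a d + η.e d * ψ.de a b))
      (fun a c b => by ring) fun c b => ⟨fun a a' => by
        simp only [hlη.e.add, (hlψ.de2 _).add]; ring, fun t a => by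
        simp only [hlη.e.smul, (hlψ.de2 _).smul]; ring⟩,
    Fr.Sf_odd3 (y := fun a => z₃ * η.d a) ⟨fun a a' => by
        simp only [hlη.d.add]; ring, fun t a => by simp only [hlη.d.smul]; ring⟩,
    Fr.Sf_odd4 (y := fun a => z₄ * η.e a) ⟨fun a a' => by
        simp only [hlη.e.add]; ring, fun t a => by simp only [hlη.e.smul]; ring⟩]
  have o1 := (Complex.abs_re_le_norm _).trans (norm_sub_le_of_le
    (b2 h₁ (b3 (hd (vv ξ ζ)) (hψ ξ ζ)).2.2.2.2.1 (b3 (hd ξ) (hψ (vv ξ ζ) ζ)).2.2.1)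
    (b2 h₁ (b3 (hd (vv ξ ζ)) (hψ ζ ξ)).2.2.2.2.2 (b3 (hd ζ) (hψ (vv ξ ζ) ξ)).2.2.2.1))
  have o2 := (Complex.abs_re_le_norm _).trans (norm_sub_le_of_le
    (b2 h₂ (b3 (he (vv ξ ζ)) (hψ ζ ξ)).2.2.2.2.2 (b3 (he ξ) (hψ ζ (vv ξ ζ))).1)
    (b2 h₂ (b3 (he (vv ξ ζ)) (hψ ξ ζ)).2.2.2.2.1 (b3 (he ζ) (hψ ξ (vv ξ ζ))).2.1))
  have o3 := (Complex.abs_re_le_norm _).trans (b4 (v := -(vv ξ ζ 0)) h₃ (hd _)
    (by rw [norm_neg]; exact vv_zero_le ξ ζ))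
  have o4 := (Complex.abs_re_le_norm _).trans (b4 (v := -conj (vv ξ ζ 0)) h₄ (he _)
    (by rw [norm_neg, Complex.norm_conj]; exact vv_zero_le ξ ζ))
  refine ((abs_add_le _ _).trans (add_le_add ((abs_add_le _ _).trans (add_le_add
    ((abs_add_le _ _).trans (add_le_add o1 o2)) o3)) o4)).trans ?_
  linarith

end Crest.Agent.R245.CT
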