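import Crest.Agent.R245.CoreL

/-!
# R245: the region of the wells (`η = κ` constant, `ψ` an exact multiple of the Bergman potential)

By `const_jets`: `F2 = 0`, `F3 = τ φ.dde`, bounded by `τ y³ B ≤ t B` (`y² = 1/(1+τ) = 1 - t`),
`F4 = τ (φ.ddee - ψ.ddee) + odd terms` with `Y a c b = conj μ φ.dde a c (b - τ u b)`, where
`hn (b - τ u b) ≤ y² hn b` since `1 - τ gᵢ = pᵢ ≤ y²` (the vertical component is invisible), so
`‖Y a c b‖ ≤ ν B hn a hn c hn b`, `ν² = Φ y⁴ ≤ t mh`.  The smallness hypothesis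
`κ B⁶ ≤ θ⁶` gives `t B² ≤ θ² q` (either `t ≤ θ²/B²`, or `t²/κ ≥ B²/θ²`), hence `t B ≤ θ √q`,
`t B ≤ θ q`, `ν B ≤ θ √(mh q)`.  Apply `pert` with `10 θ`.
At `w = 0`: `τ = 0`, `μ = 0`, `B0 = 0`; for `ξ = ![1,0,0]`, `η = I • ξ` any Christoffel map
vanishes (`F3 = 0`), `Wd = 1` and `Nm = 4/κ`.
-/

set_option autoImplicit false

namespace Crest.Agent.R245

open scoped ComplexConjugate

namespace Fr

variable {f : Fr}

theorem cw_Sn_lin {V : Type*} [AddCommGroup V] [Module ℂ V] (w : ℂ) {α : V → ℂ} (hα : IsL α)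
    {φ : J V} (hφ : φ.Lin) : (Sn w α φ).Lin := by
  have de1a := fun a a' b => (hφ.de1 b).add a a'
  have de1s := fun t a b => (hφ.de1 b).smul t a
  have de2a := fun a b b' => (hφ.de2 a).add b b'
  have de2s := fun t a b => (hφ.de2 a).smul t b
  have dde1a := fun a a' c b => (hφ.dde1 c b).add a a'
  have dde1s := fun t a c b => (hφ.dde1 c b).smul t a
  have dde3a := fun a c b b' => (hφ.dde3 a c).add b b'
  have dde3s := fun t a c b => (hφ.dde3 a c).smul t b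
  have dee1a := fun a a' b d => (hφ.dee1 b d).add a a'
  have dee1s := fun t a b d => (hφ.dee1 b d).smul t a
  have dee2a := fun a b b' d => (hφ.dee2 a d).add b b'
  have dee2s := fun t a b d => (hφ.dee2 a d).smul t b
  have ddee1a := fun a a' c b d => (hφ.ddee1 c b d).add a a'
  have ddee1s := fun t a c b d => (hφ.ddee1 c b d).smul t a
  have ddee3a := fun a c b b' d => (hφ.ddee3 a c d).add b b'
  have ddee3s := fun t a c b d => (hφ.ddee3 a c d).smul t b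
  have αa := hα.add
  have αs := hα.smul
  refine ⟨⟨?_, ?_⟩, ⟨?_, ?_⟩, ?_, fun c => ⟨?_, ?_⟩, fun b => ⟨?_, ?_⟩, fun a => ⟨?_, ?_⟩, ?_,
    fun d => ⟨?_, ?_⟩, ?_, fun c b => ⟨?_, ?_⟩, fun a c => ⟨?_, ?_⟩, ?_, fun b d => ⟨?_, ?_⟩,
    fun a d => ⟨?_, ?_⟩, ?_, ?_, fun c b d => ⟨?_, ?_⟩, fun a c d => ⟨?_, ?_⟩⟩
  · intros; simp only [Sn, αa]; ring
  · intros; simp only [Sn, αs]; ring
  · intros; simp only [Sn, αa, map_add]; ring
  · intros; simp only [Sn, αs, map_mul]; ring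
  · intros; rfl
  · intros; simp [Sn]
  · intros; simp [Sn]
  · intros; simp only [Sn, αa, de1a]; ring
  · intros; simp only [Sn, αs, de1s]; ring
  · intros; simp only [Sn, αa, de2a, map_add]; ring
  · intros; simp only [Sn, αs, de2s, map_mul]; ring
  · intros; rfl
  · intros; simp [Sn]
  · intros; simp [Sn]
  · intro a c b; simp only [Sn]; rw [hφ.dde_symm a c b]; ring
  · intros; simp only [Sn, αa, de1a, dde1a]; ring
  · intros; simp only [Sn, αs, de1s, dde1s]; ring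
  · intros; simp only [Sn, de2a, dde3a]; ring
  · intros; simp only [Sn, de2s, dde3s]; ring
  · intro a b d; simp only [Sn]; rw [hφ.dee_symm a b d]; ring
  · intros; simp only [Sn, de1a, dee1a]; ring
  · intros; simp only [Sn, de1s, dee1s]; ring
  · intros; simp only [Sn, αa, de2a, dee2a, map_add]; ring
  · intros; simp only [Sn, αs, de2s, dee2s, map_mul]; ring
  · intro a c b d; simp only [Sn]
    rw [hφ.ddee_symm1 a c b d, hφ.dde_symm a c d, hφ.dde_symm a c b]; ring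
  · intro a c b d; simp only [Sn]
    rw [hφ.ddee_symm2 a c b d, hφ.dee_symm c b d, hφ.dee_symm a b d]; ring
  · intros; simp only [Sn, αa, de1a, dde1a, dee1a, ddee1a]; ring
  · intros; simp only [Sn, αs, de1s, dde1s, dee1s, ddee1s]; ring
  · intros; simp only [Sn, αa, de2a, dde3a, dee2a, ddee3a, map_add]; ring
  · intros; simp only [Sn, αs, de2s, dde3s, dee2s, ddee3s, map_mul]; ring

theorem cw_Sn_herm {V : Type*} (w : ℂ) (α : V → ℂ) {φ : J V} (hφ : φ.Herm) : (Sn w α φ).Herm := by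
  have hde : ∀ a b, conj (φ.de a b) = φ.de b a := fun a b => (hφ.de b a).symm
  have hdde : ∀ a c b, conj (φ.dde a c b) = φ.dee b a c := fun a c b => (hφ.dee b a c).symm
  have hdee : ∀ a b d, conj (φ.dee a b d) = φ.dde b d a := fun a b d => by
    rw [hφ.dee, Complex.conj_conj]
  have hddee : ∀ a c b d, conj (φ.ddee a c b d) = φ.ddee b d a c := fun a c b d =>
    (hφ.ddee b d a c).symm
  refine J.herm_of ?_ (fun b => ?_) (fun b d => ?_) (fun a b => ?_) (fun a b d => ?_)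
    (fun a c b d => ?_) <;>
    simp only [Sn, map_mul, map_add, map_zero, Complex.conj_conj, hde, hdde, hdee, hddee] <;> ring

theorem cw_Lv_conj (s : ℝ) (k : ℕ) : conj (Lv s k) = Lv s k := by
  match k with
  | 0 | 1 | 2 | 3 | 4 => simp only [Lv, Complex.conj_ofReal]
  | k + 5 => simp [Lv]

theorem cw_α_lin (f : Fr) : IsL f.α :=
  ⟨fun a b => by simp only [Fr.α, Pi.add_apply]; ring,
    fun t a => by simp only [Fr.α, Pi.smul_apply, smul_eq_mul]; ring⟩

theorem cw_two_mul {X v N θ q m : ℝ} (hX : X ^ 2 ≤ θ ^ 2 * (q * m)) (hθ : 0 ≤ θ) (hq : 0 ≤ q)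
    (hm : 0 ≤ m) : 2 * (X * (v * N)) ≤ θ * (q * N ^ 2 + m * v ^ 2) := by
  refine (le_abs_self _).trans (abs_le_of_sq_le_sq ?_ (by positivity))
  have h1 : X ^ 2 * (v * N) ^ 2 ≤ θ ^ 2 * (q * m) * (v * N) ^ 2 :=
    mul_le_mul_of_nonneg_right hX (sq_nonneg _)
  have h2 : 0 ≤ θ ^ 2 * (q * N ^ 2 - m * v ^ 2) ^ 2 := by positivity
  nlinarith

theorem OK.cw_small (h : f.OK) {B θ : ℝ} (hB : 1 ≤ B) (hκ : f.κ * B ^ 6 ≤ θ ^ 6) :
    f.t * B ^ 2 ≤ θ ^ 2 * f.q := by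
  obtain ⟨ht0, -, -⟩ := h.t_bounds
  have hκ0 := h.κ_pos
  have hq : f.q = 1 + f.t ^ 3 / f.κ := rfl
  have h3 : 0 ≤ f.t ^ 3 / f.κ := by positivity
  rw [hq]
  by_cases hc : f.t * B ^ 2 ≤ θ ^ 2
  · nlinarith [sq_nonneg θ]
  · rw [not_le] at hc
    have hB0 : 0 < B := by linarith
    have h1 : (θ ^ 2) ^ 2 ≤ (f.t * B ^ 2) ^ 2 := pow_le_pow_left₀ (sq_nonneg _) hc.le 2
    have h2 : f.κ * B ^ 2 * B ^ 4 ≤ θ ^ 2 * f.t ^ 2 * B ^ 4 := by
      have := mul_le_mul_of_nonneg_left h1 (sq_nonneg θ)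
      nlinarith
    have h4 : f.κ * B ^ 2 ≤ θ ^ 2 * f.t ^ 2 := le_of_mul_le_mul_right h2 (by positivity)
    have h5 : f.t * B ^ 2 ≤ θ ^ 2 * (f.t ^ 3 / f.κ) := by
      rw [← mul_div_assoc, le_div_iff₀ hκ0]
      nlinarith
    nlinarith [sq_nonneg θ]

theorem OK.cw_hn_sub (h : f.OK) (b : Fin 3 → ℂ) :
    hn (b - (f.τ : ℂ) • f.u b) ≤ (1 - f.t) * hn b := by
  obtain ⟨-, -, -, -, h1, h2, -⟩ := h.facts
  have ht := h.t_bounds.2.1
  have e1 : (b - (f.τ : ℂ) • f.u b) 1 = (f.p₁ : ℂ) * b 1 := by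
    have : (f.p₁ : ℂ) = 1 - f.τ * f.g₁ := by exact_mod_cast (eq_sub_of_add_eq h.e₁)
    simp [Fr.u, this]; ring
  have e2 : (b - (f.τ : ℂ) • f.u b) 2 = (f.p₂ : ℂ) * b 2 := by
    have : (f.p₂ : ℂ) = 1 - f.τ * f.g₂ := by exact_mod_cast (eq_sub_of_add_eq h.e₂)
    simp [Fr.u, this]; ring
  refine (le_abs_self _).trans (abs_le_of_sq_le_sq ?_ (mul_nonneg (by linarith) (hn_nonneg _)))
  rw [mul_pow, hn_sq, hn_sq, e1, e2, map_mul, map_mul, Complex.normSq_ofReal,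
    Complex.normSq_ofReal]
  have a1 : f.p₁ * f.p₁ ≤ (1 - f.t) ^ 2 := by nlinarith [h.p₁_pos]
  have a2 : f.p₂ * f.p₂ ≤ (1 - f.t) ^ 2 := by nlinarith [h.p₂_pos]
  nlinarith [Complex.normSq_nonneg (b 1), Complex.normSq_nonneg (b 2)]

theorem OK.cw_nn2 (h : f.OK) (a c : Fin 3 → ℂ) : f.τ * (f.n a * f.n c) = f.t * (hn a * hn c) := by
  have hτ := h.τ_nonneg
  have : √(1 / (1 + f.τ)) * √(1 / (1 + f.τ)) = 1 / (1 + f.τ) := Real.mul_self_sqrt (by positivity)
  simp only [Fr.n, Fr.t]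
  calc f.τ * (√(1 / (1 + f.τ)) * hn a * (√(1 / (1 + f.τ)) * hn c))
      = f.τ * (√(1 / (1 + f.τ)) * √(1 / (1 + f.τ))) * (hn a * hn c) := by ring
    _ = _ := by rw [this]; ring

theorem OK.coreW (h : f.OK) {ψ φ : J (Fin 3 → ℂ)} (hlψ : ψ.Lin) (hhψ : ψ.Herm) (hlφ : φ.Lin)
    (hhφ : φ.Herm) {B D : ℝ} (hB : 1 ≤ B) (hκ : f.κ * B ^ 6 ≤ (1 / 10 ^ 5) ^ 6)
    (hψ2 : ∀ a b, ψ.de a b = dg f.p₁ f.p₂ a b) (hφ2 : ∀ a b, φ.de a b = dg f.g₁ f.g₂ a b)
    (hψ1 : ∀ a, ‖ψ.d a‖ ≤ D * f.n a) (hD : 0 ≤ D)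
    (hψ3 : ∀ a c b, ψ.dde a c b = 0)
    (hψ4 : ∀ a c b d, ψ.ddee a c b d = (1 / f.A : ℝ) * (ψ.de a b * ψ.de c d + ψ.de a d * ψ.de c b))
    (hφ3 : ∀ a c b, ‖φ.dde a c b‖ ≤ B * (f.n a * f.n c * f.n b))
    (hφ4 : ∀ a c b d, ‖φ.ddee a c b d - ψ.ddee a c b d‖ ≤ B * (f.n a * f.n c * f.n b * f.n d)) :
    Good (Pjet ψ φ (J.const f.κ) f.w f.α) (1 / 4000) f.hi ∧
      (∀ a, nn a ^ 2 / 2 ≤ ((Pjet ψ φ (J.const f.κ) f.w f.α).de a a).re) ∧
      (∀ a, ‖(Pjet ψ φ (J.const f.κ) f.w f.α).d a‖ ≤ (D + 3) * nn a) ∧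
      (f.w = 0 → Big (Pjet ψ φ (J.const f.κ) f.w f.α) (1 / f.κ)) := by
  set u := Pjet ψ φ (J.const f.κ) f.w f.α with hu
  have hlu : u.Lin := hlψ.add ((J.lin_const _).mul ((cw_Sn_lin _ (cw_α_lin f) hlφ).comp _))
  have hhu : u.Herm :=
    hhψ.add ((J.herm_const _).mul ((cw_Sn_herm _ _ hhφ).comp (cw_Lv_conj _)))
  have hcov : u.cov f.B0 = (ψ.cov f.B0).add ((J.const (f.κ : ℂ)).mul (f.LB φ)) := by
    rw [hu, Pjet, J.cov_add, J.cov_mul, J.cov_const]; rfl
  have hB0 : 0 ≤ B := by linarith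
  have nn0 := n_nonneg (f := f)
  have hφ3' : ∀ a b d, ‖φ.dee a b d‖ ≤ B * (f.n a * f.n b * f.n d) := by
    intro a b d
    rw [hhφ.dee, Complex.norm_conj]
    exact (hφ3 b d a).trans_eq (by ring)
  have hψ3' : ∀ a b d, ψ.dee a b d = 0 := fun a b d => by rw [hhψ.dee, hψ3, map_zero]
  obtain ⟨c2, c3, c4⟩ := h.const_jets hφ2 hψ2 hlψ hlφ (C := B)
    (fun a c b => by
      rw [hψ3, norm_zero]
      exact mul_nonneg hB0 (mul_nonneg (mul_nonneg (nn0 _) (nn0 _)) (nn0 _)))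
    (fun a b d => by
      rw [hψ3', norm_zero]
      exact mul_nonneg hB0 (mul_nonneg (mul_nonneg (nn0 _) (nn0 _)) (nn0 _))) hφ3 hφ3'
  have d1 : ∀ a, u.d a = ψ.d a + f.κ * (f.LB φ).d a := by
    intro a
    have : u.d a = (u.cov f.B0).d a := rfl
    rw [this, hcov]
    simp [J.add, J.mul, J.const, J.cov]
  have d2 : ∀ a b, (u.cov f.B0).de a b = ip a b := by
    intro a b
    rw [hcov, ← c2]
    simp [J.add, J.mul, J.const, J.cov]
  have d3 : ∀ a c b, (u.cov f.B0).dde a c b = f.τ * φ.dde a c b := by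
    intro a c b
    have := c3 a c b
    rw [hψ3, zero_add] at this
    rw [hcov, ← this]
    simp only [J.add, J.mul, J.const]
    ring
  let Y : (Fin 3 → ℂ) → (Fin 3 → ℂ) → (Fin 3 → ℂ) → ℂ := fun a c b =>
    conj f.μ * φ.dde a c (b - (f.τ : ℂ) • f.u b)
  let Z : (Fin 3 → ℂ) → (Fin 3 → ℂ) → (Fin 3 → ℂ) → ℂ := fun a b d =>
    f.μ * φ.dee (a - (f.τ : ℂ) • f.u a) b d
  have hY : ∀ a c b, Y a c b = conj f.μ * (φ.dde a c b - f.τ * φ.dde a c (f.u b)) := by
    intro a c b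
    have e1 := (hlφ.dde3 a c).sub b ((f.τ : ℂ) • f.u b)
    have e2 := (hlφ.dde3 a c).smul (f.τ : ℂ) (f.u b)
    simp only [Complex.conj_ofReal] at e1 e2
    simp only [Y, e1, e2]
  have hZ : ∀ a b d, Z a b d = f.μ * (φ.dee a b d - f.τ * φ.dee (f.u a) b d) := by
    intro a b d
    have e1 := (hlφ.dee1 b d).sub a ((f.τ : ℂ) • f.u a)
    have e2 := (hlφ.dee1 b d).smul (f.τ : ℂ) (f.u a)
    simp only [Z, e1, e2]
  have d4 : ∀ a b c d, (u.cov f.B0).ddee a c b d - f.R0 a b c d =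
      f.τ * (φ.ddee a c b d - ψ.ddee a c b d) + (conj (d 0) * Y a c b + conj (b 0) * Y a c d) +
        (c 0 * Z a b d + a 0 * Z c b d) := by
    intro a b c d
    have e1 := c4 a b c d
    have e2 := hψ4 a c b d
    simp only [hψ2] at e2
    rw [← e2] at e1
    simp only [hψ3, hψ3'] at e1
    have e3 : (u.cov f.B0).ddee a c b d =
        (ψ.cov f.B0).ddee a c b d + f.κ * (f.LB φ).ddee a c b d := by
      rw [hcov]
      simp only [J.add, J.mul, J.const]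
      ring
    rw [e3, e1, hY, hY, hZ, hZ]
    ring
  obtain ⟨ht0, ht1, -⟩ := h.t_bounds
  obtain ⟨-, -, fμ, -, -, -, fq, fqm, -, fΦ⟩ := h.facts
  have hτ := h.τ_nonneg
  set θ : ℝ := 1 / 10 ^ 5 with hθ
  have hθ0 : 0 < θ := by rw [hθ]; norm_num
  have hsm : f.t * B ^ 2 ≤ θ ^ 2 * f.q := h.cw_small hB hκ
  have htB : f.t * B ≤ θ * √f.q := by
    refine (le_abs_self _).trans (abs_le_of_sq_le_sq ?_ (by positivity))
    rw [mul_pow, mul_pow, Real.sq_sqrt (by linarith)]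
    have : 0 ≤ f.t * B ^ 2 := by positivity
    nlinarith
  have htB' : f.t * B ≤ θ * f.q := by
    refine htB.trans (mul_le_mul_of_nonneg_left ?_ hθ0.le)
    exact Real.sqrt_le_iff.2 ⟨by linarith, by nlinarith⟩
  have hnn : ∀ a, f.n a ≤ nn a := fun a => (h.n_le a).trans (hn_le_nn a)
  -- the odd terms
  set X : ℝ := ‖f.μ‖ * (1 - f.t) * B with hX
  have hX0 : 0 ≤ X := mul_nonneg (mul_nonneg (norm_nonneg _) (by linarith)) hB0
  have hX2 : X ^ 2 ≤ θ ^ 2 * (f.q * f.mh) := by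
    have e : X ^ 2 = f.Φ * (1 - f.t) ^ 2 * B ^ 2 := by
      rw [hX, mul_pow, mul_pow, ← Complex.normSq_eq_norm_sq, fμ]
    have h1 := mul_le_mul_of_nonneg_right fΦ (sq_nonneg B)
    have h2 := mul_le_mul_of_nonneg_right hsm (show 0 ≤ f.mh by linarith)
    rw [e]; nlinarith
  have hsub : ∀ b, f.n (b - (f.τ : ℂ) • f.u b) ≤ (1 - f.t) * hn b := fun b =>
    (h.n_le _).trans (h.cw_hn_sub b)
  have nY : ∀ a c b, ‖Y a c b‖ ≤ X * (hn a * (nn c * nn b)) := by
    intro a c b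
    simp only [Y, norm_mul, Complex.norm_conj]
    have h1 := hφ3 a c (b - (f.τ : ℂ) • f.u b)
    have h2 : f.n a * f.n c * f.n (b - (f.τ : ℂ) • f.u b) ≤ hn a * nn c * ((1 - f.t) * nn b) := by
      have := hn_nonneg a
      have := nn_nonneg c
      refine mul_le_mul (mul_le_mul (h.n_le a) (hnn c) (nn0 _) (hn_nonneg _)) ((hsub b).trans ?_)
        (nn0 _) (by positivity)
      exact mul_le_mul_of_nonneg_left (hn_le_nn b) (by linarith)
    calc ‖f.μ‖ * ‖φ.dde a c (b - (f.τ : ℂ) • f.u b)‖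
        ≤ ‖f.μ‖ * (B * (hn a * nn c * ((1 - f.t) * nn b))) :=
          mul_le_mul_of_nonneg_left (h1.trans (mul_le_mul_of_nonneg_left h2 hB0)) (norm_nonneg _)
      _ = _ := by rw [hX]; ring
  have nZ : ∀ a b d, ‖Z a b d‖ ≤ X * (hn b * (nn a * nn d)) := by
    intro a b d
    simp only [Z, norm_mul]
    have h1 := hφ3' (a - (f.τ : ℂ) • f.u a) b d
    have h2 : f.n (a - (f.τ : ℂ) • f.u a) * f.n b * f.n d ≤ (1 - f.t) * nn a * hn b * nn d := by
      have := hn_nonneg b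
      have := nn_nonneg a
      have : 0 ≤ 1 - f.t := by linarith
      refine mul_le_mul (mul_le_mul ((hsub a).trans ?_) (h.n_le b) (nn0 _) (by positivity)) (hnn d)
        (nn0 _) (by positivity)
      exact mul_le_mul_of_nonneg_left (hn_le_nn a) (by linarith)
    calc ‖f.μ‖ * ‖φ.dee (a - (f.τ : ℂ) • f.u a) b d‖
        ≤ ‖f.μ‖ * (B * ((1 - f.t) * nn a * hn b * nn d)) :=
          mul_le_mul_of_nonneg_left (h1.trans (mul_le_mul_of_nonneg_left h2 hB0)) (norm_nonneg _)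
      _ = _ := by rw [hX]; ring
  have hP := h.pert hlu hhu (θ := 10 * θ) (by positivity) (by rw [hθ]; norm_num)
    (fun a b => by
      have : u.de a b = ip a b := d2 a b
      rw [this, sub_self, norm_zero]
      have := nn_nonneg a
      have := nn_nonneg b
      positivity)
    (fun a c b => by
      rw [d3, norm_mul, Complex.norm_real, Real.norm_of_nonneg hτ]
      have h1 := mul_le_mul_of_nonneg_left (hφ3 a c b) hτ
      have h2 := h.cw_nn2 a c
      have h3 : hn a * hn c * f.n b ≤ nn a * nn c * nn b :=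
        mul_le_mul (mul_le_mul (hn_le_nn a) (hn_le_nn c) (hn_nonneg _) (nn_nonneg _)) (hnn b)
          (nn0 _) (mul_nonneg (nn_nonneg _) (nn_nonneg _))
      have h4 : 0 ≤ nn a * nn c * nn b :=
        mul_nonneg (mul_nonneg (nn_nonneg _) (nn_nonneg _)) (nn_nonneg _)
      have h5 : 0 ≤ θ * √f.q := by positivity
      calc f.τ * ‖φ.dde a c b‖ ≤ f.τ * (f.n a * f.n c) * (B * f.n b) := h1.trans_eq (by ring)
        _ = f.t * B * (hn a * hn c * f.n b) := by rw [h2]; ring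
        _ ≤ θ * √f.q * (nn a * nn c * nn b) :=
          mul_le_mul htB h3 (mul_nonneg (mul_nonneg (hn_nonneg _) (hn_nonneg _)) (nn0 _)) h5
        _ ≤ _ := by nlinarith [mul_nonneg h5 h4])
    (fun ξ η => by
      simp only [d4]
      rw [Sf_add, Sf_add, Sf_odd1 (Y := Y) (fun a c b => by simp only [Y]; rw [hlφ.dde_symm a c])
        (fun c b => ⟨fun a a' => by
            have := (hlφ.dde1 c (b - (f.τ : ℂ) • f.u b)).add a a'
            simp only [Y, this]; ring,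
          fun t a => by
            have := (hlφ.dde1 c (b - (f.τ : ℂ) • f.u b)).smul t a
            simp only [Y, this]; ring⟩),
        Sf_odd2 (Z := Z) (fun a b d => by simp only [Z]; rw [hlφ.dee_symm _ b d])
        (fun a d => ⟨fun b b' => by
            have := (hlφ.dee2 (a - (f.τ : ℂ) • f.u a) d).add b b'
            simp only [Z, this]; ring,
          fun t b => by
            have := (hlφ.dee2 (a - (f.τ : ℂ) • f.u a) d).smul t b
            simp only [Z, this]; ring⟩)]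
      have hE := abs_Sf_le (F := fun a b c d => (f.τ : ℂ) * (φ.ddee a c b d - ψ.ddee a c b d))
        (n := nn) (C := θ * f.q) (fun a b c d => by
          rw [norm_mul, Complex.norm_real, Real.norm_of_nonneg hτ]
          have h1 := mul_le_mul_of_nonneg_left (hφ4 a c b d) hτ
          have h2 := h.cw_nn2 a c
          have h3 : hn a * f.n b * hn c * f.n d ≤ nn a * nn b * nn c * nn d :=
            mul_le_mul (mul_le_mul (mul_le_mul (hn_le_nn a) (hnn b) (nn0 _) (nn_nonneg _))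
              (hn_le_nn c) (hn_nonneg _) (mul_nonneg (nn_nonneg _) (nn_nonneg _))) (hnn d) (nn0 _)
              (mul_nonneg (mul_nonneg (nn_nonneg _) (nn_nonneg _)) (nn_nonneg _))
          calc f.τ * ‖φ.ddee a c b d - ψ.ddee a c b d‖
              ≤ f.τ * (f.n a * f.n c) * (B * (f.n b * f.n d)) := h1.trans_eq (by ring)
            _ = f.t * B * (hn a * f.n b * hn c * f.n d) := by rw [h2]; ring
            _ ≤ _ := mul_le_mul htB' h3 (mul_nonneg (mul_nonneg (mul_nonneg (hn_nonneg _) (nn0 _))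
                (hn_nonneg _)) (nn0 _)) (by positivity)) ξ η
      have h2m := cw_two_mul (v := hn (vv ξ η)) (N := nn ξ * nn η) hX2 hθ0.le (by linarith)
        (by linarith)
      have hQ : f.Q ξ η = f.q * (nn ξ * nn η) ^ 2 + f.mh * hn (vv ξ η) ^ 2 := by
        rw [Fr.Q]; ring
      have o1 : |(Y (vv ξ η) ξ η - Y (vv ξ η) η ξ).re| ≤ 2 * (X * (hn (vv ξ η) * (nn ξ * nn η))) := by
        refine (Complex.abs_re_le_norm _).trans ((norm_sub_le _ _).trans ?_)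
        have := nY (vv ξ η) ξ η
        have := nY (vv ξ η) η ξ
        nlinarith
      have o2 : |(Z η (vv ξ η) ξ - Z ξ (vv ξ η) η).re| ≤ 2 * (X * (hn (vv ξ η) * (nn ξ * nn η))) := by
        refine (Complex.abs_re_le_norm _).trans ((norm_sub_le _ _).trans ?_)
        have := nZ η (vv ξ η) ξ
        have := nZ ξ (vv ξ η) η
        nlinarith
      have p1 : 0 ≤ θ * (f.q * (nn ξ * nn η) ^ 2) := by positivity
      have p2 : 0 ≤ θ * (f.mh * hn (vv ξ η) ^ 2) := by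
        have : 0 ≤ f.mh := by linarith
        positivity
      refine (abs_add_le _ _).trans ((add_le_add (abs_add_le _ _) le_rfl).trans ?_)
      rw [hQ]
      nlinarith)
  refine ⟨hP.1, hP.2, fun a => ?_, fun hw => ?_⟩
  · rw [d1, h.LB_d hφ2]
    have hκ0 := h.κ_pos
    have hw1 : ‖f.w‖ ≤ 1 := by
      refine (le_abs_self _).trans (abs_le_of_sq_le_sq ?_ zero_le_one)
      rw [← Complex.normSq_eq_norm_sq]
      have := h.s_lt
      simp only [Fr.s] at this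
      linarith
    have hk1 : f.κ * (1 / √f.κ) ≤ 1 := by
      rw [mul_one_div, Real.div_sqrt]
      exact Real.sqrt_le_one.2 h.κ_le
    have e : ‖(f.κ : ℂ) * (((1 / √f.κ : ℝ) : ℂ) * conj f.w * a 0)‖ =
        f.κ * (1 / √f.κ) * (‖f.w‖ * ‖a 0‖) := by
      simp only [norm_mul, Complex.norm_real, Complex.norm_conj]
      rw [Real.norm_of_nonneg hκ0.le, Real.norm_of_nonneg (by positivity)]
      ring
    have h1 : ‖f.w‖ * ‖a 0‖ ≤ 1 * nn a :=
      mul_le_mul hw1 (norm_zero_le_nn a) (norm_nonneg _) zero_le_one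
    have h2 : f.κ * (1 / √f.κ) * (‖f.w‖ * ‖a 0‖) ≤ 1 * (1 * nn a) :=
      mul_le_mul hk1 h1 (by positivity) zero_le_one
    have h3 := (hψ1 a).trans (mul_le_mul_of_nonneg_left (hnn a) hD)
    refine (norm_add_le _ _).trans ?_
    rw [e]
    nlinarith [nn_nonneg a]
  · refine Big.of_cov hlu hhu f.B0 fun Γ hΓ => ⟨![1, 0, 0], ![Complex.I, 0, 0], ?_⟩
    have hτ0 : f.τ = 0 := by simp [Fr.τ, Fr.s, hw]
    have hμ0 : f.μ = 0 := by simp [Fr.μ, hw]
    have hm : ∀ a b c d, mR (u.cov f.B0) Γ a b c d = f.R0 a b c d := by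
      intro a b c d
      have e1 := d4 a b c d
      simp only [Y, Z, hτ0, hμ0, map_zero, Complex.ofReal_zero, zero_mul, mul_zero,
        add_zero] at e1
      rw [mR, hΓ, d3, hτ0, ← sub_eq_zero.1 e1]
      simp
    have hW : Wd (u.cov f.B0) ![1, 0, 0] ![Complex.I, 0, 0] = 1 := by
      simp [Wd, d2, ip]
    have hN : Nm (u.cov f.B0) Γ ![1, 0, 0] ![Complex.I, 0, 0] = 4 / f.κ := by
      rw [Nm, hm, hm]
      have : f.R0 ![1, 0, 0] ![Complex.I, 0, 0] ![Complex.I, 0, 0] ![1, 0, 0] -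
          f.R0 ![Complex.I, 0, 0] ![1, 0, 0] ![Complex.I, 0, 0] ![1, 0, 0] = ((4 / f.κ : ℝ) : ℂ) := by
        simp [Fr.R0, dg]
        ring
      rw [this, Complex.ofReal_re]
    rw [hW, hN]
    refine ⟨one_pos, ?_⟩
    rw [mul_one]
    exact div_le_div_of_nonneg_right (by norm_num) h.κ_pos.le

end Fr

end Crest.Agent.R245
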