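import Crest.Agent.R245.Point
import Crest.Agent.R245.BaseB

/-!
# R245: choice of the constants

Order: `v, B` (`exists_well`), `Λ = (10¹² B)²`, `a₀ = 1/(40000 log Λ)`,
`κ₀ = (10⁻⁵ a₀²/(2·10⁵ B))⁶`; given `κ`, `R` from `exists_slow` with `θ = a₀³/10⁹`, `r₀ = L = R`,
`ρ₀ = exp (-2R)/10¹²`.  At a point with `‖p 1‖ < 1/2` and `r₀ + L < rr p` use `pointW`
(`inner`, `wells_bd`, `wells_psh`); at any other point the wells vanish nearby (`wells_zero` on the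
open set `1/3 < ‖x 1‖ ∨ 2 ρ₀ < rho2 x`), `Pot ψ φ η = Pot ψ ψ η` near `p`, use `pointT`.
-/

set_option autoImplicit false

namespace Crest.Agent.R245

open scoped ComplexConjugate ContDiff Topology
open Filter

structure Mod (a₀ κ : ℝ) (P : Par) : Prop where
  ok : P.OK
  κ_eq : P.κ = κ
  a₀_eq : P.a₀ = a₀
  nice : ∀ p, 0 < rho2 p → Complex.normSq (p 0) * Real.exp (P.φ p) < 1 →
    Nice (Pot P.ψ P.φ P.η) p (3000 / (a₀ * κ)) (20 / a₀)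
  big : ∃ p : Fin 3 → ℂ, p 0 = 0 ∧ ‖p 1‖ < 1 ∧ 0 < rho2 p ∧ rho2 p < 1 ∧
    Big (jr (Pot P.ψ P.φ P.η) p) (1 / κ)

theorem Nice.congr_mono {Q Q' : (Fin 3 → ℂ) → ℝ} {p : Fin 3 → ℂ} (hQ : Sm Q p) (h : Q' =ᶠ[𝓝 p] Q)
    {hi hi' C : ℝ} (hh : hi ≤ hi') (hn : Nice Q p hi C) : Nice Q' p hi' C := by
  have e := jr_congr h
  obtain ⟨a, b, c⟩ := hn
  refine ⟨?_, ?_, ?_⟩ <;> rw [e]
  · exact a.mono (jr_lin hQ) (jr_herm hQ) le_rfl hh
  · exact b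
  · exact c

theorem Par.OK.inner_point {P : Par} (hP : P.OK)
    (hκB : P.κ * (100 * (2000 * P.B) / P.a₀ ^ 2) ^ 6 ≤ (1 / 10 ^ 5) ^ 6)
    {p : Fin 3 → ℂ} (hp : 0 < rho2 p) (hs : Complex.normSq (p 0) * Real.exp (P.φ p) < 1)
    (h1 : ‖p 1‖ < 1 / 2) (h2 : P.r₀ + P.L < rr p) :
    Nice (Pot P.ψ P.φ P.η) p (3000 / (P.a₀ * P.κ)) (20 / P.a₀) ∧
      (p 0 = 0 → Big (jr (Pot P.ψ P.φ P.η) p) (1 / P.κ)) := by
  have hev : ∀ᶠ x in 𝓝 p, ‖x 1‖ < 1 / 2 ∧ P.r₀ + P.L < rr x := by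
    refine Filter.Eventually.and ?_ ?_
    · exact (continuous_apply 1).norm.continuousAt.eventually_lt continuousAt_const h1
    · exact continuousAt_const.eventually_lt (sm_rr hp).contDiffAt.continuousAt h2
  have hB := hP.well.one_le
  exact pointW (v := fun x => P.wells (x 1) (x 2))
    (k := (1 - P.a₀) * (P.r₀ + P.L * (1 - Gam 1))) (B := 2000 * P.B) hp hP.a₀_pos
    (by linarith [hP.a₀_le]) (by linarith) hP.κ_pos hκB
    (hev.mono fun x hx => (hP.inner hx.1.le hx.2.le).1)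
    (hev.mono fun x hx => (hP.inner hx.1.le hx.2.le).2)
    (Filter.Eventually.of_forall fun x => rfl) (hP.sm_wells hp) P.isBase_ψ P.isBase_φ P.isBase_η hs
    (hP.wells_bd hp) (hP.wells_psh hp)

theorem Par.OK.outer_point {P : Par} (hP : P.OK) {p : Fin 3 → ℂ} (hp : 0 < rho2 p)
    (hs : Complex.normSq (p 0) * Real.exp (P.φ p) < 1)
    (h : ¬ (‖p 1‖ < 1 / 2 ∧ P.r₀ + P.L < rr p))
    (h1 : ((jr P.ψ p).sub ((jr rr p).smul
        ((1 - (1 - P.a₀) * (bump (1 / 4) (9 / 16) (p 1) * gam1 P.r₀ P.L (rr p)) : ℝ) : ℂ))).Bd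
          (nP p) (P.a₀ ^ 3 / 10 ^ 9))
    (h2 : (jr P.η p).Bd (nP p) (P.a₀ ^ 3 / 10 ^ 9 * P.η p)) :
    Nice (Pot P.ψ P.φ P.η) p (3000 / (P.a₀ * P.κ)) (20 / P.a₀) := by
  have ha₀ := hP.a₀_pos
  have ha₁ := hP.a₀_le
  have hor : 1 / 3 < ‖p 1‖ ∨ 2 * P.ρ₀ < rho2 p := by
    rw [not_and_or, not_lt, not_lt] at h
    rcases h with h | h
    · left; linarith
    · right
      have h3 : Real.exp (-(P.r₀ + P.L)) ≤ rho2 p := by
        rw [← Real.le_log_iff_exp_le hp]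
        unfold rr at h
        linarith
      have := hP.ρ₀_le
      linarith [Real.exp_pos (-(P.r₀ + P.L))]
  have hev : ∀ᶠ x in 𝓝 p, P.φ x = P.ψ x := by
    have e0 : ∀ᶠ x in 𝓝 p, 0 < rho2 x :=
      continuousAt_const.eventually_lt contDiff_rho2.continuous.continuousAt hp
    have e1 : ∀ᶠ x in 𝓝 p, 1 / 3 < ‖x 1‖ ∨ 2 * P.ρ₀ < rho2 x := by
      rcases hor with h | h
      · have hc : Continuous fun x : Fin 3 → ℂ => ‖x 1‖ := (continuous_apply 1).norm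
        exact (continuousAt_const.eventually_lt hc.continuousAt h).mono fun x hx => Or.inl hx
      · exact (continuousAt_const.eventually_lt contDiff_rho2.continuous.continuousAt h).mono
          fun x hx => Or.inr hx
    filter_upwards [e0, e1] with x hx hx'
    rw [Par.φ, hP.wells_zero hx (hx'.imp le_of_lt le_of_lt), add_zero]
  have hs' : Complex.normSq (p 0) * Real.exp (P.ψ p) < 1 := by
    rw [← hev.self_of_nhds]; exact hs
  obtain ⟨a1, a2⟩ := bump_mem (1 / 4) (9 / 16) (p 1)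
  obtain ⟨b1, b2⟩ := gam1_mem P.r₀ P.L (rr p)
  have c1 := mul_nonneg a1 b1
  have c2 := mul_le_one₀ a2 b1 b2
  obtain ⟨η1, η2⟩ := hP.η_mem p
  have hκ := hP.κ_pos
  have hT := pointT hp (P.sm_ψ hp) (P.sm_η hp) P.isBase_ψ P.isBase_η hs' ha₀
    (a := 1 - (1 - P.a₀) * (bump (1 / 4) (9 / 16) (p 1) * gam1 P.r₀ P.L (rr p)))
    (by nlinarith) (by nlinarith) (by linarith) η2 (by positivity) le_rfl h1 h2
  refine Nice.congr_mono (sm_Pot (P.sm_ψ hp) (P.sm_ψ hp) (P.sm_η hp) hs') ?_ ?_ hT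
  · filter_upwards [hev] with x hx
    simp only [Pot, hx]
  · exact div_le_div_of_nonneg_left (by norm_num) (by positivity) (by gcongr)

theorem exists_mod : ∃ a₀ κ₀ : ℝ, 0 < a₀ ∧ a₀ ≤ 1 ∧ 0 < κ₀ ∧ κ₀ ≤ 1 ∧
    ∀ κ, 0 < κ → κ ≤ κ₀ → ∃ P, Mod a₀ κ P := by
  obtain ⟨v, B, hv⟩ := exists_well (ε := 1 / 40000) (by norm_num)
  have hB := hv.one_le
  obtain ⟨Λ, hΛ⟩ : ∃ Λ : ℝ, Λ = (10 ^ 12 * B) ^ 2 := ⟨_, rfl⟩
  have hΛ3 : 3 ≤ Λ := by rw [hΛ]; nlinarith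
  have hlog : 1 ≤ Real.log Λ := by
    rw [Real.le_log_iff_exp_le (by linarith)]
    linarith [Real.exp_one_lt_d9]
  obtain ⟨a₀, ha₀⟩ : ∃ a₀ : ℝ, a₀ = 1 / (40000 * Real.log Λ) := ⟨_, rfl⟩
  have ha0 : 0 < a₀ := by rw [ha₀]; positivity
  have halog : a₀ * Real.log Λ = 1 / 40000 := by
    rw [ha₀]; field_simp
  have ha1 : a₀ ≤ 1 / 2 := by nlinarith
  obtain ⟨y, hy⟩ : ∃ y : ℝ, y = 1 / 10 ^ 5 * a₀ ^ 2 / (100 * (2000 * B)) := ⟨_, rfl⟩
  have hy0 : 0 < y := by rw [hy]; positivity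
  have hy1 : y ≤ 1 := by
    rw [hy, div_le_one (by positivity)]
    nlinarith
  refine ⟨a₀, y ^ 6, ha0, by linarith, by positivity, pow_le_one₀ hy0.le hy1, fun κ hκ hκ' => ?_⟩
  obtain ⟨R, hR3, hR⟩ := Par.exists_slow hκ (θ := a₀ ^ 3 / 10 ^ 9) (by positivity)
  let P : Par := ⟨v, B, Λ, a₀, κ, R, R, Real.exp (-(R + R)) / 10 ^ 12⟩
  have hP : P.OK :=
    { well := hv
      Λ_ge := hΛ.ge
      a₀_pos := ha0
      a₀_le := ha1
      a₀_log := halog.le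
      κ_pos := hκ
      κ_le := hκ'.trans (pow_le_one₀ hy0.le hy1)
      r₀_ge := hR3
      L_ge := by show 1 ≤ R; linarith
      ρ₀_pos := by show 0 < Real.exp (-(R + R)) / 10 ^ 12; positivity
      ρ₀_le := le_rfl }
  have hκB : P.κ * (100 * (2000 * P.B) / P.a₀ ^ 2) ^ 6 ≤ (1 / 10 ^ 5) ^ 6 := by
    show κ * (100 * (2000 * B) / a₀ ^ 2) ^ 6 ≤ (1 / 10 ^ 5) ^ 6
    have e : y * (100 * (2000 * B) / a₀ ^ 2) = 1 / 10 ^ 5 := by
      rw [hy]; field_simp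
    calc κ * (100 * (2000 * B) / a₀ ^ 2) ^ 6 ≤ y ^ 6 * (100 * (2000 * B) / a₀ ^ 2) ^ 6 := by gcongr
      _ = _ := by rw [← mul_pow, e]
  refine ⟨P, hP, rfl, rfl, fun p hp hs => ?_, ?_⟩
  · by_cases h : ‖p 1‖ < 1 / 2 ∧ P.r₀ + P.L < rr p
    · exact (hP.inner_point hκB hp hs h.1 h.2).1
    · obtain ⟨h1, h2⟩ := hR P rfl ha0.le (by show a₀ ≤ 1; linarith) le_rfl le_rfl p hp
      exact hP.outer_point hp hs h h1 h2
  · let p : Fin 3 → ℂ := ![0, 0, ((Real.exp (-(R + R + 1)) / 2 : ℝ) : ℂ)]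
    have hρ : rho2 p = Real.exp (-(R + R + 1)) := by
      simp only [rho2, rho, p, Matrix.cons_val_one, Matrix.cons_val_zero, Matrix.cons_val,
        Complex.ofReal_re, map_zero]
      ring
    have hp : 0 < rho2 p := by rw [hρ]; exact Real.exp_pos _
    have h0 : p 0 = 0 := rfl
    have h1 : p 1 = 0 := rfl
    refine ⟨p, h0, by rw [h1]; simp, hp, ?_, ?_⟩
    · rw [hρ]; exact Real.exp_lt_one_iff.2 (by linarith)
    · refine (hP.inner_point hκB hp (by rw [h0]; simp) (by rw [h1]; simp) ?_).2 h0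
      show R + R < rr p
      rw [rr, hρ, Real.log_exp]
      linarith

end Crest.Agent.R245
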