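import Crest.Agent.R245.Fam
import Crest.Agent.R245.Model

/-!
# R245: the domain `U` and its diffeomorphism with `ℂ³`

`P k` is the model used in the cylinders with `kk i = k`.  Off `Kc` the model is standard
(`Par.OK.std`: `rho2 > 1/2` gives `rr ≤ 3`).  `G` rescales the fibres of each cylinder by
`exp ((rr - φ)/2)`; it preserves every `Cy i` (the base point `(A i p 1, A i p 2)` is unchanged)
and maps the Siegel domain onto `U`; `F₀ x = (x 0, x 1, (|x 0|² + |x 1|² + exp (re (x 2)))/2 +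
i im (x 2))` maps `ℂ³` onto the Siegel domain.
-/

set_option autoImplicit false

namespace Crest.Agent.R245

open scoped ComplexConjugate ContDiff Topology
open Filter

/-- rescale the fibre coordinate -/
noncomputable def sc (t : ℝ) (q : Fin 3 → ℂ) : Fin 3 → ℂ := ![q 0 * (Real.exp t : ℝ), q 1, q 2]

theorem hor_sc (t : ℝ) (q : Fin 3 → ℂ) : hor (sc t q) = hor q := rfl

theorem IsBase.sc {u : (Fin 3 → ℂ) → ℝ} (h : IsBase u) (t : ℝ) (q : Fin 3 → ℂ) :
    u (sc t q) = u q := by rw [h, hor_sc, ← h]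

theorem rr_sc (t : ℝ) (q : Fin 3 → ℂ) : rr (sc t q) = rr q := rfl

theorem sc_mem_O {t : ℝ} {q : Fin 3 → ℂ} (h : q ∈ O) : sc t q ∈ O := h

theorem sc_zero (q : Fin 3 → ℂ) : sc 0 q = q := by
  funext i; fin_cases i <;> simp [sc]

theorem sc_sc (s t : ℝ) (q : Fin 3 → ℂ) : sc s (sc t q) = sc (t + s) q := by
  funext i; fin_cases i <;> simp [sc, Complex.exp_add, mul_assoc]

theorem normSq_sc (t : ℝ) (q : Fin 3 → ℂ) :
    Complex.normSq (sc t q 0) = Complex.normSq (q 0) * Real.exp (2 * t) := by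
  change Complex.normSq (q 0 * (Real.exp t : ℝ)) = _
  rw [map_mul, Complex.normSq_ofReal, two_mul, Real.exp_add]

theorem rho3_pos_iff {q : Fin 3 → ℂ} (h : 0 < rho2 q) :
    0 < rho3 q ↔ Complex.normSq (q 0) * Real.exp (rr q) < 1 := by
  rw [rho3, rr, Real.exp_neg, Real.exp_log h, mul_inv_lt_iff₀ h, one_mul, sub_pos]

theorem contDiffAt_sc {t : (Fin 3 → ℂ) → ℝ} {q : (Fin 3 → ℂ) → Fin 3 → ℂ} {p : Fin 3 → ℂ}
    (ht : ContDiffAt ℝ ∞ t p) (hq : ContDiffAt ℝ ∞ q p) :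
    ContDiffAt ℝ ∞ (fun y => sc (t y) (q y)) p := by
  refine contDiffAt_pi.2 fun i => ?_
  fin_cases i
  · exact (contDiffAt_pi.1 hq 0).mul (Complex.ofRealCLM.contDiff.contDiffAt.comp p ht.exp)
  · exact contDiffAt_pi.1 hq 1
  · exact contDiffAt_pi.1 hq 2

/-- `ℂ³` onto the Siegel domain -/
noncomputable def F₀ (x : Fin 3 → ℂ) : Fin 3 → ℂ := ![x 0, x 1,
  ((Complex.normSq (x 0) + Complex.normSq (x 1) + Real.exp (x 2).re) / 2 : ℝ) +
    (x 2).im * Complex.I]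

/-- the inverse of `F₀` -/
noncomputable def F₁ (y : Fin 3 → ℂ) : Fin 3 → ℂ :=
  ![y 0, y 1, (Real.log (rho3 y) : ℝ) + (y 2).im * Complex.I]

theorem rho3_F₀ (x : Fin 3 → ℂ) : rho3 (F₀ x) = Real.exp (x 2).re := by
  change 2 * (((_ : ℝ) : ℂ) + _).re - Complex.normSq (x 1) - Complex.normSq (x 0) = _
  rw [Complex.add_re, Complex.ofReal_re, Complex.re_ofReal_mul, Complex.I_re]
  ring

theorem F₁_F₀ (x : Fin 3 → ℂ) : F₁ (F₀ x) = x := by
  funext i
  fin_cases i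
  · rfl
  · rfl
  · change ((Real.log (rho3 (F₀ x)) : ℝ) : ℂ) + ((((_ : ℝ) : ℂ) + _).im : ℝ) * Complex.I = x 2
    rw [rho3_F₀, Real.log_exp, Complex.add_im, Complex.ofReal_im, Complex.im_ofReal_mul,
      Complex.I_im, zero_add, mul_one, Complex.re_add_im]

theorem F₀_F₁ {y : Fin 3 → ℂ} (h : 0 < rho3 y) : F₀ (F₁ y) = y := by
  funext i
  fin_cases i
  · rfl
  · rfl
  · change (((Complex.normSq (y 0) + Complex.normSq (y 1) +
      Real.exp (((_ : ℝ) : ℂ) + _).re) / 2 : ℝ) : ℂ) + ((((_ : ℝ) : ℂ) + _).im : ℝ) * Complex.I = y 2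
    rw [Complex.add_re, Complex.ofReal_re, Complex.re_ofReal_mul, Complex.I_re, mul_zero, add_zero,
      Real.exp_log h, Complex.add_im, Complex.ofReal_im, Complex.im_ofReal_mul, Complex.I_im,
      zero_add, mul_one]
    have : (Complex.normSq (y 0) + Complex.normSq (y 1) + rho3 y) / 2 = (y 2).re := by
      simp only [rho3, rho2, rho]; ring
    rw [this, Complex.re_add_im]

theorem contDiff_normSq_apply (i : Fin 3) :
    ContDiff ℝ ∞ fun x : Fin 3 → ℂ => Complex.normSq (x i) := by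
  have h1 := Complex.reCLM.contDiff.comp (contDiff_apply (n := ∞) (ι := Fin 3) ℝ ℂ i)
  have h2 := Complex.imCLM.contDiff.comp (contDiff_apply (n := ∞) (ι := Fin 3) ℝ ℂ i)
  exact (h1.mul h1).add (h2.mul h2)

theorem contDiff_im_mul_I : ContDiff ℝ ∞ fun x : Fin 3 → ℂ => ((x 2).im : ℂ) * Complex.I :=
  (Complex.ofRealCLM.contDiff.comp (Complex.imCLM.contDiff.comp (contDiff_apply ℝ ℂ 2))).mul
    contDiff_const

theorem contDiff_F₀ : ContDiff ℝ ∞ F₀ := by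
  refine contDiff_pi.2 fun i => ?_
  fin_cases i
  · exact contDiff_apply ℝ ℂ 0
  · exact contDiff_apply ℝ ℂ 1
  · exact (Complex.ofRealCLM.contDiff.comp ((((contDiff_normSq_apply 0).add
      (contDiff_normSq_apply 1)).add (Complex.reCLM.contDiff.comp
        (contDiff_apply ℝ ℂ 2)).exp).div_const 2)).add contDiff_im_mul_I

theorem contDiffOn_F₁ : ContDiffOn ℝ ∞ F₁ {p | 0 < rho3 p} := by
  refine contDiffOn_pi.2 fun i => ?_
  fin_cases i
  · exact (contDiff_apply ℝ ℂ 0).contDiffOn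
  · exact (contDiff_apply ℝ ℂ 1).contDiffOn
  · exact (Complex.ofRealCLM.contDiff.comp_contDiffOn
      (contDiff_rho3.contDiffOn.log fun p hp => ne_of_gt hp)).add contDiff_im_mul_I.contDiffOn

section
variable (P : ℕ → Par)

def UU : Set (Fin 3 → ℂ) :=
  {p | glue (fun i p => Complex.normSq (A i p 0) * Real.exp ((P (kk i)).φ (A i p)) < 1)
    (fun p => 0 < rho3 p) p}

noncomputable def GG : (Fin 3 → ℂ) → (Fin 3 → ℂ) :=
  glue (fun i p => AI i (sc ((rr (A i p) - (P (kk i)).φ (A i p)) / 2) (A i p))) id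

noncomputable def GI : (Fin 3 → ℂ) → (Fin 3 → ℂ) :=
  glue (fun i p => AI i (sc (-(rr (A i p) - (P (kk i)).φ (A i p)) / 2) (A i p))) id

variable {P}

theorem mem_UU_cyl {i : Ix} {p : Fin 3 → ℂ} (hp : p ∈ Cy i) :
    p ∈ UU P ↔ Complex.normSq (A i p 0) * Real.exp ((P (kk i)).φ (A i p)) < 1 := by
  rw [UU, Set.mem_setOf_eq, glue_of_mem _ _ hp]

theorem mem_UU_not {p : Fin 3 → ℂ} (hp : ∀ i, p ∉ Cy i) : p ∈ UU P ↔ 0 < rho3 p := by
  rw [UU, Set.mem_setOf_eq, glue_of_not _ _ hp]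

theorem A_GG {i : Ix} {p : Fin 3 → ℂ} (hp : p ∈ Cy i) :
    A i (GG P p) = sc ((rr (A i p) - (P (kk i)).φ (A i p)) / 2) (A i p) := by
  rw [GG, glue_of_mem _ _ hp, A_AI]

theorem A_GI {i : Ix} {p : Fin 3 → ℂ} (hp : p ∈ Cy i) :
    A i (GI P p) = sc (-(rr (A i p) - (P (kk i)).φ (A i p)) / 2) (A i p) := by
  rw [GI, glue_of_mem _ _ hp, A_AI]

theorem GG_cyl {i : Ix} {p : Fin 3 → ℂ} (hp : p ∈ Cy i) : GG P p ∈ Cy i := by
  rw [Cy, Set.mem_preimage, A_GG hp]; exact sc_mem_O hp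

theorem GI_cyl {i : Ix} {p : Fin 3 → ℂ} (hp : p ∈ Cy i) : GI P p ∈ Cy i := by
  rw [Cy, Set.mem_preimage, A_GI hp]; exact sc_mem_O hp

theorem GG_not {p : Fin 3 → ℂ} (hp : ∀ i, p ∉ Cy i) : GG P p = p := glue_of_not _ _ hp

theorem GI_not {p : Fin 3 → ℂ} (hp : ∀ i, p ∉ Cy i) : GI P p = p := glue_of_not _ _ hp

variable (hP : ∀ k, (P k).OK)
include hP

theorem std_of_not_Kc (k : ℕ) {q : Fin 3 → ℂ} (hq : q ∈ O) (hK : q ∉ Kc) :
    (P k).φ q = rr q ∧ (P k).ψ q = rr q ∧ (P k).η q = 1 := by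
  refine (hP k).std hq.2.1 ?_
  by_cases h : ‖q 1‖ ≤ 7 / 8
  · have h1 : 1 / 2 < rho2 q := not_le.1 fun h' => hK ⟨h, h'⟩
    have h2 := Real.one_sub_inv_le_log_of_pos hq.2.1
    have h3 : (rho2 q)⁻¹ ≤ 2 := by rw [inv_le_comm₀ hq.2.1 two_pos]; linarith
    exact Or.inr (by unfold rr; linarith)
  · exact Or.inl (by linarith)

theorem mem_UU_of_rho3 {p : Fin 3 → ℂ} (hp : 0 < rho3 p) : p ∈ UU P := by
  by_cases h : ∃ i, p ∈ Cy i
  · obtain ⟨i, hi⟩ := h
    rw [← rho3_A i, rho3_pos_iff hi.2.1] at hp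
    exact (mem_UU_cyl hi).2 (lt_of_le_of_lt (mul_le_mul_of_nonneg_left
      (Real.exp_le_exp.2 ((hP _).φ_le hi.2.1)) (Complex.normSq_nonneg _)) hp)
  · exact (mem_UU_not (not_exists.1 h)).2 hp

theorem isOpen_UU : IsOpen (UU P) := by
  refine isOpen_iff_mem_nhds.2 fun p hp => ?_
  by_cases h : ∃ i, p ∈ Cy i
  · obtain ⟨i, hi⟩ := h
    have hA := (contDiff_A i).continuous
    have hc : ContinuousAt (fun y => Complex.normSq (A i y 0) *
        Real.exp ((P (kk i)).φ (A i y))) p :=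
      (Complex.continuous_normSq.comp ((continuous_apply 0).comp hA)).continuousAt.mul
        ((((hP _).sm_φ hi.2.1).contDiffAt.continuousAt.comp hA.continuousAt).rexp)
    filter_upwards [(isOpen_Cy i).mem_nhds hi,
      hc.eventually_lt continuousAt_const ((mem_UU_cyl hi).1 hp)] with y h1 h2
    exact (mem_UU_cyl h1).2 h2
  · filter_upwards [continuousAt_const.eventually_lt contDiff_rho3.continuous.continuousAt
      ((mem_UU_not (not_exists.1 h)).1 hp)] with y hy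
    exact mem_UU_of_rho3 hP hy

theorem GG_mem {p : Fin 3 → ℂ} (hp : 0 < rho3 p) : GG P p ∈ UU P := by
  by_cases h : ∃ i, p ∈ Cy i
  · obtain ⟨i, hi⟩ := h
    rw [← rho3_A i, rho3_pos_iff hi.2.1] at hp
    rw [mem_UU_cyl (GG_cyl hi), A_GG hi, normSq_sc, (P _).isBase_φ.sc, mul_assoc, ← Real.exp_add]
    convert hp using 3
    ring
  · rw [GG_not (not_exists.1 h)]
    exact mem_UU_of_rho3 hP hp

theorem GI_mem {p : Fin 3 → ℂ} (hp : p ∈ UU P) : 0 < rho3 (GI P p) := by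
  by_cases h : ∃ i, p ∈ Cy i
  · obtain ⟨i, hi⟩ := h
    rw [mem_UU_cyl hi] at hp
    rw [← rho3_A i, rho3_pos_iff (GI_cyl hi).2.1, A_GI hi, normSq_sc, rr_sc, mul_assoc,
      ← Real.exp_add]
    convert hp using 3
    ring
  · rw [GI_not (not_exists.1 h)]
    exact (mem_UU_not (not_exists.1 h)).1 hp

omit hP in
theorem GI_GG (p : Fin 3 → ℂ) : GI P (GG P p) = p := by
  by_cases h : ∃ i, p ∈ Cy i
  · obtain ⟨i, hi⟩ := h
    rw [← AI_A i (GI P _), A_GI (GG_cyl hi), A_GG hi, sc_sc, rr_sc, (P _).isBase_φ.sc, ← add_div,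
      add_neg_cancel, zero_div, sc_zero, AI_A]
  · rw [GG_not (not_exists.1 h), GI_not (not_exists.1 h)]

omit hP in
theorem GG_GI (p : Fin 3 → ℂ) : GG P (GI P p) = p := by
  by_cases h : ∃ i, p ∈ Cy i
  · obtain ⟨i, hi⟩ := h
    rw [← AI_A i (GG P _), A_GG (GI_cyl hi), A_GI hi, sc_sc, rr_sc, (P _).isBase_φ.sc, ← add_div,
      neg_add_cancel, zero_div, sc_zero, AI_A]
  · rw [GI_not (not_exists.1 h), GG_not (not_exists.1 h)]

theorem contDiffAt_rr_sub_φ {i : Ix} {p : Fin 3 → ℂ} (hi : p ∈ Cy i) :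
    ContDiffAt ℝ ∞ (fun y => rr (A i y) - (P (kk i)).φ (A i y)) p :=
  ((sm_rr hi.2.1).contDiffAt.sub ((hP _).sm_φ hi.2.1).contDiffAt).comp p (contDiff_A i).contDiffAt

theorem contDiffOn_GG : ContDiffOn ℝ ∞ (GG P) {p | 0 < rho3 p} := by
  refine fun p hp => ContDiffAt.contDiffWithinAt ?_
  by_cases h : ∃ i, p ∈ Cy i
  · obtain ⟨i, hi⟩ := h
    exact ((contDiff_AI i).contDiffAt.comp p (contDiffAt_sc ((contDiffAt_rr_sub_φ hP hi).div_const 2)
      (contDiff_A i).contDiffAt)).congr_of_eventuallyEq (glue_cyl _ _ hi)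
  · refine contDiffAt_id.congr_of_eventuallyEq (glue_std (fun i y h1 h2 => ?_) hp (not_exists.1 h))
    rw [(std_of_not_Kc hP _ h1 h2).1, sub_self, zero_div, sc_zero, AI_A, id]

theorem contDiffOn_GI : ContDiffOn ℝ ∞ (GI P) (UU P) := by
  refine fun p hp => ContDiffAt.contDiffWithinAt ?_
  by_cases h : ∃ i, p ∈ Cy i
  · obtain ⟨i, hi⟩ := h
    exact ((contDiff_AI i).contDiffAt.comp p (contDiffAt_sc
      ((contDiffAt_rr_sub_φ hP hi).neg.div_const 2)
      (contDiff_A i).contDiffAt)).congr_of_eventuallyEq (glue_cyl _ _ hi)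
  · refine contDiffAt_id.congr_of_eventuallyEq (glue_std (fun i y h1 h2 => ?_)
      ((mem_UU_not (not_exists.1 h)).1 hp) (not_exists.1 h))
    rw [(std_of_not_Kc hP _ h1 h2).1, sub_self, neg_zero, zero_div, sc_zero, AI_A, id]

theorem exists_diffeo : ∃ Φ Ψ : (Fin 3 → ℂ) → (Fin 3 → ℂ), ContDiff ℝ ∞ Φ ∧
    ContDiffOn ℝ ∞ Ψ (UU P) ∧ Set.range Φ = UU P ∧ ∀ x, Ψ (Φ x) = x := by
  have h0 : ∀ x, 0 < rho3 (F₀ x) := fun x => by rw [rho3_F₀]; exact Real.exp_pos _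
  refine ⟨fun x => GG P (F₀ x), fun y => F₁ (GI P y),
    (contDiffOn_GG hP).comp_contDiff contDiff_F₀ h0,
    contDiffOn_F₁.comp (contDiffOn_GI hP) fun y hy => GI_mem hP hy, ?_, fun x => ?_⟩
  · refine Set.Subset.antisymm (Set.range_subset_iff.2 fun x => GG_mem hP (h0 x)) fun y hy => ?_
    exact ⟨F₁ (GI P y), by simp only [F₀_F₁ (GI_mem hP hy), GG_GI]⟩
  · simp only [GI_GG, F₁_F₀]

end

end Crest.Agent.R245
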