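import Crest.Agent.R245.Sieg

/-!
# R245: the family of cylinders and gluing

For `i = (τ, σ, n)`: `c = 1/(n+1)` or `i/(n+1)`, `m = 10 k` or `10 k + 5` with `k = 2n` or `2n+1`.
`A i` is a Heisenberg translation (after swapping the first two coordinates if `τ`), it preserves
`rho3`.  The cylinders `Cy i = A i ⁻¹ {‖q 1‖ < 1, 0 < rho2 q < 1}` are pairwise disjoint: same
`τ`: the centres `m` are `10` apart; different `τ`: `|X² - Y²| < 1` with `X = ‖p 0 - c‖`,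
`Y = ‖p 1 - c'‖` (both `rho3 p + X²` and `rho3 p + Y²` lie in `(0,1)`), while
`X ∈ (10 k' + 3, 10 k' + 7)` and `Y ∈ (10 k - 2, 10 k + 2)`, so `|X - Y| > 1`.
-/

set_option autoImplicit false

namespace Crest.Agent.R245

open scoped ComplexConjugate ContDiff Topology
open Filter

abbrev Ix := Bool × Bool × ℕ

def kk (i : Ix) : ℕ := 2 * i.2.2 + if i.2.1 then 1 else 0

noncomputable def ci (i : Ix) : ℂ := (if i.2.1 then Complex.I else 1) / (i.2.2 + 1)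

noncomputable def mi (i : Ix) : ℝ := 10 * kk i + if i.1 then 5 else 0

/-- swap the first two coordinates if `τ` -/
def sw (τ : Bool) (p : Fin 3 → ℂ) : Fin 3 → ℂ := if τ then ![p 1, p 0, p 2] else p

noncomputable def tr (c m : ℂ) (p : Fin 3 → ℂ) : Fin 3 → ℂ :=
  ![p 0 - c, p 1 - m,
    p 2 - conj c * p 0 - conj m * p 1 + ((Complex.normSq c + Complex.normSq m) / 2 : ℝ)]

noncomputable def tri (c m : ℂ) (q : Fin 3 → ℂ) : Fin 3 → ℂ :=
  ![q 0 + c, q 1 + m,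
    q 2 + conj c * q 0 + conj m * q 1 + ((Complex.normSq c + Complex.normSq m) / 2 : ℝ)]

noncomputable def A (i : Ix) (p : Fin 3 → ℂ) : Fin 3 → ℂ := tr (ci i) (mi i) (sw i.1 p)

noncomputable def AI (i : Ix) (q : Fin 3 → ℂ) : Fin 3 → ℂ := sw i.1 (tri (ci i) (mi i) q)

theorem norm_ci_le (i : Ix) : ‖ci i‖ ≤ 1 := by
  have h1 : ‖(if i.2.1 then Complex.I else 1 : ℂ)‖ = 1 := by split_ifs <;> simp
  have h2 : ‖((i.2.2 : ℂ) + 1)‖ = (i.2.2 : ℝ) + 1 := by exact_mod_cast Complex.norm_natCast (i.2.2 + 1)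
  rw [ci, norm_div, h1, h2, div_le_one (by positivity)]
  linarith [Nat.cast_nonneg (α := ℝ) i.2.2]

theorem fam_sw_sw (τ : Bool) (p : Fin 3 → ℂ) : sw τ (sw τ p) = p := by
  funext k
  cases τ <;> fin_cases k <;> simp [sw]

theorem fam_tri_tr (c m : ℂ) (p : Fin 3 → ℂ) : tri c m (tr c m p) = p := by
  funext k
  fin_cases k <;> simp [tri, tr, Complex.normSq_eq_conj_mul_self]
  ring

theorem fam_tr_tri (c m : ℂ) (p : Fin 3 → ℂ) : tr c m (tri c m p) = p := by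
  funext k
  fin_cases k <;> simp [tri, tr, Complex.normSq_eq_conj_mul_self]
  ring

theorem AI_A (i : Ix) (p : Fin 3 → ℂ) : AI i (A i p) = p := by
  rw [AI, A, fam_tri_tr, fam_sw_sw]

theorem A_AI (i : Ix) (q : Fin 3 → ℂ) : A i (AI i q) = q := by
  rw [AI, A, fam_sw_sw, fam_tr_tri]

theorem rho3_A (i : Ix) (p : Fin 3 → ℂ) : rho3 (A i p) = rho3 p := by
  have h1 : ∀ (c m : ℂ) (q : Fin 3 → ℂ), rho3 (tr c m q) = rho3 q := by
    intro c m q
    simp [rho3, rho2, rho, tr, Complex.normSq_apply]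
    ring
  have h2 : ∀ τ : Bool, rho3 (sw τ p) = rho3 p := by
    intro τ
    cases τ
    · simp [sw]
    · simp [rho3, rho2, rho, sw]
      ring
  rw [A, h1, h2]

/-- `A i` and `AI i` are complex affine -/
theorem exists_linA (i : Ix) : ∃ L : (Fin 3 → ℂ) →L[ℂ] (Fin 3 → ℂ), Function.Bijective L ∧
    ∀ p, A i p = L p + A i 0 := by
  let L : (Fin 3 → ℂ) →ₗ[ℂ] (Fin 3 → ℂ) :=
    { toFun := fun p => A i p - A i 0
      map_add' := fun p q => by
        funext k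
        obtain ⟨τ, σ, n⟩ := i
        cases τ <;> fin_cases k <;> simp [A, tr, sw] <;> ring
      map_smul' := fun t p => by
        funext k
        obtain ⟨τ, σ, n⟩ := i
        cases τ <;> fin_cases k <;> simp [A, tr, sw] <;> ring }
  refine ⟨LinearMap.toContinuousLinearMap L, ?_, fun p => (sub_add_cancel _ _).symm⟩
  exact (Equiv.subRight (A i 0)).bijective.comp
    (Function.bijective_iff_has_inverse.2 ⟨AI i, AI_A i, A_AI i⟩)

theorem exists_linAI (i : Ix) : ∃ L : (Fin 3 → ℂ) →L[ℂ] (Fin 3 → ℂ),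
    (∀ q, AI i q = L q + AI i 0) ∧ (∀ a, L a 2 = a 2 + conj (ci i) * a 0 + mi i * a 1) ∧
    L ![1, 0, 0] = sw i.1 ![1, 0, conj (ci i)] := by
  let L : (Fin 3 → ℂ) →ₗ[ℂ] (Fin 3 → ℂ) :=
    { toFun := fun p => AI i p - AI i 0
      map_add' := fun p q => by
        funext k
        obtain ⟨τ, σ, n⟩ := i
        cases τ <;> fin_cases k <;> simp [AI, tri, sw] <;> ring
      map_smul' := fun t p => by
        funext k
        obtain ⟨τ, σ, n⟩ := i
        cases τ <;> fin_cases k <;> simp [AI, tri, sw] <;> ring }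
  refine ⟨LinearMap.toContinuousLinearMap L, fun p => (sub_add_cancel _ _).symm, fun a => ?_, ?_⟩
  · show (AI i a - AI i 0) 2 = _
    obtain ⟨τ, σ, n⟩ := i
    cases τ <;> simp [AI, tri, sw]
  · show AI i ![1, 0, 0] - AI i 0 = _
    funext k
    obtain ⟨τ, σ, n⟩ := i
    cases τ <;> fin_cases k <;> simp [AI, tri, sw]

theorem contDiff_A (i : Ix) : ContDiff ℝ ∞ (A i) := by
  obtain ⟨L, -, hL⟩ := exists_linA i
  rw [funext hL]
  exact (L.contDiff.restrict_scalars ℝ).add contDiff_const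

theorem contDiff_AI (i : Ix) : ContDiff ℝ ∞ (AI i) := by
  obtain ⟨L, hL, -⟩ := exists_linAI i
  rw [funext hL]
  exact (L.contDiff.restrict_scalars ℝ).add contDiff_const

def O : Set (Fin 3 → ℂ) := {q | ‖q 1‖ < 1 ∧ 0 < rho2 q ∧ rho2 q < 1}

/-- the part of the cylinder where something is modified -/
def Kc : Set (Fin 3 → ℂ) := {q | ‖q 1‖ ≤ 7 / 8 ∧ rho2 q ≤ 1 / 2}

def Cy (i : Ix) : Set (Fin 3 → ℂ) := A i ⁻¹' O

theorem isOpen_O : IsOpen O := by
  have h := contDiff_rho2.continuous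
  exact (isOpen_lt (continuous_apply 1).norm continuous_const).inter
    ((isOpen_lt continuous_const h).inter (isOpen_lt h continuous_const))

theorem isOpen_Cy (i : Ix) : IsOpen (Cy i) := isOpen_O.preimage (contDiff_A i).continuous

theorem fam_rho2 (i : Ix) (p : Fin 3 → ℂ) :
    rho2 (A i p) = rho3 p + ‖sw i.1 p 0 - ci i‖ ^ 2 := by
  rw [← rho3_A i p, rho3, ← Complex.normSq_eq_norm_sq]
  simp [A, tr]

theorem fam_mem {i : Ix} {p : Fin 3 → ℂ} (hi : p ∈ Cy i) : ‖sw i.1 p 1 - mi i‖ < 1 ∧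
    0 < rho3 p + ‖sw i.1 p 0 - ci i‖ ^ 2 ∧ rho3 p + ‖sw i.1 p 0 - ci i‖ ^ 2 < 1 := by
  rw [← fam_rho2]
  exact hi

theorem fam_diff {x y c c' : ℂ} {r : ℝ} {k k' : ℕ} (hc : ‖c‖ ≤ 1) (hc' : ‖c'‖ ≤ 1)
    (a1 : ‖y - 10 * k‖ < 1) (a2 : 0 < r + ‖x - c‖ ^ 2) (a3 : r + ‖x - c‖ ^ 2 < 1)
    (b1 : ‖x - (10 * k' + 5)‖ < 1) (b2 : 0 < r + ‖y - c'‖ ^ 2) (b3 : r + ‖y - c'‖ ^ 2 < 1) :
    False := by
  have key : ∀ (z w e : ℂ), ‖z - w‖ < 1 → ‖e‖ ≤ 1 → ‖w‖ - 2 < ‖z - e‖ ∧ ‖z - e‖ < ‖w‖ + 2 := by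
    intro z w e h1 h2
    have h3 := abs_le.1 (abs_norm_sub_norm_le z w)
    have h4 := abs_le.1 (abs_norm_sub_norm_le (z - e) z)
    rw [sub_sub_cancel_left, norm_neg] at h4
    constructor <;> linarith [h3.1, h3.2, h4.1, h4.2]
  have e1 : ‖(10 * k : ℂ)‖ = 10 * k := by exact_mod_cast Complex.norm_natCast (10 * k)
  have e2 : ‖(10 * k' + 5 : ℂ)‖ = 10 * k' + 5 := by
    exact_mod_cast Complex.norm_natCast (10 * k' + 5)
  obtain ⟨x1, x2⟩ := key _ _ _ b1 hc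
  obtain ⟨y1, y2⟩ := key _ _ _ a1 hc'
  rw [e1] at y1 y2
  rw [e2] at x1 x2
  have hX := norm_nonneg (x - c)
  have hY := norm_nonneg (y - c')
  rcases le_or_gt k k' with h | h
  · have h' : (k : ℝ) ≤ k' := by exact_mod_cast h
    nlinarith
  · have h' : (k' : ℝ) + 1 ≤ k := by exact_mod_cast h
    nlinarith

theorem Cy_unique {i j : Ix} {p : Fin 3 → ℂ} (hi : p ∈ Cy i) (hj : p ∈ Cy j) : i = j := by
  obtain ⟨a1, a2, a3⟩ := fam_mem hi
  obtain ⟨b1, b2, b3⟩ := fam_mem hj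
  by_cases hτ : i.1 = j.1
  · rw [hτ] at a1
    have h1 : |mi i - mi j| < 2 := by
      have := norm_sub_le_norm_sub_add_norm_sub (mi i : ℂ) (sw j.1 p 1) (mi j)
      rw [← Complex.ofReal_sub, Complex.norm_real, Real.norm_eq_abs, norm_sub_rev] at this
      linarith
    simp only [mi, hτ, add_sub_add_right_eq_sub, abs_lt] at h1
    have h2 : (kk i : ℝ) < kk j + 1 := by linarith [h1.2]
    have h3 : (kk j : ℝ) < kk i + 1 := by linarith [h1.1]
    have h4 : kk i < kk j + 1 := by exact_mod_cast h2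
    have h5 : kk j < kk i + 1 := by exact_mod_cast h3
    obtain ⟨τ, σ, n⟩ := i
    obtain ⟨τ', σ', n'⟩ := j
    cases σ <;> cases σ' <;> simp [kk] at h4 h5 hτ ⊢ <;> first | omega | exact ⟨hτ, by omega⟩
  · exfalso
    obtain ⟨τ, σ, n⟩ := i
    obtain ⟨τ', σ', n'⟩ := j
    cases τ <;> cases τ'
    · exact hτ rfl
    · exact fam_diff (norm_ci_le _) (norm_ci_le _) (by simpa [sw, mi] using a1) a2 a3
        (by simpa [sw, mi] using b1) b2 b3
    · exact fam_diff (norm_ci_le _) (norm_ci_le _) (by simpa [sw, mi] using b1) b2 b3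
        (by simpa [sw, mi] using a1) a2 a3
    · exact hτ rfl

open Classical in
noncomputable def glue {Y : Type*} (X : Ix → (Fin 3 → ℂ) → Y) (X₀ : (Fin 3 → ℂ) → Y)
    (p : Fin 3 → ℂ) : Y :=
  if h : ∃ i, p ∈ Cy i then X h.choose p else X₀ p

theorem glue_of_mem {Y : Type*} (X : Ix → (Fin 3 → ℂ) → Y) (X₀ : (Fin 3 → ℂ) → Y) {i : Ix}
    {p : Fin 3 → ℂ} (hp : p ∈ Cy i) : glue X X₀ p = X i p := by
  have h : ∃ i, p ∈ Cy i := ⟨i, hp⟩
  rw [glue, dif_pos h, Cy_unique h.choose_spec hp]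

theorem glue_of_not {Y : Type*} (X : Ix → (Fin 3 → ℂ) → Y) (X₀ : (Fin 3 → ℂ) → Y)
    {p : Fin 3 → ℂ} (hp : ∀ i, p ∉ Cy i) : glue X X₀ p = X₀ p := by
  rw [glue, dif_neg (not_exists.2 hp)]

theorem glue_cyl {Y : Type*} (X : Ix → (Fin 3 → ℂ) → Y) (X₀ : (Fin 3 → ℂ) → Y) {i : Ix}
    {p : Fin 3 → ℂ} (hp : p ∈ Cy i) : glue X X₀ =ᶠ[𝓝 p] X i := by
  filter_upwards [(isOpen_Cy i).mem_nhds hp] with x hx using glue_of_mem X X₀ hx

/-- local finiteness: near a point of the Siegel domain outside all cylinders, no point lies in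
a modified part (`k` is bounded by `‖p‖`; for the finitely many remaining `i`, either
`‖A i p 1‖ ≥ 1` or `rho2 (A i p) ≥ 1`, because `rho2 (A i p) ≥ rho3 p > 0`). -/
theorem eventually_not_Kc {p : Fin 3 → ℂ} (hp : 0 < rho3 p) (hn : ∀ i, p ∉ Cy i) :
    ∀ᶠ y in 𝓝 p, ∀ i, y ∈ Cy i → A i y ∉ Kc := by
  have hK : IsClosed Kc :=
    (isClosed_le (continuous_apply 1).norm continuous_const).inter
      (isClosed_le contDiff_rho2.continuous continuous_const)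
  have h1 : ∀ i, ∀ᶠ y in 𝓝 p, A i y ∉ Kc := by
    intro i
    refine (hK.preimage (contDiff_A i).continuous).isOpen_compl.mem_nhds fun h => hn i ?_
    refine ⟨lt_of_le_of_lt h.1 (by norm_num), ?_, lt_of_le_of_lt h.2 (by norm_num)⟩
    rw [fam_rho2]
    positivity
  have hfin : (Set.univ ×ˢ Set.univ ×ˢ Set.Iic ⌈‖p‖ + 2⌉₊ : Set Ix).Finite :=
    Set.finite_univ.prod (Set.finite_univ.prod (Set.finite_Iic _))
  filter_upwards [(eventually_all_finite hfin).2 fun i _ => h1 i, Metric.ball_mem_nhds p one_pos]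
    with y hy hyp i hi
  refine hy i ⟨trivial, trivial, ?_⟩
  have a1 := (fam_mem hi).1
  have a2 : ‖sw i.1 y 1‖ ≤ ‖y‖ := by
    cases i.1
    · exact norm_le_pi_norm y 1
    · exact norm_le_pi_norm y 0
  have a3 : ‖y‖ ≤ ‖p‖ + 1 := by
    rw [mem_ball_iff_norm] at hyp
    linarith [norm_sub_norm_le y p]
  have a4 : (i.2.2 : ℝ) ≤ mi i := by
    have b1 : (i.2.2 : ℝ) ≤ kk i := by exact_mod_cast (by unfold kk; omega : i.2.2 ≤ kk i)
    have b2 : (0 : ℝ) ≤ if i.1 then 5 else 0 := by split_ifs <;> norm_num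
    have b3 := Nat.cast_nonneg (α := ℝ) (kk i)
    rw [mi]; linarith
  have a5 : mi i ≤ ‖(mi i : ℂ)‖ := by rw [Complex.norm_real]; exact le_abs_self _
  have a6 := norm_sub_norm_le (mi i : ℂ) (sw i.1 y 1)
  rw [norm_sub_rev] at a6
  have a7 : (i.2.2 : ℝ) ≤ ⌈‖p‖ + 2⌉₊ := le_trans (by linarith) (Nat.le_ceil _)
  exact_mod_cast a7

theorem glue_std {Y : Type*} {X : Ix → (Fin 3 → ℂ) → Y} {X₀ : (Fin 3 → ℂ) → Y}
    (hc : ∀ i y, y ∈ Cy i → A i y ∉ Kc → X i y = X₀ y) {p : Fin 3 → ℂ} (hp : 0 < rho3 p)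
    (hn : ∀ i, p ∉ Cy i) : glue X X₀ =ᶠ[𝓝 p] X₀ := by
  filter_upwards [eventually_not_Kc hp hn] with y hy
  by_cases h : ∃ i, y ∈ Cy i
  · obtain ⟨i, hi⟩ := h
    rw [glue_of_mem X X₀ hi, hc i y hi (hy i hi)]
  · exact glue_of_not X X₀ (not_exists.1 h)

end Crest.Agent.R245
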