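import Crest.Prelude.Def_KahlerDomain
import Crest.Agent.R245.CalcB
import Crest.Agent.R245.Good

/-!
# R245: the Kähler metric of a potential and its sectional curvature

`h i j p = ∂_i ∂̄_j P (p)`.  With `X·g(Y,Z) = Re (dde X Y Z + dee Y Z X)` the Koszul formula gives
`g(Γ(X,Y),Z) = Re (dde X Y Z)`, i.e. `Γ = B` with `de (B X Y) Z = dde X Y Z`.  Differentiating
this identity (`q ↦ Γ_q(Y,Z)` is differentiable at `p`: `Matrix.inv_def`, `det_fin_three`,
`adjugate_fin_three`) in the real direction `X` (`∂_X = del X + delb X`):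
`h(∂_X Γ(Y,Z) + Γ(X,Γ(Y,Z)), W) = del X (dde Y Z W) + mR Y X Z W`, the first term being symmetric
in `X, Y`.  Hence `riem (curvature X Y Y) X = Re (mR Y X Y X - mR X Y Y X) = -Nm X Y`.
-/

set_option autoImplicit false

namespace Crest.Agent.R245

open scoped ComplexConjugate ContDiff Topology
open Filter Crest.GeometryTopology

abbrev E3 := Fin 3 → ℂ

theorem ka_vec (X : E3) : X = X 0 • stdVec 0 + X 1 • stdVec 1 + X 2 • stdVec 2 := by
  funext i
  fin_cases i <;> simp [stdVec]

theorem ka_isL {f : E3 → ℂ} (h : IsL f) (X : E3) : f X = ∑ i, X i * f (stdVec i) := by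
  conv_lhs => rw [ka_vec X]
  rw [h.add, h.add, h.smul, h.smul, h.smul, Fin.sum_univ_three]

theorem ka_isA {f : E3 → ℂ} (h : IsA f) (X : E3) : f X = ∑ i, conj (X i) * f (stdVec i) := by
  conv_lhs => rw [ka_vec X]
  rw [h.add, h.add, h.smul, h.smul, h.smul, Fin.sum_univ_three]

theorem ka_de {u : J E3} (h : u.Lin) (X Y : E3) :
    ∑ i, ∑ j, u.de (stdVec i) (stdVec j) * X i * conj (Y j) = u.de X Y := by
  rw [ka_isL (h.de1 Y) X]
  refine Finset.sum_congr rfl fun i _ => ?_
  rw [ka_isA (h.de2 (stdVec i)) Y, Finset.mul_sum]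
  exact Finset.sum_congr rfl fun j _ => by ring

theorem ka_del_congr {u w : E3 → ℂ} {p : E3} (h : u =ᶠ[𝓝 p] w) (a : E3) :
    del u a p = del w a p := by
  simp only [del, h.fderiv_eq]

theorem ka_diff {u : E3 → ℂ} {p : E3} (h : Sm u p) : DifferentiableAt ℝ u p :=
  h.contDiffAt.differentiableAt (by simp)

theorem ka_sm_de {u : E3 → ℂ} {p : E3} (h : Sm u p) (Y Z : E3) :
    Sm (fun q => (jet u q).de Y Z) p := (h.delb Z).del Y

theorem ka_sm_dde {u : E3 → ℂ} {p : E3} (h : Sm u p) (Y Z W : E3) :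
    Sm (fun q => (jet u q).dde Y Z W) p := ((h.delb W).del Z).del Y

theorem ka_fd_de {u : E3 → ℂ} {p : E3} (h : Sm u p) (X Y Z : E3) :
    fderiv ℝ (fun q => (jet u q).de Y Z) p X = (jet u p).dde X Y Z + (jet u p).dee Y X Z := by
  rw [fderiv_eq_del_add_delb]
  congr 1
  exact delb_del_comm (h.delb Z) Y X

theorem ka_fd_dde {u : E3 → ℂ} {p : E3} (h : Sm u p) (X Y Z W : E3) :
    fderiv ℝ (fun q => (jet u q).dde Y Z W) p X =
      del (del (del (delb u W) Z) Y) X p + (jet u p).ddee Y Z X W := by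
  rw [fderiv_eq_del_add_delb]
  congr 1
  refine (delb_del_comm ((h.delb W).del Z) Y X).trans (ka_del_congr ?_ Y)
  filter_upwards [h.eventually] with q hq using delb_del_comm (hq.delb W) Z X

theorem ka_det {u : J E3} (h : u.Lin) (hp : ∀ a, a ≠ 0 → 0 < (u.de a a).re) :
    (Matrix.of fun i j : Fin 3 => u.de (stdVec j) (stdVec i)).det ≠ 0 := by
  intro h0
  obtain ⟨v, hv0, hv⟩ := Matrix.exists_mulVec_eq_zero_iff.2 h0
  have h1 : ∀ i, u.de v (stdVec i) = 0 := fun i => by
    have := congrFun hv i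
    rw [ka_isL (h.de1 _) v]
    simpa [Matrix.mulVec, dotProduct, mul_comm] using this
  have h2 := hp v hv0
  rw [ka_isA (h.de2 v) v] at h2
  simp [h1] at h2

theorem ka_diff_det {M : E3 → Matrix (Fin 3) (Fin 3) ℂ} {p : E3}
    (h : ∀ i j, DifferentiableAt ℝ (fun q => M q i j) p) :
    DifferentiableAt ℝ (fun q => (M q).det) p := by
  simp only [Matrix.det_fin_three]
  fun_prop

theorem ka_diff_inv {M : E3 → Matrix (Fin 3) (Fin 3) ℂ} {c : E3 → E3} {p : E3}
    (h : ∀ i j, DifferentiableAt ℝ (fun q => M q i j) p) (h0 : (M p).det ≠ 0)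
    (hc : ∀ i, DifferentiableAt ℝ (fun q => c q i) p) :
    DifferentiableAt ℝ (fun q => (M q)⁻¹.mulVec (c q)) p := by
  refine differentiableAt_pi.2 fun i => ?_
  have ha : ∀ i j, DifferentiableAt ℝ (fun q => (M q).adjugate i j) p := by
    intro i j
    simp only [Matrix.adjugate_apply]
    refine ka_diff_det fun k l => ?_
    simp only [Matrix.updateRow_apply]
    split_ifs
    · exact differentiableAt_const _
    · exact h k l
  have hd := (ka_diff_det h).inv h0
  simp only [Matrix.inv_def, Ring.inverse_eq_inv', Matrix.mulVec, dotProduct, Matrix.smul_apply,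
    smul_eq_mul]
  exact DifferentiableAt.fun_sum fun j _ => (hd.mul (ha i j)).mul (hc j)

/-- the metric of a strictly plurisubharmonic potential -/
noncomputable def potMetric {U : Set E3} (hU : IsOpen U) {P : E3 → ℝ} (hP : ContDiffOn ℝ ∞ P U)
    (hpos : ∀ p ∈ U, ∀ a, a ≠ 0 → 0 < ((jr P p).de a a).re) : HermitianMetricOn 3 U where
  h i j p := (jr P p).de (stdVec i) (stdVec j)
  hermitian p hp i j := (jr_herm (Sm.of_contDiffOn hU hP hp)).de _ _
  posDef := by
    intro p hp X hX
    rw [ka_de (jr_lin (Sm.of_contDiffOn hU hP hp))]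
    exact hpos p hp X hX
  smooth := by
    intro i j p hp
    exact (ka_sm_de (Sm.of_contDiffOn hU hP hp).ofReal _ _).contDiffAt.contDiffWithinAt

section
variable {U : Set E3} (hU : IsOpen U) {P : E3 → ℝ} (hP : ContDiffOn ℝ ∞ P U)
  (hpos : ∀ p ∈ U, ∀ a, a ≠ 0 → 0 < ((jr P p).de a a).re)

theorem potMetric_herm {p : E3} (hp : p ∈ U) (X Y : E3) :
    (potMetric hU hP hpos).herm p X Y = (jr P p).de X Y := by
  exact ka_de (jr_lin (Sm.of_contDiffOn hU hP hp)) X Y

theorem potMetric_riem {p : E3} (hp : p ∈ U) (X Y : E3) :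
    (potMetric hU hP hpos).riem p X Y = ((jr P p).de X Y).re := by
  rw [HermitianMetricOn.riem, potMetric_herm hU hP hpos hp]

theorem potMetric_kahler : (potMetric hU hP hpos).IsKahler := by
  intro p hp i j k
  exact (jr_lin (Sm.of_contDiffOn hU hP hp)).dde_symm (stdVec k) (stdVec i) (stdVec j)

theorem ka_dRiem {p : E3} (hp : p ∈ U) (X Y Z : E3) :
    (potMetric hU hP hpos).dRiem p X Y Z =
      ((jr P p).dde X Y Z).re + ((jr P p).dde X Z Y).re := by
  have hs := Sm.of_contDiffOn hU hP hp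
  have e : (fun q => (potMetric hU hP hpos).riem q Y Z) =ᶠ[𝓝 p]
      fun q => Complex.reCLM ((jr P q).de Y Z) := by
    filter_upwards [hU.mem_nhds hp] with q hq using potMetric_riem hU hP hpos hq Y Z
  have h1 := Complex.reCLM.hasFDerivAt.comp p (ka_diff (ka_sm_de hs.ofReal Y Z)).hasFDerivAt
  have h2 : fderiv ℝ (fun q => Complex.reCLM ((jr P q).de Y Z)) p = _ := h1.fderiv
  rw [HermitianMetricOn.dRiem, e.fderiv_eq, h2, ContinuousLinearMap.comp_apply,
    ka_fd_de hs.ofReal, Complex.reCLM_apply, Complex.add_re]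
  congr 1
  exact (congrArg Complex.re ((jr_herm hs).dee Y X Z)).trans (Complex.conj_re _)

theorem ka_chr {p : E3} (hp : p ∈ U) (X Y : E3) :
    (potMetric hU hP hpos).christoffel p X Y =
      (Matrix.of fun i j : Fin 3 => (jr P p).de (stdVec j) (stdVec i))⁻¹.mulVec
        fun i => (jr P p).dde X Y (stdVec i) := by
  have hl := jr_lin (Sm.of_contDiffOn hU hP hp)
  have e : ∀ Z, ((potMetric hU hP hpos).dRiem p X Y Z + (potMetric hU hP hpos).dRiem p Y X Z -
      (potMetric hU hP hpos).dRiem p Z X Y) / 2 = ((jr P p).dde X Y Z).re := by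
    intro Z
    simp only [ka_dRiem hU hP hpos hp]
    rw [hl.dde_symm Y X Z, hl.dde_symm Z X Y, hl.dde_symm Z Y X]
    ring
  simp only [HermitianMetricOn.christoffel, HermitianMetricOn.raise, e]
  congr 1
  funext i
  rw [(hl.dde3 X Y).smul]
  apply Complex.ext <;> simp

theorem ka_chr_diff {p : E3} (hp : p ∈ U) (X Y : E3) :
    DifferentiableAt ℝ (fun q => (potMetric hU hP hpos).christoffel q X Y) p := by
  have hs := Sm.of_contDiffOn hU hP hp
  refine (ka_diff_inv (M := fun q => Matrix.of fun i j : Fin 3 => (jr P q).de (stdVec j) (stdVec i))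
    (c := fun q i => (jr P q).dde X Y (stdVec i)) (fun i j => ka_diff (ka_sm_de hs.ofReal _ _))
    (ka_det (jr_lin hs) (hpos p hp))
    fun i => ka_diff (ka_sm_dde hs.ofReal _ _ _)).congr_of_eventuallyEq ?_
  filter_upwards [hU.mem_nhds hp] with q hq using ka_chr hU hP hpos hq X Y

theorem potMetric_isChr {p : E3} (hp : p ∈ U) :
    IsChr (jr P p) ((potMetric hU hP hpos).christoffel p) := by
  intro a c b
  have hl := jr_lin (Sm.of_contDiffOn hU hP hp)
  have hm := Matrix.mul_nonsing_inv _ (isUnit_iff_ne_zero.2 (ka_det hl (hpos p hp)))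
  have h1 : ∀ i, (jr P p).de ((potMetric hU hP hpos).christoffel p a c) (stdVec i) =
      (jr P p).dde a c (stdVec i) := by
    intro i
    have h2 := congrFun (congrArg (fun M : Matrix (Fin 3) (Fin 3) ℂ =>
      M.mulVec fun i => (jr P p).dde a c (stdVec i)) hm) i
    simp only [← Matrix.mulVec_mulVec, Matrix.one_mulVec] at h2
    rw [ka_isL (hl.de1 _), ka_chr hU hP hpos hp, ← h2]
    simp only [Matrix.mulVec, dotProduct, Matrix.of_apply]
    exact Finset.sum_congr rfl fun j _ => mul_comm _ _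
  rw [ka_isA (hl.de2 _) b, ka_isA (hl.dde3 a c) b]
  simp only [h1]

theorem ka_key {p : E3} (hp : p ∈ U) (X Y Z W : E3) :
    (jr P p).de (fderiv ℝ (fun q => (potMetric hU hP hpos).christoffel q Y Z) p X) W +
      (jr P p).de ((potMetric hU hP hpos).christoffel p X
        ((potMetric hU hP hpos).christoffel p Y Z)) W =
      del (del (del (delb (fun x => (P x : ℂ)) W) Z) Y) X p +
        mR (jr P p) ((potMetric hU hP hpos).christoffel p) Y X Z W := by
  have hs := Sm.of_contDiffOn hU hP hp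
  have hl := jr_lin hs
  have hh := jr_herm hs
  have hc := potMetric_isChr hU hP hpos hp
  have hd := (ka_chr_diff hU hP hpos hp Y Z).hasFDerivAt
  generalize fderiv ℝ (fun q => (potMetric hU hP hpos).christoffel q Y Z) p = Γ' at hd ⊢
  have e : (fun q => (jr P q).dde Y Z W) =ᶠ[𝓝 p]
      fun q => ∑ j, (potMetric hU hP hpos).christoffel q Y Z j * (jr P q).de (stdVec j) W := by
    filter_upwards [hU.mem_nhds hp] with q hq
    rw [← potMetric_isChr hU hP hpos hq Y Z W,
      ka_isL ((jr_lin (Sm.of_contDiffOn hU hP hq)).de1 W)]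
  have h1 : HasFDerivAt (fun q => ∑ j, (potMetric hU hP hpos).christoffel q Y Z j *
      (jr P q).de (stdVec j) W) _ p := HasFDerivAt.fun_sum fun j _ =>
    (hasFDerivAt_pi'.1 hd j).fun_mul (ka_diff (ka_sm_de hs.ofReal (stdVec j) W)).hasFDerivAt
  have h2 : fderiv ℝ (fun q => (jr P q).dde Y Z W) p X = _ := ka_fd_dde hs.ofReal X Y Z W
  rw [e.fderiv_eq, h1.fderiv] at h2
  simp only [_root_.sum_apply, _root_.add_apply,
    _root_.smul_apply, ContinuousLinearMap.comp_apply, ContinuousLinearMap.proj_apply,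
    smul_eq_mul, ka_fd_de hs.ofReal, mul_add, Finset.sum_add_distrib] at h2
  have e1 : (jr P p).de (Γ' X) W = ∑ j, (jr P p).de (stdVec j) W * Γ' X j := by
    rw [ka_isL (hl.de1 W)]
    exact Finset.sum_congr rfl fun j _ => mul_comm _ _
  have e2 : (jr P p).de ((potMetric hU hP hpos).christoffel p X
      ((potMetric hU hP hpos).christoffel p Y Z)) W =
      ∑ j, (potMetric hU hP hpos).christoffel p Y Z j * (jr P p).dde X (stdVec j) W := by
    rw [hc, hl.dde_symm, ka_isL (hl.dde1 X W)]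
    exact Finset.sum_congr rfl fun j _ => by rw [hl.dde_symm]
  have e3 : (jr P p).de ((potMetric hU hP hpos).christoffel p Y Z)
      ((potMetric hU hP hpos).christoffel p X W) =
      ∑ j, (potMetric hU hP hpos).christoffel p Y Z j * (jr P p).dee (stdVec j) X W := by
    rw [hh.de, hc, ← hh.dee, ka_isL (hl.dee1 X W)]
  rw [mR, e1, e2, e3]
  simp only [jr] at h2 ⊢
  linear_combination h2

theorem potMetric_curv {p : E3} (hp : p ∈ U) (X Y : E3) :
    (potMetric hU hP hpos).riem p ((potMetric hU hP hpos).curvature p X Y Y) X =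
      -Nm (jr P p) ((potMetric hU hP hpos).christoffel p) X Y := by
  have hs := Sm.of_contDiffOn hU hP hp
  have hl := jr_lin hs
  have h1 := ka_key hU hP hpos hp X Y Y X
  have h2 := ka_key hU hP hpos hp Y X Y X
  rw [del_del_comm ((hs.ofReal.delb X).del Y) Y X] at h2
  rw [potMetric_riem hU hP hpos hp, HermitianMetricOn.curvature, (hl.de1 X).sub, (hl.de1 X).add,
    (hl.de1 X).sub, Nm, ← Complex.neg_re]
  congr 1
  linear_combination h1 - h2

theorem potMetric_sectional {p : E3} (hp : p ∈ U) (X Y : E3) :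
    (potMetric hU hP hpos).sectional p X Y =
      -Nm (jr P p) ((potMetric hU hP hpos).christoffel p) X Y / Wd (jr P p) X Y := by
  rw [HermitianMetricOn.sectional, potMetric_curv hU hP hpos hp]
  simp only [potMetric_riem hU hP hpos hp, Wd]

end

end Crest.Agent.R245
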