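import Crest.Agent.R245.Step
import Crest.Agent.R245.BaseB

/-!
# R245: no holomorphic `b ≠ 0` with `|b| ≤ C exp (φ/2)`

Put `W j x = ‖b x‖ exp (-(∑ i < j, lev v (h i) x)/2)`.  If `rho x = 200 h j`, `‖x₁‖ ≤ 1/5`,
`b x ≠ 0`, there is `x'` with `rho x' = 200 h (j+1)`, `‖x'₁ - x₁‖ ≤ 500 √(h j)` and
`W (j+1) x' ≥ exp (3/40000) W j x`: otherwise `g = b / N`,
`N = ‖b x‖ / (1 - 1/10000)`, satisfies the hypotheses of `step_scaled`
(`lev_le`, `lev_eq_single`, `IsWell.deep`, and `lev_osc` summed over the older levels is at most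
`1/40000`), whereas `‖g x‖ = 1 - 1/10000`.  On the other hand `W j x ≤ C exp (ψ x / 2)`
(`wells_eq_sum`), and `ψ x = a₀ (j log Λ - log (200 ρ₀)) + const` (`inner`), `a₀ log Λ ≤ 1/40000`.
Starting from `‖x₁‖ ≤ 1/8` the total displacement is at most `1000 √ρ₀ ≤ 1/1000`.  So `b` vanishes
on `{rho = 200 ρ₀, ‖z₁‖ ≤ 1/8}`, hence (identity theorem on vertical lines) on
`S2 ∩ {‖z₁‖ ≤ 1/8}`, hence on `S2` (`LineHol.eq_of_convex`).
-/

set_option autoImplicit false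

namespace Crest.Agent.R245

open scoped ComplexConjugate Topology
open Filter

namespace Par

variable {P : Par} (hP : P.OK)
include hP

theorem OK.walk_h_succ (j : ℕ) : P.h j = P.Λ * P.h (j + 1) := by
  have hΛ : (0 : ℝ) < P.Λ := lt_of_lt_of_le (by norm_num) hP.Λ_ge'
  unfold Par.h
  rw [pow_succ]
  field_simp

theorem OK.walk_sqrt_succ (j : ℕ) : 10 ^ 12 * P.B * √(P.h (j + 1)) ≤ √(P.h j) := by
  have hB := hP.well.one_le
  have hh := hP.h_pos (j + 1)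
  apply Real.le_sqrt_of_sq_le
  rw [mul_pow, Real.sq_sqrt hh.le, hP.walk_h_succ j]
  exact mul_le_mul_of_nonneg_right hP.Λ_ge hh.le

theorem OK.walk_sqrt_half (j : ℕ) : 2 * √(P.h (j + 1)) ≤ √(P.h j) := by
  have hB := hP.well.one_le
  have h1 := hP.walk_sqrt_succ j
  have h2 := Real.sqrt_nonneg (P.h (j + 1))
  have h3 : (2 : ℝ) ≤ 10 ^ 12 * P.B := by nlinarith
  exact (mul_le_mul_of_nonneg_right h3 h2).trans h1

theorem OK.walk_sqrt_anti {i j : ℕ} (hij : i ≤ j) : √(P.h j) ≤ √(P.h i) := by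
  induction j, hij using Nat.le_induction with
  | base => exact le_rfl
  | succ k _ ih =>
    have h1 := hP.walk_sqrt_half k
    have h2 := Real.sqrt_nonneg (P.h (k + 1))
    linarith

omit hP in
theorem walk_h_zero : P.h 0 = P.ρ₀ := by simp [Par.h]

theorem OK.walk_ρ₀_le : P.ρ₀ ≤ 1 / 10 ^ 12 := by
  have h1 : Real.exp (-(P.r₀ + P.L)) ≤ 1 := by
    rw [Real.exp_le_one_iff]
    linarith [hP.r₀_ge, hP.L_ge]
  exact hP.ρ₀_le.trans (div_le_div_of_nonneg_right h1 (by norm_num))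

theorem OK.walk_sqrt_le (j : ℕ) : √(P.h j) ≤ 1 / 10 ^ 6 := by
  refine (hP.walk_sqrt_anti (Nat.zero_le j)).trans ?_
  rw [walk_h_zero]
  apply Real.sqrt_le_iff.2
  refine ⟨by norm_num, hP.walk_ρ₀_le.trans ?_⟩
  norm_num

theorem OK.walk_sum_inv (j : ℕ) :
    ∑ i ∈ Finset.range j, P.B * √(P.h j) / √(P.h i) ≤ 2 / 10 ^ 12 := by
  have hB := hP.well.one_le
  induction j with
  | zero => rw [Finset.sum_range_zero]; positivity
  | succ k ih =>
    have hk : 0 < √(P.h k) := Real.sqrt_pos.2 (hP.h_pos k)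
    have h1 := hP.walk_sqrt_succ k
    have h2 := hP.walk_sqrt_half k
    rw [Finset.sum_range_succ]
    have h3 : P.B * √(P.h (k + 1)) / √(P.h k) ≤ 1 / 10 ^ 12 := by
      rw [div_le_div_iff₀ hk (by norm_num)]
      linarith
    have h4 : ∑ i ∈ Finset.range k, P.B * √(P.h (k + 1)) / √(P.h i) ≤
        ∑ i ∈ Finset.range k, 1 / 2 * (P.B * √(P.h k) / √(P.h i)) := by
      refine Finset.sum_le_sum fun i _ => ?_
      have hi : 0 < √(P.h i) := Real.sqrt_pos.2 (hP.h_pos i)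
      rw [← mul_div_assoc]
      refine div_le_div_of_nonneg_right ?_ hi.le
      nlinarith
    rw [← Finset.mul_sum] at h4
    linarith

theorem OK.osc_older {j : ℕ} {x₁ x₂ z₁ z₂ : ℂ} (hx : 0 ≤ rho x₁ x₂) (hz : 0 ≤ rho z₁ z₂)
    (h1 : ‖z₁ - x₁‖ ≤ 500 * √(P.h j)) (h2 : ‖z₂ - x₂ - conj x₁ * (z₁ - x₁)‖ ≤ 600 * P.h j) :
    |∑ i ∈ Finset.range j, lev P.v (P.h i) z₁ z₂ - ∑ i ∈ Finset.range j, lev P.v (P.h i) x₁ x₂| ≤
      1 / 40000 := by
  have hB := hP.well.one_le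
  rw [← Finset.sum_sub_distrib]
  refine (Finset.abs_sum_le_sum_abs _ _).trans ?_
  have h3 : ∀ i ∈ Finset.range j, |lev P.v (P.h i) z₁ z₂ - lev P.v (P.h i) x₁ x₂| ≤
      503200 * (P.B * √(P.h j) / √(P.h i)) := by
    intro i hi
    refine (lev_osc hP.well (hP.h_pos i) hz hx h1 h2).trans ?_
    have hu : 0 < √(P.h i) := Real.sqrt_pos.2 (hP.h_pos i)
    have ht : 0 < √(P.h j) := Real.sqrt_pos.2 (hP.h_pos j)
    have htu : √(P.h j) ≤ √(P.h i) := hP.walk_sqrt_anti (Finset.mem_range.1 hi).le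
    have hu2 : P.h i = √(P.h i) * √(P.h i) := (Real.mul_self_sqrt (hP.h_pos i).le).symm
    have ht2 : P.h j = √(P.h j) * √(P.h j) := (Real.mul_self_sqrt (hP.h_pos j).le).symm
    generalize √(P.h i) = u at *
    generalize √(P.h j) = t at *
    rw [hu2, ht2, ← mul_div_assoc, div_le_div_iff₀ (mul_pos hu hu) hu]
    have h4 : 600 * (t * t) + (2 * u + 500 * t) * (500 * t) ≤ 251600 * (t * u) := by
      nlinarith [mul_le_mul_of_nonneg_left htu ht.le]
    have h5 := mul_le_mul_of_nonneg_left h4 (by positivity : 0 ≤ 2 * P.B * u)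
    nlinarith
  refine (Finset.sum_le_sum h3).trans ?_
  rw [← Finset.mul_sum]
  have := hP.walk_sum_inv j
  nlinarith

theorem OK.walk_step {b : ℂ × ℂ → ℂ} (hb : LineHol b S2) {j : ℕ} {x₁ x₂ : ℂ}
    (hx : rho x₁ x₂ = 200 * P.h j) (hx1 : ‖x₁‖ ≤ 1 / 5) (hb0 : b (x₁, x₂) ≠ 0) :
    ∃ z₁ z₂ : ℂ, rho z₁ z₂ = 200 * P.h (j + 1) ∧ ‖z₁ - x₁‖ ≤ 500 * √(P.h j) ∧
      Real.exp (3 / 40000) *
          (‖b (x₁, x₂)‖ * Real.exp (-(∑ i ∈ Finset.range j, lev P.v (P.h i) x₁ x₂) / 2)) ≤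
        ‖b (z₁, z₂)‖ * Real.exp (-(∑ i ∈ Finset.range (j + 1), lev P.v (P.h i) z₁ z₂) / 2) := by
  by_contra hcon
  push Not at hcon
  have hh := hP.h_pos j
  have hh' := hP.h_pos (j + 1)
  have hsq : 0 < √(P.h j) := Real.sqrt_pos.2 hh
  have hbx : 0 < ‖b (x₁, x₂)‖ := norm_pos_iff.2 hb0
  set N : ℝ := ‖b (x₁, x₂)‖ / (1 - 1 / 10000) with hN
  have hN0 : 0 < N := by positivity
  have hg : LineHol (fun z => b z / (N : ℂ)) S2 := fun x u => (hb x u).div_const _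
  have hnorm : ∀ z, ‖b z / (N : ℂ)‖ = ‖b z‖ / N := fun z => by
    rw [norm_div, Complex.norm_real, Real.norm_of_nonneg hN0.le]
  obtain ⟨m, hm⟩ := exists_cc hh x₁
  have hmlat : m ∈ lat (P.h j) := by
    rw [mem_lat hh]
    have h1 := norm_sub_norm_le (cc (P.h j) m) x₁
    rw [norm_sub_rev] at h1
    have h2 := hP.walk_sqrt_le j
    linarith
  have hβ1 : 200 * P.h (j + 1) ≤ P.h j / 2 := by
    rw [hP.walk_h_succ j]
    have := hP.Λ_ge'
    nlinarith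
  have hexp : Real.exp (1 / 10000) * ‖b (x₁, x₂)‖ ≤ N := by
    rw [hN, le_div_iff₀ (by norm_num)]
    have h1 : Real.exp (1 / 10000) * (1 - 1 / 10000) ≤ 1 := by
      have h2 := Real.one_sub_le_exp_neg (1 / 10000 : ℝ)
      have h3 := mul_le_mul_of_nonneg_left h2 (Real.exp_pos (1 / 10000)).le
      rwa [← Real.exp_add, add_neg_cancel, Real.exp_zero] at h3
    nlinarith
  have key : ∀ z₁ z₂ : ℂ, rho z₁ z₂ = 200 * P.h (j + 1) → ‖z₁ - x₁‖ ≤ 500 * √(P.h j) →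
      ‖z₂ - x₂ - conj x₁ * (z₁ - x₁)‖ ≤ 600 * P.h j →
      ‖b (z₁, z₂)‖ ≤
        Real.exp (7 / 80000 + lev P.v (P.h j) z₁ z₂ / 2) * ‖b (x₁, x₂)‖ := by
    intro z₁ z₂ hz h1 h2
    have h3 := (hcon z₁ z₂ hz h1).le
    have h4 := hP.osc_older (j := j) (x₁ := x₁) (x₂ := x₂) (z₁ := z₁) (z₂ := z₂)
      (by rw [hx]; positivity) (by rw [hz]; positivity) h1 h2
    rw [Finset.sum_range_succ] at h3
    have h5 := (abs_le.1 h4).2
    generalize ∑ i ∈ Finset.range j, lev P.v (P.h i) z₁ z₂ = Sz at h3 h5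
    generalize ∑ i ∈ Finset.range j, lev P.v (P.h i) x₁ x₂ = Sx at h3 h5
    generalize lev P.v (P.h j) z₁ z₂ = l at h3 ⊢
    have h6 := mul_le_mul_of_nonneg_right h3 (Real.exp_pos ((Sz + l) / 2)).le
    have h7 : ‖b (z₁, z₂)‖ * Real.exp (-(Sz + l) / 2) * Real.exp ((Sz + l) / 2) =
        ‖b (z₁, z₂)‖ := by
      rw [mul_assoc, ← Real.exp_add]
      have : -(Sz + l) / 2 + (Sz + l) / 2 = 0 := by ring
      rw [this, Real.exp_zero, mul_one]
    have h8 : Real.exp (3 / 40000) * (‖b (x₁, x₂)‖ * Real.exp (-Sx / 2)) *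
        Real.exp ((Sz + l) / 2) =
        Real.exp (3 / 40000 + -Sx / 2 + (Sz + l) / 2) * ‖b (x₁, x₂)‖ := by
      rw [Real.exp_add, Real.exp_add]; ring
    rw [h7, h8] at h6
    refine h6.trans (mul_le_mul_of_nonneg_right (Real.exp_le_exp.2 ?_) hbx.le)
    linarith
  have hres := step_scaled hg hh (by positivity) hβ1 hx hm (fun z₁ z₂ hz h1 h2 => ?_)
    (fun z₁ z₂ n hz hζ hc h1 h2 => ?_)
  · rw [hnorm, hN, div_div_eq_mul_div, mul_div_cancel_left₀ _ hbx.ne'] at hres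
    norm_num at hres
  · rw [hnorm, div_le_one hN0]
    refine (key z₁ z₂ hz h1 h2).trans (le_trans ?_ hexp)
    refine mul_le_mul_of_nonneg_right (Real.exp_le_exp.2 ?_) hbx.le
    have := lev_le hP.well hh (by norm_num) (z₁ := z₁) (z₂ := z₂) (by rw [hz]; positivity)
    linarith
  · rw [hnorm, div_le_iff₀ hN0]
    refine (key z₁ z₂ hz h1 h2).trans ?_
    have h3 : lev P.v (P.h j) z₁ z₂ ≤ -2 * Real.log 2 := by
      rw [lev_eq_single hP.well hh (by rw [hz]; positivity) hmlat (by linarith), hζ]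
      exact hP.well.deep n
    have h4 : Real.exp (7 / 80000 + lev P.v (P.h j) z₁ z₂ / 2) ≤
        1 / 2 * Real.exp (1 / 10000) := by
      have h5 : (1 / 2 : ℝ) = Real.exp (-Real.log 2) := by
        rw [Real.exp_neg, Real.exp_log (by norm_num)]; norm_num
      rw [h5, ← Real.exp_add]
      exact Real.exp_le_exp.2 (by linarith)
    have h6 := mul_le_mul_of_nonneg_right h4 hbx.le
    linarith

theorem OK.walk_iter {b : ℂ × ℂ → ℂ} (hb : LineHol b S2) {x₁ x₂ : ℂ}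
    (hx : rho x₁ x₂ = 200 * P.h 0) (hx1 : ‖x₁‖ ≤ 1 / 8) (hb0 : b (x₁, x₂) ≠ 0) (j : ℕ) :
    ∃ z₁ z₂ : ℂ, rho z₁ z₂ = 200 * P.h j ∧ ‖z₁‖ ≤ 1 / 8 + 1000 * (√(P.h 0) - √(P.h j)) ∧
      Real.exp (3 / 40000 * j) * ‖b (x₁, x₂)‖ ≤
        ‖b (z₁, z₂)‖ * Real.exp (-(∑ i ∈ Finset.range j, lev P.v (P.h i) z₁ z₂) / 2) := by
  have hbx : 0 < ‖b (x₁, x₂)‖ := norm_pos_iff.2 hb0
  induction j with
  | zero => exact ⟨x₁, x₂, hx, by simpa using hx1, by simp⟩
  | succ k ih =>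
    obtain ⟨y₁, y₂, hy, hy1, hW⟩ := ih
    have hy0 : b (y₁, y₂) ≠ 0 := by
      intro h0
      rw [h0, norm_zero, zero_mul] at hW
      have := mul_pos (Real.exp_pos (3 / 40000 * k)) hbx
      linarith
    have hy5 : ‖y₁‖ ≤ 1 / 5 := by
      have h1 := hP.walk_sqrt_le 0
      have h2 := Real.sqrt_nonneg (P.h k)
      linarith
    obtain ⟨z₁, z₂, hz, hz1, hW'⟩ := hP.walk_step hb hy hy5 hy0
    refine ⟨z₁, z₂, hz, ?_, le_trans ?_ hW'⟩
    · have h1 := norm_sub_norm_le z₁ y₁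
      have h2 := hP.walk_sqrt_half k
      linarith
    · have h1 : Real.exp (3 / 40000 * ((k + 1 : ℕ) : ℝ)) =
          Real.exp (3 / 40000) * Real.exp (3 / 40000 * k) := by
        rw [← Real.exp_add]; push_cast; congr 1; ring
      rw [h1, mul_assoc]
      exact mul_le_mul_of_nonneg_left hW (Real.exp_pos _).le

theorem OK.walk_log (j : ℕ) :
    -Real.log (200 * P.h j) = j * Real.log P.Λ - Real.log (200 * P.ρ₀) := by
  have hΛ : (0 : ℝ) < P.Λ := lt_of_lt_of_le (by norm_num) hP.Λ_ge'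
  have hρ := hP.ρ₀_pos
  unfold Par.h
  rw [← mul_div_assoc, Real.log_div (by positivity) (by positivity), Real.log_pow]
  ring

theorem OK.walk_rr_ge (j : ℕ) : P.r₀ + P.L ≤ -Real.log (200 * P.h j) := by
  have hΛ : (1 : ℝ) ≤ P.Λ := le_trans (by norm_num) hP.Λ_ge'
  have hρ := hP.ρ₀_pos
  rw [hP.walk_log j]
  have h1 : 0 ≤ (j : ℝ) * Real.log P.Λ := mul_nonneg (Nat.cast_nonneg j) (Real.log_nonneg hΛ)
  have h2 : Real.log (200 * P.ρ₀) ≤ -(P.r₀ + P.L) := by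
    rw [Real.log_le_iff_le_exp (by positivity)]
    have h3 := hP.ρ₀_le
    have h4 := Real.exp_pos (-(P.r₀ + P.L))
    rw [le_div_iff₀ (by norm_num)] at h3
    nlinarith
  linarith

theorem OK.walk_zero_level {b : ℂ × ℂ → ℂ} (hb : LineHol b S2) {C : ℝ}
    (hC : ∀ z ∈ S2, ‖b z‖ ≤ C * Real.exp (P.φ ![0, z.1, z.2] / 2)) {x₁ x₂ : ℂ}
    (hx : rho x₁ x₂ = 200 * P.ρ₀) (hx1 : ‖x₁‖ ≤ 1 / 8) : b (x₁, x₂) = 0 := by
  by_contra hb0
  have hbx : 0 < ‖b (x₁, x₂)‖ := norm_pos_iff.2 hb0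
  have hρ := hP.ρ₀_pos
  have hC0 : 0 ≤ C := by
    have h1 := hC (x₁, x₂) (show 0 < rho x₁ x₂ by rw [hx]; positivity)
    exact ((mul_pos_iff_of_pos_right (Real.exp_pos _)).1 (hbx.trans_le h1)).le
  set K : ℝ := (-(P.a₀ * Real.log (200 * P.ρ₀)) + (1 - P.a₀) * (P.r₀ + P.L * (1 - Gam 1))) / 2
    with hK
  have key : ∀ j : ℕ, (1 / 16000 * j) * ‖b (x₁, x₂)‖ ≤ C * Real.exp K := by
    intro j
    obtain ⟨z₁, z₂, hz, hz1, hW⟩ := hP.walk_iter hb (by rw [walk_h_zero]; exact hx) hx1 hb0 j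
    have hh := hP.h_pos j
    have h1 := hC (z₁, z₂) (show 0 < rho z₁ z₂ by rw [hz]; positivity)
    have hrr : rr ![0, z₁, z₂] = -Real.log (200 * P.h j) := by
      simp [rr, rho2, hz]
    have hz2 : ‖z₁‖ ≤ 1 / 2 := by
      have h1 := hP.walk_sqrt_le 0
      have h2 := Real.sqrt_nonneg (P.h j)
      linarith
    have h2 := (hP.inner (p := ![0, z₁, z₂]) (by simpa using hz2)
      (by rw [hrr]; exact hP.walk_rr_ge j)).1
    have h3 : P.φ ![0, z₁, z₂] =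
        P.ψ ![0, z₁, z₂] + ∑ i ∈ Finset.range j, lev P.v (P.h i) z₁ z₂ := by
      rw [← hP.wells_eq_sum (by rw [hz]; linarith)]
      simp [Par.φ]
    simp only at h1
    rw [h3, h2, hrr, hP.walk_log j] at h1
    generalize ∑ i ∈ Finset.range j, lev P.v (P.h i) z₁ z₂ = S at hW h1
    have h4 := hW.trans (mul_le_mul_of_nonneg_right h1 (Real.exp_pos _).le)
    rw [mul_assoc, ← Real.exp_add] at h4
    have h5 : (P.a₀ * (j * Real.log P.Λ - Real.log (200 * P.ρ₀)) +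
        (1 - P.a₀) * (P.r₀ + P.L * (1 - Gam 1)) + S) / 2 + -S / 2 ≤ 1 / 80000 * j + K := by
      have h6 := mul_le_mul_of_nonneg_left hP.a₀_log (Nat.cast_nonneg (α := ℝ) j)
      rw [hK]
      nlinarith
    have h6 := h4.trans (mul_le_mul_of_nonneg_left (Real.exp_le_exp.2 h5) hC0)
    have h7 : Real.exp (3 / 40000 * j) = Real.exp (1 / 80000 * j) * Real.exp (1 / 16000 * j) := by
      rw [← Real.exp_add]; congr 1; ring
    rw [h7, Real.exp_add, mul_assoc, mul_left_comm] at h6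
    have h8 : Real.exp (1 / 16000 * j) * ‖b (x₁, x₂)‖ ≤ C * Real.exp K := by
      have h9 := Real.exp_pos (1 / 80000 * (j : ℝ))
      by_contra h10
      push Not at h10
      nlinarith [mul_lt_mul_of_pos_left h10 h9]
    refine le_trans (mul_le_mul_of_nonneg_right ?_ hbx.le) h8
    linarith [Real.add_one_le_exp (1 / 16000 * (j : ℝ))]
  obtain ⟨j, hj⟩ := exists_nat_gt (16000 * (C * Real.exp K) / ‖b (x₁, x₂)‖)
  rw [div_lt_iff₀ hbx] at hj
  have := key j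
  nlinarith

theorem OK.no_section {b : ℂ × ℂ → ℂ} (hb : LineHol b S2) {C : ℝ}
    (hC : ∀ z ∈ S2, ‖b z‖ ≤ C * Real.exp (P.φ ![0, z.1, z.2] / 2)) : ∀ z ∈ S2, b z = 0 := by
  have hρ := hP.ρ₀_pos
  have hvert : ∀ z₁ z₂ : ℂ, ‖z₁‖ ≤ 1 / 8 → (z₁, z₂) ∈ S2 → b (z₁, z₂) = 0 := by
    intro z₁ z₂ hz1 hz
    have hline : ∀ t : ℂ, ((z₁, (0 : ℂ)) : ℂ × ℂ) + t • ((0 : ℂ), (1 : ℂ)) = (z₁, t) :=
      fun t => by simp
    have hd := hb (z₁, 0) (0, 1)
    simp only [hline] at hd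
    have hset : {t : ℂ | (z₁, t) ∈ S2} = {t : ℂ | Complex.normSq z₁ / 2 < t.re} := by
      ext t
      simp only [S2, rho, Set.mem_ofPred_eq]
      constructor <;> intro h <;> linarith
    rw [hset] at hd
    have hopen : IsOpen {t : ℂ | Complex.normSq z₁ / 2 < t.re} :=
      isOpen_lt continuous_const Complex.continuous_re
    have han := hd.analyticOnNhd hopen
    set t₀ : ℂ := ((Complex.normSq z₁ / 2 + 100 * P.ρ₀ : ℝ) : ℂ) with ht₀
    have ht : Tendsto (fun s : ℝ => t₀ + s * Complex.I) (𝓝[≠] 0) (𝓝[≠] t₀) := by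
      refine tendsto_nhdsWithin_iff.2 ⟨?_, ?_⟩
      · have hc : Continuous fun s : ℝ => t₀ + s * Complex.I := by fun_prop
        have := hc.tendsto 0
        simp only [Complex.ofReal_zero, zero_mul, add_zero] at this
        exact this.mono_left nhdsWithin_le_nhds
      · filter_upwards [self_mem_nhdsWithin] with s hs
        simpa using hs
    have hfr : ∃ᶠ t in 𝓝[≠] t₀, b (z₁, t) = 0 := by
      refine ht.frequently (Eventually.frequently (Eventually.of_forall fun s => ?_))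
      refine hP.walk_zero_level hb hC ?_ hz1
      simp only [rho, ht₀, Complex.add_re, Complex.ofReal_re, Complex.mul_re, Complex.I_re,
        Complex.ofReal_im, Complex.I_im]
      ring
    have hz' : z₂ ∈ {t : ℂ | Complex.normSq z₁ / 2 < t.re} := by rw [← hset]; exact hz
    exact han.eqOn_zero_of_preconnected_of_frequently_eq_zero
      (convex_halfSpace_re_gt _).isPreconnected (z₀ := t₀)
      (by simp only [ht₀, Set.mem_ofPred_eq, Complex.ofReal_re]; linarith) hfr hz'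
  have h0 : ((0, 1) : ℂ × ℂ) ∈ S2 := by simp [S2, rho]
  refine hb.eq_of_convex isOpen_S2 convex_S2 h0 ?_
  have h1 : ∀ᶠ y : ℂ × ℂ in 𝓝 (0, 1), ‖y.1‖ < 1 / 8 := by
    have hc : Continuous fun y : ℂ × ℂ => ‖y.1‖ := by fun_prop
    exact (hc.tendsto (0, 1)).eventually (gt_mem_nhds (by simp))
  filter_upwards [h1, isOpen_S2.mem_nhds h0] with y hy1 hy2
  exact hvert y.1 y.2 hy1.le hy2

end Par

end Crest.Agent.R245
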