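import Crest.Agent.R245.Dom
import Crest.Agent.R245.Walk

/-!
# R245: bounded holomorphic functions on `U` are constant

`slice`: let `b z = fderiv ℂ f (AI i ![0, z.1, z.2]) V`, `V = sw τ ![1, 0, conj c]`.  It is
holomorphic along lines (`lineHol_fderiv`, `comp_affine`, `mem_UU_of_rho3`), and
`‖b z‖ ≤ 2 C exp (φ/2)` by `norm_fderiv_le`: the disc `AI i ![t, z.1, z.2]`,
`|t| < exp (-φ/2)`, lies in `U` (in `Cy i` by definition if the base point is in `O`; otherwise
`φ = rr` by `Par.OK.std` and the disc lies in the Siegel domain).  So `b = 0` (`no_section`).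
`partials`: for `p` with `|p 0| < 1`, `|p 1| < 1`, `re (p 2) > 1` the functions
`α t = fderiv f (t, p 1, p 2) e₀`, `β t = fderiv f (t, p 1, p 2) e₂` are holomorphic on the unit
disc, `α t + t β t` vanishes at `1/(n+2)`, `α t - t β t` at `i/(n+2)`; so `α = 0`, `t β t = 0`.
The same with the first two coordinates exchanged.  Hence `fderiv f = 0` on a ball in the Siegel
domain, `f` is constant there, on the (convex) Siegel domain, and on the fibre discs of the
cylinders (`LineHol.eq_of_convex` or the one-variable identity theorem).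
-/

set_option autoImplicit false

namespace Crest.Agent.R245

open scoped ComplexConjugate ContDiff Topology
open Filter

theorem convex_S3 : Convex ℝ {p : Fin 3 → ℂ | 0 < rho3 p} := by
  have key : ∀ (x y : ℂ) (a b : ℝ), 0 ≤ a → 0 ≤ b → a + b = 1 →
      Complex.normSq (a • x + b • y) ≤ a * Complex.normSq x + b * Complex.normSq y := by
    intro x y a b ha hb hab
    obtain rfl : b = 1 - a := by linarith
    have h := mul_nonneg ha hb
    simp only [Complex.normSq_apply, Complex.add_re, Complex.add_im, Complex.smul_re, Complex.smul_im, smul_eq_mul]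
    nlinarith [mul_nonneg h (sq_nonneg (x.re - y.re)), mul_nonneg h (sq_nonneg (x.im - y.im))]
  intro p hp q hq a b ha hb hab
  have h0 := key (p 0) (q 0) a b ha hb hab
  have h1 := key (p 1) (q 1) a b ha hb hab
  have h2 : 0 < a * rho3 p + b * rho3 q := convex_Ioi (0 : ℝ) hp hq ha hb hab
  simp only [rho3, rho2, rho, Set.mem_ofPred_eq, Pi.add_apply, Pi.smul_apply, Complex.add_re, Complex.smul_re,
    smul_eq_mul] at h2 ⊢
  linarith

theorem liou_rho3_AI (i : Ix) (q : Fin 3 → ℂ) : rho3 (AI i q) = rho3 q := by rw [← rho3_A i, A_AI]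

theorem liou_φ (P : Par) (q : Fin 3 → ℂ) : P.φ q = P.φ ![0, q 1, q 2] := P.isBase_φ q

theorem liou_ball (t : ℂ) (x : ℝ) : Complex.normSq t * Real.exp x < 1 ↔ ‖t‖ < Real.exp (-(x / 2)) := by
  have h : Real.exp (-(x / 2)) ^ 2 = (Real.exp x)⁻¹ := by
    rw [← Real.exp_nat_mul, ← Real.exp_neg]
    congr 1
    push_cast
    ring
  rw [← sq_lt_sq₀ (norm_nonneg _) (Real.exp_pos _).le, h, Complex.normSq_eq_norm_sq, ← one_div,
    lt_div_iff₀ (Real.exp_pos _)]

/-- the fibre discs lie in `U` -/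
theorem liou_disc {P : ℕ → Par} (hP : ∀ k, (P k).OK) (i : Ix) {t z₁ z₂ : ℂ} (hz : 0 < rho z₁ z₂)
    (ht : ‖t‖ < Real.exp (-((P (kk i)).φ ![0, z₁, z₂] / 2))) : AI i ![t, z₁, z₂] ∈ UU P := by
  have h1 : Complex.normSq t * Real.exp ((P (kk i)).φ ![t, z₁, z₂]) < 1 := by
    rw [liou_φ]
    exact (liou_ball _ _).2 ht
  have hz' : 0 < rho2 ![t, z₁, z₂] := hz
  by_cases hO : ![t, z₁, z₂] ∈ O
  · have h2 : AI i ![t, z₁, z₂] ∈ Cy i := by rwa [Cy, Set.mem_preimage, A_AI]
    rwa [mem_UU_cyl h2, A_AI]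
  · refine mem_UU_of_rho3 hP ?_
    have h2 : 3 / 4 ≤ ‖(![t, z₁, z₂] : Fin 3 → ℂ) 1‖ ∨ rr ![t, z₁, z₂] ≤ 3 := by
      by_contra h
      push Not at h
      refine hO ⟨by linarith [h.1], hz', ?_⟩
      by_contra h3
      have := Real.log_nonneg (not_lt.1 h3)
      have h4 := h.2
      rw [rr] at h4
      linarith
    rw [((hP _).std hz' h2).1, rr, Real.exp_neg, Real.exp_log hz', ← div_eq_mul_inv, div_lt_one hz'] at h1
    rw [liou_rho3_AI, rho3]
    exact sub_pos.2 h1

theorem liou_ident {g : ℂ → ℂ} (hg : DifferentiableOn ℂ g (Metric.ball 0 1)) {c : ℂ} (hc : c ≠ 0)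
    (h : ∀ n : ℕ, g (c / ((n + 1 : ℕ) + 1)) = 0) : ∀ t ∈ Metric.ball (0 : ℂ) 1, g t = 0 := by
  have h1 : Tendsto (fun n : ℕ => c / (((n + 1 : ℕ) : ℂ) + 1)) atTop (𝓝[≠] 0) := by
    refine tendsto_nhdsWithin_iff.2 ⟨?_, Eventually.of_forall fun n => div_ne_zero hc (Nat.cast_add_one_ne_zero _)⟩
    have := ((tendsto_one_div_add_atTop_nhds_zero_nat (𝕜 := ℂ)).comp (tendsto_add_atTop_nat 1)).const_mul c
    simpa [div_eq_mul_inv] using this
  exact (hg.analyticOnNhd Metric.isOpen_ball).eqOn_zero_of_preconnected_of_frequently_eq_zero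
    (convex_ball _ _).isPreconnected (Metric.mem_ball_self one_pos) (h1.frequently (.of_forall h))

section
variable {P : ℕ → Par} (hP : ∀ k, (P k).OK) {f : (Fin 3 → ℂ) → ℂ}
  (hf : DifferentiableOn ℂ f (UU P)) {C : ℝ} (hC : ∀ p ∈ UU P, ‖f p‖ ≤ C)
include hP hf hC

theorem slice (i : Ix) {p : Fin 3 → ℂ} (hp : 0 < rho3 p) (h0 : sw i.1 p 0 = ci i) :
    fderiv ℂ f p (sw i.1 ![1, 0, conj (ci i)]) = 0 := by
  obtain ⟨L, hL, -, hL0⟩ := exists_linAI i
  let E : ℂ × ℂ →L[ℂ] (Fin 3 → ℂ) :=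
    .pi ![0, ContinuousLinearMap.fst ℂ ℂ ℂ, ContinuousLinearMap.snd ℂ ℂ ℂ]
  have hE : ∀ z, (L.comp E) z + AI i 0 = AI i ![0, z.1, z.2] := fun z => by
    rw [hL ![0, z.1, z.2], ContinuousLinearMap.comp_apply]
    congr 2
    funext j
    fin_cases j <;> rfl
  have hb := (lineHol_fderiv (isOpen_UU hP) hf hC (sw i.1 ![1, 0, conj (ci i)])).comp_affine (L.comp E) (AI i 0)
    (S' := S2) fun z hz => by
      rw [hE]
      exact liou_disc hP i hz (by rw [norm_zero]; exact Real.exp_pos _)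
  simp only [hE] at hb
  have h1 := (hP (kk i)).no_section hb (C := 2 * C) (fun z hz => by
    refine (norm_fderiv_le (isOpen_UU hP) hf hC (Real.exp_pos (-((P (kk i)).φ ![0, z.1, z.2] / 2)))
      fun t ht => ?_).trans_eq (by rw [Real.exp_neg, div_inv_eq_mul])
    have h2 : AI i ![0, z.1, z.2] + t • sw i.1 ![1, 0, conj (ci i)] = AI i ![t, z.1, z.2] := by
      rw [hL ![0, z.1, z.2], hL ![t, z.1, z.2], ← hL0, ← map_smul, add_right_comm, ← map_add]
      congr 2
      funext j
      fin_cases j <;> simp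
    rw [h2]
    exact liou_disc hP i hz ht) (A i p 1, A i p 2)
  have h2 : A i p 0 = 0 := sub_eq_zero.2 h0
  have h3 : ![0, A i p 1, A i p 2] = A i p := by
    funext j
    fin_cases j
    exacts [h2.symm, rfl, rfl]
  rw [h3, AI_A] at h1
  refine h1 ?_
  rw [← rho3_A i, rho3, h2, map_zero, sub_zero] at hp
  exact hp

theorem partials (τ : Bool) {p : Fin 3 → ℂ} (h0 : ‖p 0‖ < 1) (h1 : ‖p 1‖ < 1) (h2 : 1 < (p 2).re) :
    fderiv ℂ f p (sw τ ![1, 0, 0]) = 0 ∧ (sw τ p 0 ≠ 0 → fderiv ℂ f p ![0, 0, 1] = 0) := by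
  set x : Fin 3 → ℂ := sw τ ![0, sw τ p 1, p 2]
  set u : Fin 3 → ℂ := sw τ ![1, 0, 0]
  have hx : ∀ t ∈ Metric.ball (0 : ℂ) 1, 0 < rho3 (x + t • u) := fun t ht => by
    have a0 := (sq_lt_one_iff₀ (norm_nonneg _)).2 h0
    have a1 := (sq_lt_one_iff₀ (norm_nonneg _)).2 h1
    have a2 := (sq_lt_one_iff₀ (norm_nonneg _)).2 (mem_ball_zero_iff.1 ht)
    cases τ <;> simp [x, u, sw, rho3, rho2, rho, Complex.normSq_eq_norm_sq] <;> linarith
  have hd : ∀ v, DifferentiableOn ℂ (fun t : ℂ => fderiv ℂ f (x + t • u) v) (Metric.ball 0 1) := fun v =>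
    (lineHol_fderiv (isOpen_UU hP) hf hC v x u).mono fun t ht => mem_UU_of_rho3 hP (hx t ht)
  have hs : ∀ (σ : Bool) (n : ℕ), fderiv ℂ f (x + ci (τ, σ, n + 1) • u) u +
      conj (ci (τ, σ, n + 1)) * fderiv ℂ f (x + ci (τ, σ, n + 1) • u) ![0, 0, 1] = 0 := fun σ n => by
    have h3 : ci (τ, σ, n + 1) ∈ Metric.ball (0 : ℂ) 1 := by
      have h4 : ‖((n + 1 : ℕ) : ℂ) + 1‖ = (n : ℝ) + 2 := by
        rw [← Nat.cast_add_one, Complex.norm_natCast]
        push_cast
        ring
      have h5 : (0 : ℝ) ≤ n := Nat.cast_nonneg n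
      rw [mem_ball_zero_iff, ci, norm_div, h4, div_lt_one (by linarith)]
      cases σ <;> simp <;> linarith
    have h4 := slice hP hf hC (τ, σ, n + 1) (hx _ h3) (by cases τ <;> simp [x, u, sw])
    rw [← smul_eq_mul, ← map_smul, ← map_add]
    refine Eq.trans (congrArg _ ?_) h4
    funext j
    cases τ <;> fin_cases j <;> simp [u, sw]
  have e1 := liou_ident (g := fun t => fderiv ℂ f (x + t • u) u + t * fderiv ℂ f (x + t • u) ![0, 0, 1])
    ((hd _).add (differentiableOn_id.mul (hd _))) one_ne_zero fun n => by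
      simpa [ci] using hs false n
  have e2 := liou_ident (g := fun t => fderiv ℂ f (x + t • u) u - t * fderiv ℂ f (x + t • u) ![0, 0, 1])
    ((hd _).sub (differentiableOn_id.mul (hd _))) Complex.I_ne_zero fun n => by
      simpa [ci, neg_div, sub_eq_add_neg] using hs true n
  have ht : sw τ p 0 ∈ Metric.ball (0 : ℂ) 1 := by
    rw [mem_ball_zero_iff]
    cases τ
    exacts [h0, h1]
  have hp : x + sw τ p 0 • u = p := by
    funext j
    cases τ <;> fin_cases j <;> simp [x, u, sw]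
  have e3 := e1 _ ht
  have e4 := e2 _ ht
  simp only [hp] at e3 e4
  exact ⟨by linear_combination (e3 + e4) / 2,
    fun h => (mul_eq_zero.1 (by linear_combination (e3 - e4) / 2)).resolve_left h⟩

theorem liouville : ∀ p ∈ UU P, ∀ q ∈ UU P, f p = f q := by
  set x : Fin 3 → ℂ := ![1 / 2, 0, 2]
  have hS : IsOpen {p : Fin 3 → ℂ | 0 < rho3 p} := isOpen_lt continuous_const contDiff_rho3.continuous
  have hx : 0 < rho3 x := by
    simp [x, rho3, rho2, rho]
    norm_num
  have h1 : ∀ᶠ p : Fin 3 → ℂ in 𝓝 x, 0 < rho3 p ∧ ‖p 0‖ < 1 ∧ ‖p 1‖ < 1 ∧ 1 < (p 2).re ∧ p 0 ≠ 0 := by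
    refine (hS.eventually_mem hx).and (.and ?_ (.and ?_ (.and ?_ ?_)))
    · exact (continuous_apply 0).norm.continuousAt.eventually_lt continuousAt_const (by simp [x]; norm_num)
    · exact (continuous_apply 1).norm.continuousAt.eventually_lt continuousAt_const (by simp [x])
    · exact continuousAt_const.eventually_lt (Complex.continuous_re.comp (continuous_apply 2)).continuousAt
        (by simp [x])
    · exact (continuous_apply 0).continuousAt.eventually_ne (by simp [x])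
  obtain ⟨r, hr, hB⟩ := Metric.eventually_nhds_iff_ball.1 h1
  have h2 : ∀ p ∈ Metric.ball x r, f p = f x := fun p hp => by
    refine Metric.isOpen_ball.is_const_of_fderiv_eq_zero (𝕜 := ℂ) (convex_ball x r).isPreconnected
      (hf.mono fun q hq => mem_UU_of_rho3 hP (hB q hq).1) (fun q hq => ?_) hp (Metric.mem_ball_self hr)
    obtain ⟨-, a0, a1, a2, a3⟩ := hB q hq
    obtain ⟨e0, e2⟩ := partials hP hf hC false a0 a1 a2
    have e1 := (partials hP hf hC true a0 a1 a2).1
    ext1 v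
    have hv : v = v 0 • sw false ![1, 0, 0] + v 1 • sw true ![1, 0, 0] + v 2 • ![0, 0, 1] := by
      funext j
      fin_cases j <;> simp [sw]
    rw [hv, map_add, map_add, map_smul, map_smul, map_smul, e0, e1, e2 a3]
    simp
  have h3 := (LineHol.of_differentiableOn (hf.mono fun q hq => mem_UU_of_rho3 hP hq)).eq_of_convex hS
    convex_S3 hx (eventually_of_mem (Metric.ball_mem_nhds x hr) h2)
  have h4 : ∀ p ∈ UU P, f p = f x := fun p hp => by
    by_cases hc : ∃ i, p ∈ Cy i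
    swap
    · exact h3 p ((mem_UU_not (not_exists.1 hc)).1 hp)
    obtain ⟨i, hi⟩ := hc
    obtain ⟨L, hL, -, -⟩ := exists_linAI i
    have hz : 0 < rho (A i p 1) (A i p 2) := hi.2.1
    have hE : ∀ t : ℂ, (L.comp (ContinuousLinearMap.single ℂ (fun _ : Fin 3 => ℂ) 0)) t +
        AI i ![0, A i p 1, A i p 2] = AI i ![t, A i p 1, A i p 2] := fun t => by
      rw [hL ![0, _, _], hL ![t, _, _], ContinuousLinearMap.comp_apply, ← add_assoc, ← map_add]
      congr 2
      funext j
      fin_cases j <;> simp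
    have h5 := (LineHol.of_differentiableOn hf).comp_affine
      (L.comp (ContinuousLinearMap.single ℂ (fun _ : Fin 3 => ℂ) 0)) (AI i ![0, A i p 1, A i p 2])
      (S' := Metric.ball 0 (Real.exp (-((P (kk i)).φ ![0, A i p 1, A i p 2] / 2)))) fun t ht => by
        rw [hE]
        exact liou_disc hP i hz (mem_ball_zero_iff.1 ht)
    simp only [hE] at h5
    have h6 : ∀ᶠ t in 𝓝 (0 : ℂ), Complex.normSq t < rho (A i p 1) (A i p 2) :=
      ContinuousAt.eventually_lt (by fun_prop) continuousAt_const (by simpa using hz)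
    have h7 := h5.eq_of_convex Metric.isOpen_ball (convex_ball _ _) (Metric.mem_ball_self (Real.exp_pos _))
      (k := f x) (h6.mono fun t ht => h3 _ (by
        show 0 < rho3 _
        rw [liou_rho3_AI, rho3]
        exact sub_pos.2 ht)) (A i p 0) (by
      rw [mem_ball_zero_iff, ← liou_ball, ← liou_φ]
      exact (mem_UU_cyl hi).1 hp)
    have h8 : ![A i p 0, A i p 1, A i p 2] = A i p := by
      funext j
      fin_cases j <;> rfl
    rwa [h8, AI_A] at h7
  exact fun p hp q hq => (h4 p hp).trans (h4 q hq).symm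

end

end Crest.Agent.R245
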