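import Crest.Agent.R245.Glob
import Crest.Agent.R245.Liou
import Crest.Agent.R245.Kahler
import Crest.Agent.R245.Complete

/-!
# R245: assembly
-/

set_option autoImplicit false

namespace Crest.Agent.R245

open scoped ComplexConjugate ContDiff Topology
open Filter Crest.GeometryTopology

theorem main_metric {P : ℕ → Par} {a₀ : ℝ} {κ : ℕ → ℝ} (hP : ∀ k, Mod a₀ (κ k) (P k)) :
    ∃ g : HermitianMetricOn 3 (UU P), g.IsKahler ∧ g.IsComplete ∧
      (∀ p ∈ UU P, ∃ k, ∀ X Y, g.riem p X X * g.riem p Y Y - g.riem p X Y ^ 2 ≠ 0 →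
        -(3000 / (a₀ * κ k) * 4000) ≤ g.sectional p X Y ∧ g.sectional p X Y ≤ -1) ∧
      ∀ k, ∃ p ∈ UU P, ∃ X Y, g.riem p X X * g.riem p Y Y - g.riem p X Y ^ 2 ≠ 0 ∧
        g.sectional p X Y ≤ -(1 / κ k * 4000) := by
  have hok : ∀ k, (P k).OK := fun k => (hP k).ok
  have hU : IsOpen (UU P) := isOpen_UU hok
  have hPP := contDiffOn_PP hP
  set Q : E3 → ℝ := fun x => (1 / 4000 : ℝ) * PP P x with hQdef
  have hQ : ContDiffOn ℝ ∞ Q (UU P) := contDiffOn_const.mul hPP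
  have hj : ∀ p ∈ UU P, jr Q p = (jr (PP P) p).smul ((1 / 4000 : ℝ) : ℂ) := fun p hp =>
    jr_smul (Sm.of_contDiffOn hU hPP hp) _
  have hgood : ∀ p ∈ UU P, ∃ k, Good (jr Q p) 1 (3000 / (a₀ * κ k) * 4000) := by
    intro p hp
    obtain ⟨k, hk⟩ := PP_good hP hp
    refine ⟨k, ?_⟩
    have := hk.smul (t := 1 / 4000) (by norm_num)
    rw [hj p hp]
    convert this using 1 <;> ring
  have hpos : ∀ p ∈ UU P, ∀ a, a ≠ 0 → 0 < ((jr Q p).de a a).re := fun p hp =>
    (hgood p hp).choose_spec.pos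
  have hW : ∀ p ∈ UU P, ∀ X Y, (potMetric hU hQ hpos).riem p X X * (potMetric hU hQ hpos).riem p Y Y -
      (potMetric hU hQ hpos).riem p X Y ^ 2 = Wd (jr Q p) X Y := by
    intro p hp X Y
    simp only [potMetric_riem hU hQ hpos hp, Wd]
  refine ⟨potMetric hU hQ hpos, potMetric_kahler hU hQ hpos, ?_, ?_, ?_⟩
  · obtain ⟨Φ, Ψ, hΦ, -, hr, -⟩ := exists_diffeo hok
    obtain ⟨C, hC0, hC⟩ := Xi_grad hP
    refine isComplete_of_proper hU _ ?_ (Ξ := fun x => PP P x + LL x)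
      ((hPP.add (contDiffOn_LL hP)).of_le (by exact_mod_cast le_top)) (C := C * 100)
      (by positivity) ?_ (Xi_proper hP)
    · intro p hp q hq
      rw [← hr] at hp hq
      obtain ⟨x, rfl⟩ := hp
      obtain ⟨y, rfl⟩ := hq
      refine ⟨fun t => Φ (x + t • (y - x)), ?_, by simp, by simp, fun t _ => hr ▸ ⟨_, rfl⟩⟩
      exact (hΦ.of_le (by exact_mod_cast le_top)).comp
        (contDiff_const.add (contDiff_id.smul contDiff_const))
    · intro p hp X
      refine (hC p hp X).trans ?_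
      rw [potMetric_riem hU hQ hpos hp, hj p hp, mul_assoc]
      refine mul_le_mul_of_nonneg_left ?_ hC0
      have e : (((jr (PP P) p).smul ((1 / 4000 : ℝ) : ℂ)).de X X).re =
          1 / 4000 * ((jr (PP P) p).de X X).re := by
        simp only [J.smul, Complex.re_ofReal_mul]
      rw [e]
      rcases le_or_gt ((jr (PP P) p).de X X).re 0 with h | h
      · rw [Real.sqrt_eq_zero'.2 h]; positivity
      · apply Real.sqrt_le_iff.2 ⟨by positivity, ?_⟩
        rw [mul_pow, Real.sq_sqrt (by positivity)]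
        nlinarith
  · intro p hp
    obtain ⟨k, hk⟩ := hgood p hp
    refine ⟨k, fun X Y hXY => ?_⟩
    rw [hW p hp] at hXY
    have hsm : Sm Q p := Sm.of_contDiffOn hU hQ hp
    have h0 : 0 < Wd (jr Q p) X Y :=
      lt_of_le_of_ne (Wd_nonneg (jr_lin hsm) (jr_herm hsm) (hpos p hp) X Y) (Ne.symm hXY)
    obtain ⟨h1, h2⟩ := hk.curv _ (potMetric_isChr hU hQ hpos hp) X Y
    rw [potMetric_sectional hU hQ hpos hp]
    constructor
    · rw [le_div_iff₀ h0]; linarith
    · rw [div_le_iff₀ h0]; linarith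
  · intro k
    obtain ⟨p, hp, hb⟩ := PP_big hP k
    have hb' := hb.smul (t := 1 / 4000) (by norm_num)
    rw [← hj p hp] at hb'
    obtain ⟨X, Y, h0, h1⟩ := hb' _ (potMetric_isChr hU hQ hpos hp)
    refine ⟨p, hp, X, Y, by rw [hW p hp]; exact h0.ne', ?_⟩
    rw [potMetric_sectional hU hQ hpos hp, div_le_iff₀ h0]
    have e : 1 / κ k / (1 / 4000) = 1 / κ k * 4000 := by ring
    rw [e] at h1
    linarith

theorem liouville' {P : ℕ → Par} (hP : ∀ k, (P k).OK) {f : E3 → ℂ}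
    (hf : DifferentiableOn ℂ f (UU P)) (hb : Bornology.IsBounded (f '' UU P)) :
    ∀ p ∈ UU P, ∀ q ∈ UU P, f p = f q := by
  obtain ⟨C, hC⟩ := hb.exists_norm_le
  exact liouville hP hf (C := C) fun p hp => hC _ ⟨p, hp, rfl⟩

end Crest.Agent.R245
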