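import Crest.Agent.R245.CalcB

/-!
# R245: one-variable auxiliary functions

`Gam` is the primitive of `Real.smoothTransition`; `bump a b` is a cut-off on `ℂ`.
-/

set_option autoImplicit false

namespace Crest.Agent.R245

open scoped ComplexConjugate ContDiff Topology
open Filter

noncomputable def Gam (x : ℝ) : ℝ := ∫ t in (0 : ℝ)..x, Real.smoothTransition t

theorem hasDerivAt_Gam (x : ℝ) : HasDerivAt Gam (Real.smoothTransition x) x :=
  (Real.smoothTransition.continuous.integral_hasStrictDerivAt 0 x).hasDerivAt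

theorem deriv_Gam : deriv Gam = Real.smoothTransition := by
  funext x
  exact (hasDerivAt_Gam x).deriv

theorem contDiff_Gam : ContDiff ℝ ∞ Gam := by
  refine contDiff_infty_iff_deriv.2 ⟨fun x => (hasDerivAt_Gam x).differentiableAt, ?_⟩
  rw [deriv_Gam]
  exact Real.smoothTransition.contDiff

theorem Gam_of_nonpos {x : ℝ} (hx : x ≤ 0) : Gam x = 0 := by
  unfold Gam
  rw [intervalIntegral.integral_congr (g := fun _ => 0), intervalIntegral.integral_zero]
  intro t ht
  rw [Set.uIcc_of_ge hx] at ht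
  exact Real.smoothTransition.zero_of_nonpos ht.2

theorem Gam_nonneg (x : ℝ) : 0 ≤ Gam x := by
  rcases le_total x 0 with hx | hx
  · exact (Gam_of_nonpos hx).ge
  · exact intervalIntegral.integral_nonneg hx fun t _ => Real.smoothTransition.nonneg t

theorem Gam_le (x : ℝ) : Gam x ≤ max x 0 := by
  rcases le_total x 0 with hx | hx
  · rw [Gam_of_nonpos hx]
    exact le_max_right _ _
  · refine le_trans ?_ (le_max_left _ _)
    have := intervalIntegral.integral_mono_on (μ := MeasureTheory.volume) (g := fun _ => (1 : ℝ)) hx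
      (Real.smoothTransition.continuous.intervalIntegrable _ _) intervalIntegrable_const
      fun t _ => Real.smoothTransition.le_one t
    simpa [Gam] using this

theorem Gam_of_one_le {x : ℝ} (hx : 1 ≤ x) : Gam x = x - (1 - Gam 1) := by
  have h1 := intervalIntegral.integral_add_adjacent_intervals (μ := MeasureTheory.volume)
    (Real.smoothTransition.continuous.intervalIntegrable 0 1)
    (Real.smoothTransition.continuous.intervalIntegrable 1 x)
  have h2 : ∫ t in (1 : ℝ)..x, Real.smoothTransition t = x - 1 := by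
    rw [intervalIntegral.integral_congr (g := fun _ => 1)]
    · simp
    · intro t ht
      rw [Set.uIcc_of_le hx] at ht
      exact Real.smoothTransition.one_of_one_le ht.1
  unfold Gam
  linarith

theorem deriv_smoothTransition_nonneg (x : ℝ) : 0 ≤ deriv Real.smoothTransition x := by
  exact Real.smoothTransition.monotone.deriv_nonneg

theorem exists_ST_bound_one (k : ℕ) : ∃ C : ℝ, ∀ x,
    |iteratedDeriv k Real.smoothTransition x| ≤ C := by
  have hc : Continuous (iteratedDeriv k Real.smoothTransition) :=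
    (Real.smoothTransition.contDiff (n := k)).continuous_iteratedDeriv k le_rfl
  obtain ⟨C, hC⟩ := (isCompact_Icc (a := (0 : ℝ)) (b := 1)).exists_bound_of_continuousOn
    hc.continuousOn
  refine ⟨max C 1, fun x => ?_⟩
  have key : ∀ c : ℝ, |c| ≤ 1 → Real.smoothTransition =ᶠ[𝓝 x] (fun _ => c) →
      |iteratedDeriv k Real.smoothTransition x| ≤ max C 1 := fun c hc h => by
    rw [h.iteratedDeriv_eq, iteratedDeriv_const]
    split_ifs
    · exact hc.trans (le_max_right _ _)
    · simp
  rcases lt_or_ge x 0 with h0 | h0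
  · refine key 0 (by simp) ?_
    filter_upwards [Iio_mem_nhds h0] with y hy using Real.smoothTransition.zero_of_nonpos hy.le
  rcases lt_or_ge 1 x with h1 | h1
  · refine key 1 (by simp) ?_
    filter_upwards [Ioi_mem_nhds h1] with y hy using Real.smoothTransition.one_of_one_le hy.le
  · exact (hC x ⟨h0, h1⟩).trans (le_max_left _ _)

/-- derivatives of `smoothTransition` of positive order vanish off `[0, 1]`, hence are bounded -/
theorem exists_ST_bound : ∃ C : ℝ, 1 ≤ C ∧ ∀ k, k ≤ 4 → ∀ x,
    |iteratedDeriv k Real.smoothTransition x| ≤ C := by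
  choose C hC using exists_ST_bound_one
  have h0 : ∀ k, 0 ≤ C k := fun k => (abs_nonneg _).trans (hC k 0)
  have h1 : 0 ≤ ∑ k ∈ Finset.range 5, C k := Finset.sum_nonneg fun k _ => h0 k
  refine ⟨1 + ∑ k ∈ Finset.range 5, C k, by linarith, fun k hk x => (hC k x).trans ?_⟩
  have := Finset.single_le_sum (f := C) (fun k _ => h0 k) (Finset.mem_range.2 (Nat.lt_succ_of_le hk))
  linarith

/-- rescaled primitive -/
noncomputable def gam (r₀ L r : ℝ) : ℝ := L * Gam ((r - r₀) / L)

/-- its derivative -/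
noncomputable def gam1 (r₀ L r : ℝ) : ℝ := Real.smoothTransition ((r - r₀) / L)

theorem contDiff_gam (r₀ L : ℝ) : ContDiff ℝ ∞ (gam r₀ L) := by
  exact contDiff_const.mul (contDiff_Gam.comp ((contDiff_id.sub contDiff_const).div_const L))

theorem contDiff_gam1 (r₀ L : ℝ) : ContDiff ℝ ∞ (gam1 r₀ L) := by
  exact Real.smoothTransition.contDiff.comp ((contDiff_id.sub contDiff_const).div_const L)

theorem deriv_gam (r₀ : ℝ) {L : ℝ} (hL : L ≠ 0) : deriv (gam r₀ L) = gam1 r₀ L := by
  funext r
  have h := ((hasDerivAt_Gam ((r - r₀) / L)).comp r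
    (((hasDerivAt_id r).sub_const r₀).div_const L)).const_mul L
  refine h.deriv.trans ?_
  rw [gam1]
  field_simp

theorem iteratedDeriv_gam1 (r₀ L r : ℝ) (k : ℕ) : iteratedDeriv k (gam1 r₀ L) r =
    L⁻¹ ^ k * iteratedDeriv k Real.smoothTransition (L⁻¹ * (r - r₀)) := by
  have h : gam1 r₀ L = fun z => (fun y => Real.smoothTransition (L⁻¹ * y)) (z - r₀) := by
    funext z
    rw [gam1, div_eq_inv_mul]
  rw [h, iteratedDeriv_comp_sub_const k (fun y => Real.smoothTransition (L⁻¹ * y)) r₀,
    iteratedDeriv_comp_const_mul (Real.smoothTransition.contDiff (n := k))]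

theorem exists_gam_bound : ∃ C : ℝ, 1 ≤ C ∧ ∀ r₀ L r : ℝ, 1 ≤ L →
    iteratedDeriv 1 (gam r₀ L) r = gam1 r₀ L r ∧
    (∀ k, 2 ≤ k → k ≤ 4 → |iteratedDeriv k (gam r₀ L) r| ≤ C / L) ∧
    (∀ k, 1 ≤ k → k ≤ 4 → |iteratedDeriv k (gam1 r₀ L) r| ≤ C / L) := by
  obtain ⟨C, hC, h⟩ := exists_ST_bound
  refine ⟨C, hC, fun r₀ L r hL => ?_⟩
  have hL0 : 0 < L := by linarith
  have h3 : ∀ k, 1 ≤ k → k ≤ 4 → |iteratedDeriv k (gam1 r₀ L) r| ≤ C / L := fun k h1 h4 => by
    rw [iteratedDeriv_gam1, abs_mul, abs_of_nonneg (by positivity), div_eq_inv_mul]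
    exact mul_le_mul (pow_le_of_le_one (by positivity) (inv_le_one_of_one_le₀ hL) (by omega))
      (h k h4 _) (abs_nonneg _) (by positivity)
  refine ⟨by rw [iteratedDeriv_one, deriv_gam r₀ hL0.ne'], fun k h2 h4 => ?_, h3⟩
  obtain ⟨j, rfl⟩ : ∃ j, k = j + 1 := ⟨k - 1, by omega⟩
  rw [iteratedDeriv_succ', deriv_gam r₀ hL0.ne']
  exact h3 j (by omega) (by omega)

/-- equal to `1` for `|z|² ≤ a`, to `0` for `|z|² ≥ b` -/
noncomputable def bump (a b : ℝ) (z : ℂ) : ℝ :=
  Real.smoothTransition ((b - Complex.normSq z) / (b - a))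

theorem contDiff_bump (a b : ℝ) : ContDiff ℝ ∞ (bump a b) := by
  have h : ContDiff ℝ ∞ fun z : ℂ => Complex.normSq z := by
    simp only [Complex.normSq_apply]
    exact (Complex.reCLM.contDiff.mul Complex.reCLM.contDiff).add
      (Complex.imCLM.contDiff.mul Complex.imCLM.contDiff)
  exact Real.smoothTransition.contDiff.comp ((contDiff_const.sub h).div_const _)

theorem bump_eq_one {a b : ℝ} (h : a < b) {z : ℂ} (hz : Complex.normSq z ≤ a) : bump a b z = 1 := by
  refine Real.smoothTransition.one_of_one_le ?_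
  rw [le_div_iff₀ (by linarith)]
  linarith

theorem bump_eq_zero {a b : ℝ} (h : a < b) {z : ℂ} (hz : b ≤ Complex.normSq z) :
    bump a b z = 0 := by
  exact Real.smoothTransition.zero_of_nonpos
    (div_nonpos_of_nonpos_of_nonneg (by linarith) (by linarith))

theorem bump_mem (a b : ℝ) (z : ℂ) : 0 ≤ bump a b z ∧ bump a b z ≤ 1 :=
  ⟨Real.smoothTransition.nonneg _, Real.smoothTransition.le_one _⟩

theorem exists_bump_bd {a b : ℝ} (h : a < b) :
    ∃ C : ℝ, 1 ≤ C ∧ ∀ z, (jr (bump a b) z).Bd (fun x => ‖x‖) C := by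
  have hc : Continuous fun z : ℂ => Complex.normSq z := Complex.continuous_normSq
  have hK : IsCompact {z : ℂ | Complex.normSq z ≤ b} := by
    refine (isCompact_closedBall (0 : ℂ) (|b| + 1)).of_isClosed_subset
      (isClosed_le hc continuous_const) fun z hz => ?_
    have h1 : ‖z‖ ^ 2 ≤ b := by rw [← Complex.normSq_eq_norm_sq]; exact hz
    rw [mem_closedBall_zero_iff]
    nlinarith [le_abs_self b, abs_nonneg b, norm_nonneg z, sq_nonneg (‖z‖ - 1)]
  obtain ⟨C, hC, hB⟩ := exists_bd_compact (contDiff_bump a b) hK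
  refine ⟨C, hC, fun z => ?_⟩
  by_cases hz : Complex.normSq z ≤ b
  · exact hB z hz
  · have h1 : bump a b =ᶠ[𝓝 z] fun _ => 0 := by
      filter_upwards [(isOpen_lt continuous_const hc).mem_nhds (not_le.1 hz)] with y hy
      exact bump_eq_zero h hy.le
    rw [jr_congr h1, jr_const]
    exact (J.bd_const _).mono (fun _ => norm_nonneg _) (by linarith)

end Crest.Agent.R245
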