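import Crest.Agent.R245.Lam

/-!
# R245: the global potential

In a cylinder everything is the pull-back of the model by the affine map `A i` (`glue_cyl`,
`exists_linA`, `jr_comap`, `Good.comap`, `Big.comap`); elsewhere it is standard (`glue_std`,
`pointS`).  Properness: let `Ξ = PP + LL ≤ a` at `p ∈ U`, `y = GI p`.  Outside the cylinders
`PP = -log rho3 ≥ -LL/2 - log 2`, `LL ≥ 0`.  In `Cy i`, `q = A i p`: `PP ≥ a₀ rr q ≥ 0`,
`|Zc + 1|² ≤ exp a` bounds `mi i` (`re_Zc_ge`), hence `kk i ≤ N` and `κ ≥ δ`;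
`rho3 y = rho2 q (1 - s) ≥ exp (-a/a₀ - a/δ)`; `y 2 = Zc + sig q * conj c * q' 0` with
`q' = A i y`, `|q' 0| ≤ 1` (`std_of_sig`).  So `p ∈ GG '' {‖y‖ ≤ R, δ' ≤ rho3 y}`.
-/

set_option autoImplicit false

namespace Crest.Agent.R245

open scoped ComplexConjugate ContDiff Topology
open Filter

theorem Pot_std {ψ φ η : (Fin 3 → ℂ) → ℝ} {q : Fin 3 → ℂ} (hq : 0 < rho3 q) (h1 : φ q = rr q)
    (h2 : ψ q = rr q) (h3 : η q = 1) : Pot ψ φ η q = -Real.log (rho3 q) := by
  have h0 := Complex.normSq_nonneg (q 0)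
  have hx' : Complex.normSq (q 0) < rho2 q := by unfold rho3 at hq; linarith
  have hr : 0 < rho2 q := by linarith
  have he : Real.exp (rr q) = 1 / rho2 q := by rw [rr, Real.exp_neg, Real.exp_log hr, one_div]
  have e : 1 - Complex.normSq (q 0) * Real.exp (rr q) = rho3 q / rho2 q := by
    rw [he, rho3]; field_simp
  rw [Pot, h1, h2, h3, e, Real.log_div hq.ne' hr.ne', rr]
  ring

theorem sw_two (τ : Bool) (p : Fin 3 → ℂ) : sw τ p 2 = p 2 := by
  cases τ <;> simp [sw]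

theorem norm_sw_le (τ : Bool) {p : Fin 3 → ℂ} {R : ℝ} (h : ∀ j, ‖p j‖ ≤ R) : ‖sw τ p‖ ≤ R := by
  refine (pi_norm_le_iff_of_nonneg ((norm_nonneg _).trans (h 0))).2 fun j => ?_
  cases τ
  · exact h j
  · fin_cases j <;> simp [sw, h]

theorem AI_two (i : Ix) (q : Fin 3 → ℂ) : AI i q 2 =
    q 2 + conj (ci i) * q 0 + mi i * q 1 + ((Complex.normSq (ci i) + mi i ^ 2) / 2 : ℝ) := by
  rw [AI, sw_two]
  simp [tri, Complex.normSq_ofReal, sq]

theorem sm_comp_A {u : (Fin 3 → ℂ) → ℝ} {i : Ix} {p : Fin 3 → ℂ} (hu : Sm u (A i p)) :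
    Sm (fun x => u (A i x)) p := by
  filter_upwards [(contDiff_A i).continuous.continuousAt.eventually hu] with x hx
    using hx.comp x (contDiff_A i).contDiffAt

theorem exists_jr_A (i : Ix) : ∃ L : (Fin 3 → ℂ) →ₗ[ℂ] (Fin 3 → ℂ), Function.Bijective L ∧
    ∀ (u : (Fin 3 → ℂ) → ℝ) (p : Fin 3 → ℂ), Sm u (A i p) →
      jr (fun x => u (A i x)) p = (jr u (A i p)).comap L := by
  obtain ⟨L, hL, hA⟩ := exists_linA i
  refine ⟨L, hL, fun u p hu => ?_⟩
  have e : (fun x => u (A i x)) = fun x => u (L x + A i 0) := by funext x; rw [← hA]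
  rw [e, hA p]
  exact jr_comap L _ (by rw [← hA]; exact hu)

theorem sm_std {p : Fin 3 → ℂ} (hp : 0 < rho3 p) : Sm (fun x => -Real.log (rho3 x)) p := by
  filter_upwards [(isOpen_lt continuous_const contDiff_rho3.continuous).mem_nhds hp] with x hx
    using (contDiff_rho3.contDiffAt.log (ne_of_gt hx)).neg

theorem re_two_pos {p : Fin 3 → ℂ} (hp : 0 < rho3 p) :
    Complex.normSq (p 0) + Complex.normSq (p 1) + rho3 p = 2 * (p 2).re ∧ 0 < (p 2).re := by
  have h0 := Complex.normSq_nonneg (p 0)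
  have h1 := Complex.normSq_nonneg (p 1)
  have e : Complex.normSq (p 0) + Complex.normSq (p 1) + rho3 p = 2 * (p 2).re := by
    simp only [rho3, rho2, rho]; ring
  exact ⟨e, by linarith⟩

theorem contDiff_normSq' : ContDiff ℝ ∞ fun z : ℂ => Complex.normSq z := by
  have : (fun z : ℂ => Complex.normSq z) = fun z => z.re * z.re + z.im * z.im := by
    funext z; rw [Complex.normSq_apply]
  rw [this]
  have h1 : ContDiff ℝ ∞ fun z : ℂ => z.re := Complex.reCLM.contDiff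
  have h2 : ContDiff ℝ ∞ fun z : ℂ => z.im := Complex.imCLM.contDiff
  exact (h1.mul h1).add (h2.mul h2)

theorem one_le_normSq_add_one {z : ℂ} (hz : 0 ≤ z.re) : 1 ≤ Complex.normSq (z + 1) := by
  rw [Complex.normSq_apply]
  simp only [Complex.add_re, Complex.one_re]
  nlinarith [mul_self_nonneg (z + 1).im]

theorem sm_stdL {p : Fin 3 → ℂ} (hp : 0 < rho3 p) :
    Sm (fun x : Fin 3 → ℂ => Real.log (Complex.normSq (x 2 + 1))) p := by
  filter_upwards [(isOpen_lt continuous_const contDiff_rho3.continuous).mem_nhds hp] with x hx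
  have h1 : ContDiff ℝ ∞ fun x : Fin 3 → ℂ => Complex.normSq (x 2 + 1) :=
    contDiff_normSq'.comp ((contDiff_apply ℝ ℂ 2).add contDiff_const)
  have := one_le_normSq_add_one (re_two_pos hx).2.le
  exact h1.contDiffAt.log (by positivity)

theorem norm_le_one_add_normSq (z : ℂ) : ‖z‖ ≤ 1 + Complex.normSq z := by
  rw [Complex.normSq_eq_norm_sq]; nlinarith [norm_nonneg z]

theorem sig_mem_g (q : Fin 3 → ℂ) : 0 ≤ sig q ∧ sig q ≤ 1 :=
  ⟨mul_nonneg (bump_mem _ _ _).1 (Real.smoothTransition.nonneg _),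
    mul_le_one₀ (bump_mem _ _ _).2 (Real.smoothTransition.nonneg _)
      (Real.smoothTransition.le_one _)⟩

section
variable (P : ℕ → Par)

noncomputable def PP : (Fin 3 → ℂ) → ℝ :=
  glue (fun i p => Pot (P (kk i)).ψ (P (kk i)).φ (P (kk i)).η (A i p)) fun p => -Real.log (rho3 p)

noncomputable def LL : (Fin 3 → ℂ) → ℝ :=
  glue (fun i p => Lm (ci i) (mi i) (A i p)) fun p => Real.log (Complex.normSq (p 2 + 1))

variable {P} {a₀ : ℝ} {κ : ℕ → ℝ} (hP : ∀ k, Mod a₀ (κ k) (P k))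
include hP

theorem PP_std {p : Fin 3 → ℂ} (hp : 0 < rho3 p) (hn : ∀ i, p ∉ Cy i) :
    PP P =ᶠ[𝓝 p] fun p => -Real.log (rho3 p) := by
  filter_upwards [eventually_not_Kc hp hn,
    (isOpen_lt continuous_const contDiff_rho3.continuous).mem_nhds hp] with y hy hy0
  by_cases h : ∃ i, y ∈ Cy i
  · obtain ⟨i, hi⟩ := h
    obtain ⟨h1, h2, h3⟩ := std_of_not_Kc (fun k => (hP k).ok) (kk i) hi (hy i hi)
    rw [PP, glue_of_mem _ _ hi, Pot_std (by rw [rho3_A]; exact hy0) h1 h2 h3, rho3_A]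
  · exact glue_of_not _ _ (not_exists.1 h)

omit hP in
theorem LL_std {p : Fin 3 → ℂ} (hp : 0 < rho3 p) (hn : ∀ i, p ∉ Cy i) :
    LL =ᶠ[𝓝 p] fun p => Real.log (Complex.normSq (p 2 + 1)) := by
  refine glue_std (fun i y hy hK => ?_) hp hn
  have h := AI_two i (A i y)
  rw [AI_A] at h
  rw [Lm, Zc, sig_of_not_Kc hy hK, h]
  congr 3
  push_cast
  ring

theorem sm_Pot_cyl {i : Ix} {p : Fin 3 → ℂ} (hi : p ∈ Cy i) (hp : p ∈ UU P) :
    Sm (Pot (P (kk i)).ψ (P (kk i)).φ (P (kk i)).η) (A i p) :=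
  sm_Pot (Par.sm_ψ _ hi.2.1) ((hP _).ok.sm_φ hi.2.1) (Par.sm_η _ hi.2.1) ((mem_UU_cyl hi).1 hp)

theorem sm_Lm_cyl {i : Ix} {p : Fin 3 → ℂ} (hi : p ∈ Cy i) (hp : p ∈ UU P) :
    Sm (Lm (ci i) (mi i)) (A i p) :=
  sm_Lm (hP _).ok _ hi.2.1 ((mem_UU_cyl hi).1 hp)

theorem sm_PP {p : Fin 3 → ℂ} (hp : p ∈ UU P) : Sm (PP P) p := by
  by_cases h : ∃ i, p ∈ Cy i
  · obtain ⟨i, hi⟩ := h
    exact (sm_comp_A (sm_Pot_cyl hP hi hp)).congr (glue_cyl _ _ hi)
  · have hn := not_exists.1 h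
    have h0 := (mem_UU_not hn).1 hp
    exact (sm_std h0).congr (PP_std hP h0 hn)

theorem sm_LL {p : Fin 3 → ℂ} (hp : p ∈ UU P) : Sm LL p := by
  by_cases h : ∃ i, p ∈ Cy i
  · obtain ⟨i, hi⟩ := h
    exact (sm_comp_A (sm_Lm_cyl hP hi hp)).congr (glue_cyl _ _ hi)
  · have hn := not_exists.1 h
    have h0 := (mem_UU_not hn).1 hp
    exact (sm_stdL h0).congr (LL_std h0 hn)

theorem a₀_mem : 0 < a₀ ∧ a₀ ≤ 1 / 2 := by
  rw [← (hP 0).a₀_eq]; exact ⟨(hP 0).ok.a₀_pos, (hP 0).ok.a₀_le⟩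

theorem κ_mem (k : ℕ) : 0 < κ k ∧ κ k ≤ 1 := by
  rw [← (hP k).κ_eq]; exact ⟨(hP k).ok.κ_pos, (hP k).ok.κ_le⟩

theorem contDiffOn_PP : ContDiffOn ℝ ∞ (PP P) (UU P) := by
  exact fun p hp => (sm_PP hP hp).contDiffAt.contDiffWithinAt

theorem contDiffOn_LL : ContDiffOn ℝ ∞ LL (UU P) := by
  exact fun p hp => (sm_LL hP hp).contDiffAt.contDiffWithinAt

theorem PP_good {p : Fin 3 → ℂ} (hp : p ∈ UU P) :
    ∃ k, Good (jr (PP P) p) (1 / 4000) (3000 / (a₀ * κ k)) := by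
  by_cases h : ∃ i, p ∈ Cy i
  · obtain ⟨i, hi⟩ := h
    obtain ⟨L, hL, hj⟩ := exists_jr_A i
    refine ⟨kk i, ?_⟩
    rw [PP, jr_congr (glue_cyl _ _ hi), hj _ _ (sm_Pot_cyl hP hi hp)]
    exact ((hP (kk i)).nice _ hi.2.1 ((mem_UU_cyl hi).1 hp)).good.comap L hL
  · have hn := not_exists.1 h
    have h0 := (mem_UU_not hn).1 hp
    refine ⟨0, ?_⟩
    rw [jr_congr (PP_std hP h0 hn)]
    refine (pointS h0).good.mono (jr_lin (sm_std h0)) (jr_herm (sm_std h0)) le_rfl ?_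
    obtain ⟨a1, a2⟩ := a₀_mem hP
    obtain ⟨b1, b2⟩ := κ_mem hP 0
    rw [le_div_iff₀ (by positivity)]
    nlinarith

theorem PP_big (k : ℕ) : ∃ p ∈ UU P, Big (jr (PP P) p) (1 / κ k) := by
  obtain ⟨i, rfl⟩ : ∃ i, kk i = k := by
    refine ⟨(false, decide (k % 2 = 1), k / 2), ?_⟩
    simp only [kk, decide_eq_true_eq]
    split_ifs <;> omega
  obtain ⟨q, q0, q1, q2, q3, hb⟩ := (hP (kk i)).big
  have hi : AI i q ∈ Cy i := by
    show A i (AI i q) ∈ O
    rw [A_AI]; exact ⟨q1, q2, q3⟩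
  have hp : AI i q ∈ UU P := by
    rw [mem_UU_cyl hi, A_AI, q0]; simp
  obtain ⟨L, hL, hj⟩ := exists_jr_A i
  refine ⟨_, hp, ?_⟩
  rw [PP, jr_congr (glue_cyl _ _ hi), hj _ _ (sm_Pot_cyl hP hi hp), A_AI]
  exact hb.comap L hL

theorem Xi_grad : ∃ C : ℝ, 0 ≤ C ∧ ∀ p ∈ UU P, ∀ X,
    |fderiv ℝ (fun x => PP P x + LL x) p X| ≤ C * √((jr (PP P) p).de X X).re := by
  obtain ⟨C₀, hC₀, hC⟩ := exists_Lm_grad
  obtain ⟨a1, a2⟩ := a₀_mem hP
  have a3 : 1 ≤ 20 / a₀ := by rw [le_div_iff₀ a1]; linarith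
  refine ⟨2 * (20 / a₀) + C₀ * (20 / a₀) + 50, by positivity, fun p hp X => ?_⟩
  have s1 := sm_PP hP hp
  have s2 := sm_LL hP hp
  have d1 := s1.contDiffAt.differentiableAt (by simp)
  have d2 := s2.contDiffAt.differentiableAt (by simp)
  rw [fderiv_fun_add d1 d2, ContinuousLinearMap.add_apply, fderiv_eq_two_re s1]
  have hs := Real.sqrt_nonneg ((jr (PP P) p).de X X).re
  have key : ∀ C1 C2 : ℝ, ‖(jr (PP P) p).d X‖ ≤ C1 * √((jr (PP P) p).de X X).re →
      |fderiv ℝ LL p X| ≤ C2 * √((jr (PP P) p).de X X).re →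
      2 * C1 + C2 ≤ 2 * (20 / a₀) + C₀ * (20 / a₀) + 50 →
      |2 * ((jr (PP P) p).d X).re + fderiv ℝ LL p X| ≤
        (2 * (20 / a₀) + C₀ * (20 / a₀) + 50) * √((jr (PP P) p).de X X).re := by
    intro C1 C2 h1 h2 h3
    refine (abs_add_le _ _).trans ?_
    rw [abs_mul, abs_two]
    have := Complex.abs_re_le_norm ((jr (PP P) p).d X)
    nlinarith
  by_cases h : ∃ i, p ∈ Cy i
  · obtain ⟨i, hi⟩ := h
    obtain ⟨L, hL, hj⟩ := exists_jr_A i
    have hs1 := (mem_UU_cyl hi).1 hp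
    have N := (hP (kk i)).nice _ hi.2.1 hs1
    have e : jr (PP P) p = (jr (Pot (P (kk i)).ψ (P (kk i)).φ (P (kk i)).η) (A i p)).comap L := by
      rw [PP, jr_congr (glue_cyl _ _ hi), hj _ _ (sm_Pot_cyl hP hi hp)]
    refine key (20 / a₀) (C₀ * (20 / a₀)) ?_ ?_ (by linarith)
    · rw [e]; exact N.grad (L X)
    · have e' : fderiv ℝ LL p X = fderiv ℝ (Lm (ci i) (mi i)) (A i p) (L X) := by
        rw [fderiv_eq_two_re s2, fderiv_eq_two_re (sm_Lm_cyl hP hi hp), LL,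
          jr_congr (glue_cyl _ _ hi), hj _ _ (sm_Lm_cyl hP hi hp)]
        rfl
      rw [e', e]
      exact hC _ (hP (kk i)).ok _ _ _ (norm_ci_le i) a3 _ hi hs1 N.base (L X)
  · have hn := not_exists.1 h
    have h0 := (mem_UU_not hn).1 hp
    have e := jr_congr (PP_std hP h0 hn)
    refine key 20 10 ?_ ?_ (by nlinarith [mul_nonneg hC₀ (zero_le_one.trans a3)])
    · rw [e]; exact (pointS h0).grad X
    · rw [e, (LL_std h0 hn).fderiv_eq]; exact std_grad h0 X

theorem Xi_proper (a : ℝ) : ∃ K : Set (Fin 3 → ℂ), IsCompact K ∧ K ⊆ UU P ∧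
    ∀ p ∈ UU P, PP P p + LL p ≤ a → p ∈ K := by
  have hok : ∀ k, (P k).OK := fun k => (hP k).ok
  obtain ⟨a1, a2⟩ := a₀_mem hP
  set E := Real.exp a with hE
  have hE0 : 0 < E := Real.exp_pos a
  obtain ⟨N, hN⟩ := exists_nat_ge (2 + 2 * E)
  obtain ⟨δ, hδ, hδκ⟩ : ∃ δ : ℝ, 0 < δ ∧ ∀ k ≤ N, δ ≤ κ k := by
    obtain ⟨k₀, -, hk₀⟩ := (Finset.range (N + 1)).exists_min_image κ ⟨0, by simp⟩
    exact ⟨κ k₀, (κ_mem hP k₀).1, fun k hk => hk₀ k (Finset.mem_range.2 (by omega))⟩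
  set δ' := min (Real.exp (-a)) (Real.exp (-(a / a₀)) * Real.exp (-(a / δ))) with hδ'
  have hδ'0 : 0 < δ' := lt_min (Real.exp_pos _) (by positivity)
  set S : Set (Fin 3 → ℂ) := Metric.closedBall 0 (4 * E + 3) ∩ {y | δ' ≤ rho3 y} with hS
  have hSc : IsCompact S := (isCompact_closedBall _ _).inter_right
    (isClosed_le continuous_const contDiff_rho3.continuous)
  have hS0 : ∀ y ∈ S, 0 < rho3 y := fun y hy => hδ'0.trans_le hy.2
  refine ⟨GG P '' S, hSc.image_of_continuousOn ((contDiffOn_GG hok).continuousOn.mono hS0), ?_,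
    fun p hp ha => ⟨GI P p, ?_, GG_GI p⟩⟩
  · rintro _ ⟨y, hy, rfl⟩
    exact GG_mem hok (hS0 y hy)
  rw [hS, Set.mem_inter_iff, mem_closedBall_zero_iff, Set.mem_ofPred_eq]
  by_cases h : ∃ i, p ∈ Cy i
  · obtain ⟨i, hi⟩ := h
    have hs := (mem_UU_cyl hi).1 hp
    rw [PP, LL, glue_of_mem _ _ hi, glue_of_mem _ _ hi] at ha
    rw [GI, glue_of_mem _ _ hi]
    obtain ⟨q1, q2, q3⟩ : A i p ∈ O := hi
    set q := A i p with hq
    set Q := P (kk i) with hQ
    have hQok : Q.OK := hok _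
    have hrr : 0 ≤ rr q := by rw [rr]; linarith [Real.log_nonpos q2.le q3.le]
    have hψ := hQok.ψ_ge hrr
    rw [(hP _).a₀_eq] at hψ
    have hη := (hQok.η_mem q).1
    rw [(hP _).κ_eq] at hη
    set s := Complex.normSq (q 0) * Real.exp (Q.φ q) with hsdef
    have hs0 : 0 ≤ s := mul_nonneg (Complex.normSq_nonneg _) (Real.exp_pos _).le
    have hl : 0 ≤ -Real.log (1 - s) := by linarith [Real.log_nonpos (by linarith) (by linarith : 1 - s ≤ 1)]
    have hκ0 := (κ_mem hP (kk i)).1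
    have hre := re_Zc_ge hQok (c := ci i) (mi i) q2 hs
    have hre0 : 0 ≤ (Zc (ci i) (mi i) q).re := by linarith [Complex.normSq_nonneg (q 1 + mi i)]
    have hZ1 := one_le_normSq_add_one hre0
    have hL0 : 0 ≤ Lm (ci i) (mi i) q := Real.log_nonneg hZ1
    have hηl : κ (kk i) * -Real.log (1 - s) ≤ Q.η q * -Real.log (1 - s) := by gcongr
    have hκl : 0 ≤ κ (kk i) * -Real.log (1 - s) := by positivity
    have ha0 : 0 ≤ a₀ * rr q := by positivity
    rw [Pot] at ha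
    have b1 : a₀ * rr q ≤ a := by linarith
    have b2 : κ (kk i) * -Real.log (1 - s) ≤ a := by linarith
    have b3 : Lm (ci i) (mi i) q ≤ a := by linarith
    have b4 : Complex.normSq (Zc (ci i) (mi i) q + 1) ≤ E := by
      rw [hE, ← Real.log_le_iff_le_exp (by linarith)]; exact b3
    have b5 : ‖Zc (ci i) (mi i) q + 1‖ ≤ E := by
      rw [Complex.normSq_eq_norm_sq] at b4 hZ1
      nlinarith [norm_nonneg (Zc (ci i) (mi i) q + 1)]
    have b6 : (Zc (ci i) (mi i) q).re ≤ E := by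
      have := (Complex.re_le_norm _).trans b5
      simp only [Complex.add_re, Complex.one_re] at this
      linarith
    have b7 : ‖q 1 + mi i‖ ≤ 1 + 2 * E := (norm_le_one_add_normSq _).trans (by linarith)
    have hmi : (kk i : ℝ) ≤ mi i := by
      rw [mi]; have : (0 : ℝ) ≤ kk i := Nat.cast_nonneg _
      split_ifs <;> linarith
    have b8 : kk i ≤ N := by
      have h1 : ‖(mi i : ℂ)‖ ≤ ‖q 1 + mi i‖ + ‖q 1‖ := by
        simpa using norm_sub_le (q 1 + mi i) (q 1)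
      rw [Complex.norm_real] at h1
      have h2 := le_abs_self (mi i)
      rw [Real.norm_eq_abs] at h1
      have : (kk i : ℝ) ≤ N := by linarith
      exact_mod_cast this
    have b9 : -Real.log (1 - s) ≤ a / δ := by
      rw [le_div_iff₀ hδ]
      have := hδκ _ b8
      nlinarith
    have b10 : rr q ≤ a / a₀ := by rw [le_div_iff₀ a1]; linarith
    set q' := sc (-(rr q - Q.φ q) / 2) q with hq'
    have e0 : Complex.normSq (q' 0) = s * rho2 q := by
      have e1 : Real.exp (-(rr q - Q.φ q) / 2) * Real.exp (-(rr q - Q.φ q) / 2) =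
          Real.exp (Q.φ q) * rho2 q := by
        rw [← Real.exp_add, add_halves, neg_sub, sub_eq_add_neg, Real.exp_add, rr, neg_neg,
          Real.exp_log q2]
      simp only [hq', sc, Matrix.cons_val_zero, map_mul, Complex.normSq_ofReal]
      rw [e1, hsdef]; ring
    have e1 : q' 1 = q 1 := rfl
    have e2 : q' 2 = q 2 := rfl
    have n0 : ‖q' 0‖ ≤ 1 := by
      have : ‖q' 0‖ ^ 2 ≤ 1 := by rw [← Complex.normSq_eq_norm_sq, e0]; nlinarith
      nlinarith [norm_nonneg (q' 0)]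
    have nc := norm_ci_le i
    constructor
    · have n2 : ‖AI i q' 2‖ ≤ 4 * E + 3 := by
        have e3 : AI i q' 2 = (Zc (ci i) (mi i) q + 1) - 1 + (sig q : ℝ) * (conj (ci i) * q' 0) := by
          rw [AI_two, e1, e2, Zc]
          by_cases hσ : sig q = 1
          · rw [hσ]; push_cast; ring
          · have : q' 0 = q 0 := by simp [hq', sc, hQok.std_of_sig q2 hσ]
            rw [this]; push_cast; ring
        rw [e3]
        refine (norm_add_le _ _).trans ?_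
        have t1 := norm_sub_le (Zc (ci i) (mi i) q + 1) 1
        have t2 : ‖((sig q : ℝ) : ℂ) * (conj (ci i) * q' 0)‖ ≤ 1 * (1 * 1) := by
          rw [norm_mul, norm_mul, Complex.norm_real, Real.norm_of_nonneg (sig_mem_g q).1,
            Complex.norm_conj]
          gcongr
          exact (sig_mem_g q).2
        rw [norm_one] at t1
        linarith
      rw [AI, sw_two] at n2
      refine norm_sw_le _ fun j => ?_
      fin_cases j
      · exact (norm_add_le (q' 0) (ci i)).trans (by linarith)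
      · exact b7.trans (by linarith)
      · exact n2
    · rw [← rho3_A i, A_AI]
      have e3 : rho3 q' = rho2 q * (1 - s) := by
        have : rho2 q' = rho2 q := rfl
        rw [rho3, this, e0]; ring
      rw [e3]
      refine (min_le_right _ _).trans (mul_le_mul ?_ ?_ (Real.exp_pos _).le q2.le)
      · rw [← Real.le_log_iff_exp_le q2]; rw [rr] at b10; linarith
      · rw [← Real.le_log_iff_exp_le (by linarith)]; linarith
  · have hn := not_exists.1 h
    have h0 := (mem_UU_not hn).1 hp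
    rw [PP, LL, glue_of_not _ _ hn, glue_of_not _ _ hn] at ha
    rw [GI, glue_of_not _ _ hn, id]
    obtain ⟨r1, r2⟩ := re_two_pos h0
    have hZ1 := one_le_normSq_add_one r2.le
    have b1 : Complex.normSq (p 2 + 1) ≤ E * rho3 p := by
      rw [← div_le_iff₀ h0, hE, ← Real.log_le_iff_le_exp (by positivity),
        Real.log_div (by positivity) h0.ne']
      linarith
    have n0 := Complex.normSq_nonneg (p 0)
    have n1 := Complex.normSq_nonneg (p 1)
    have b2 : (p 2).re + 1 ≤ ‖p 2 + 1‖ := by simpa using Complex.re_le_norm (p 2 + 1)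
    have b3 : ‖p 2 + 1‖ ≤ 2 * E := by
      rw [Complex.normSq_eq_norm_sq] at b1
      have : E * rho3 p ≤ E * (2 * ‖p 2 + 1‖) := by gcongr; linarith
      nlinarith
    constructor
    · refine (pi_norm_le_iff_of_nonneg (by positivity)).2 fun j => ?_
      fin_cases j
      · exact (norm_le_one_add_normSq (p 0)).trans (by linarith)
      · exact (norm_le_one_add_normSq (p 1)).trans (by linarith)
      · have := norm_sub_le (p 2 + 1) 1
        rw [add_sub_cancel_right, norm_one] at this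
        exact this.trans (by linarith)
    · refine (min_le_left _ _).trans ?_
      rw [Real.exp_neg, ← hE, inv_le_iff_one_le_mul₀' hE0]
      linarith

end

end Crest.Agent.R245
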