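import Crest.Agent.R245.Sieg

/-!
# R245: gauge normalisation and simultaneous diagonalisation

`jr s p = mul (mul W (bar W)) (comp exp φ)` with `W = aff (p 0) (· 0)`.  For a horizontal `Γ` put
`G₀ a c = φ.d c * a 0 + φ.d a * c 0 + p 0 * (φ.d a * φ.d c + (φ.cov Γ).dd a c)` and
`G a c = Γ a c + G₀ a c • e₀`.  Base jets satisfy `cov G = cov Γ`, and
`cov G (jr s p) = Sn w α (cov Γ φ)` (`ext`, `simp`, `ring`, with `exp φ = (exp (φ/2))²`).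
-/

set_option autoImplicit false

namespace Crest.Agent.R245

open scoped ComplexConjugate ContDiff Topology
open Filter

namespace Hart

theorem Sn_eq {V : Type*} {φ : J V} (hφ : φ.Herm) (w₀ : ℂ) (l : V → ℂ) (E : ℝ) (G : V → V → V)
    (hG : ∀ a c, l (G a c) = φ.d c * l a + φ.d a * l c + w₀ * (φ.d a * φ.d c + φ.dd a c)) :
    (((J.aff w₀ l).cov G).mul ((J.aff w₀ l).bar.cov G)).mul (φ.comp fun _ => (E : ℂ) * E) =
      Sn (w₀ * E) (fun a => E * (l a + w₀ * φ.d a)) φ := by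
  ext <;> simp only [J.mul, J.cov, J.aff, J.bar, J.comp, Sn, hG, hφ.e, hφ.ee, map_add, map_mul,
    map_zero, Complex.conj_ofReal] <;> ring

theorem cov_base {u : J (Fin 3 → ℂ)} (hu : u.comap hor = u)
    {G Γ : (Fin 3 → ℂ) → (Fin 3 → ℂ) → (Fin 3 → ℂ)} (h : ∀ a c, hor (G a c) = hor (Γ a c)) :
    u.cov G = u.cov Γ := by
  rw [← hu]
  ext <;> simp only [J.cov, J.comap, h]

/-- the vertical unit vector -/
def e0 : Fin 3 → ℂ := ![1, 0, 0]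

theorem hor_add_e0 (a : Fin 3 → ℂ) (t : ℂ) : hor (a + t • e0) = hor a := by
  simp [hor, e0]

theorem hor_of_zero {a : Fin 3 → ℂ} (h : a 0 = 0) : hor a = a := by
  funext i
  fin_cases i <;> simp [hor, h]

theorem hor_add_zero (a : Fin 3 → ℂ) : hor a + a 0 • e0 = a := by
  funext i
  fin_cases i <;> simp [hor, e0]

section Ses

variable {H : (Fin 3 → ℂ) → (Fin 3 → ℂ) → ℂ} (H1 : ∀ b, IsL fun a => H a b)
  (Hh : ∀ a b, H a b = conj (H b a))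

include H1 in
theorem l_add (a b c : Fin 3 → ℂ) : H (a + b) c = H a c + H b c := (H1 c).add a b

include H1 in
theorem l_smul (t : ℂ) (a c : Fin 3 → ℂ) : H (t • a) c = t * H a c := (H1 c).smul t a

include H1 Hh in
theorem r_add (a b c : Fin 3 → ℂ) : H c (a + b) = H c a + H c b := by
  rw [Hh c (a + b), l_add H1, map_add, ← Hh, ← Hh]

include H1 Hh in
theorem r_smul (t : ℂ) (a c : Fin 3 → ℂ) : H c (t • a) = conj t * H c a := by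
  rw [Hh c (t • a), l_smul H1, map_mul, ← Hh]

include Hh in
theorem self_re (a : Fin 3 → ℂ) : H a a = ((H a a).re : ℂ) :=
  (Complex.conj_eq_iff_re.1 (Hh a a).symm).symm

include H1 Hh in
theorem exists_unit {v : Fin 3 → ℂ} (h : 0 < (H v v).re) :
    ∃ c : ℂ, c ≠ 0 ∧ H (c • v) (c • v) = 1 := by
  have h1 : 0 < √(H v v).re := Real.sqrt_pos.2 h
  refine ⟨((√(H v v).re)⁻¹ : ℝ), by exact_mod_cast (inv_pos.2 h1).ne', ?_⟩
  rw [l_smul H1, r_smul H1 Hh, Complex.conj_ofReal, self_re Hh v]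
  norm_cast
  rw [← mul_assoc, ← mul_inv, Real.mul_self_sqrt h.le, inv_mul_cancel₀ h.ne']

end Ses

theorem span_smul {v₁ v₂ : Fin 3 → ℂ} {c₁ c₂ : ℂ} (h₁ : c₁ ≠ 0) (h₂ : c₂ ≠ 0)
    (h : ∀ a : Fin 3 → ℂ, a 0 = 0 → ∃ x y : ℂ, a = x • v₁ + y • v₂) (a : Fin 3 → ℂ) (ha : a 0 = 0) :
    ∃ x y : ℂ, a = x • c₁ • v₁ + y • c₂ • v₂ := by
  obtain ⟨x, y, rfl⟩ := h a ha
  exact ⟨x / c₁, y / c₂, by rw [smul_smul, smul_smul, div_mul_cancel₀ _ h₁, div_mul_cancel₀ _ h₂]⟩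

theorem exists_root (δ : ℝ) (b : ℂ) : ∃ t : ℝ, b * (1 - t * δ - t ^ 2 * Complex.normSq b) = 0 := by
  by_cases hb : b = 0
  · exact ⟨0, by simp [hb]⟩
  have hn : 0 < Complex.normSq b := Complex.normSq_pos.2 hb
  have h1 : 0 ≤ δ ^ 2 + 4 * Complex.normSq b := by positivity
  refine ⟨(-δ + √(δ ^ 2 + 4 * Complex.normSq b)) / (2 * Complex.normSq b), ?_⟩
  refine mul_eq_zero_of_right _ ?_
  norm_cast
  have h2 := Real.sq_sqrt h1
  field_simp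
  nlinarith

end Hart

theorem hart {ψ φ η : (Fin 3 → ℂ) → ℝ} {p : Fin 3 → ℂ} (hψ : Sm ψ p) (hφ : Sm φ p) (hη : Sm η p)
    (bψ : IsBase ψ) (bφ : IsBase φ) (bη : IsBase η)
    (hs : Complex.normSq (p 0) * Real.exp (φ p) < 1)
    (Γ : (Fin 3 → ℂ) → (Fin 3 → ℂ) → (Fin 3 → ℂ)) (hΓ : ∀ a c, Γ a c 0 = 0) :
    ∃ G, (jr (Pot ψ φ η) p).cov G =
      Pjet ((jr ψ p).cov Γ) ((jr φ p).cov Γ) ((jr η p).cov Γ) (p 0 * (Real.exp (φ p / 2) : ℝ))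
        (fun a => (Real.exp (φ p / 2) : ℝ) * (a 0 + p 0 * (jr φ p).d a)) := by
  have h0 : jet (fun x : Fin 3 → ℂ => x 0) p = J.aff (p 0) fun a => a 0 := by
    have := jet_aff (ContinuousLinearMap.proj (R := ℂ) (φ := fun _ : Fin 3 => ℂ) 0) 0 p
    simp only [add_zero] at this
    exact this
  have s0 : Sm (fun x : Fin 3 → ℂ => x 0) p := Sm.of_contDiff (contDiff_apply ℝ ℂ 0) p
  have s1 : Sm (fun x : Fin 3 → ℂ => Complex.normSq (x 0)) p := by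
    refine Sm.of_contDiff ?_ p
    simp only [Complex.normSq_apply]
    have h1 : ContDiff ℝ ∞ fun x : Fin 3 → ℂ => (x 0).re :=
      Complex.reCLM.contDiff.comp (contDiff_apply ℝ ℂ 0)
    have h2 : ContDiff ℝ ∞ fun x : Fin 3 → ℂ => (x 0).im :=
      Complex.imCLM.contDiff.comp (contDiff_apply ℝ ℂ 0)
    exact (h1.mul h1).add (h2.mul h2)
  have s2 : Sm (fun x => Real.exp (φ x)) p := by
    filter_upwards [hφ] with x hx using hx.exp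
  have s3 : Sm (fun x : Fin 3 → ℂ => Complex.normSq (x 0) * Real.exp (φ x)) p := by
    filter_upwards [s1, s2] with x hx hx' using hx.mul hx'
  have s4 : Sm (fun x : Fin 3 → ℂ => -Real.log (1 - Complex.normSq (x 0) * Real.exp (φ x))) p := by
    filter_upwards [s3, s3.contDiffAt.continuousAt.eventually_lt continuousAt_const hs] with x hx hx'
    exact ((contDiffAt_const.sub hx).log (by linarith)).neg
  have s5 : Sm (fun x : Fin 3 → ℂ =>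
      η x * -Real.log (1 - Complex.normSq (x 0) * Real.exp (φ x))) p := by
    filter_upwards [hη, s4] with x hx hx' using hx.mul hx'
  have hE : Real.exp (φ p) = Real.exp (φ p / 2) * Real.exp (φ p / 2) := by
    rw [← Real.exp_add, add_halves]
  let G : (Fin 3 → ℂ) → (Fin 3 → ℂ) → (Fin 3 → ℂ) := fun a c => Γ a c +
    ((jr φ p).d c * a 0 + (jr φ p).d a * c 0 +
      p 0 * ((jr φ p).d a * (jr φ p).d c + ((jr φ p).cov Γ).dd a c)) • Hart.e0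
  have hG : ∀ a c, hor (G a c) = hor (Γ a c) := fun a c => Hart.hor_add_e0 _ _
  refine ⟨G, ?_⟩
  have e1 : jr (Pot ψ φ η) p = _ := jr_add hψ s5
  rw [e1, jr_mul hη s4, jr_L s3 hs, jr_mul s1 s2, jr_normSq s0, jr_exp hφ, h0, J.cov_add, J.cov_mul,
    J.cov_comp, J.cov_mul, J.cov_mul, J.cov_comp, Hart.cov_base (bψ.jr hψ) hG,
    Hart.cov_base (bφ.jr hφ) hG, Hart.cov_base (bη.jr hη) hG, hE, Complex.ofReal_mul,
    Hart.Sn_eq ((jr_herm hφ).cov Γ) (p 0) (fun a => a 0) _ G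
      (fun a c => by
        simp only [G, Pi.add_apply, hΓ, Pi.smul_apply, Hart.e0, Matrix.cons_val_zero, smul_eq_mul,
          mul_one, zero_add]
        rfl), Pjet, map_mul, Complex.normSq_ofReal]
  rfl

/-- Simultaneous diagonalisation of two Hermitian forms on the horizontal plane: there are
horizontal vectors `e₁, e₂` spanning it, orthonormal for `H`, orthogonal for `K`.
(Gram-Schmidt for `H`, then an explicit eigenvector of a `2 × 2` Hermitian matrix, or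
`Matrix.IsHermitian.eigenvectorUnitary`.) -/
theorem diag2 {H K : (Fin 3 → ℂ) → (Fin 3 → ℂ) → ℂ}
    (H1 : ∀ b, IsL fun a => H a b) (Hh : ∀ a b, H a b = conj (H b a))
    (K1 : ∀ b, IsL fun a => K a b) (Kh : ∀ a b, K a b = conj (K b a))
    (Hp : ∀ a, a 0 = 0 → a ≠ 0 → 0 < (H a a).re) :
    ∃ e₁ e₂ : Fin 3 → ℂ, e₁ 0 = 0 ∧ e₂ 0 = 0 ∧ H e₁ e₁ = 1 ∧ H e₂ e₂ = 1 ∧ H e₁ e₂ = 0 ∧
      K e₁ e₂ = 0 ∧ ∀ a, a 0 = 0 → ∃ x y : ℂ, a = x • e₁ + y • e₂ := by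
  -- an orthogonal pair for `H`
  obtain ⟨f₁, hf₁⟩ : ∃ f₁ : Fin 3 → ℂ, f₁ = ![0, 1, 0] := ⟨_, rfl⟩
  obtain ⟨f₂, hf₂⟩ : ∃ f₂ : Fin 3 → ℂ, f₂ = ![0, 0, 1] := ⟨_, rfl⟩
  have p₁ : 0 < (H f₁ f₁).re := Hp _ (by simp [hf₁]) fun h => by simpa [hf₁] using congrFun h 1
  obtain ⟨c₁, hc₁, hu₁⟩ := Hart.exists_unit H1 Hh p₁
  have z₁ : (c₁ • f₁) 0 = 0 := by simp [hf₁]
  have sp₁ : ∀ a : Fin 3 → ℂ, a 0 = 0 → ∃ x y : ℂ, a = x • c₁ • f₁ + y • f₂ := by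
    intro a ha
    refine ⟨a 1 / c₁, a 2, ?_⟩
    funext i
    fin_cases i <;> simp [hf₁, hf₂, ha, hc₁]
  have z₁' : (c₁ • f₁) 2 = 0 := by simp [hf₁]
  generalize c₁ • f₁ = u₁ at hu₁ z₁ sp₁ z₁'
  have z₂ : (f₂ + (-H f₂ u₁) • u₁) 0 = 0 := by simp [hf₂, z₁]
  have p₂ : 0 < (H (f₂ + (-H f₂ u₁) • u₁) (f₂ + (-H f₂ u₁) • u₁)).re :=
    Hp _ z₂ fun h => by simpa [hf₂, z₁'] using congrFun h 2
  have o₂ : H (f₂ + (-H f₂ u₁) • u₁) u₁ = 0 := by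
    rw [Hart.l_add H1, Hart.l_smul H1, hu₁]; ring
  have sp₂ : ∀ a : Fin 3 → ℂ, a 0 = 0 →
      ∃ x y : ℂ, a = x • u₁ + y • (f₂ + (-H f₂ u₁) • u₁) := by
    intro a ha
    obtain ⟨x, y, rfl⟩ := sp₁ a ha
    exact ⟨x + y * H f₂ u₁, y, by module⟩
  generalize f₂ + (-H f₂ u₁) • u₁ = v₂ at z₂ p₂ o₂ sp₂
  obtain ⟨c₂, hc₂, hu₂⟩ := Hart.exists_unit H1 Hh p₂
  have sp₃ := Hart.span_smul one_ne_zero hc₂ sp₂
  have z₃ : (c₂ • v₂) 0 = 0 := by simp [z₂]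
  have o₃ : H (c₂ • v₂) u₁ = 0 := by rw [Hart.l_smul H1, o₂, mul_zero]
  simp only [one_smul] at sp₃
  generalize c₂ • v₂ = u₂ at hu₂ sp₃ z₃ o₃
  have o₄ : H u₁ u₂ = 0 := by rw [Hh, o₃, map_zero]
  -- rotate
  obtain ⟨t, ht⟩ := Hart.exists_root ((K u₁ u₁).re - (K u₂ u₂).re) (K u₁ u₂)
  have hN : 0 < 1 + t ^ 2 * Complex.normSq (K u₁ u₂) := by
    have := Complex.normSq_nonneg (K u₁ u₂); positivity
  have hb := Complex.mul_conj (K u₁ u₂)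
  have q₁ : H (u₁ + (t * K u₁ u₂) • u₂) (u₁ + (t * K u₁ u₂) • u₂) =
      (1 + t ^ 2 * Complex.normSq (K u₁ u₂) : ℝ) := by
    simp only [Hart.l_add H1, Hart.l_smul H1, Hart.r_add H1 Hh, Hart.r_smul H1 Hh, hu₁, hu₂, o₃, o₄,
      map_mul, Complex.conj_ofReal]
    push_cast
    linear_combination t ^ 2 * hb
  have q₂ : H ((-(t * conj (K u₁ u₂))) • u₁ + u₂) ((-(t * conj (K u₁ u₂))) • u₁ + u₂) =
      (1 + t ^ 2 * Complex.normSq (K u₁ u₂) : ℝ) := by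
    simp only [Hart.l_add H1, Hart.l_smul H1, Hart.r_add H1 Hh, Hart.r_smul H1 Hh, hu₁, hu₂, o₃, o₄,
      map_mul, map_neg, Complex.conj_ofReal, Complex.conj_conj]
    push_cast
    linear_combination t ^ 2 * hb
  have q₃ : H (u₁ + (t * K u₁ u₂) • u₂) ((-(t * conj (K u₁ u₂))) • u₁ + u₂) = 0 := by
    simp only [Hart.l_add H1, Hart.l_smul H1, Hart.r_add H1 Hh, Hart.r_smul H1 Hh, hu₁, hu₂, o₃, o₄,
      map_mul, map_neg, Complex.conj_ofReal, Complex.conj_conj]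
    ring
  have q₄ : K (u₁ + (t * K u₁ u₂) • u₂) ((-(t * conj (K u₁ u₂))) • u₁ + u₂) = 0 := by
    simp only [Hart.l_add K1, Hart.l_smul K1, Hart.r_add K1 Kh, Hart.r_smul K1 Kh,
      map_mul, map_neg, Complex.conj_ofReal, Complex.conj_conj]
    rw [Kh u₂ u₁, Hart.self_re Kh u₁, Hart.self_re Kh u₂]
    push_cast at ht
    linear_combination ht - t ^ 2 * K u₁ u₂ * hb
  obtain ⟨d₁, hd₁, hv₁⟩ := Hart.exists_unit H1 Hh (by rw [q₁]; exact hN)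
  obtain ⟨d₂, hd₂, hv₂⟩ := Hart.exists_unit H1 Hh (by rw [q₂]; exact hN)
  refine ⟨_, _, by simp [z₁, z₃], by simp [z₁, z₃], hv₁, hv₂, ?_, ?_,
    Hart.span_smul hd₁ hd₂ fun a ha => ?_⟩
  · rw [Hart.l_smul H1, Hart.r_smul H1 Hh, q₃, mul_zero, mul_zero]
  · rw [Hart.l_smul K1, Hart.r_smul K1 Kh, q₄, mul_zero, mul_zero]
  · obtain ⟨x, y, rfl⟩ := sp₃ a ha
    have hN' : (1 + t ^ 2 * (K u₁ u₂ * conj (K u₁ u₂)) : ℂ) ≠ 0 := by
      rw [hb]; exact_mod_cast hN.ne'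
    have hi := mul_inv_cancel₀ hN'
    generalize (1 + t ^ 2 * (K u₁ u₂ * conj (K u₁ u₂)) : ℂ)⁻¹ = N at hi
    refine ⟨(x + y * (t * conj (K u₁ u₂))) * N, (y - x * (t * K u₁ u₂)) * N, ?_⟩
    match_scalars
    · linear_combination -x * hi
    · linear_combination -y * hi

/-- The adapted frame.  `H`, `K` are the Levi forms of `ψ`, `φ` (blind to the vertical
component), `l = ∂φ`, `E = exp (φ/2)`, `w₀ = p 0`.  With `θᵢ = K eᵢ eᵢ`, `pᵢ = 1/(1 + τ θᵢ)`,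
`gᵢ = θᵢ pᵢ`, `x = y 1 √p₁ e₁ + y 2 √p₂ e₂`, put `M y = x + (r/(√κ E) y 0 - w₀ l x) e₀`. -/
theorem exists_frame {H K : (Fin 3 → ℂ) → (Fin 3 → ℂ) → ℂ}
    (H1 : ∀ b, IsL fun a => H a b) (Hh : ∀ a b, H a b = conj (H b a))
    (K1 : ∀ b, IsL fun a => K a b) (Kh : ∀ a b, K a b = conj (K b a))
    (Hb : ∀ a b, H a b = H (hor a) (hor b)) (Kb : ∀ a b, K a b = K (hor a) (hor b))
    (Hp : ∀ a, a 0 = 0 → a ≠ 0 → 0 < (H a a).re) {T : ℝ}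
    (HK : ∀ a, (H a a).re ≤ (K a a).re ∧ (K a a).re ≤ T * (H a a).re)
    {l : (Fin 3 → ℂ) → ℂ} (hl : IsL l) (lb : ∀ a, l a = l (hor a)) {E κ A : ℝ} (hE : 0 < E)
    (w₀ : ℂ) (hκ : 0 < κ) (hκ1 : κ ≤ 1) (hs : Complex.normSq (w₀ * E) < 1) (hA : 0 < A)
    (hA1 : A ≤ 1) (hT : 1 ≤ T) (hκT : κ * T ^ 3 ≤ 1) (alt : K = H ∨ 3 * κ * T ^ 2 ≤ 1) :
    ∃ (f : Fr) (M : (Fin 3 → ℂ) →ₗ[ℂ] (Fin 3 → ℂ)), f.OK ∧ f.κ = κ ∧ f.w = w₀ * E ∧ f.A = A ∧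
      f.T = T ∧ (K = H → f.g₁ = f.p₁ ∧ f.g₂ = f.p₂) ∧ Function.Surjective M ∧
      (∀ a b, H (M a) (M b) = dg f.p₁ f.p₂ a b) ∧ (∀ a b, K (M a) (M b) = dg f.g₁ f.g₂ a b) ∧
      (∀ a, (E : ℂ) * (M a 0 + w₀ * l (M a)) = f.α a) ∧
      ∀ a, √(H (M a) (M a)).re ≤ f.n a := by
  obtain ⟨e₁, e₂, z₁, z₂, h11, h22, h12, k12, sp⟩ := diag2 H1 Hh K1 Kh Hp
  have h21 : H e₂ e₁ = 0 := by rw [Hh, h12, map_zero]
  have k21 : K e₂ e₁ = 0 := by rw [Kh, k12, map_zero]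
  obtain ⟨a₁, b₁⟩ := HK e₁
  obtain ⟨a₂, b₂⟩ := HK e₂
  rw [h11, Complex.one_re] at a₁ b₁
  rw [h22, Complex.one_re] at a₂ b₂
  have k11 := Hart.self_re Kh e₁
  have k22 := Hart.self_re Kh e₂
  have hKH : K = H → (K e₁ e₁).re = 1 ∧ (K e₂ e₂).re = 1 := by
    rintro rfl
    rw [h11, h22]
    exact ⟨rfl, rfl⟩
  generalize (K e₁ e₁).re = θ₁ at a₁ b₁ k11 hKH
  generalize (K e₂ e₂).re = θ₂ at a₂ b₂ k22 hKH
  obtain ⟨s, hs'⟩ : ∃ s, s = Complex.normSq (w₀ * E) := ⟨_, rfl⟩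
  have hs0 : 0 ≤ s := hs' ▸ Complex.normSq_nonneg _
  have hr : 0 < 1 - s := by rw [hs']; linarith
  obtain ⟨τ, hτ⟩ : ∃ τ, τ = κ * s / (1 - s) := ⟨_, rfl⟩
  have hτ0 : 0 ≤ τ := by rw [hτ]; positivity
  have d₁ : 0 < 1 + τ * θ₁ := by positivity
  have d₂ : 0 < 1 + τ * θ₂ := by positivity
  obtain ⟨p₁, hp₁⟩ : ∃ p₁, p₁ = 1 / (1 + τ * θ₁) := ⟨_, rfl⟩
  obtain ⟨p₂, hp₂⟩ : ∃ p₂, p₂ = 1 / (1 + τ * θ₂) := ⟨_, rfl⟩
  have p₁0 : 0 < p₁ := by rw [hp₁]; positivity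
  have p₂0 : 0 < p₂ := by rw [hp₂]; positivity
  have q₁ : (√p₁ : ℂ) * √p₁ = p₁ := by exact_mod_cast Real.mul_self_sqrt p₁0.le
  have q₂ : (√p₂ : ℂ) * √p₂ = p₂ := by exact_mod_cast Real.mul_self_sqrt p₂0.le
  let f : Fr := ⟨κ, w₀ * E, p₁, p₂, θ₁ * p₁, θ₂ * p₂, A, T⟩
  have fτ : f.τ = τ := by rw [hτ, hs']; rfl
  have fr : f.r = 1 - s := by rw [hs']; rfl
  have hgp : K = H → f.g₁ = f.p₁ ∧ f.g₂ = f.p₂ := fun h => by
    obtain ⟨rfl, rfl⟩ := hKH h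
    exact ⟨one_mul _, one_mul _⟩
  let c : ℂ := ((1 - s) / (√κ * E) : ℝ)
  have hc : c ≠ 0 := by
    have : 0 < (1 - s) / (√κ * E) := by positivity
    exact Complex.ofReal_ne_zero.2 this.ne'
  let X : (Fin 3 → ℂ) → (Fin 3 → ℂ) := fun y => (y 1 * √p₁) • e₁ + (y 2 * √p₂) • e₂
  have hX0 : ∀ y, X y 0 = 0 := fun y => by simp [X, z₁, z₂]
  have hXa : ∀ y y', X (y + y') = X y + X y' := fun y y' => by
    simp only [X, Pi.add_apply]; module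
  have hXs : ∀ (t : ℂ) y, X (t • y) = t • X y := fun t y => by
    simp only [X, Pi.smul_apply, smul_eq_mul]; module
  let M : (Fin 3 → ℂ) →ₗ[ℂ] (Fin 3 → ℂ) :=
    { toFun := fun y => X y + (c * y 0 - w₀ * l (X y)) • Hart.e0
      map_add' := fun y y' => by
        rw [hXa, hl.add, Pi.add_apply]; module
      map_smul' := fun t y => by
        rw [hXs, hl.smul, Pi.smul_apply, smul_eq_mul, RingHom.id_apply]; module }
  have hM : ∀ y, hor (M y) = X y := fun y =>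
    (Hart.hor_add_e0 _ _).trans (Hart.hor_of_zero (hX0 y))
  have hH : ∀ a b, H (M a) (M b) = dg f.p₁ f.p₂ a b := fun a b => by
    rw [Hb, hM, hM]
    simp only [X, f, dg, Hart.l_add H1, Hart.l_smul H1, Hart.r_add H1 Hh, Hart.r_smul H1 Hh, h11, h22,
      h12, h21, map_mul, Complex.conj_ofReal]
    linear_combination (a 1 * conj (b 1)) * q₁ + (a 2 * conj (b 2)) * q₂
  refine ⟨f, M, ⟨hκ, hκ1, hs, p₁0, p₂0, ?_, ?_, ?_, ?_, ?_, ?_, hA, hA1, hT, hκT, alt.imp_left hgp⟩,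
    rfl, rfl, rfl, rfl, hgp, fun z => ?_, hH, fun a b => ?_, fun a => ?_, fun a => ?_⟩
  · rw [fτ]; simp only [f, hp₁]; field_simp
  · rw [fτ]; simp only [f, hp₂]; field_simp
  · exact le_mul_of_one_le_left p₁0.le a₁
  · exact le_mul_of_one_le_left p₂0.le a₂
  · exact mul_le_mul_of_nonneg_right (by linarith) p₁0.le
  · exact mul_le_mul_of_nonneg_right (by linarith) p₂0.le
  · obtain ⟨x, y, hxy⟩ := sp (hor z) rfl
    have n₁ : (√p₁ : ℂ) ≠ 0 := Complex.ofReal_ne_zero.2 (Real.sqrt_pos.2 p₁0).ne'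
    have n₂ : (√p₂ : ℂ) ≠ 0 := Complex.ofReal_ne_zero.2 (Real.sqrt_pos.2 p₂0).ne'
    have h1 : X ![(z 0 + w₀ * l (hor z)) / c, x / √p₁, y / √p₂] = hor z := by
      rw [hxy]; simp [X, n₁, n₂]
    refine ⟨![(z 0 + w₀ * l (hor z)) / c, x / √p₁, y / √p₂], ?_⟩
    change X _ + (c * ((z 0 + w₀ * l (hor z)) / c) - w₀ * l (X _)) • Hart.e0 = z
    rw [h1, mul_div_cancel₀ _ hc, add_sub_cancel_right, Hart.hor_add_zero]
  · rw [Kb, hM, hM]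
    simp only [X, f, dg, Hart.l_add K1, Hart.l_smul K1, Hart.r_add K1 Kh, Hart.r_smul K1 Kh, k11, k22,
      k12, k21, map_mul, Complex.conj_ofReal]
    push_cast
    linear_combination (θ₁ * a 1 * conj (b 1)) * q₁ + (θ₂ * a 2 * conj (b 2)) * q₂
  · have h1 : M a 0 = c * a 0 - w₀ * l (X a) := by
      change X a 0 + (c * a 0 - w₀ * l (X a)) * 1 = _
      rw [hX0, zero_add, mul_one]
    rw [lb, hM, h1, Fr.α, fr, sub_add_cancel, ← mul_assoc]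
    congr 1
    simp only [c, f]
    norm_cast
    field_simp
  · rw [hH, Fr.n, fτ, hn, ← Real.sqrt_mul (by positivity)]
    refine Real.sqrt_le_sqrt ?_
    have h1 : p₁ ≤ 1 / (1 + τ) := by
      rw [hp₁]; exact one_div_le_one_div_of_le (by positivity) (by nlinarith)
    have h2 : p₂ ≤ 1 / (1 + τ) := by
      rw [hp₂]; exact one_div_le_one_div_of_le (by positivity) (by nlinarith)
    have h3 := Complex.normSq_nonneg (a 1)
    have h4 := Complex.normSq_nonneg (a 2)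
    simp only [dg, f, Complex.mul_conj, Complex.add_re, ← Complex.ofReal_mul, Complex.ofReal_re]
    nlinarith

end Crest.Agent.R245
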