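import Mathlib

/-!
# R245: formal (2,2)-jets

`J V` records the value and the Wirtinger derivatives of bidegree `≤ (2,2)` of a function at a
point: `d a = ∂_a u`, `e b = ∂̄_b u`, `dd a c`, `de a b`, `ee b d`, `dde a c b`, `dee a b d`,
`ddee a c b d` (`a, c` holomorphic directions, `b, d` antiholomorphic directions).
Everything in this file is pure algebra.
-/

set_option autoImplicit false

namespace Crest.Agent.R245

open scoped ComplexConjugate

@[ext] structure J (V : Type*) where
  v : ℂ
  d : V → ℂ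
  e : V → ℂ
  dd : V → V → ℂ
  de : V → V → ℂ
  ee : V → V → ℂ
  dde : V → V → V → ℂ
  dee : V → V → V → ℂ
  ddee : V → V → V → V → ℂ

namespace J

variable {V W : Type*}

/-- jet of a constant -/
def const (x : ℂ) : J V :=
  ⟨x, fun _ => 0, fun _ => 0, fun _ _ => 0, fun _ _ => 0, fun _ _ => 0, fun _ _ _ => 0,
    fun _ _ _ => 0, fun _ _ _ _ => 0⟩

/-- jet of a holomorphic affine function with value `x` and derivative `l` -/
def aff (x : ℂ) (l : V → ℂ) : J V :=
  ⟨x, l, fun _ => 0, fun _ _ => 0, fun _ _ => 0, fun _ _ => 0, fun _ _ _ => 0,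
    fun _ _ _ => 0, fun _ _ _ _ => 0⟩

def add (u w : J V) : J V :=
  ⟨u.v + w.v, fun a => u.d a + w.d a, fun b => u.e b + w.e b, fun a c => u.dd a c + w.dd a c,
    fun a b => u.de a b + w.de a b, fun b d => u.ee b d + w.ee b d,
    fun a c b => u.dde a c b + w.dde a c b, fun a b d => u.dee a b d + w.dee a b d,
    fun a c b d => u.ddee a c b d + w.ddee a c b d⟩

def smul (t : ℂ) (u : J V) : J V :=
  ⟨t * u.v, fun a => t * u.d a, fun b => t * u.e b, fun a c => t * u.dd a c,
    fun a b => t * u.de a b, fun b d => t * u.ee b d,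
    fun a c b => t * u.dde a c b, fun a b d => t * u.dee a b d,
    fun a c b d => t * u.ddee a c b d⟩

def sub (u w : J V) : J V := add u (smul (-1) w)

/-- jet of the complex conjugate function -/
def bar (u : J V) : J V :=
  ⟨conj u.v, fun a => conj (u.e a), fun b => conj (u.d b), fun a c => conj (u.ee a c),
    fun a b => conj (u.de b a), fun b d => conj (u.dd b d),
    fun a c b => conj (u.dee b a c), fun a b d => conj (u.dde b d a),
    fun a c b d => conj (u.ddee b d a c)⟩

/-- Leibniz rule -/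
def mul (u w : J V) : J V where
  v := u.v * w.v
  d a := u.d a * w.v + u.v * w.d a
  e b := u.e b * w.v + u.v * w.e b
  dd a c := u.dd a c * w.v + u.d a * w.d c + u.d c * w.d a + u.v * w.dd a c
  de a b := u.de a b * w.v + u.d a * w.e b + u.e b * w.d a + u.v * w.de a b
  ee b d := u.ee b d * w.v + u.e b * w.e d + u.e d * w.e b + u.v * w.ee b d
  dde a c b := u.dde a c b * w.v + u.dd a c * w.e b + u.de a b * w.d c + u.de c b * w.d a +
    u.d a * w.de c b + u.d c * w.de a b + u.e b * w.dd a c + u.v * w.dde a c b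
  dee a b d := u.dee a b d * w.v + u.ee b d * w.d a + u.de a b * w.e d + u.de a d * w.e b +
    u.e b * w.de a d + u.e d * w.de a b + u.d a * w.ee b d + u.v * w.dee a b d
  ddee a c b d := u.ddee a c b d * w.v +
    (u.dde a c b * w.e d + u.dde a c d * w.e b + u.dee a b d * w.d c + u.dee c b d * w.d a) +
    (u.dd a c * w.ee b d + u.ee b d * w.dd a c) +
    (u.de a b * w.de c d + u.de a d * w.de c b + u.de c b * w.de a d + u.de c d * w.de a b) +
    (u.d a * w.dee c b d + u.d c * w.dee a b d + u.e b * w.dde a c d + u.e d * w.dde a c b) +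
    u.v * w.ddee a c b d

/-- chain rule: `f k` is the `k`-th derivative of the outer function at the value of `u` -/
def comp (f : ℕ → ℂ) (u : J V) : J V where
  v := f 0
  d a := f 1 * u.d a
  e b := f 1 * u.e b
  dd a c := f 1 * u.dd a c + f 2 * (u.d a * u.d c)
  de a b := f 1 * u.de a b + f 2 * (u.d a * u.e b)
  ee b d := f 1 * u.ee b d + f 2 * (u.e b * u.e d)
  dde a c b := f 1 * u.dde a c b + f 2 * (u.dd a c * u.e b + u.de a b * u.d c + u.de c b * u.d a) +
    f 3 * (u.d a * u.d c * u.e b)
  dee a b d := f 1 * u.dee a b d + f 2 * (u.ee b d * u.d a + u.de a b * u.e d + u.de a d * u.e b) +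
    f 3 * (u.d a * u.e b * u.e d)
  ddee a c b d := f 1 * u.ddee a c b d +
    f 2 * (u.dde a c b * u.e d + u.dde a c d * u.e b + u.dee a b d * u.d c + u.dee c b d * u.d a +
      u.dd a c * u.ee b d + u.de a b * u.de c d + u.de a d * u.de c b) +
    f 3 * (u.dd a c * u.e b * u.e d + u.ee b d * u.d a * u.d c + u.de a b * u.d c * u.e d +
      u.de a d * u.d c * u.e b + u.de c b * u.d a * u.e d + u.de c d * u.d a * u.e b) +
    f 4 * (u.d a * u.d c * u.e b * u.e d)

/-- the jet in the coordinates `z = p + x - G(x,x)/2` -/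
def cov (G : V → V → V) (u : J V) : J V where
  v := u.v
  d := u.d
  e := u.e
  dd a c := u.dd a c - u.d (G a c)
  de := u.de
  ee b d := u.ee b d - u.e (G b d)
  dde a c b := u.dde a c b - u.de (G a c) b
  dee a b d := u.dee a b d - u.de a (G b d)
  ddee a c b d := u.ddee a c b d - u.dee (G a c) b d - u.dde a c (G b d) + u.de (G a c) (G b d)

/-- pull-back along a (linear) map -/
def comap (M : W → V) (u : J V) : J W where
  v := u.v
  d a := u.d (M a)
  e b := u.e (M b)
  dd a c := u.dd (M a) (M c)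
  de a b := u.de (M a) (M b)
  ee b d := u.ee (M b) (M d)
  dde a c b := u.dde (M a) (M c) (M b)
  dee a b d := u.dee (M a) (M b) (M d)
  ddee a c b d := u.ddee (M a) (M c) (M b) (M d)

theorem cov_add (G : V → V → V) (u w : J V) : cov G (add u w) = add (cov G u) (cov G w) := by
  ext <;> simp only [cov, add] <;> ring

theorem cov_smul (G : V → V → V) (t : ℂ) (u : J V) : cov G (smul t u) = smul t (cov G u) := by
  ext <;> simp only [cov, smul] <;> ring

theorem cov_sub (G : V → V → V) (u w : J V) : cov G (sub u w) = sub (cov G u) (cov G w) := by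
  rw [sub, cov_add, cov_smul, sub]

theorem cov_const (G : V → V → V) (x : ℂ) : cov G (const x : J V) = const x := by
  ext <;> simp [cov, const]

theorem cov_mul (G : V → V → V) (u w : J V) : cov G (mul u w) = mul (cov G u) (cov G w) := by
  ext <;> simp only [cov, mul] <;> ring

theorem cov_comp (G : V → V → V) (f : ℕ → ℂ) (u : J V) : cov G (comp f u) = comp f (cov G u) := by
  ext <;> simp only [cov, comp] <;> ring

theorem comap_add (M : W → V) (u w : J V) : comap M (add u w) = add (comap M u) (comap M w) := rfl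
theorem comap_smul (M : W → V) (t : ℂ) (u : J V) : comap M (smul t u) = smul t (comap M u) := rfl
theorem comap_sub (M : W → V) (u w : J V) : comap M (sub u w) = sub (comap M u) (comap M w) := rfl
theorem comap_const (M : W → V) (x : ℂ) : comap M (const x : J V) = const x := rfl
theorem comap_mul (M : W → V) (u w : J V) : comap M (mul u w) = mul (comap M u) (comap M w) := rfl
theorem comap_comp (M : W → V) (f : ℕ → ℂ) (u : J V) :
    comap M (comp f u) = comp f (comap M u) := rfl

/-- jets of real-valued functions -/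
def Herm (u : J V) : Prop := bar u = u

theorem Herm.v {u : J V} (h : u.Herm) : conj u.v = u.v := congrArg J.v h
theorem Herm.e {u : J V} (h : u.Herm) (b : V) : u.e b = conj (u.d b) :=
  (congrFun (congrArg J.e h) b).symm
theorem Herm.ee {u : J V} (h : u.Herm) (b d : V) : u.ee b d = conj (u.dd b d) :=
  (congrFun (congrFun (congrArg J.ee h) b) d).symm
theorem Herm.de {u : J V} (h : u.Herm) (a b : V) : u.de a b = conj (u.de b a) :=
  (congrFun (congrFun (congrArg J.de h) a) b).symm
theorem Herm.dee {u : J V} (h : u.Herm) (a b d : V) : u.dee a b d = conj (u.dde b d a) :=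
  (congrFun (congrFun (congrFun (congrArg J.dee h) a) b) d).symm
theorem Herm.ddee {u : J V} (h : u.Herm) (a c b d : V) :
    u.ddee a c b d = conj (u.ddee b d a c) :=
  (congrFun (congrFun (congrFun (congrFun (congrArg J.ddee h) a) c) b) d).symm

theorem herm_of {u : J V} (h0 : conj u.v = u.v) (h1 : ∀ b, u.e b = conj (u.d b))
    (h2 : ∀ b d, u.ee b d = conj (u.dd b d)) (h3 : ∀ a b, u.de a b = conj (u.de b a))
    (h4 : ∀ a b d, u.dee a b d = conj (u.dde b d a))
    (h5 : ∀ a c b d, u.ddee a c b d = conj (u.ddee b d a c)) : u.Herm := by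
  unfold Herm
  ext
  · exact h0
  · simp [bar, h1]
  · simp [bar, h1]
  · simp [bar, h2]
  · simp only [bar]; exact (h3 _ _).symm
  · simp [bar, h2]
  · simp [bar, h4]
  · simp [bar, h4]
  · simp only [bar]; exact (h5 _ _ _ _).symm

theorem Herm.cov {u : J V} (h : u.Herm) (G : V → V → V) : (cov G u).Herm := by
  refine herm_of h.v h.e (fun b d => ?_) h.de (fun a b d => ?_) (fun a c b d => ?_)
  · simp only [J.cov, map_sub]; rw [h.ee, h.e]
  · simp only [J.cov, map_sub]; rw [h.dee, h.de a]
  · simp only [J.cov, map_sub, map_add]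
    rw [h.ddee a c b d, h.dee (G a c) b d, h.dee (G b d) a c, h.de (G a c) (G b d)]
    simp only [Complex.conj_conj]; ring

theorem Herm.comap {u : J V} (h : u.Herm) (M : W → V) : (comap M u).Herm :=
  herm_of h.v (fun _ => h.e _) (fun _ _ => h.ee _ _) (fun _ _ => h.de _ _)
    (fun _ _ _ => h.dee _ _ _) (fun _ _ _ _ => h.ddee _ _ _ _)

theorem bar_add (u w : J V) : bar (add u w) = add (bar u) (bar w) := by
  ext <;> simp [bar, add]
theorem bar_smul (t : ℂ) (u : J V) : bar (smul t u) = smul (conj t) (bar u) := by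
  ext <;> simp [bar, smul]
theorem bar_mul (u w : J V) : bar (mul u w) = mul (bar u) (bar w) := by
  ext <;> simp only [bar, mul, map_add, map_mul] <;> ring
theorem bar_comp (f : ℕ → ℂ) (u : J V) : bar (comp f u) = comp (fun k => conj (f k)) (bar u) := by
  ext <;> simp only [bar, comp, map_add, map_mul] <;> ring

theorem Herm.add {u w : J V} (h : u.Herm) (h' : w.Herm) : (add u w).Herm := by
  unfold Herm at *; rw [bar_add, h, h']
theorem Herm.smul {u : J V} (h : u.Herm) (t : ℝ) : (smul (t : ℂ) u).Herm := by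
  unfold Herm at *; rw [bar_smul, h, Complex.conj_ofReal]
theorem Herm.sub {u w : J V} (h : u.Herm) (h' : w.Herm) : (sub u w).Herm := by
  have := h'.smul (-1); push_cast at this; exact h.add this
theorem Herm.mul {u w : J V} (h : u.Herm) (h' : w.Herm) : (mul u w).Herm := by
  unfold Herm at *; rw [bar_mul, h, h']
theorem Herm.comp {u : J V} (h : u.Herm) {f : ℕ → ℂ} (hf : ∀ k, conj (f k) = f k) :
    (comp f u).Herm := by
  unfold Herm at *; rw [bar_comp, h]; congr 1; funext k; exact hf k
theorem herm_const (x : ℝ) : (const (x : ℂ) : J V).Herm := by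
  unfold Herm; ext <;> simp [bar, const]

end J

section Lin

variable {V W : Type*} [AddCommGroup V] [Module ℂ V] [AddCommGroup W] [Module ℂ W]

/-- complex linear functional -/
structure IsL (f : V → ℂ) : Prop where
  add : ∀ a b, f (a + b) = f a + f b
  smul : ∀ (t : ℂ) a, f (t • a) = t * f a

/-- conjugate linear functional -/
structure IsA (f : V → ℂ) : Prop where
  add : ∀ a b, f (a + b) = f a + f b
  smul : ∀ (t : ℂ) a, f (t • a) = conj t * f a

theorem IsL.zero {f : V → ℂ} (h : IsL f) : f 0 = 0 := by simpa using h.smul 0 0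
theorem IsA.zero {f : V → ℂ} (h : IsA f) : f 0 = 0 := by simpa using h.smul 0 0
theorem IsL.sub {f : V → ℂ} (h : IsL f) (a b : V) : f (a - b) = f a - f b := by
  rw [sub_eq_add_neg, h.add, ← neg_one_smul ℂ b, h.smul]; ring
theorem IsA.sub {f : V → ℂ} (h : IsA f) (a b : V) : f (a - b) = f a - f b := by
  rw [sub_eq_add_neg, h.add, ← neg_one_smul ℂ b, h.smul]; simp; ring

/-- multilinearity and symmetry of a jet -/
structure J.Lin (u : J V) : Prop where
  d : IsL u.d
  e : IsA u.e
  dd_symm : ∀ a c, u.dd a c = u.dd c a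
  dd1 : ∀ c, IsL fun a => u.dd a c
  de1 : ∀ b, IsL fun a => u.de a b
  de2 : ∀ a, IsA fun b => u.de a b
  ee_symm : ∀ b d, u.ee b d = u.ee d b
  ee1 : ∀ d, IsA fun b => u.ee b d
  dde_symm : ∀ a c b, u.dde a c b = u.dde c a b
  dde1 : ∀ c b, IsL fun a => u.dde a c b
  dde3 : ∀ a c, IsA fun b => u.dde a c b
  dee_symm : ∀ a b d, u.dee a b d = u.dee a d b
  dee1 : ∀ b d, IsL fun a => u.dee a b d
  dee2 : ∀ a d, IsA fun b => u.dee a b d
  ddee_symm1 : ∀ a c b d, u.ddee a c b d = u.ddee c a b d
  ddee_symm2 : ∀ a c b d, u.ddee a c b d = u.ddee a c d b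
  ddee1 : ∀ c b d, IsL fun a => u.ddee a c b d
  ddee3 : ∀ a c d, IsA fun b => u.ddee a c b d

/-- symmetric complex bilinear map -/
structure IsBil (G : V → V → V) : Prop where
  symm : ∀ a c, G a c = G c a
  add : ∀ a a' c, G (a + a') c = G a c + G a' c
  smul : ∀ (t : ℂ) a c, G (t • a) c = t • G a c

end Lin

namespace J

variable {V W : Type*}

/-- all derivatives are bounded by `B` with respect to the seminorm `n` -/
structure Bd (u : J V) (n : V → ℝ) (B : ℝ) : Prop where
  d : ∀ a, ‖u.d a‖ ≤ B * n a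
  e : ∀ b, ‖u.e b‖ ≤ B * n b
  dd : ∀ a c, ‖u.dd a c‖ ≤ B * (n a * n c)
  de : ∀ a b, ‖u.de a b‖ ≤ B * (n a * n b)
  ee : ∀ b d, ‖u.ee b d‖ ≤ B * (n b * n d)
  dde : ∀ a c b, ‖u.dde a c b‖ ≤ B * (n a * n c * n b)
  dee : ∀ a b d, ‖u.dee a b d‖ ≤ B * (n a * n b * n d)
  ddee : ∀ a c b d, ‖u.ddee a c b d‖ ≤ B * (n a * n c * n b * n d)

theorem Bd.comap {u : J V} {n : V → ℝ} {B : ℝ} (h : u.Bd n B) (M : W → V) :
    (comap M u).Bd (fun a => n (M a)) B :=
  ⟨fun _ => h.d _, fun _ => h.e _, fun _ _ => h.dd _ _, fun _ _ => h.de _ _, fun _ _ => h.ee _ _,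
    fun _ _ _ => h.dde _ _ _, fun _ _ _ => h.dee _ _ _, fun _ _ _ _ => h.ddee _ _ _ _⟩

end J

end Crest.Agent.R245
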