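import Crest.Agent.R245.Jet

/-!
# R245: closure properties of `J.Lin` and `J.Bd` (pure algebra / triangle inequality)
-/

set_option autoImplicit false
set_option linter.unusedSimpArgs false
set_option linter.unusedTactic false
set_option linter.unreachableTactic false

namespace Crest.Agent.R245

open scoped ComplexConjugate

namespace J

section Lin
variable {V W : Type*} [AddCommGroup V] [Module ℂ V] [AddCommGroup W] [Module ℂ W]

theorem Lin.d_add0 {u : J V} (h : u.Lin) (x y : V) :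
    u.d (x + y) = u.d x + u.d y :=
  h.d.add x y
theorem Lin.d_smul0 {u : J V} (h : u.Lin) (t : ℂ) (x : V) :
    u.d (t • x) = t * u.d x :=
  h.d.smul t x
theorem Lin.e_add0 {u : J V} (h : u.Lin) (x y : V) :
    u.e (x + y) = u.e x + u.e y :=
  h.e.add x y
theorem Lin.e_smul0 {u : J V} (h : u.Lin) (t : ℂ) (x : V) :
    u.e (t • x) = conj t * u.e x :=
  h.e.smul t x
theorem Lin.dd_add0 {u : J V} (h : u.Lin) (x y : V) (b : V) :
    u.dd (x + y) b = u.dd x b + u.dd y b :=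
  (h.dd1 b).add x y
theorem Lin.dd_smul0 {u : J V} (h : u.Lin) (t : ℂ) (x : V) (b : V) :
    u.dd (t • x) b = t * u.dd x b :=
  (h.dd1 b).smul t x
theorem Lin.dd_add1 {u : J V} (h : u.Lin) (x y : V) (a : V) :
    u.dd a (x + y) = u.dd a x + u.dd a y := by
  rw [h.dd_symm a (x + y), h.dd_symm a x, h.dd_symm a y,
    h.dd_add0]
theorem Lin.dd_smul1 {u : J V} (h : u.Lin) (t : ℂ) (x : V) (a : V) :
    u.dd a (t • x) = t * u.dd a x := by
  rw [h.dd_symm a (t • x), h.dd_symm a x, h.dd_smul0]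
theorem Lin.de_add0 {u : J V} (h : u.Lin) (x y : V) (b : V) :
    u.de (x + y) b = u.de x b + u.de y b :=
  (h.de1 b).add x y
theorem Lin.de_smul0 {u : J V} (h : u.Lin) (t : ℂ) (x : V) (b : V) :
    u.de (t • x) b = t * u.de x b :=
  (h.de1 b).smul t x
theorem Lin.de_add1 {u : J V} (h : u.Lin) (x y : V) (a : V) :
    u.de a (x + y) = u.de a x + u.de a y :=
  (h.de2 a).add x y
theorem Lin.de_smul1 {u : J V} (h : u.Lin) (t : ℂ) (x : V) (a : V) :
    u.de a (t • x) = conj t * u.de a x :=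
  (h.de2 a).smul t x
theorem Lin.ee_add0 {u : J V} (h : u.Lin) (x y : V) (b : V) :
    u.ee (x + y) b = u.ee x b + u.ee y b :=
  (h.ee1 b).add x y
theorem Lin.ee_smul0 {u : J V} (h : u.Lin) (t : ℂ) (x : V) (b : V) :
    u.ee (t • x) b = conj t * u.ee x b :=
  (h.ee1 b).smul t x
theorem Lin.ee_add1 {u : J V} (h : u.Lin) (x y : V) (a : V) :
    u.ee a (x + y) = u.ee a x + u.ee a y := by
  rw [h.ee_symm a (x + y), h.ee_symm a x, h.ee_symm a y,
    h.ee_add0]
theorem Lin.ee_smul1 {u : J V} (h : u.Lin) (t : ℂ) (x : V) (a : V) :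
    u.ee a (t • x) = conj t * u.ee a x := by
  rw [h.ee_symm a (t • x), h.ee_symm a x, h.ee_smul0]
theorem Lin.dde_add0 {u : J V} (h : u.Lin) (x y : V) (b c : V) :
    u.dde (x + y) b c = u.dde x b c + u.dde y b c :=
  (h.dde1 b c).add x y
theorem Lin.dde_smul0 {u : J V} (h : u.Lin) (t : ℂ) (x : V) (b c : V) :
    u.dde (t • x) b c = t * u.dde x b c :=
  (h.dde1 b c).smul t x
theorem Lin.dde_add1 {u : J V} (h : u.Lin) (x y : V) (a c : V) :
    u.dde a (x + y) c = u.dde a x c + u.dde a y c := by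
  rw [h.dde_symm a (x + y) c, h.dde_symm a x c, h.dde_symm a y c,
    h.dde_add0]
theorem Lin.dde_smul1 {u : J V} (h : u.Lin) (t : ℂ) (x : V) (a c : V) :
    u.dde a (t • x) c = t * u.dde a x c := by
  rw [h.dde_symm a (t • x) c, h.dde_symm a x c, h.dde_smul0]
theorem Lin.dde_add2 {u : J V} (h : u.Lin) (x y : V) (a b : V) :
    u.dde a b (x + y) = u.dde a b x + u.dde a b y :=
  (h.dde3 a b).add x y
theorem Lin.dde_smul2 {u : J V} (h : u.Lin) (t : ℂ) (x : V) (a b : V) :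
    u.dde a b (t • x) = conj t * u.dde a b x :=
  (h.dde3 a b).smul t x
theorem Lin.dee_add0 {u : J V} (h : u.Lin) (x y : V) (b c : V) :
    u.dee (x + y) b c = u.dee x b c + u.dee y b c :=
  (h.dee1 b c).add x y
theorem Lin.dee_smul0 {u : J V} (h : u.Lin) (t : ℂ) (x : V) (b c : V) :
    u.dee (t • x) b c = t * u.dee x b c :=
  (h.dee1 b c).smul t x
theorem Lin.dee_add1 {u : J V} (h : u.Lin) (x y : V) (a c : V) :
    u.dee a (x + y) c = u.dee a x c + u.dee a y c :=
  (h.dee2 a c).add x y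
theorem Lin.dee_smul1 {u : J V} (h : u.Lin) (t : ℂ) (x : V) (a c : V) :
    u.dee a (t • x) c = conj t * u.dee a x c :=
  (h.dee2 a c).smul t x
theorem Lin.dee_add2 {u : J V} (h : u.Lin) (x y : V) (a b : V) :
    u.dee a b (x + y) = u.dee a b x + u.dee a b y := by
  rw [h.dee_symm a b (x + y), h.dee_symm a b x, h.dee_symm a b y,
    h.dee_add1]
theorem Lin.dee_smul2 {u : J V} (h : u.Lin) (t : ℂ) (x : V) (a b : V) :
    u.dee a b (t • x) = conj t * u.dee a b x := by
  rw [h.dee_symm a b (t • x), h.dee_symm a b x, h.dee_smul1]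
theorem Lin.ddee_add0 {u : J V} (h : u.Lin) (x y : V) (b c d : V) :
    u.ddee (x + y) b c d = u.ddee x b c d + u.ddee y b c d :=
  (h.ddee1 b c d).add x y
theorem Lin.ddee_smul0 {u : J V} (h : u.Lin) (t : ℂ) (x : V) (b c d : V) :
    u.ddee (t • x) b c d = t * u.ddee x b c d :=
  (h.ddee1 b c d).smul t x
theorem Lin.ddee_add1 {u : J V} (h : u.Lin) (x y : V) (a c d : V) :
    u.ddee a (x + y) c d = u.ddee a x c d + u.ddee a y c d := by
  rw [h.ddee_symm1 a (x + y) c d, h.ddee_symm1 a x c d, h.ddee_symm1 a y c d,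
    h.ddee_add0]
theorem Lin.ddee_smul1 {u : J V} (h : u.Lin) (t : ℂ) (x : V) (a c d : V) :
    u.ddee a (t • x) c d = t * u.ddee a x c d := by
  rw [h.ddee_symm1 a (t • x) c d, h.ddee_symm1 a x c d, h.ddee_smul0]
theorem Lin.ddee_add2 {u : J V} (h : u.Lin) (x y : V) (a b d : V) :
    u.ddee a b (x + y) d = u.ddee a b x d + u.ddee a b y d :=
  (h.ddee3 a b d).add x y
theorem Lin.ddee_smul2 {u : J V} (h : u.Lin) (t : ℂ) (x : V) (a b d : V) :
    u.ddee a b (t • x) d = conj t * u.ddee a b x d :=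
  (h.ddee3 a b d).smul t x
theorem Lin.ddee_add3 {u : J V} (h : u.Lin) (x y : V) (a b c : V) :
    u.ddee a b c (x + y) = u.ddee a b c x + u.ddee a b c y := by
  rw [h.ddee_symm2 a b c (x + y), h.ddee_symm2 a b c x, h.ddee_symm2 a b c y,
    h.ddee_add2]
theorem Lin.ddee_smul3 {u : J V} (h : u.Lin) (t : ℂ) (x : V) (a b c : V) :
    u.ddee a b c (t • x) = conj t * u.ddee a b c x := by
  rw [h.ddee_symm2 a b c (t • x), h.ddee_symm2 a b c x, h.ddee_smul2]

/-- expand all slots of the jets `u`, `w` -/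
macro "lin_exp " h:term ", " h':term : tactic =>
  `(tactic| simp only [
      Lin.d_add0 $h, Lin.d_smul0 $h, Lin.e_add0 $h, Lin.e_smul0 $h, Lin.dd_add0 $h,
      Lin.dd_smul0 $h, Lin.dd_add1 $h, Lin.dd_smul1 $h, Lin.de_add0 $h, Lin.de_smul0 $h,
      Lin.de_add1 $h, Lin.de_smul1 $h, Lin.ee_add0 $h, Lin.ee_smul0 $h, Lin.ee_add1 $h,
      Lin.ee_smul1 $h, Lin.dde_add0 $h, Lin.dde_smul0 $h, Lin.dde_add1 $h, Lin.dde_smul1 $h,
      Lin.dde_add2 $h, Lin.dde_smul2 $h, Lin.dee_add0 $h, Lin.dee_smul0 $h, Lin.dee_add1 $h,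
      Lin.dee_smul1 $h, Lin.dee_add2 $h, Lin.dee_smul2 $h, Lin.ddee_add0 $h, Lin.ddee_smul0 $h,
      Lin.ddee_add1 $h, Lin.ddee_smul1 $h, Lin.ddee_add2 $h, Lin.ddee_smul2 $h, Lin.ddee_add3 $h,
      Lin.ddee_smul3 $h, Lin.d_add0 $h', Lin.d_smul0 $h', Lin.e_add0 $h', Lin.e_smul0 $h',
      Lin.dd_add0 $h', Lin.dd_smul0 $h', Lin.dd_add1 $h', Lin.dd_smul1 $h', Lin.de_add0 $h',
      Lin.de_smul0 $h', Lin.de_add1 $h', Lin.de_smul1 $h', Lin.ee_add0 $h', Lin.ee_smul0 $h',
      Lin.ee_add1 $h', Lin.ee_smul1 $h', Lin.dde_add0 $h', Lin.dde_smul0 $h', Lin.dde_add1 $h',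
      Lin.dde_smul1 $h', Lin.dde_add2 $h', Lin.dde_smul2 $h', Lin.dee_add0 $h',
      Lin.dee_smul0 $h', Lin.dee_add1 $h', Lin.dee_smul1 $h', Lin.dee_add2 $h',
      Lin.dee_smul2 $h', Lin.ddee_add0 $h', Lin.ddee_smul0 $h', Lin.ddee_add1 $h',
      Lin.ddee_smul1 $h', Lin.ddee_add2 $h', Lin.ddee_smul2 $h', Lin.ddee_add3 $h',
      Lin.ddee_smul3 $h'])

theorem lin_const (x : ℂ) : (const x : J V).Lin := by
  constructor <;> intros <;> first | rfl | (constructor <;> intros <;> simp [const])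

theorem lin_aff (x : ℂ) {l : V → ℂ} (hl : IsL l) : (aff x l).Lin := by
  constructor <;> intros <;> first | rfl | exact hl | (constructor <;> intros <;> simp [aff])

theorem Lin.add {u w : J V} (h : u.Lin) (h' : w.Lin) : (add u w).Lin := by
  refine ⟨⟨fun _ _ => ?_, fun _ _ => ?_⟩, ⟨fun _ _ => ?_, fun _ _ => ?_⟩, fun a c => ?dd_symm,
    fun _ => ⟨fun _ _ => ?_, fun _ _ => ?_⟩, fun _ => ⟨fun _ _ => ?_, fun _ _ => ?_⟩,
    fun _ => ⟨fun _ _ => ?_, fun _ _ => ?_⟩, fun b d => ?ee_symm,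
    fun _ => ⟨fun _ _ => ?_, fun _ _ => ?_⟩, fun a c b => ?dde_symm,
    fun _ _ => ⟨fun _ _ => ?_, fun _ _ => ?_⟩, fun _ _ => ⟨fun _ _ => ?_, fun _ _ => ?_⟩,
    fun a b d => ?dee_symm, fun _ _ => ⟨fun _ _ => ?_, fun _ _ => ?_⟩,
    fun _ _ => ⟨fun _ _ => ?_, fun _ _ => ?_⟩, fun a c b d => ?ddee_symm1,
    fun a c b d => ?ddee_symm2, fun _ _ _ => ⟨fun _ _ => ?_, fun _ _ => ?_⟩,
    fun _ _ _ => ⟨fun _ _ => ?_, fun _ _ => ?_⟩⟩
  case dd_symm =>
    simp only [
      J.add, h.dd_symm a c, h.dde_symm a c, h.ddee_symm1 a c, h'.dd_symm a c, h'.dde_symm a c,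
      h'.ddee_symm1 a c]
    try ring
  case ee_symm =>
    simp only [
      J.add, h.ee_symm b d, fun x => h.dee_symm x b d, fun x y => h.ddee_symm2 x y b d,
      h'.ee_symm b d, fun x => h'.dee_symm x b d, fun x y => h'.ddee_symm2 x y b d]
    try ring
  case dde_symm =>
    simp only [
      J.add, h.dd_symm a c, h.dde_symm a c, h.ddee_symm1 a c, h'.dd_symm a c, h'.dde_symm a c,
      h'.ddee_symm1 a c]
    try ring
  case dee_symm =>
    simp only [
      J.add, h.ee_symm b d, fun x => h.dee_symm x b d, fun x y => h.ddee_symm2 x y b d,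
      h'.ee_symm b d, fun x => h'.dee_symm x b d, fun x y => h'.ddee_symm2 x y b d]
    try ring
  case ddee_symm1 =>
    simp only [
      J.add, h.dd_symm a c, h.dde_symm a c, h.ddee_symm1 a c, h'.dd_symm a c, h'.dde_symm a c,
      h'.ddee_symm1 a c]
    try ring
  case ddee_symm2 =>
    simp only [
      J.add, h.ee_symm b d, fun x => h.dee_symm x b d, fun x y => h.ddee_symm2 x y b d,
      h'.ee_symm b d, fun x => h'.dee_symm x b d, fun x y => h'.ddee_symm2 x y b d]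
    try ring
  all_goals
    simp only [J.add]
    lin_exp h, h'
    try ring

theorem Lin.smul {u : J V} (h : u.Lin) (t : ℂ) : (smul t u).Lin := by
  refine ⟨⟨fun _ _ => ?_, fun _ _ => ?_⟩, ⟨fun _ _ => ?_, fun _ _ => ?_⟩, fun a c => ?dd_symm,
    fun _ => ⟨fun _ _ => ?_, fun _ _ => ?_⟩, fun _ => ⟨fun _ _ => ?_, fun _ _ => ?_⟩,
    fun _ => ⟨fun _ _ => ?_, fun _ _ => ?_⟩, fun b d => ?ee_symm,
    fun _ => ⟨fun _ _ => ?_, fun _ _ => ?_⟩, fun a c b => ?dde_symm,
    fun _ _ => ⟨fun _ _ => ?_, fun _ _ => ?_⟩, fun _ _ => ⟨fun _ _ => ?_, fun _ _ => ?_⟩,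
    fun a b d => ?dee_symm, fun _ _ => ⟨fun _ _ => ?_, fun _ _ => ?_⟩,
    fun _ _ => ⟨fun _ _ => ?_, fun _ _ => ?_⟩, fun a c b d => ?ddee_symm1,
    fun a c b d => ?ddee_symm2, fun _ _ _ => ⟨fun _ _ => ?_, fun _ _ => ?_⟩,
    fun _ _ _ => ⟨fun _ _ => ?_, fun _ _ => ?_⟩⟩
  case dd_symm =>
    simp only [
      J.smul, h.dd_symm a c, h.dde_symm a c, h.ddee_symm1 a c]
    try ring
  case ee_symm =>
    simp only [
      J.smul, h.ee_symm b d, fun x => h.dee_symm x b d, fun x y => h.ddee_symm2 x y b d]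
    try ring
  case dde_symm =>
    simp only [
      J.smul, h.dd_symm a c, h.dde_symm a c, h.ddee_symm1 a c]
    try ring
  case dee_symm =>
    simp only [
      J.smul, h.ee_symm b d, fun x => h.dee_symm x b d, fun x y => h.ddee_symm2 x y b d]
    try ring
  case ddee_symm1 =>
    simp only [
      J.smul, h.dd_symm a c, h.dde_symm a c, h.ddee_symm1 a c]
    try ring
  case ddee_symm2 =>
    simp only [
      J.smul, h.ee_symm b d, fun x => h.dee_symm x b d, fun x y => h.ddee_symm2 x y b d]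
    try ring
  all_goals
    simp only [J.smul]
    lin_exp h, h
    try ring

theorem Lin.sub {u w : J V} (h : u.Lin) (h' : w.Lin) : (sub u w).Lin :=
  h.add (h'.smul _)

theorem Lin.mul {u w : J V} (h : u.Lin) (h' : w.Lin) : (mul u w).Lin := by
  refine ⟨⟨fun _ _ => ?_, fun _ _ => ?_⟩, ⟨fun _ _ => ?_, fun _ _ => ?_⟩, fun a c => ?dd_symm,
    fun _ => ⟨fun _ _ => ?_, fun _ _ => ?_⟩, fun _ => ⟨fun _ _ => ?_, fun _ _ => ?_⟩,
    fun _ => ⟨fun _ _ => ?_, fun _ _ => ?_⟩, fun b d => ?ee_symm,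
    fun _ => ⟨fun _ _ => ?_, fun _ _ => ?_⟩, fun a c b => ?dde_symm,
    fun _ _ => ⟨fun _ _ => ?_, fun _ _ => ?_⟩, fun _ _ => ⟨fun _ _ => ?_, fun _ _ => ?_⟩,
    fun a b d => ?dee_symm, fun _ _ => ⟨fun _ _ => ?_, fun _ _ => ?_⟩,
    fun _ _ => ⟨fun _ _ => ?_, fun _ _ => ?_⟩, fun a c b d => ?ddee_symm1,
    fun a c b d => ?ddee_symm2, fun _ _ _ => ⟨fun _ _ => ?_, fun _ _ => ?_⟩,
    fun _ _ _ => ⟨fun _ _ => ?_, fun _ _ => ?_⟩⟩
  case dd_symm =>
    simp only [
      J.mul, h.dd_symm a c, h.dde_symm a c, h.ddee_symm1 a c, h'.dd_symm a c, h'.dde_symm a c,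
      h'.ddee_symm1 a c]
    try ring
  case ee_symm =>
    simp only [
      J.mul, h.ee_symm b d, fun x => h.dee_symm x b d, fun x y => h.ddee_symm2 x y b d,
      h'.ee_symm b d, fun x => h'.dee_symm x b d, fun x y => h'.ddee_symm2 x y b d]
    try ring
  case dde_symm =>
    simp only [
      J.mul, h.dd_symm a c, h.dde_symm a c, h.ddee_symm1 a c, h'.dd_symm a c, h'.dde_symm a c,
      h'.ddee_symm1 a c]
    try ring
  case dee_symm =>
    simp only [
      J.mul, h.ee_symm b d, fun x => h.dee_symm x b d, fun x y => h.ddee_symm2 x y b d,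
      h'.ee_symm b d, fun x => h'.dee_symm x b d, fun x y => h'.ddee_symm2 x y b d]
    try ring
  case ddee_symm1 =>
    simp only [
      J.mul, h.dd_symm a c, h.dde_symm a c, h.ddee_symm1 a c, h'.dd_symm a c, h'.dde_symm a c,
      h'.ddee_symm1 a c]
    try ring
  case ddee_symm2 =>
    simp only [
      J.mul, h.ee_symm b d, fun x => h.dee_symm x b d, fun x y => h.ddee_symm2 x y b d,
      h'.ee_symm b d, fun x => h'.dee_symm x b d, fun x y => h'.ddee_symm2 x y b d]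
    try ring
  all_goals
    simp only [J.mul]
    lin_exp h, h'
    try ring

theorem Lin.comp {u : J V} (h : u.Lin) (f : ℕ → ℂ) : (comp f u).Lin := by
  refine ⟨⟨fun _ _ => ?_, fun _ _ => ?_⟩, ⟨fun _ _ => ?_, fun _ _ => ?_⟩, fun a c => ?dd_symm,
    fun _ => ⟨fun _ _ => ?_, fun _ _ => ?_⟩, fun _ => ⟨fun _ _ => ?_, fun _ _ => ?_⟩,
    fun _ => ⟨fun _ _ => ?_, fun _ _ => ?_⟩, fun b d => ?ee_symm,
    fun _ => ⟨fun _ _ => ?_, fun _ _ => ?_⟩, fun a c b => ?dde_symm,
    fun _ _ => ⟨fun _ _ => ?_, fun _ _ => ?_⟩, fun _ _ => ⟨fun _ _ => ?_, fun _ _ => ?_⟩,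
    fun a b d => ?dee_symm, fun _ _ => ⟨fun _ _ => ?_, fun _ _ => ?_⟩,
    fun _ _ => ⟨fun _ _ => ?_, fun _ _ => ?_⟩, fun a c b d => ?ddee_symm1,
    fun a c b d => ?ddee_symm2, fun _ _ _ => ⟨fun _ _ => ?_, fun _ _ => ?_⟩,
    fun _ _ _ => ⟨fun _ _ => ?_, fun _ _ => ?_⟩⟩
  case dd_symm =>
    simp only [
      J.comp, h.dd_symm a c, h.dde_symm a c, h.ddee_symm1 a c]
    try ring
  case ee_symm =>
    simp only [
      J.comp, h.ee_symm b d, fun x => h.dee_symm x b d, fun x y => h.ddee_symm2 x y b d]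
    try ring
  case dde_symm =>
    simp only [
      J.comp, h.dd_symm a c, h.dde_symm a c, h.ddee_symm1 a c]
    try ring
  case dee_symm =>
    simp only [
      J.comp, h.ee_symm b d, fun x => h.dee_symm x b d, fun x y => h.ddee_symm2 x y b d]
    try ring
  case ddee_symm1 =>
    simp only [
      J.comp, h.dd_symm a c, h.dde_symm a c, h.ddee_symm1 a c]
    try ring
  case ddee_symm2 =>
    simp only [
      J.comp, h.ee_symm b d, fun x => h.dee_symm x b d, fun x y => h.ddee_symm2 x y b d]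
    try ring
  all_goals
    simp only [J.comp]
    lin_exp h, h
    try ring

theorem Lin.cov {u : J V} (h : u.Lin) {G : V → V → V} (hG : IsBil G) : (cov G u).Lin := by
  refine ⟨⟨fun _ _ => ?_, fun _ _ => ?_⟩, ⟨fun _ _ => ?_, fun _ _ => ?_⟩, fun a c => ?dd_symm,
    fun _ => ⟨fun _ _ => ?_, fun _ _ => ?_⟩, fun _ => ⟨fun _ _ => ?_, fun _ _ => ?_⟩,
    fun _ => ⟨fun _ _ => ?_, fun _ _ => ?_⟩, fun b d => ?ee_symm,
    fun _ => ⟨fun _ _ => ?_, fun _ _ => ?_⟩, fun a c b => ?dde_symm,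
    fun _ _ => ⟨fun _ _ => ?_, fun _ _ => ?_⟩, fun _ _ => ⟨fun _ _ => ?_, fun _ _ => ?_⟩,
    fun a b d => ?dee_symm, fun _ _ => ⟨fun _ _ => ?_, fun _ _ => ?_⟩,
    fun _ _ => ⟨fun _ _ => ?_, fun _ _ => ?_⟩, fun a c b d => ?ddee_symm1,
    fun a c b d => ?ddee_symm2, fun _ _ _ => ⟨fun _ _ => ?_, fun _ _ => ?_⟩,
    fun _ _ _ => ⟨fun _ _ => ?_, fun _ _ => ?_⟩⟩
  case dd_symm =>
    simp only [
      J.cov, h.dd_symm a c, h.dde_symm a c, h.ddee_symm1 a c, hG.symm a c]
    try ring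
  case ee_symm =>
    simp only [
      J.cov, h.ee_symm b d, fun x => h.dee_symm x b d, fun x y => h.ddee_symm2 x y b d,
      hG.symm b d]
    try ring
  case dde_symm =>
    simp only [
      J.cov, h.dd_symm a c, h.dde_symm a c, h.ddee_symm1 a c, hG.symm a c]
    try ring
  case dee_symm =>
    simp only [
      J.cov, h.ee_symm b d, fun x => h.dee_symm x b d, fun x y => h.ddee_symm2 x y b d,
      hG.symm b d]
    try ring
  case ddee_symm1 =>
    simp only [
      J.cov, h.dd_symm a c, h.dde_symm a c, h.ddee_symm1 a c, hG.symm a c]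
    try ring
  case ddee_symm2 =>
    simp only [
      J.cov, h.ee_symm b d, fun x => h.dee_symm x b d, fun x y => h.ddee_symm2 x y b d,
      hG.symm b d]
    try ring
  all_goals
    simp only [J.cov, hG.add, hG.smul]
    lin_exp h, h
    try ring

theorem Lin.comap {u : J V} (h : u.Lin) (M : W →ₗ[ℂ] V) : (comap M u).Lin := by
  refine ⟨⟨fun _ _ => ?_, fun _ _ => ?_⟩, ⟨fun _ _ => ?_, fun _ _ => ?_⟩, fun _ _ => h.dd_symm _ _,
    fun _ => ⟨fun _ _ => ?_, fun _ _ => ?_⟩, fun _ => ⟨fun _ _ => ?_, fun _ _ => ?_⟩,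
    fun _ => ⟨fun _ _ => ?_, fun _ _ => ?_⟩, fun _ _ => h.ee_symm _ _,
    fun _ => ⟨fun _ _ => ?_, fun _ _ => ?_⟩, fun _ _ _ => h.dde_symm _ _ _,
    fun _ _ => ⟨fun _ _ => ?_, fun _ _ => ?_⟩, fun _ _ => ⟨fun _ _ => ?_, fun _ _ => ?_⟩,
    fun _ _ _ => h.dee_symm _ _ _, fun _ _ => ⟨fun _ _ => ?_, fun _ _ => ?_⟩,
    fun _ _ => ⟨fun _ _ => ?_, fun _ _ => ?_⟩, fun _ _ _ _ => h.ddee_symm1 _ _ _ _,
    fun _ _ _ _ => h.ddee_symm2 _ _ _ _, fun _ _ _ => ⟨fun _ _ => ?_, fun _ _ => ?_⟩,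
    fun _ _ _ => ⟨fun _ _ => ?_, fun _ _ => ?_⟩⟩
  all_goals
    simp only [J.comap, map_add, map_smul]
    lin_exp h, h

/-- two successive changes of coordinates -/
theorem Lin.cov_cov {u : J V} (h : u.Lin) (G G' : V → V → V) :
    J.cov G' (J.cov G u) = J.cov (fun a c => G a c + G' a c) u := by
  ext
  all_goals simp only [J.cov]
  all_goals
    lin_exp h, h
    ring

end Lin

section Bd
variable {V W : Type*}

/-- triangle inequality along the syntax tree, leaves from `Bd` hypotheses or assumptions -/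
macro "bd_tree " h:term ", " h':term : tactic =>
  `(tactic| repeat' with_reducible first
    | apply norm_add_le_of_le | apply norm_sub_le_of_le | apply norm_mul_le_of_le
    | apply Bd.d $h | apply Bd.e $h | apply Bd.dd $h | apply Bd.de $h | apply Bd.ee $h
    | apply Bd.dde $h | apply Bd.dee $h | apply Bd.ddee $h
    | apply Bd.d $h' | apply Bd.e $h' | apply Bd.dd $h' | apply Bd.de $h' | apply Bd.ee $h'
    | apply Bd.dde $h' | apply Bd.dee $h' | apply Bd.ddee $h'
    | assumption)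

theorem bd_const (x : ℂ) {n : V → ℝ} : (const x : J V).Bd n 0 := by
  constructor <;> intros <;> simp [const]

theorem Bd.mono {u : J V} {n : V → ℝ} {B B' : ℝ} (h : u.Bd n B) (hn : ∀ a, 0 ≤ n a)
    (hB : B ≤ B') : u.Bd n B' := by
  refine ⟨fun a => ?_, fun b => ?_, fun a c => ?_, fun a b => ?_, fun b d => ?_, fun a c b => ?_,
    fun a b d => ?_, fun a c b d => ?_⟩
  · exact (h.d a).trans (mul_le_mul_of_nonneg_right hB
      (hn a))
  · exact (h.e b).trans (mul_le_mul_of_nonneg_right hB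
      (hn b))
  · exact (h.dd a c).trans (mul_le_mul_of_nonneg_right hB
      (mul_nonneg (hn a) (hn c)))
  · exact (h.de a b).trans (mul_le_mul_of_nonneg_right hB
      (mul_nonneg (hn a) (hn b)))
  · exact (h.ee b d).trans (mul_le_mul_of_nonneg_right hB
      (mul_nonneg (hn b) (hn d)))
  · exact (h.dde a c b).trans (mul_le_mul_of_nonneg_right hB
      (mul_nonneg (mul_nonneg (hn a) (hn c)) (hn b)))
  · exact (h.dee a b d).trans (mul_le_mul_of_nonneg_right hB
      (mul_nonneg (mul_nonneg (hn a) (hn b)) (hn d)))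
  · exact (h.ddee a c b d).trans (mul_le_mul_of_nonneg_right hB
      (mul_nonneg (mul_nonneg (mul_nonneg (hn a) (hn c)) (hn b)) (hn d)))

/-- change of seminorm; `max l (l^4)` covers `l, l², l³, l⁴` -/
theorem Bd.scale {u : J V} {n n' : V → ℝ} {B l : ℝ} (h : u.Bd n B) (hn : ∀ a, 0 ≤ n a)
    (hB : 0 ≤ B) (hl : 0 ≤ l) (hnn : ∀ a, n a ≤ l * n' a) : u.Bd n' (B * max l (l ^ 4)) := by
  have key : ∀ (k : ℕ) (x P Q : ℝ), 1 ≤ k → k ≤ 4 → x ≤ B * P → P ≤ l ^ k * Q → (0 < l → 0 ≤ Q) →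
      x ≤ B * max l (l ^ 4) * Q := by
    intro k x P Q h1 h4 hx hP hQ
    refine hx.trans ?_
    rw [mul_assoc]
    refine mul_le_mul_of_nonneg_left (hP.trans ?_) hB
    rcases hl.eq_or_lt with rfl | hl'
    · simp [show k ≠ 0 by omega]
    · refine mul_le_mul_of_nonneg_right ?_ (hQ hl')
      rcases le_total l 1 with h5 | h5
      · exact (pow_le_of_le_one hl h5 (by omega)).trans (le_max_left _ _)
      · exact (pow_le_pow_right₀ h5 h4).trans (le_max_right _ _)
  have hn' : 0 < l → ∀ a, 0 ≤ n' a := fun hl' a =>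
    nonneg_of_mul_nonneg_right ((hn a).trans (hnn a)) hl' 
  have h0 : ∀ a, 0 ≤ l * n' a := fun a => (hn a).trans (hnn a)
  have h2 : ∀ a c, n a * n c ≤ l * n' a * (l * n' c) := fun a c =>
    mul_le_mul (hnn a) (hnn c) (hn c) (h0 a)
  have h3 : ∀ a c b, n a * n c * n b ≤ l * n' a * (l * n' c) * (l * n' b) := fun a c b =>
    mul_le_mul (h2 a c) (hnn b) (hn b) (mul_nonneg (h0 a) (h0 c))
  have h4 : ∀ a c b d, n a * n c * n b * n d ≤
      l * n' a * (l * n' c) * (l * n' b) * (l * n' d) := fun a c b d =>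
    mul_le_mul (h3 a c b) (hnn d) (hn d) (mul_nonneg (mul_nonneg (h0 a) (h0 c)) (h0 b))
  refine ⟨fun a => ?_, fun b => ?_, fun a c => ?_, fun a b => ?_, fun b d => ?_, fun a c b => ?_,
    fun a b d => ?_, fun a c b d => ?_⟩
  · refine key 1 _ _ _ (by norm_num) (by norm_num) (h.d a) ((hnn a).trans_eq (by ring)) fun hl' => ?_
    have hn := hn' hl'
    exact hn a
  · refine key 1 _ _ _ (by norm_num) (by norm_num) (h.e b) ((hnn b).trans_eq (by ring)) fun hl' => ?_
    have hn := hn' hl'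
    exact hn b
  · refine key 2 _ _ _ (by norm_num) (by norm_num) (h.dd a c) ((h2 a c).trans_eq (by ring)) fun hl' => ?_
    have hn := hn' hl'
    exact mul_nonneg (hn a) (hn c)
  · refine key 2 _ _ _ (by norm_num) (by norm_num) (h.de a b) ((h2 a b).trans_eq (by ring)) fun hl' => ?_
    have hn := hn' hl'
    exact mul_nonneg (hn a) (hn b)
  · refine key 2 _ _ _ (by norm_num) (by norm_num) (h.ee b d) ((h2 b d).trans_eq (by ring)) fun hl' => ?_
    have hn := hn' hl'
    exact mul_nonneg (hn b) (hn d)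
  · refine key 3 _ _ _ (by norm_num) (by norm_num) (h.dde a c b) ((h3 a c b).trans_eq (by ring)) fun hl' => ?_
    have hn := hn' hl'
    exact mul_nonneg (mul_nonneg (hn a) (hn c)) (hn b)
  · refine key 3 _ _ _ (by norm_num) (by norm_num) (h.dee a b d) ((h3 a b d).trans_eq (by ring)) fun hl' => ?_
    have hn := hn' hl'
    exact mul_nonneg (mul_nonneg (hn a) (hn b)) (hn d)
  · refine key 4 _ _ _ (by norm_num) (by norm_num) (h.ddee a c b d) ((h4 a c b d).trans_eq (by ring)) fun hl' => ?_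
    have hn := hn' hl'
    exact mul_nonneg (mul_nonneg (mul_nonneg (hn a) (hn c)) (hn b)) (hn d)

theorem Bd.add {u w : J V} {n : V → ℝ} {B C : ℝ} (h : u.Bd n B) (h' : w.Bd n C) :
    (add u w).Bd n (B + C) := by
  refine ⟨fun a => ?_, fun b => ?_, fun a c => ?_, fun a b => ?_, fun b d => ?_, fun a c b => ?_,
    fun a b d => ?_, fun a c b d => ?_⟩
  all_goals
    simp only [J.add]
    apply le_trans
    · bd_tree h, h'
    · exact le_of_eq (by ring)

theorem Bd.smul {u : J V} {n : V → ℝ} {B : ℝ} (h : u.Bd n B) (t : ℂ) :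
    (smul t u).Bd n (‖t‖ * B) := by
  have ht : ‖t‖ ≤ ‖t‖ := le_rfl
  refine ⟨fun a => ?_, fun b => ?_, fun a c => ?_, fun a b => ?_, fun b d => ?_, fun a c b => ?_,
    fun a b d => ?_, fun a c b d => ?_⟩
  all_goals
    simp only [J.smul]
    apply le_trans
    · bd_tree h, h
    · exact le_of_eq (by ring)

theorem Bd.sub {u w : J V} {n : V → ℝ} {B C : ℝ} (h : u.Bd n B) (h' : w.Bd n C) :
    (sub u w).Bd n (B + C) := by
  simpa [J.sub] using h.add (h'.smul (-1))

theorem Bd.mul {u w : J V} {n : V → ℝ} {B C U X : ℝ} (h : u.Bd n B) (h' : w.Bd n C)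
    (hn : ∀ a, 0 ≤ n a) (hB : 0 ≤ B) (hC : 0 ≤ C) (hU : ‖u.v‖ ≤ U) (hX : ‖w.v‖ ≤ X) :
    (mul u w).Bd n (U * C + X * B + 14 * (B * C)) := by
  refine ⟨fun a => ?_, fun b => ?_, fun a c => ?_, fun a b => ?_, fun b d => ?_, fun a c b => ?_,
    fun a b d => ?_, fun a c b d => ?_⟩
  · have := mul_nonneg (mul_nonneg hB hC) (hn a)
    simp only [J.mul]
    apply le_trans
    · bd_tree h, h'
    · linarith
  · have := mul_nonneg (mul_nonneg hB hC) (hn b)
    simp only [J.mul]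
    apply le_trans
    · bd_tree h, h'
    · linarith
  · have := mul_nonneg (mul_nonneg hB hC) (mul_nonneg (hn a) (hn c))
    simp only [J.mul]
    apply le_trans
    · bd_tree h, h'
    · linarith
  · have := mul_nonneg (mul_nonneg hB hC) (mul_nonneg (hn a) (hn b))
    simp only [J.mul]
    apply le_trans
    · bd_tree h, h'
    · linarith
  · have := mul_nonneg (mul_nonneg hB hC) (mul_nonneg (hn b) (hn d))
    simp only [J.mul]
    apply le_trans
    · bd_tree h, h'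
    · linarith
  · have := mul_nonneg (mul_nonneg hB hC) (mul_nonneg (mul_nonneg (hn a) (hn c)) (hn b))
    simp only [J.mul]
    apply le_trans
    · bd_tree h, h'
    · linarith
  · have := mul_nonneg (mul_nonneg hB hC) (mul_nonneg (mul_nonneg (hn a) (hn b)) (hn d))
    simp only [J.mul]
    apply le_trans
    · bd_tree h, h'
    · linarith
  · have := mul_nonneg (mul_nonneg hB hC) (mul_nonneg (mul_nonneg (mul_nonneg (hn a) (hn c)) (hn b)) (hn d))
    simp only [J.mul]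
    apply le_trans
    · bd_tree h, h'
    · linarith

theorem Bd.comp' {u : J V} {n : V → ℝ} {B F₁ F : ℝ} {f : ℕ → ℂ} (h : u.Bd n B) (hn : ∀ a, 0 ≤ n a)
    (hB : 0 ≤ B) (h1 : ‖f 1‖ ≤ F₁) (h2 : ‖f 2‖ ≤ F) (h3 : ‖f 3‖ ≤ F) (h4 : ‖f 4‖ ≤ F) :
    (comp f u).Bd n (F₁ * B + F * (7 * B ^ 2 + 6 * B ^ 3 + B ^ 4)) := by
  have hF : 0 ≤ F := (norm_nonneg _).trans h2
  refine ⟨fun a => ?_, fun b => ?_, fun a c => ?_, fun a b => ?_, fun b d => ?_, fun a c b => ?_,
    fun a b d => ?_, fun a c b d => ?_⟩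
  · have hN := hn a
    have e2 := mul_nonneg (mul_nonneg hF (pow_nonneg hB 2)) hN
    have e3 := mul_nonneg (mul_nonneg hF (pow_nonneg hB 3)) hN
    have e4 := mul_nonneg (mul_nonneg hF (pow_nonneg hB 4)) hN
    simp only [J.comp]
    apply le_trans
    · bd_tree h, h
    · linarith
  · have hN := hn b
    have e2 := mul_nonneg (mul_nonneg hF (pow_nonneg hB 2)) hN
    have e3 := mul_nonneg (mul_nonneg hF (pow_nonneg hB 3)) hN
    have e4 := mul_nonneg (mul_nonneg hF (pow_nonneg hB 4)) hN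
    simp only [J.comp]
    apply le_trans
    · bd_tree h, h
    · linarith
  · have hN := mul_nonneg (hn a) (hn c)
    have e2 := mul_nonneg (mul_nonneg hF (pow_nonneg hB 2)) hN
    have e3 := mul_nonneg (mul_nonneg hF (pow_nonneg hB 3)) hN
    have e4 := mul_nonneg (mul_nonneg hF (pow_nonneg hB 4)) hN
    simp only [J.comp]
    apply le_trans
    · bd_tree h, h
    · linarith
  · have hN := mul_nonneg (hn a) (hn b)
    have e2 := mul_nonneg (mul_nonneg hF (pow_nonneg hB 2)) hN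
    have e3 := mul_nonneg (mul_nonneg hF (pow_nonneg hB 3)) hN
    have e4 := mul_nonneg (mul_nonneg hF (pow_nonneg hB 4)) hN
    simp only [J.comp]
    apply le_trans
    · bd_tree h, h
    · linarith
  · have hN := mul_nonneg (hn b) (hn d)
    have e2 := mul_nonneg (mul_nonneg hF (pow_nonneg hB 2)) hN
    have e3 := mul_nonneg (mul_nonneg hF (pow_nonneg hB 3)) hN
    have e4 := mul_nonneg (mul_nonneg hF (pow_nonneg hB 4)) hN
    simp only [J.comp]
    apply le_trans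
    · bd_tree h, h
    · linarith
  · have hN := mul_nonneg (mul_nonneg (hn a) (hn c)) (hn b)
    have e2 := mul_nonneg (mul_nonneg hF (pow_nonneg hB 2)) hN
    have e3 := mul_nonneg (mul_nonneg hF (pow_nonneg hB 3)) hN
    have e4 := mul_nonneg (mul_nonneg hF (pow_nonneg hB 4)) hN
    simp only [J.comp]
    apply le_trans
    · bd_tree h, h
    · linarith
  · have hN := mul_nonneg (mul_nonneg (hn a) (hn b)) (hn d)
    have e2 := mul_nonneg (mul_nonneg hF (pow_nonneg hB 2)) hN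
    have e3 := mul_nonneg (mul_nonneg hF (pow_nonneg hB 3)) hN
    have e4 := mul_nonneg (mul_nonneg hF (pow_nonneg hB 4)) hN
    simp only [J.comp]
    apply le_trans
    · bd_tree h, h
    · linarith
  · have hN := mul_nonneg (mul_nonneg (mul_nonneg (hn a) (hn c)) (hn b)) (hn d)
    have e2 := mul_nonneg (mul_nonneg hF (pow_nonneg hB 2)) hN
    have e3 := mul_nonneg (mul_nonneg hF (pow_nonneg hB 3)) hN
    have e4 := mul_nonneg (mul_nonneg hF (pow_nonneg hB 4)) hN
    simp only [J.comp]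
    apply le_trans
    · bd_tree h, h
    · linarith

theorem Bd.comp {u : J V} {n : V → ℝ} {B F : ℝ} {f : ℕ → ℂ} (h : u.Bd n B) (hn : ∀ a, 0 ≤ n a)
    (hB : 0 ≤ B) (hf : ∀ k, 1 ≤ k → k ≤ 4 → ‖f k‖ ≤ F) :
    (comp f u).Bd n (F * (B + 7 * B ^ 2 + 6 * B ^ 3 + B ^ 4)) := by
  have := h.comp' hn hB (hf 1 (by norm_num) (by norm_num)) (hf 2 (by norm_num) (by norm_num))
    (hf 3 (by norm_num) (by norm_num)) (hf 4 (by norm_num) (by norm_num))
  convert this using 1
  ring

/-- the nonlinear part of the chain rule -/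
theorem Bd.comp_sub {u : J V} {n : V → ℝ} {B F : ℝ} {f : ℕ → ℂ} (h : u.Bd n B)
    (hn : ∀ a, 0 ≤ n a) (hB : 0 ≤ B) (hF : 0 ≤ F) (hf : ∀ k, 2 ≤ k → k ≤ 4 → ‖f k‖ ≤ F) :
    (J.sub (J.comp f u) (J.smul (f 1) u)).Bd n (F * (7 * B ^ 2 + 6 * B ^ 3 + B ^ 4)) := by
  have e : J.sub (J.comp f u) (J.smul (f 1) u) =
      J.add (J.comp (fun k => if k = 1 then 0 else f k) u) (J.const (-(f 1 * u.v))) := by
    ext <;> simp [J.sub, J.add, J.comp, J.smul, J.const] <;> ring
  have := (h.comp' (f := fun k => if k = 1 then 0 else f k) (F₁ := 0) (F := F) hn hB (by simp)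
    (by simpa using hf 2 (by norm_num) (by norm_num))
    (by simpa using hf 3 (by norm_num) (by norm_num))
    (by simpa using hf 4 (by norm_num) (by norm_num))).add (bd_const (-(f 1 * u.v)))
  rw [e]
  simpa using this

theorem Bd.cov {u : J V} {n : V → ℝ} {B : ℝ} (h : u.Bd n B) (hn : ∀ a, 0 ≤ n a) (hB : 0 ≤ B)
    {G : V → V → V} (hG : ∀ a c, n (G a c) ≤ 2 * (n a * n c)) : (cov G u).Bd n (9 * B) := by
  have g1 : ∀ a c, B * n (G a c) ≤ B * (2 * (n a * n c)) := fun a c =>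
    mul_le_mul_of_nonneg_left (hG a c) hB
  have g2 : ∀ a c (x : ℝ), 0 ≤ x → B * n (G a c) * x ≤ B * (2 * (n a * n c)) * x := fun a c x hx =>
    mul_le_mul_of_nonneg_right (g1 a c) hx
  refine ⟨fun a => ?_, fun b => ?_, fun a c => ?_, fun a b => ?_, fun b d => ?_, fun a c b => ?_,
    fun a b d => ?_, fun a c b d => ?_⟩
  · have hN := mul_nonneg hB (hn a)
    simp only [J.cov]
    apply le_trans
    · bd_tree h, h
    · linarith
  · have hN := mul_nonneg hB (hn b)
    simp only [J.cov]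
    apply le_trans
    · bd_tree h, h
    · linarith
  · have hN := mul_nonneg hB (mul_nonneg (hn a) (hn c))
    simp only [J.cov]
    apply le_trans
    · bd_tree h, h
    · linarith [g1 a c]
  · have hN := mul_nonneg hB (mul_nonneg (hn a) (hn b))
    simp only [J.cov]
    apply le_trans
    · bd_tree h, h
    · linarith
  · have hN := mul_nonneg hB (mul_nonneg (hn b) (hn d))
    simp only [J.cov]
    apply le_trans
    · bd_tree h, h
    · linarith [g1 b d]
  · have hN := mul_nonneg hB (mul_nonneg (mul_nonneg (hn a) (hn c)) (hn b))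
    simp only [J.cov]
    apply le_trans
    · bd_tree h, h
    · linarith [g2 a c _ (hn b)]
  · have hN := mul_nonneg hB (mul_nonneg (mul_nonneg (hn a) (hn b)) (hn d))
    simp only [J.cov]
    apply le_trans
    · bd_tree h, h
    · linarith [g2 b d _ (hn a)]
  · have hN := mul_nonneg hB (mul_nonneg (mul_nonneg (mul_nonneg (hn a) (hn c)) (hn b)) (hn d))
    simp only [J.cov]
    apply le_trans
    · bd_tree h, h
    · linarith [g2 a c _ (mul_nonneg (hn b) (hn d)), g2 b d _ (mul_nonneg (hn a) (hn c)),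
        g2 a c _ (hn (G b d))]

/-- `Bd` ignores the value -/
theorem Bd.of_sub_const {u : J V} {n : V → ℝ} {B : ℝ} (x : ℂ) (h : u.Bd n B) :
    (J.sub u (J.const x)).Bd n B := by
  simpa using h.sub (bd_const x)

/-- on `ℂ`, a multilinear jet is bounded by its eight scalar components -/
theorem bd_of_one {u : J ℂ} (h : u.Lin) {B : ℝ} (h1 : ‖u.d 1‖ ≤ B) (h2 : ‖u.e 1‖ ≤ B)
    (h3 : ‖u.dd 1 1‖ ≤ B) (h4 : ‖u.de 1 1‖ ≤ B) (h5 : ‖u.ee 1 1‖ ≤ B) (h6 : ‖u.dde 1 1 1‖ ≤ B)
    (h7 : ‖u.dee 1 1 1‖ ≤ B) (h8 : ‖u.ddee 1 1 1 1‖ ≤ B) : u.Bd (fun a => ‖a‖) B := by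
  have e : ∀ a : ℂ, a = a • (1 : ℂ) := fun a => by simp
  refine ⟨fun a => ?_, fun b => ?_, fun a c => ?_, fun a b => ?_, fun b d => ?_, fun a c b => ?_,
    fun a b d => ?_, fun a c b d => ?_⟩
  · rw [e a]
    lin_exp h, h
    simp only [norm_mul, Complex.norm_conj, smul_eq_mul, mul_one]
    have := mul_le_mul_of_nonneg_right h1
      (show 0 ≤ ‖a‖ by positivity)
    linarith
  · rw [e b]
    lin_exp h, h
    simp only [norm_mul, Complex.norm_conj, smul_eq_mul, mul_one]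
    have := mul_le_mul_of_nonneg_right h2
      (show 0 ≤ ‖b‖ by positivity)
    linarith
  · rw [e a, e c]
    lin_exp h, h
    simp only [norm_mul, Complex.norm_conj, smul_eq_mul, mul_one]
    have := mul_le_mul_of_nonneg_right h3
      (show 0 ≤ ‖a‖ * ‖c‖ by positivity)
    linarith
  · rw [e a, e b]
    lin_exp h, h
    simp only [norm_mul, Complex.norm_conj, smul_eq_mul, mul_one]
    have := mul_le_mul_of_nonneg_right h4
      (show 0 ≤ ‖a‖ * ‖b‖ by positivity)
    linarith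
  · rw [e b, e d]
    lin_exp h, h
    simp only [norm_mul, Complex.norm_conj, smul_eq_mul, mul_one]
    have := mul_le_mul_of_nonneg_right h5
      (show 0 ≤ ‖b‖ * ‖d‖ by positivity)
    linarith
  · rw [e a, e c, e b]
    lin_exp h, h
    simp only [norm_mul, Complex.norm_conj, smul_eq_mul, mul_one]
    have := mul_le_mul_of_nonneg_right h6
      (show 0 ≤ ‖a‖ * ‖c‖ * ‖b‖ by positivity)
    linarith
  · rw [e a, e b, e d]
    lin_exp h, h
    simp only [norm_mul, Complex.norm_conj, smul_eq_mul, mul_one]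
    have := mul_le_mul_of_nonneg_right h7
      (show 0 ≤ ‖a‖ * ‖b‖ * ‖d‖ by positivity)
    linarith
  · rw [e a, e c, e b, e d]
    lin_exp h, h
    simp only [norm_mul, Complex.norm_conj, smul_eq_mul, mul_one]
    have := mul_le_mul_of_nonneg_right h8
      (show 0 ≤ ‖a‖ * ‖c‖ * ‖b‖ * ‖d‖ by positivity)
    linarith

/-- on `ℂ`, the Levi form is a multiple of `|a|²` -/
theorem de_of_one {u : J ℂ} (h : u.Lin) (a b : ℂ) : u.de a b = a * conj b * u.de 1 1 := by
  have e : ∀ a : ℂ, a = a • (1 : ℂ) := fun a => by simp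
  conv_lhs => rw [e a, e b, h.de_smul0, h.de_smul1]
  ring

end Bd

end J

end Crest.Agent.R245
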