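import Crest.Agent.R245.Dom

/-!
# R245: the global potential and the proper function with bounded gradient

`Zc c m q` is the third coordinate of `AI i q`, except that the term `conj c * q 0` is switched off
where the model is modified.  `2 re Zc ≥ |q 1 + m|² ≥ 0` on the domain (`2 re Zc = rho2 + |q 1 + m|²
+ |c|² + 2 (1 - σ) re (conj c q 0)`; if `σ ≠ 1` the model is standard at `q`, `|q 0|² < rho2 q`).
Gradient of `log |Zc + 1|²`: `|d log |Z+1|² X| ≤ 2 |dZ X|/|Z + 1|` and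
`dZ X = X 2 + m X 1 + (1-σ) conj c X 0 - (dσ X) conj c q 0`,
`|X 2 + m X 1| ≤ (rho2 + √rho2 |q 1 + m|) nP X ≤ 3 (re Z + 1) nP X`.  If `‖q 1‖ < 4/5` and
`rr q > 2` then `σ = 1` near `q`; otherwise the potential is `-log rho3` near `q`, so
`|X 0|² ≤ rho3 · h(X,X)` (`jr_std_de`), and `|dσ X| ≤ C nP X` (`fderiv_eq_two_re`, `Bd.mul`,
`exists_bump_bd`, `exists_ST_bound`, `jr_rr_bd`).
-/

set_option autoImplicit false

namespace Crest.Agent.R245

open scoped ComplexConjugate ContDiff Topology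
open Filter

noncomputable def sig (q : Fin 3 → ℂ) : ℝ :=
  bump (16 / 25) (49 / 64) (q 1) * Real.smoothTransition (rr q - 1)

noncomputable def Zc (c : ℂ) (m : ℝ) (q : Fin 3 → ℂ) : ℂ :=
  q 2 + m * q 1 + ((Complex.normSq c + m ^ 2) / 2 : ℝ) + (1 - sig q : ℝ) * (conj c * q 0)

noncomputable def Lm (c : ℂ) (m : ℝ) (q : Fin 3 → ℂ) : ℝ := Real.log (Complex.normSq (Zc c m q + 1))

theorem sig_of_not_Kc {q : Fin 3 → ℂ} (hq : q ∈ O) (hK : q ∉ Kc) : sig q = 0 := by
  rcases not_and_or.1 hK with h | h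
  · rw [sig, bump_eq_zero (by norm_num), zero_mul]
    rw [Complex.normSq_eq_norm_sq]
    have := not_le.1 h
    nlinarith
  · rw [sig, Real.smoothTransition.zero_of_nonpos, mul_zero]
    have h1 := Real.log_le_sub_one_of_pos (inv_pos.2 hq.2.1)
    have h2 : (rho2 q)⁻¹ ≤ 2 := by
      rw [inv_le_comm₀ hq.2.1 two_pos]; have := not_le.1 h; linarith
    rw [Real.log_inv] at h1
    rw [rr]; linarith

theorem sig_eq_one {q : Fin 3 → ℂ} (h1 : ‖q 1‖ < 4 / 5) (h2 : 2 < rr q) : sig q = 1 := by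
  rw [sig, bump_eq_one (by norm_num), Real.smoothTransition.one_of_one_le (by linarith), one_mul]
  rw [Complex.normSq_eq_norm_sq]
  nlinarith [norm_nonneg (q 1)]

theorem sig_mem (q : Fin 3 → ℂ) : 0 ≤ sig q ∧ sig q ≤ 1 :=
  ⟨mul_nonneg (bump_mem _ _ _).1 (Real.smoothTransition.nonneg _),
    mul_le_one₀ (bump_mem _ _ _).2 (Real.smoothTransition.nonneg _)
      (Real.smoothTransition.le_one _)⟩

theorem Par.OK.std_of_sig {P : Par} (hP : P.OK) {q : Fin 3 → ℂ} (hq : 0 < rho2 q)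
    (h : sig q ≠ 1) : P.φ q = rr q := by
  refine (hP.std hq ?_).1
  by_contra hc
  rw [not_or, not_le, not_le] at hc
  exact h (sig_eq_one (by linarith [hc.1]) (by linarith [hc.2]))

theorem lam_lt_of_std {q : Fin 3 → ℂ} (hq : 0 < rho2 q)
    (hs : Complex.normSq (q 0) * Real.exp (rr q) < 1) : Complex.normSq (q 0) < rho2 q := by
  rwa [rr, Real.exp_neg, Real.exp_log hq, ← div_eq_mul_inv, div_lt_one hq] at hs

theorem re_Zc_ge {P : Par} (hP : P.OK) {c : ℂ} (m : ℝ) {q : Fin 3 → ℂ} (hq : 0 < rho2 q)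
    (hs : Complex.normSq (q 0) * Real.exp (P.φ q) < 1) :
    Complex.normSq (q 1 + m) ≤ 2 * (Zc c m q).re := by
  have e : 2 * (Zc c m q).re = rho2 q + Complex.normSq (q 1 + m) + Complex.normSq c +
      2 * (1 - sig q) * (c.re * (q 0).re + c.im * (q 0).im) := by
    simp only [Zc, rho2, rho, Complex.add_re, Complex.mul_re, Complex.ofReal_re, Complex.ofReal_im,
      Complex.normSq_apply, Complex.add_im, Complex.conj_re, Complex.conj_im, Complex.mul_im]
    ring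
  rw [e]
  by_cases h : sig q = 1
  · rw [h]; have := Complex.normSq_nonneg c; linarith
  · rw [hP.std_of_sig hq h] at hs
    have h1 := lam_lt_of_std hq hs
    obtain ⟨h2, h3⟩ := sig_mem q
    rw [Complex.normSq_apply] at h1
    rw [Complex.normSq_apply c]
    nlinarith [mul_nonneg (sub_nonneg.2 h3) (sq_nonneg (c.re + (q 0).re)),
      mul_nonneg (sub_nonneg.2 h3) (sq_nonneg (c.im + (q 0).im)),
      mul_nonneg h2 (sq_nonneg c.re), mul_nonneg h2 (sq_nonneg c.im),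
      mul_nonneg h2 (sq_nonneg (q 0).re), mul_nonneg h2 (sq_nonneg (q 0).im)]

theorem lam_coord (i : Fin 3) : ContDiff ℝ ∞ fun q : Fin 3 → ℂ => q i := contDiff_apply ℝ ℂ i

theorem sm_sig {q : Fin 3 → ℂ} (hq : 0 < rho2 q) : Sm sig q := by
  filter_upwards [sm_rr hq] with x hx
  exact ((contDiff_bump _ _).comp (lam_coord 1)).contDiffAt.mul
    (Real.smoothTransition.contDiff.contDiffAt.comp x (hx.sub contDiffAt_const))

theorem sm_Zc (c : ℂ) (m : ℝ) {q : Fin 3 → ℂ} (hq : 0 < rho2 q) : Sm (Zc c m) q := by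
  filter_upwards [sm_sig hq] with x hx
  exact (((lam_coord 2).add (contDiff_const.mul (lam_coord 1))).add
    contDiff_const).contDiffAt.add ((Complex.ofRealCLM.contDiff.contDiffAt.comp x
      (contDiffAt_const.sub hx)).mul (contDiff_const.mul (lam_coord 0)).contDiffAt)

theorem lam_normSq : ContDiff ℝ ∞ fun z : ℂ => Complex.normSq z := by
  simp only [Complex.normSq_apply]
  exact (Complex.reCLM.contDiff.mul Complex.reCLM.contDiff).add
    (Complex.imCLM.contDiff.mul Complex.imCLM.contDiff)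

theorem lam_ne {z : ℂ} (h : 0 ≤ z.re) : z + 1 ≠ 0 := fun e => by
  have := congrArg Complex.re e
  simp at this
  linarith

theorem sm_Lm {P : Par} (hP : P.OK) {c : ℂ} (m : ℝ) {q : Fin 3 → ℂ} (hq : 0 < rho2 q)
    (hs : Complex.normSq (q 0) * Real.exp (P.φ q) < 1) : Sm (Lm c m) q := by
  have h0 : Zc c m q + 1 ≠ 0 := lam_ne (by
    have := re_Zc_ge hP (c := c) m hq hs
    have := Complex.normSq_nonneg (q 1 + m)
    linarith)
  have h1 := sm_Zc c m hq
  filter_upwards [h1, (h1.contDiffAt.continuousAt.add continuousAt_const).eventually_ne h0]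
    with x hx hx'
  exact (lam_normSq.contDiffAt.comp x (hx.add contDiffAt_const)).log
    (by simpa using hx')

/-- the gradient of `log |Z + 1|²` -/
theorem lam_log_grad {Z : (Fin 3 → ℂ) → ℂ} {Z' : (Fin 3 → ℂ) →L[ℝ] ℂ} {q : Fin 3 → ℂ}
    (hZ : HasFDerivAt Z Z' q) (h0 : Z q + 1 ≠ 0) (X : Fin 3 → ℂ) :
    |fderiv ℝ (fun x => Real.log (Complex.normSq (Z x + 1))) q X| * ‖Z q + 1‖ ≤ 2 * ‖Z' X‖ := by
  have hn : 0 < ‖Z q + 1‖ := norm_pos_iff.2 h0
  have h1 := ((hZ.add_const 1).norm_sq).log (by positivity)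
  simp only [Complex.normSq_eq_norm_sq]
  rw [h1.fderiv]
  have h2 := abs_real_inner_le_norm (Z q + 1) (Z' X)
  simp only [smul_apply, ContinuousLinearMap.comp_apply, innerSL_apply_apply, smul_eq_mul,
    nsmul_eq_mul, abs_mul, abs_inv, abs_pow, abs_norm, Nat.cast_ofNat, abs_two]
  calc _ ≤ (‖Z q + 1‖ ^ 2)⁻¹ * (2 * (‖Z q + 1‖ * ‖Z' X‖)) * ‖Z q + 1‖ := by gcongr
    _ = _ := by field_simp

theorem exists_sig_grad : ∃ K : ℝ, 0 ≤ K ∧ ∀ q ∈ O, ∀ X, |fderiv ℝ sig q X| ≤ K * nP q X := by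
  obtain ⟨Cb, hCb, hb⟩ := exists_bump_bd (a := 16 / 25) (b := 49 / 64) (by norm_num)
  obtain ⟨Cs, hCs, hs⟩ := exists_ST_bound
  refine ⟨2 * Cb + 2 * Cs, by linarith, fun q hq X => ?_⟩
  have h1 : HasFDerivAt (fun x : Fin 3 → ℂ => bump (16 / 25) (49 / 64) (x 1)) _ q :=
    HasFDerivAt.comp (g := bump (16 / 25) (49 / 64)) (f := fun x : Fin 3 → ℂ => x 1) q
      ((contDiff_bump _ _).differentiable (by simp) (q 1)).hasFDerivAt
      (hasFDerivAt_apply (𝕜 := ℝ) 1 q)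
  have h2 : HasFDerivAt (fun x => Real.smoothTransition (rr x - 1)) _ q :=
    HasDerivAt.comp_hasFDerivAt (h₂ := Real.smoothTransition) (f := fun x => rr x - 1) q
      ((Real.smoothTransition.contDiff (n := 1)).differentiable (by simp) (rr q - 1)).hasDerivAt
      (((sm_rr hq.2.1).contDiffAt.differentiableAt (by simp)).hasFDerivAt.sub_const 1)
  have hn := nP_nonneg q X
  have a1 : |fderiv ℝ (bump (16 / 25) (49 / 64)) (q 1) (X 1)| ≤ 2 * Cb * nP q X := by
    rw [fderiv_eq_two_re (Sm.of_contDiff (contDiff_bump _ _) _), abs_mul, abs_two, mul_assoc]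
    refine mul_le_mul_of_nonneg_left ((Complex.abs_re_le_norm _).trans (((hb _).d _).trans
      (mul_le_mul_of_nonneg_left ((norm_one_le_nP hq.2.1 X).trans ?_) (by linarith)))) two_pos.le
    exact mul_le_of_le_one_left hn (Real.sqrt_le_one.2 hq.2.2.le)
  have a2 : |fderiv ℝ rr q X| ≤ 2 * nP q X := by
    rw [fderiv_eq_two_re (sm_rr hq.2.1), abs_mul, abs_two, jr_rr_d hq.2.1]
    exact mul_le_mul_of_nonneg_left ((Complex.abs_re_le_norm _).trans (norm_sg_le hq.2.1 X))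
      two_pos.le
  have a3 := hs 1 (by norm_num) (rr q - 1)
  rw [iteratedDeriv_one] at a3
  rw [show fderiv ℝ sig q = _ from (h1.mul h2).fderiv]
  simp only [add_apply, smul_apply, ContinuousLinearMap.comp_apply, ContinuousLinearMap.proj_apply,
    smul_eq_mul]
  refine (abs_add_le _ _).trans ?_
  rw [abs_mul, abs_mul, abs_mul, abs_of_nonneg (bump_mem _ _ _).1,
    abs_of_nonneg (Real.smoothTransition.nonneg _)]
  calc _ ≤ 1 * (Cs * (2 * nP q X)) + 1 * (2 * Cb * nP q X) := by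
        gcongr
        · exact (bump_mem _ _ _).2
        · exact Real.smoothTransition.le_one _
    _ = _ := by ring

theorem lam_std_germ {P : Par} (hP : P.OK) {q : Fin 3 → ℂ} (hq : 0 < rho2 q) (h3 : 0 < rho3 q)
    (h : 3 / 4 < ‖q 1‖ ∨ rr q < 3) :
    Pot P.ψ P.φ P.η =ᶠ[𝓝 q] fun x => -Real.log (rho3 x) := by
  have e1 : ∀ᶠ x in 𝓝 q, 3 / 4 ≤ ‖x 1‖ ∨ rr x ≤ 3 := by
    rcases h with h | h
    · filter_upwards [(lam_coord 1).continuous.norm.continuousAt.eventually (lt_mem_nhds h)]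
        with x hx using Or.inl hx.le
    · filter_upwards [(sm_rr hq).contDiffAt.continuousAt.eventually (gt_mem_nhds h)]
        with x hx using Or.inr hx.le
  filter_upwards [e1, contDiff_rho2.continuous.continuousAt.eventually (lt_mem_nhds hq),
    contDiff_rho3.continuous.continuousAt.eventually (lt_mem_nhds h3)] with x h1 h2 h4
  obtain ⟨a1, a2, a3⟩ := hP.std h2 h1
  have e : 1 - Complex.normSq (x 0) * (rho2 x)⁻¹ = rho3 x / rho2 x := by
    rw [rho3]; field_simp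
  rw [Pot, a1, a2, a3, rr, Real.exp_neg, Real.exp_log h2, e, Real.log_div h4.ne' h2.ne']
  ring

theorem exists_Lm_grad : ∃ C₀ : ℝ, 0 ≤ C₀ ∧ ∀ (P : Par), P.OK → ∀ (c : ℂ) (m C : ℝ), ‖c‖ ≤ 1 →
    1 ≤ C → ∀ q ∈ O, Complex.normSq (q 0) * Real.exp (P.φ q) < 1 →
      (∀ a, nP q a ≤ C * √((jr (Pot P.ψ P.φ P.η) q).de a a).re) → ∀ X,
        |fderiv ℝ (Lm c m) q X| ≤ C₀ * C * √((jr (Pot P.ψ P.φ P.η) q).de X X).re := by
  obtain ⟨K, hK, hσ⟩ := exists_sig_grad
  refine ⟨6 + 2 * K, by linarith, fun P hP c m C hc hC q hq hs hn X => ?_⟩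
  have hρ := hq.2.1
  have hd : HasFDerivAt sig (fderiv ℝ sig q) q :=
    ((sm_sig hρ).contDiffAt.differentiableAt (by simp)).hasFDerivAt
  have hZ : HasFDerivAt (Zc c m) _ q :=
    (((hasFDerivAt_apply (𝕜 := ℝ) 2 q).add ((hasFDerivAt_apply (𝕜 := ℝ) 1 q).const_mul
      (m : ℂ))).add_const _).add ((Complex.ofRealCLM.hasFDerivAt.comp q (hd.const_sub 1)).mul
      ((hasFDerivAt_apply (𝕜 := ℝ) 0 q).const_mul (conj c)))
  have hre := re_Zc_ge hP (c := c) m hρ hs
  have hre' : 1 + ‖q 1 + m‖ ^ 2 / 2 ≤ ‖Zc c m q + 1‖ := by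
    have := Complex.re_le_norm (Zc c m q + 1)
    rw [Complex.normSq_eq_norm_sq] at hre
    simp only [Complex.add_re, Complex.one_re] at this
    linarith
  have h1 := lam_log_grad hZ (lam_ne (by have := Complex.normSq_nonneg (q 1 + m); linarith)) X
  set N := √((jr (Pot P.ψ P.φ P.η) q).de X X).re with hN
  have hN0 : 0 ≤ N := Real.sqrt_nonneg _
  have hn0 := nP_nonneg q X
  have a1 : ‖X 2 + m * X 1‖ ≤ (1 + ‖q 1 + m‖) * nP q X := by
    have e : X 2 + m * X 1 = -(rho2 q : ℂ) * sg q X + conj (q 1 + m) * X 1 := by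
      have : (rho2 q : ℂ) ≠ 0 := by exact_mod_cast hρ.ne'
      simp only [sg, map_add, Complex.conj_ofReal]
      field_simp
      ring
    rw [e]
    refine (norm_add_le _ _).trans ?_
    rw [norm_mul, norm_mul, norm_neg, Complex.norm_real, Real.norm_of_nonneg hρ.le,
      Complex.norm_conj]
    calc _ ≤ 1 * nP q X + ‖q 1 + m‖ * (1 * nP q X) := by
          gcongr
          · exact hq.2.2.le
          · exact norm_sg_le hρ X
          · exact (norm_one_le_nP hρ X).trans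
              (mul_le_mul_of_nonneg_right (Real.sqrt_le_one.2 hq.2.2.le) hn0)
      _ = _ := by ring
  have a2 : ‖((1 - sig q : ℝ) : ℂ) * (conj c * X 0) +
      conj c * q 0 * ((-fderiv ℝ sig q X : ℝ) : ℂ)‖ ≤ N + K * nP q X := by
    by_cases hA : ‖q 1‖ < 4 / 5 ∧ 2 < rr q
    · have e1 : sig =ᶠ[𝓝 q] fun _ => 1 := by
        filter_upwards [(lam_coord 1).continuous.norm.continuousAt.eventually (gt_mem_nhds hA.1),
          (sm_rr hρ).contDiffAt.continuousAt.eventually (lt_mem_nhds hA.2)] with x h1 h2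
          using sig_eq_one h1 h2
      rw [e1.fderiv_eq, e1.eq_of_nhds]
      simp only [sub_self, Complex.ofReal_zero, zero_mul, fderiv_fun_const, Pi.zero_apply,
        zero_apply, neg_zero, mul_zero, add_zero, norm_zero]
      positivity
    · have hA' : 3 / 4 < ‖q 1‖ ∨ rr q < 3 := by
        rw [not_and_or, not_lt, not_lt] at hA
        exact hA.imp (fun h => by linarith) fun h => by linarith
      rw [(hP.std hρ (hA'.imp le_of_lt le_of_lt)).1] at hs
      have b1 := lam_lt_of_std hρ hs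
      have b2 : 0 < rho3 q := sub_pos.2 b1
      have b3 : ‖q 0‖ ≤ 1 := by
        rw [Complex.normSq_eq_norm_sq] at b1
        nlinarith [hq.2.2, norm_nonneg (q 0)]
      have b4 : ‖X 0‖ ≤ N := by
        rw [hN, jr_congr (lam_std_germ hP hρ b2 hA'), jr_std_de b2]
        refine Real.le_sqrt_of_sq_le ?_
        have c1 : rho3 q ≤ 1 := by
          have := Complex.normSq_nonneg (q 0)
          rw [rho3]; linarith [hq.2.2]
        have c2 := Complex.normSq_nonneg (X 0)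
        have c3 := Complex.normSq_nonneg (X 1)
        have c4 := le_div_self (add_nonneg c2 c3) b2 c1
        have c5 := div_nonneg (Complex.normSq_nonneg (X 2 - conj (q 0) * X 0 - conj (q 1) * X 1))
          (sq_nonneg (rho3 q))
        rw [← Complex.normSq_eq_norm_sq]
        linarith
      obtain ⟨s1, s2⟩ := sig_mem q
      refine (norm_add_le _ _).trans ?_
      simp only [norm_mul, Complex.norm_real, Complex.norm_conj, norm_neg, Real.norm_eq_abs]
      rw [abs_of_nonneg (sub_nonneg.2 s2)]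
      calc _ ≤ 1 * (1 * N) + 1 * 1 * (K * nP q X) := by
            gcongr
            · linarith
            · exact hσ q hq X
        _ = _ := by ring
  have a3 : |fderiv ℝ (Lm c m) q X| * ‖Zc c m q + 1‖ ≤
      2 * ((1 + ‖q 1 + m‖) * nP q X + (N + K * nP q X)) := by
    refine h1.trans (mul_le_mul_of_nonneg_left
      (le_trans (le_of_eq ?_) ((norm_add_le _ _).trans (add_le_add a1 a2))) two_pos.le)
    simp
  have a4 := hn X
  rw [← hN] at a4
  have hw : 0 < ‖Zc c m q + 1‖ := by nlinarith [sq_nonneg ‖q 1 + ↑m‖]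
  refine le_of_mul_le_mul_right (a3.trans ?_) hw
  have a5 : 1 + ‖q 1 + m‖ ≤ 2 * ‖Zc c m q + 1‖ := by nlinarith [sq_nonneg (‖q 1 + ↑m‖ - 1)]
  have a6 : 1 ≤ ‖Zc c m q + 1‖ := by nlinarith [sq_nonneg ‖q 1 + ↑m‖]
  have a7 : N ≤ C * N := le_mul_of_one_le_left hN0 hC
  calc _ ≤ 2 * (2 * ‖Zc c m q + 1‖ * (C * N) + (C * N + K * (C * N)) * 1) := by
        rw [mul_one]; gcongr
    _ ≤ 2 * (2 * ‖Zc c m q + 1‖ * (C * N) + (C * N + K * (C * N)) * ‖Zc c m q + 1‖) := by
        gcongr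
    _ = _ := by ring

theorem std_grad {p : Fin 3 → ℂ} (hp : 0 < rho3 p) (X : Fin 3 → ℂ) :
    |fderiv ℝ (fun x : Fin 3 → ℂ => Real.log (Complex.normSq (x 2 + 1))) p X| ≤
      10 * √((jr (fun x => -Real.log (rho3 x)) p).de X X).re := by
  have e : rho3 p = 2 * (p 2).re - ‖p 1‖ ^ 2 - ‖p 0‖ ^ 2 := by
    simp only [rho3, rho2, rho, Complex.normSq_eq_norm_sq]
  have h0 : 0 ≤ (p 2).re := by nlinarith [sq_nonneg ‖p 1‖, sq_nonneg ‖p 0‖]
  have h1 := lam_log_grad (hasFDerivAt_apply (𝕜 := ℝ) 2 p) (lam_ne h0) X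
  have hw : (p 2).re + 1 ≤ ‖p 2 + 1‖ := by simpa using Complex.re_le_norm (p 2 + 1)
  rw [jr_std_de hp]
  simp only [Complex.normSq_eq_norm_sq]
  set N := √((‖X 0‖ ^ 2 + ‖X 1‖ ^ 2) / rho3 p +
    ‖X 2 - conj (p 0) * X 0 - conj (p 1) * X 1‖ ^ 2 / rho3 p ^ 2) with hN
  have hN0 : 0 ≤ N := Real.sqrt_nonneg _
  obtain ⟨r, hr0, hr⟩ : ∃ r, 0 < r ∧ rho3 p = r ^ 2 :=
    ⟨√(rho3 p), Real.sqrt_pos.2 hp, (Real.sq_sqrt hp.le).symm⟩
  have b : ∀ x y z : ℝ, x ^ 2 ≤ y → 0 ≤ z → x / r ≤ √(y / rho3 p + z) := fun x y z h hz =>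
    Real.le_sqrt_of_sq_le (by
      rw [div_pow, ← hr]; exact le_add_of_le_of_nonneg (by gcongr) hz)
  have b0 : ‖X 0‖ ≤ N * r :=
    (div_le_iff₀ hr0).1 (b _ _ _ (le_add_of_nonneg_right (sq_nonneg _)) (by positivity))
  have b1 : ‖X 1‖ ≤ N * r :=
    (div_le_iff₀ hr0).1 (b _ _ _ (le_add_of_nonneg_left (sq_nonneg _)) (by positivity))
  have b2 : ‖X 2 - conj (p 0) * X 0 - conj (p 1) * X 1‖ ≤ N * rho3 p :=
    (div_le_iff₀ hp).1 (Real.le_sqrt_of_sq_le (by
      rw [div_pow]; exact le_add_of_nonneg_left (by positivity)))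
  have b3 : ‖X 2‖ ≤ N * rho3 p + ‖p 0‖ * (N * r) + ‖p 1‖ * (N * r) := by
    calc ‖X 2‖ = ‖(X 2 - conj (p 0) * X 0 - conj (p 1) * X 1) + conj (p 0) * X 0 +
          conj (p 1) * X 1‖ := by congr 1; ring
      _ ≤ _ := by
        refine norm_add₃_le.trans ?_
        simp only [norm_mul, Complex.norm_conj]
        gcongr
  simp only [Complex.normSq_eq_norm_sq, ContinuousLinearMap.proj_apply] at h1
  refine le_of_mul_le_mul_right (h1.trans ?_) (by linarith : 0 < ‖p 2 + 1‖)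
  have b4 : rho3 p + ‖p 0‖ * r + ‖p 1‖ * r ≤ 5 * ‖p 2 + 1‖ := by
    nlinarith [sq_nonneg (‖p 0‖ - r), sq_nonneg (‖p 1‖ - r), sq_nonneg ‖p 1‖, sq_nonneg ‖p 0‖]
  nlinarith [mul_le_mul_of_nonneg_left b4 hN0]

end Crest.Agent.R245
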