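import Crest.Agent.R245.CoreDefs

/-!
# R245: the model curvature tensor is negative

Put `Iᵢ = Im (ξ i * conj (η i))`, `z = ξ 1 * conj (η 2) - η 1 * conj (ξ 2)`, `v = vv ξ η`.  Then
`|z|² = |ξ 1 η 2 - η 1 ξ 2|² + 4 I₁ I₂ ≥ max 0 (4 I₁ I₂)`, and for `G = dg x₁ x₂`
`S_G := Sf (G G + G G) = 2 (x₁ I₁ + x₂ I₂)² + 2 x₁² I₁² + 2 x₂² I₂² + x₁ x₂ |z|²`,
`Sf R0 = (1+τ)/A S_p + Φ S_g + 4/κ I₀² + m₁|v 1|² + m₂|v 2|² + 4 I₀ I_m`, `I_m = m₁ I₁ + m₂ I₂`.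
If `Re (ip ξ η) = 0` then `nn ξ² nn η² ≤ 2 (I₀² + I₁² + I₂²) + |z|² + |v 1|² + |v 2|²`
(the right side is `nn ξ² nn η² - Re ((ip ξ η)²)`) and the right side is `≤ 2 nn ξ² nn η²`.

Lower bound. `0 ≤ t ≤ s < 1`, `pᵢ ≤ 1 - t`, `gᵢ ≥ 1 - t`, `Φ = κ s / r² = τ + τ²/κ`.
* Claim A: with `xᵢ = gᵢ Iᵢ`, `((s+p₁)x₁ + (s+p₂)x₂)² ≤ (s (1 - t/2) + r²/2) S_g`.  (Same sign:
  `S_g ≥ 4 (x₁+x₂)²`, `(s+1-t)² ≤ 4s - 2st + 2(1-s)²`.  Opposite signs `x, -y`: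
  `S_g ≥ 4(x² - xy + y²)`, `(αx - βy)² ≤ 4/3 (α² - αβ + β²)(x² - xy + y²)` with
  `α = s + 1 - t, β = s`.)  Hence `κ I_m² ≤ (1 - t/2) Φ S_g + κ/2 S_g`.
* `4/κ I₀² + 4 I₀ I_m = sq² - κ I_m²`, `sq = 2 I₀/√κ + √κ I_m`; `κ S_g ≤ S_p` by `alt`
  (`S_g ≤ 3 T² S_p`).  So `Sf R0 ≥ S_p/2 + t/2 Φ S_g + sq² + m₁|v 1|² + m₂|v 2|²`.
* `pᵢ pⱼ/2 + t/2 Φ gᵢ gⱼ ≥ q/18` (`Φ gᵢ gⱼ ≥ t²/κ`; if `τ gᵢ > pᵢ` then `τ T > 1`,
  `t > 1/(2T)`, `t³/κ ≥ 1/8`), `mᵢ ≥ mh/5`, `κ mᵢ ≤ 4`, `κ q ≤ 2`, `q ≤ mh`,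
  `q I₀² ≤ sq² + 16 q (I₁² + I₂²)`.

Upper bound: `abs_Sf_le` with `(1+τ) pᵢ pⱼ ≤ 1`, `Φ gᵢ gⱼ ≤ T + 1/κ`, `mᵢ ≤ 2T + 2/κ`.
-/

set_option autoImplicit false

namespace Crest.Agent.R245

open scoped ComplexConjugate

theorem norm_ip_le (a b : Fin 3 → ℂ) : ‖ip a b‖ ≤ nn a * nn b := by
  have h0 := norm_nonneg (a 0); have h1 := norm_nonneg (a 1); have h2 := norm_nonneg (a 2)
  have k0 := norm_nonneg (b 0); have k1 := norm_nonneg (b 1); have k2 := norm_nonneg (b 2)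
  have h : ‖ip a b‖ ≤ ‖a 0‖ * ‖b 0‖ + ‖a 1‖ * ‖b 1‖ + ‖a 2‖ * ‖b 2‖ := by
    refine (norm_add₃_le).trans (le_of_eq ?_)
    simp only [norm_mul, Complex.norm_conj]
  refine h.trans (abs_le_of_sq_le_sq' ?_ (mul_nonneg (nn_nonneg a) (nn_nonneg b))).2
  rw [mul_pow, nn_sq, nn_sq]
  simp only [Complex.normSq_eq_norm_sq]
  nlinarith [sq_nonneg (‖a 0‖ * ‖b 1‖ - ‖a 1‖ * ‖b 0‖), sq_nonneg (‖a 0‖ * ‖b 2‖ - ‖a 2‖ * ‖b 0‖),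
    sq_nonneg (‖a 1‖ * ‖b 2‖ - ‖a 2‖ * ‖b 1‖)]

theorem norm_dg_le {x₁ x₂ X : ℝ} (h₁ : |x₁| ≤ X) (h₂ : |x₂| ≤ X) (a b : Fin 3 → ℂ) :
    ‖dg x₁ x₂ a b‖ ≤ X * (hn a * hn b) := by
  have hX : 0 ≤ X := (abs_nonneg _).trans h₁
  have h : ‖dg x₁ x₂ a b‖ ≤ X * (‖a 1‖ * ‖b 1‖ + ‖a 2‖ * ‖b 2‖) := by
    refine (norm_add_le _ _).trans ?_
    simp only [norm_mul, Complex.norm_conj, Complex.norm_real, Real.norm_eq_abs, mul_add]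
    gcongr
  refine h.trans (mul_le_mul_of_nonneg_left
    (abs_le_of_sq_le_sq' ?_ (mul_nonneg (hn_nonneg a) (hn_nonneg b))).2 hX)
  rw [mul_pow, hn_sq, hn_sq]
  simp only [Complex.normSq_eq_norm_sq]
  nlinarith [sq_nonneg (‖a 1‖ * ‖b 2‖ - ‖a 2‖ * ‖b 1‖)]

/-- `Im (ξ i * conj (η i))` -/
def m0I (ξ η : Fin 3 → ℂ) (i : Fin 3) : ℝ := (ξ i).im * (η i).re - (ξ i).re * (η i).im

/-- `|z|²` -/
def m0Z (ξ η : Fin 3 → ℂ) : ℝ := Complex.normSq (ξ 1 * conj (η 2) - η 1 * conj (ξ 2))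

/-- `|v i|²` -/
noncomputable def m0V (ξ η : Fin 3 → ℂ) (i : Fin 3) : ℝ := Complex.normSq (vv ξ η i)

/-- `S_G` -/
def m0S (x₁ x₂ I₁ I₂ Z : ℝ) : ℝ := 4 * ((x₁ * I₁) ^ 2 + x₁ * I₁ * (x₂ * I₂) + (x₂ * I₂) ^ 2) + x₁ * x₂ * Z

theorem m0Z_ge (ξ η : Fin 3 → ℂ) : 4 * (m0I ξ η 1 * m0I ξ η 2) ≤ m0Z ξ η := by
  have h : m0Z ξ η = Complex.normSq (ξ 1 * η 2 - η 1 * ξ 2) + 4 * (m0I ξ η 1 * m0I ξ η 2) := by
    simp only [m0Z, m0I, Complex.normSq_apply, Complex.sub_re, Complex.sub_im, Complex.mul_re,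
      Complex.mul_im, Complex.conj_re, Complex.conj_im]
    ring
  linarith [Complex.normSq_nonneg (ξ 1 * η 2 - η 1 * ξ 2)]

theorem m0_id (ξ η : Fin 3 → ℂ) :
    2 * (m0I ξ η 0 ^ 2 + m0I ξ η 1 ^ 2 + m0I ξ η 2 ^ 2) + m0Z ξ η + m0V ξ η 1 + m0V ξ η 2 =
      nn ξ ^ 2 * nn η ^ 2 - (ip ξ η).re ^ 2 + (ip ξ η).im ^ 2 := by
  simp only [nn_sq, m0Z, m0I, m0V, vv, ip, Pi.sub_apply, Pi.smul_apply, smul_eq_mul,
    Complex.normSq_apply, Complex.sub_re, Complex.sub_im, Complex.mul_re, Complex.add_re,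
    Complex.add_im, Complex.mul_im, Complex.conj_re, Complex.conj_im]
  ring

theorem m0_le (ξ η : Fin 3 → ℂ) :
    2 * (m0I ξ η 0 ^ 2 + m0I ξ η 1 ^ 2 + m0I ξ η 2 ^ 2) + m0Z ξ η + m0V ξ η 1 + m0V ξ η 2 ≤
      2 * (nn ξ ^ 2 * nn η ^ 2) := by
  have h := (Complex.abs_im_le_norm (ip ξ η)).trans (norm_ip_le ξ η)
  have h2 := sq_le_sq' (abs_le.1 h).1 (abs_le.1 h).2
  rw [m0_id]
  nlinarith [sq_nonneg (ip ξ η).re]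

theorem m0_Sf (F : (Fin 3 → ℂ) → (Fin 3 → ℂ) → (Fin 3 → ℂ) → (Fin 3 → ℂ) → ℂ) (ξ η : Fin 3 → ℂ) :
    Sf F ξ η = (F ξ ξ η η).re - ((F ξ η ξ η).re + (F η ξ η ξ).re) / 2 := by
  simp [Sf]

theorem m0_Sf_dg (k x₁ x₂ : ℝ) (ξ η : Fin 3 → ℂ) :
    Sf (fun a b c d => (k : ℂ) * (dg x₁ x₂ a b * dg x₁ x₂ c d + dg x₁ x₂ a d * dg x₁ x₂ c b)) ξ η =
      k * m0S x₁ x₂ (m0I ξ η 1) (m0I ξ η 2) (m0Z ξ η) := by
  simp only [m0_Sf, m0S, dg, m0Z, m0I, Complex.normSq_apply, Complex.sub_re, Complex.sub_im,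
    Complex.mul_re, Complex.add_re, Complex.add_im, Complex.mul_im, Complex.conj_re,
    Complex.conj_im, Complex.ofReal_re, Complex.ofReal_im]
  ring

theorem m0_Sf_vert (k : ℝ) (ξ η : Fin 3 → ℂ) :
    Sf (fun a b c d => (k : ℂ) * (a 0 * c 0 * conj (b 0) * conj (d 0))) ξ η =
      2 * k * m0I ξ η 0 ^ 2 := by
  simp only [m0_Sf, m0I, Complex.mul_re, Complex.mul_im, Complex.conj_re,
    Complex.conj_im, Complex.ofReal_re, Complex.ofReal_im]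
  ring

theorem m0_Sf_mix (x₁ x₂ : ℝ) (ξ η : Fin 3 → ℂ) :
    Sf (fun a b c d => a 0 * conj (b 0) * dg x₁ x₂ c d + a 0 * conj (d 0) * dg x₁ x₂ c b +
      c 0 * conj (b 0) * dg x₁ x₂ a d + c 0 * conj (d 0) * dg x₁ x₂ a b) ξ η =
      x₁ * m0V ξ η 1 + x₂ * m0V ξ η 2 + 4 * m0I ξ η 0 * (x₁ * m0I ξ η 1 + x₂ * m0I ξ η 2) := by
  simp only [m0_Sf, dg, m0V, vv, m0I, Pi.sub_apply, Pi.smul_apply, smul_eq_mul,
    Complex.normSq_apply, Complex.sub_re, Complex.sub_im,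
    Complex.mul_re, Complex.add_re, Complex.add_im, Complex.mul_im, Complex.conj_re,
    Complex.conj_im, Complex.ofReal_re, Complex.ofReal_im]
  ring

theorem m0_quad (a b x y : ℝ) :
    3 * (a * x + b * y) ^ 2 ≤ 4 * ((a ^ 2 - a * b + b ^ 2) * (x ^ 2 + x * y + y ^ 2)) := by
  nlinarith [sq_nonneg ((a - 2 * b) * x + (2 * a - b) * y)]

/-- Claim A -/
theorem m0_claimA {s t α β x y W : ℝ} (hs : 0 ≤ s) (hs1 : s ≤ 1) (ht : 0 ≤ t) (ht1 : t ≤ 1)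
    (hα : s ≤ α) (hα' : α ≤ s + 1 - t) (hβ : s ≤ β) (hβ' : β ≤ s + 1 - t) (hW : 0 ≤ W)
    (hW' : 4 * (x * y) ≤ W) :
    (α * x + β * y) ^ 2 ≤ (s * (1 - t / 2) + (1 - s) ^ 2 / 2) * (4 * (x ^ 2 + x * y + y ^ 2) + W) := by
  set M := s + 1 - t with hM
  set c := s * (1 - t / 2) + (1 - s) ^ 2 / 2 with hc
  have c1 : M ^ 2 ≤ 4 * c := by rw [hM, hc]; nlinarith [sq_nonneg (1 - s)]
  have c2 : M ^ 2 - M * s + s ^ 2 ≤ 3 * c := by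
    rw [hM, hc]; nlinarith [sq_nonneg (1 - s), mul_nonneg ht (show 0 ≤ 2 - t - s / 2 by linarith)]
  have c0 : 0 ≤ c := by nlinarith [sq_nonneg M]
  have hE : 0 ≤ x ^ 2 + x * y + y ^ 2 := by nlinarith [sq_nonneg (x + y), sq_nonneg x, sq_nonneg y]
  have same : ∀ L, L ^ 2 ≤ (M * (x + y)) ^ 2 → L ^ 2 ≤ c * (4 * (x ^ 2 + x * y + y ^ 2) + W) := by
    intro L hL
    have h1 := mul_le_mul_of_nonneg_right c1 (sq_nonneg (x + y))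
    have h2 := mul_le_mul_of_nonneg_left hW' c0
    nlinarith
  have opp : ∀ L, (L ^ 2 ≤ (M * x + s * y) ^ 2 ∨ L ^ 2 ≤ (s * x + M * y) ^ 2) →
      L ^ 2 ≤ c * (4 * (x ^ 2 + x * y + y ^ 2) + W) := by
    intro L hL
    have h1 := mul_le_mul_of_nonneg_right c2 hE
    have h2 := mul_nonneg c0 hW
    have h3 := m0_quad M s x y
    have h4 := m0_quad s M x y
    rcases hL with hL | hL <;> nlinarith
  have between : ∀ L a b : ℝ, a ≤ L → L ≤ b → L ^ 2 ≤ a ^ 2 ∨ L ^ 2 ≤ b ^ 2 := by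
    intro L a b h1 h2
    rcases le_total 0 L with h | h
    · right; nlinarith
    · left; nlinarith
  have a1 := sub_nonneg.2 hα; have a2 := sub_nonneg.2 hα'
  have b1 := sub_nonneg.2 hβ; have b2 := sub_nonneg.2 hβ'
  rcases le_total 0 x with hx | hx <;> rcases le_total 0 y with hy | hy
  · refine same _ (sq_le_sq' ?_ ?_) <;>
      nlinarith [mul_nonneg a1 hx, mul_nonneg a2 hx, mul_nonneg b1 hy, mul_nonneg b2 hy,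
        mul_nonneg hs hx, mul_nonneg hs hy]
  · refine opp _ (between _ _ _ ?_ ?_).symm <;>
      nlinarith [mul_nonneg a1 hx, mul_nonneg a2 hx, mul_nonneg b1 (neg_nonneg.2 hy),
        mul_nonneg b2 (neg_nonneg.2 hy)]
  · refine opp _ (between _ _ _ ?_ ?_) <;>
      nlinarith [mul_nonneg a1 (neg_nonneg.2 hx), mul_nonneg a2 (neg_nonneg.2 hx),
        mul_nonneg b1 hy, mul_nonneg b2 hy]
  · refine same _ ?_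
    rw [← neg_sq, ← neg_sq (M * _)]
    refine sq_le_sq' ?_ ?_ <;>
      nlinarith [mul_nonneg a1 (neg_nonneg.2 hx), mul_nonneg a2 (neg_nonneg.2 hx),
        mul_nonneg b1 (neg_nonneg.2 hy), mul_nonneg b2 (neg_nonneg.2 hy),
        mul_nonneg hs (neg_nonneg.2 hx), mul_nonneg hs (neg_nonneg.2 hy)]

theorem m0S_ge {x₁ x₂ I₁ I₂ Z : ℝ} :
    2 * (x₁ * x₁) * I₁ ^ 2 + 2 * (x₂ * x₂) * I₂ ^ 2 + x₁ * x₂ * Z ≤ m0S x₁ x₂ I₁ I₂ Z := by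
  rw [m0S]; nlinarith [sq_nonneg (x₁ * I₁ + x₂ * I₂)]

theorem m0S_le {x₁ x₂ I₁ I₂ Z : ℝ} :
    m0S x₁ x₂ I₁ I₂ Z ≤ 6 * (x₁ * x₁) * I₁ ^ 2 + 6 * (x₂ * x₂) * I₂ ^ 2 + x₁ * x₂ * Z := by
  rw [m0S]; nlinarith [sq_nonneg (x₁ * I₁ - x₂ * I₂)]

theorem hn_vv_le (ξ η : Fin 3 → ℂ) : hn (vv ξ η) ≤ 2 * (nn ξ * nn η) := by
  refine (abs_le_of_sq_le_sq' ?_ (by have := nn_nonneg ξ; have := nn_nonneg η; positivity)).2
  have h := m0_le ξ η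
  have h1 : 0 ≤ m0Z ξ η := Complex.normSq_nonneg _
  rw [hn_sq]
  simp only [m0V] at h
  nlinarith [sq_nonneg (m0I ξ η 0), sq_nonneg (m0I ξ η 1), sq_nonneg (m0I ξ η 2),
    sq_nonneg (nn ξ * nn η)]

theorem m0_A {κ T p₁ p₂ g₁ g₂ I₁ I₂ Z : ℝ} (hκ : 0 < κ) (hκ1 : κ ≤ 1) (hT : 1 ≤ T) (hp₁ : 0 < p₁)
    (hp₂ : 0 < p₂) (hg₁ : 0 < g₁) (hg₂ : 0 < g₂) (u₁ : g₁ ≤ T * p₁) (u₂ : g₂ ≤ T * p₂) (hZ0 : 0 ≤ Z)
    (alt : (g₁ = p₁ ∧ g₂ = p₂) ∨ 3 * κ * T ^ 2 ≤ 1) :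
    κ * m0S g₁ g₂ I₁ I₂ Z ≤ m0S p₁ p₂ I₁ I₂ Z := by
  have lp := m0S_ge (x₁ := p₁) (x₂ := p₂) (I₁ := I₁) (I₂ := I₂) (Z := Z)
  have ug := m0S_le (x₁ := g₁) (x₂ := g₂) (I₁ := I₁) (I₂ := I₂) (Z := Z)
  have Sp0 : 0 ≤ m0S p₁ p₂ I₁ I₂ Z := le_trans (by positivity) lp
  rcases alt with ⟨h1, h2⟩ | h1
  · rw [h1, h2]; exact mul_le_of_le_one_left Sp0 hκ1
  · have k11 : g₁ * g₁ ≤ T * p₁ * (T * p₁) := mul_le_mul u₁ u₁ hg₁.le (by positivity)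
    have k22 : g₂ * g₂ ≤ T * p₂ * (T * p₂) := mul_le_mul u₂ u₂ hg₂.le (by positivity)
    have k12 : g₁ * g₂ ≤ T * p₁ * (T * p₂) := mul_le_mul u₁ u₂ hg₂.le (by positivity)
    have k1 := mul_le_mul_of_nonneg_right k11 (sq_nonneg I₁)
    have k2 := mul_le_mul_of_nonneg_right k22 (sq_nonneg I₂)
    have k3 := mul_le_mul_of_nonneg_right k12 hZ0
    have k4 := mul_le_mul_of_nonneg_left lp (by positivity : 0 ≤ 3 * T ^ 2)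
    have k5 : 0 ≤ T * p₁ * (T * p₂) * Z := by positivity
    have k : m0S g₁ g₂ I₁ I₂ Z ≤ 3 * T ^ 2 * m0S p₁ p₂ I₁ I₂ Z := by linarith
    have k6 := mul_le_mul_of_nonneg_left k hκ.le
    have k7 := mul_le_mul_of_nonneg_right h1 Sp0
    linarith

theorem m0_C {κ τ t p g p' g' : ℝ} (hκ : 0 < κ) (hτ : 0 ≤ τ) (t0 : 0 ≤ t) (k1 : 0 < p) (k2 : 0 < p')
    (k3 : 0 < g) (k4 : 0 < g') (k5 : t ≤ τ * g) (k6 : t ≤ τ * g')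
    (k7 : 1 / 2 ≤ p ∨ 1 / 8 ≤ t ^ 3 / κ) (k8 : 1 / 2 ≤ p' ∨ 1 / 8 ≤ t ^ 3 / κ) :
    (1 + t ^ 3 / κ) / 18 ≤ p * p' / 2 + t / 2 * (τ + τ ^ 2 / κ) * (g * g') := by
  have k9 : t ^ 3 / κ ≤ t * (τ + τ ^ 2 / κ) * (g * g') := by
    rw [show t * (τ + τ ^ 2 / κ) * (g * g') = t * τ * (g * g') + t * (τ * g * (τ * g')) / κ by ring]
    refine le_add_of_nonneg_of_le (by positivity) ?_
    rw [pow_succ', pow_two]
    gcongr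
  have k10 : 0 ≤ t ^ 3 / κ := by positivity
  have k11 := mul_pos k1 k2
  rcases k7 with k7 | k7
  · rcases k8 with k8 | k8
    · linarith [mul_le_mul k7 k8 (by norm_num) k1.le]
    · linarith
  · linarith

theorem m0_G {κ q a b I₀ I₁ I₂ : ℝ} (hκ : 0 < κ) (hq : 0 ≤ q) (hq2 : κ * q ≤ 2) (ha : 0 ≤ κ * a)
    (ha' : κ * a ≤ 4) (hb : 0 ≤ κ * b) (hb' : κ * b ≤ 4) :
    ∃ Y, 0 ≤ Y ∧ 2 * (2 / κ) * I₀ ^ 2 + 4 * I₀ * (a * I₁ + b * I₂) = Y - κ * (a * I₁ + b * I₂) ^ 2 ∧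
      q * I₀ ^ 2 ≤ Y + 16 * q * (I₁ ^ 2 + I₂ ^ 2) := by
  refine ⟨(2 * I₀ + κ * (a * I₁ + b * I₂)) ^ 2 / κ, by positivity, by field_simp; ring, ?_⟩
  have hY0 : 0 ≤ (2 * I₀ + κ * (a * I₁ + b * I₂)) ^ 2 / κ := by positivity
  have k1 : κ * ((2 * I₀ + κ * (a * I₁ + b * I₂)) ^ 2 / κ) =
      (2 * I₀ + (κ * a * I₁ + κ * b * I₂)) ^ 2 := by field_simp
  generalize (2 * I₀ + κ * (a * I₁ + b * I₂)) ^ 2 / κ = Y at *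
  generalize κ * a = x at *
  generalize κ * b = y at *
  have k3 := mul_le_mul_of_nonneg_right (pow_le_pow_left₀ ha ha' 2) (sq_nonneg I₁)
  have k4 := mul_le_mul_of_nonneg_right (pow_le_pow_left₀ hb hb' 2) (sq_nonneg I₂)
  have k2 : (x * I₁ + y * I₂) ^ 2 ≤ 32 * (I₁ ^ 2 + I₂ ^ 2) := by
    linarith [sq_nonneg (x * I₁ - y * I₂)]
  have k5 : I₀ ^ 2 ≤ κ * Y / 2 + 16 * (I₁ ^ 2 + I₂ ^ 2) := by
    linarith [sq_nonneg (2 * I₀ + 2 * (x * I₁ + y * I₂))]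
  linarith [mul_le_mul_of_nonneg_left k5 hq, mul_le_mul_of_nonneg_right hq2 hY0]

namespace Fr

variable {f : Fr}

theorem OK.s_nonneg (_ : f.OK) : 0 ≤ f.s := Complex.normSq_nonneg _
theorem OK.r_pos (h : f.OK) : 0 < f.r := sub_pos.2 h.s_lt
theorem OK.τ_nonneg (h : f.OK) : 0 ≤ f.τ :=
  div_nonneg (mul_nonneg h.κ_pos.le h.s_nonneg) h.r_pos.le

theorem OK.t_bounds (h : f.OK) : 0 ≤ f.t ∧ f.t < 1 ∧ f.t ≤ f.s := by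
  have h1 := h.τ_nonneg
  have h2 := h.r_pos
  have h3 : f.τ * f.r = f.κ * f.s := by rw [τ]; field_simp
  refine ⟨div_nonneg h1 (by linarith), (div_lt_one (by linarith)).2 (by linarith), ?_⟩
  rw [t, div_le_iff₀ (by linarith)]
  rw [r] at h3
  nlinarith [h.s_nonneg, h.κ_le]

/-- elementary relations between the parameters -/
theorem OK.facts (h : f.OK) : 1 / f.r = 1 + f.τ / f.κ ∧ f.Φ = f.τ + f.τ ^ 2 / f.κ ∧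
    Complex.normSq f.μ = f.Φ ∧ 1 / (1 + f.τ) = 1 - f.t ∧ f.p₁ ≤ 1 - f.t ∧ f.p₂ ≤ 1 - f.t ∧
    1 ≤ f.q ∧ f.q ≤ f.mh ∧ f.mh ≤ 2 / f.κ ∧ f.Φ * (1 - f.t) ^ 2 ≤ f.t * f.mh := by
  have h1 := h.τ_nonneg
  have h2 := h.r_pos
  have hκ := h.κ_pos
  obtain ⟨t0, t1, ts⟩ := h.t_bounds
  have e1 : 1 / f.r = 1 + f.τ / f.κ := by
    have : f.s = 1 - f.r := by rw [r]; ring
    rw [τ, this]; field_simp; ring
  have e2 : f.Φ = f.τ + f.τ ^ 2 / f.κ := by rw [Φ, div_eq_mul_one_div f.τ, e1]; ring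
  have e4 : 1 / (1 + f.τ) = 1 - f.t := by rw [t]; field_simp; ring
  have e5 : f.τ * (1 - f.t) = f.t := by rw [← e4, t]; ring
  have hp : ∀ p g : ℝ, p + f.τ * g = 1 → p ≤ g → p ≤ 1 - f.t := fun p g h3 h4 => by
    rw [← e4, le_div_iff₀ (by linarith)]; nlinarith
  have t3 : f.t ^ 3 ≤ f.t := by nlinarith [mul_nonneg t0 t0]
  refine ⟨e1, e2, ?_, e4, hp _ _ h.e₁ h.l₁, hp _ _ h.e₂ h.l₂, ?_, ?_, ?_, ?_⟩
  · rw [μ, map_mul, Complex.normSq_conj, Complex.normSq_ofReal, Φ, τ, ← pow_two, div_pow,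
      Real.sq_sqrt hκ.le, s]
    field_simp
  · rw [q]; have : 0 ≤ f.t ^ 3 / f.κ := by positivity
    linarith
  · rw [q, mh]; gcongr
  · rw [mh, le_div_iff₀ hκ, add_mul, div_mul_cancel₀ _ hκ.ne']; linarith [h.κ_le]
  · rw [e2, mh]
    have : (f.τ + f.τ ^ 2 / f.κ) * (1 - f.t) ^ 2 =
        f.τ * (1 - f.t) * (1 - f.t) + (f.τ * (1 - f.t)) ^ 2 / f.κ := by ring
    rw [this, e5]
    have : f.t * (1 + f.t / f.κ) = f.t + f.t ^ 2 / f.κ := by ring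
    nlinarith [mul_nonneg t0 t0]

theorem m0_R0 (f : Fr) (ξ η : Fin 3 → ℂ) : Sf f.R0 ξ η =
    (1 + f.τ) / f.A * m0S f.p₁ f.p₂ (m0I ξ η 1) (m0I ξ η 2) (m0Z ξ η) +
    f.Φ * m0S f.g₁ f.g₂ (m0I ξ η 1) (m0I ξ η 2) (m0Z ξ η) + 2 * (2 / f.κ) * m0I ξ η 0 ^ 2 +
    (f.m₁ * m0V ξ η 1 + f.m₂ * m0V ξ η 2 +
      4 * m0I ξ η 0 * (f.m₁ * m0I ξ η 1 + f.m₂ * m0I ξ η 2)) := by
  rw [← m0_Sf_dg, ← m0_Sf_dg, ← m0_Sf_vert, ← m0_Sf_mix, ← Sf_add, ← Sf_add, ← Sf_add]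
  rfl

/-- facts about one horizontal direction -/
theorem OK.m0_dir (h : f.OK) {p g : ℝ} (hp : 0 < p) (e : p + f.τ * g = 1) (l : p ≤ g)
    (u : g ≤ f.T * p) : p ≤ 1 - f.t ∧ f.t ≤ f.τ * g ∧ (1 / 2 ≤ p ∨ 1 / 8 ≤ f.t ^ 3 / f.κ) ∧
      f.mh / 4 ≤ g / f.r * (f.s + p) ∧ f.κ * (g / f.r * (f.s + p)) ≤ 4 ∧
      g / f.r * (f.s + p) ≤ 2 * (f.T + 1 / f.κ) ∧ g ≤ f.T ∧ f.τ * g ≤ 1 := by
  have h1 := h.τ_nonneg
  have h2 := h.r_pos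
  have hκ := h.κ_pos
  have hκ1 := h.κ_le
  have hT := h.T_ge
  have hs := h.s_nonneg
  have hs1 := h.s_lt
  obtain ⟨t0, t1, ts⟩ := h.t_bounds
  obtain ⟨e1, -, -, e4, -⟩ := h.facts
  have e5 : f.τ * (1 - f.t) = f.t := by rw [← e4, t]; ring
  have hp1 : p ≤ 1 - f.t := by rw [← e4, le_div_iff₀ (by linarith)]; nlinarith
  have hg1 : 1 - f.t ≤ g := by rw [← e4, div_le_iff₀ (by linarith)]; nlinarith
  have hg0 : 0 < g := hp.trans_le l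
  have hgT : g ≤ f.T := by nlinarith
  have hτg : f.τ * g ≤ 1 := by linarith
  have hκT : f.κ * f.T ≤ 1 := by
    have : f.T ≤ f.T ^ 3 := le_self_pow₀ hT (by norm_num)
    nlinarith [h.κT]
  have eg : g / f.r = g + f.τ * g / f.κ := by rw [div_eq_mul_one_div g, e1]; ring
  have big : p < 1 / 2 → 1 < f.τ * f.T := fun hlt => by
    by_contra hn
    push Not at hn
    nlinarith [mul_le_mul_of_nonneg_left u h1, mul_le_mul_of_nonneg_right hn hp.le]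
  have htg : f.t ≤ f.τ * g := by nlinarith [mul_le_mul_of_nonneg_left hg1 h1]
  have hgr : g / f.r ≤ f.T + 1 / f.κ := by rw [eg]; gcongr
  have hgr0 : 0 ≤ g / f.r := by positivity
  refine ⟨hp1, htg, ?_, ?_, ?_, by nlinarith, hgT, hτg⟩
  · by_cases hlt : p < 1 / 2
    · right
      have h3 := big hlt
      have h4 : 1 ≤ 2 * f.T * f.t := by
        have : (1 + f.τ) * f.t = f.τ := by linarith
        have h5 : (1 + f.τ) * 1 ≤ (1 + f.τ) * (2 * f.T * f.t) := by nlinarith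
        exact le_of_mul_le_mul_left h5 (by linarith)
      have h5 : 1 ≤ (2 * f.T * f.t) ^ 3 := one_le_pow₀ h4
      rw [le_div_iff₀ hκ]
      have h6 : 0 ≤ f.t ^ 3 := by positivity
      nlinarith [mul_le_mul_of_nonneg_right h.κT h6, mul_le_mul_of_nonneg_left h5 hκ.le]
    · exact Or.inl (not_lt.1 hlt)
  · have h3 : 1 / 2 ≤ f.s + p := by
      by_cases hlt : p < 1 / 2
      · have h3 := big hlt
        have h4 : f.τ * f.r = f.κ * f.s := by rw [τ]; field_simp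
        have h5 : f.r < f.s := by nlinarith [mul_le_mul_of_nonneg_right hκT hs]
        rw [r] at h5; linarith
      · linarith [not_lt.1 hlt]
    have h4 : f.t ≤ f.t / f.κ := by rw [le_div_iff₀ hκ]; nlinarith
    have h5 : f.t / f.κ ≤ f.τ * g / f.κ := by gcongr
    have h6 : f.mh / 2 ≤ g / f.r := by rw [eg, mh]; linarith
    nlinarith
  · have h3 : f.κ * (g / f.r) ≤ 2 := by
      rw [eg, mul_add, mul_div_cancel₀ _ hκ.ne']; nlinarith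
    nlinarith [mul_nonneg hκ.le hgr0]

theorem OK.main_lower (h : f.OK) (ξ η : Fin 3 → ℂ) (h0 : (ip ξ η).re = 0) :
    f.Q ξ η / 1000 ≤ Sf f.R0 ξ η := by
  have hτ := h.τ_nonneg
  have hr := h.r_pos
  have hκ := h.κ_pos
  have hκ1 := h.κ_le
  have hT := h.T_ge
  have hs := h.s_nonneg
  have hp₁ := h.p₁_pos
  have hp₂ := h.p₂_pos
  have hg₁ := hp₁.trans_le h.l₁
  have hg₂ := hp₂.trans_le h.l₂
  obtain ⟨t0, t1, ts⟩ := h.t_bounds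
  obtain ⟨e1, e2, -, e4, -, -, q1, qm, -⟩ := h.facts
  obtain ⟨a1, a2, a3, a4, a5, -⟩ := h.m0_dir hp₁ h.e₁ h.l₁ h.u₁
  obtain ⟨b1, b2, b3, b4, b5, -⟩ := h.m0_dir hp₂ h.e₂ h.l₂ h.u₂
  have hN := m0_id ξ η
  have hZ := m0Z_ge ξ η
  have hZ0 : 0 ≤ m0Z ξ η := Complex.normSq_nonneg _
  have hV1 : 0 ≤ m0V ξ η 1 := Complex.normSq_nonneg _
  have hV2 : 0 ≤ m0V ξ η 2 := Complex.normSq_nonneg _
  have hQ : f.Q ξ η = f.q * (nn ξ ^ 2 * nn η ^ 2) + f.mh * (m0V ξ η 1 + m0V ξ η 2) := by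
    rw [Q, hn_sq]; rfl
  rw [m0_R0, hQ]
  rw [h0] at hN
  change f.mh / 4 ≤ f.m₁ at a4
  change f.κ * f.m₁ ≤ 4 at a5
  change f.mh / 4 ≤ f.m₂ at b4
  change f.κ * f.m₂ ≤ 4 at b5
  have hN' : nn ξ ^ 2 * nn η ^ 2 ≤ 2 * (m0I ξ η 0 ^ 2 + m0I ξ η 1 ^ 2 + m0I ξ η 2 ^ 2) + m0Z ξ η +
      m0V ξ η 1 + m0V ξ η 2 := by rw [hN]; nlinarith [sq_nonneg (ip ξ η).im]
  generalize nn ξ ^ 2 * nn η ^ 2 = N at *
  generalize m0I ξ η 0 = I₀ at *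
  generalize m0I ξ η 1 = I₁ at *
  generalize m0I ξ η 2 = I₂ at *
  generalize m0Z ξ η = Z at *
  generalize m0V ξ η 1 = V₁ at *
  generalize m0V ξ η 2 = V₂ at *
  have lp := m0S_ge (x₁ := f.p₁) (x₂ := f.p₂) (I₁ := I₁) (I₂ := I₂) (Z := Z)
  have lg := m0S_ge (x₁ := f.g₁) (x₂ := f.g₂) (I₁ := I₁) (I₂ := I₂) (Z := Z)
  have Sp0 : 0 ≤ m0S f.p₁ f.p₂ I₁ I₂ Z := le_trans (by positivity) lp
  have hA := m0_A (I₁ := I₁) (I₂ := I₂) hκ hκ1 hT hp₁ hp₂ hg₁ hg₂ h.u₁ h.u₂ hZ0 h.alt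
  -- Claim A
  have hB : f.κ * (f.m₁ * I₁ + f.m₂ * I₂) ^ 2 ≤
      ((1 - f.t / 2) * f.Φ + f.κ / 2) * m0S f.g₁ f.g₂ I₁ I₂ Z := by
    have k := m0_claimA (α := f.s + f.p₁) (β := f.s + f.p₂) (x := f.g₁ * I₁) (y := f.g₂ * I₂)
      (W := f.g₁ * f.g₂ * Z) hs h.s_lt.le t0 t1.le (by linarith) (by linarith) (by linarith)
      (by linarith) (by positivity)
      (by linarith [mul_le_mul_of_nonneg_left hZ (mul_pos hg₁ hg₂).le])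
    have k2 := mul_le_mul_of_nonneg_left k (by positivity : 0 ≤ f.κ / f.r ^ 2)
    refine le_of_eq_of_le ?_ (k2.trans_eq ?_)
    · rw [m₁, m₂]; field_simp
    · rw [m0S, Φ, τ, show 1 - f.s = f.r from rfl]; field_simp
  have c11 := mul_le_mul_of_nonneg_right (m0_C hκ hτ t0 hp₁ hp₁ hg₁ hg₁ a2 a2 a3 a3) (sq_nonneg I₁)
  have c22 := mul_le_mul_of_nonneg_right (m0_C hκ hτ t0 hp₂ hp₂ hg₂ hg₂ b2 b2 b3 b3) (sq_nonneg I₂)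
  have c12 := mul_le_mul_of_nonneg_right (m0_C hκ hτ t0 hp₁ hp₂ hg₁ hg₂ a2 b2 a3 b3) hZ0
  rw [← e2, show 1 + f.t ^ 3 / f.κ = f.q from rfl] at c11 c22 c12
  have hΦ : 0 ≤ f.Φ := by rw [e2]; positivity
  have hD : f.q / 9 * (I₁ ^ 2 + I₂ ^ 2) + f.q / 18 * Z ≤
      m0S f.p₁ f.p₂ I₁ I₂ Z / 2 + f.t / 2 * f.Φ * m0S f.g₁ f.g₂ I₁ I₂ Z := by
    have := mul_le_mul_of_nonneg_left lg (by positivity : 0 ≤ f.t / 2 * f.Φ)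
    linarith
  have hE : m0S f.p₁ f.p₂ I₁ I₂ Z ≤ (1 + f.τ) / f.A * m0S f.p₁ f.p₂ I₁ I₂ Z :=
    le_mul_of_one_le_left Sp0 ((one_le_div h.A_pos).2 (by linarith [h.A_le]))
  have hm₁ : 0 ≤ f.κ * f.m₁ := by rw [m₁]; positivity
  have hm₂ : 0 ≤ f.κ * f.m₂ := by rw [m₂]; positivity
  have k0 : f.κ * f.q ≤ 2 := by
    rw [q, mul_add, mul_div_cancel₀ _ hκ.ne']
    linarith [pow_le_one₀ t0 t1.le (n := 3)]
  obtain ⟨Y, hY0, hF, hG⟩ := m0_G (I₀ := I₀) (I₁ := I₁) (I₂ := I₂) hκ (by linarith : 0 ≤ f.q) k0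
    hm₁ a5 hm₂ b5
  have k1 := mul_le_mul_of_nonneg_left hN' (by linarith : 0 ≤ f.q)
  have k2 := mul_le_mul_of_nonneg_right a4 hV1
  have k3 := mul_le_mul_of_nonneg_right b4 hV2
  have k4 := mul_le_mul_of_nonneg_right qm (add_nonneg hV1 hV2)
  have k5 := mul_nonneg (by linarith : 0 ≤ f.q) (add_nonneg (sq_nonneg I₁) (sq_nonneg I₂))
  have k6 := mul_nonneg (by linarith : 0 ≤ f.q) hZ0
  have k7 := mul_nonneg (by linarith : 0 ≤ f.mh) (add_nonneg hV1 hV2)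
  linarith

theorem OK.main_upper (h : f.OK) (ξ η : Fin 3 → ℂ) :
    Sf f.R0 ξ η ≤ 40 * (1 / f.A + f.T + 1 / f.κ) * (nn ξ ^ 2 * nn η ^ 2) := by
  have hτ := h.τ_nonneg
  have hr := h.r_pos
  have hκ := h.κ_pos
  have hA := h.A_pos
  have hT := h.T_ge
  have hs := h.s_nonneg
  have hp₁ := h.p₁_pos
  have hp₂ := h.p₂_pos
  have hg₁ := hp₁.trans_le h.l₁
  have hg₂ := hp₂.trans_le h.l₂
  obtain ⟨t0, t1, ts⟩ := h.t_bounds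
  obtain ⟨e1, e2, -, e4, -⟩ := h.facts
  obtain ⟨a1, -, -, -, -, a6, a7, a8⟩ := h.m0_dir hp₁ h.e₁ h.l₁ h.u₁
  obtain ⟨b1, -, -, -, -, b6, b7, b8⟩ := h.m0_dir hp₂ h.e₂ h.l₂ h.u₂
  have hN := m0_le ξ η
  have hZ0 : 0 ≤ m0Z ξ η := Complex.normSq_nonneg _
  have hV1 : 0 ≤ m0V ξ η 1 := Complex.normSq_nonneg _
  have hV2 : 0 ≤ m0V ξ η 2 := Complex.normSq_nonneg _
  rw [m0_R0]
  change f.m₁ ≤ _ at a6
  change f.m₂ ≤ _ at b6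
  have hm₁ : 0 ≤ f.m₁ := by rw [m₁]; positivity
  have hm₂ : 0 ≤ f.m₂ := by rw [m₂]; positivity
  generalize nn ξ ^ 2 * nn η ^ 2 = N at *
  generalize m0I ξ η 0 = I₀ at *
  generalize m0I ξ η 1 = I₁ at *
  generalize m0I ξ η 2 = I₂ at *
  generalize m0Z ξ η = Z at *
  generalize m0V ξ η 1 = V₁ at *
  generalize m0V ξ η 2 = V₂ at *
  have hI₀ := sq_nonneg I₀
  have hI₁ := sq_nonneg I₁
  have hI₂ := sq_nonneg I₂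
  have gen : ∀ k x₁ x₂ X : ℝ, 0 ≤ k → 0 ≤ X → k * (x₁ * x₁) ≤ X → k * (x₂ * x₂) ≤ X →
      k * (x₁ * x₂) ≤ X → k * m0S x₁ x₂ I₁ I₂ Z ≤ 6 * (X * N) := by
    intro k x₁ x₂ X k0 k1 k2 k3 k4
    have k5 := mul_le_mul_of_nonneg_left
      (m0S_le (x₁ := x₁) (x₂ := x₂) (I₁ := I₁) (I₂ := I₂) (Z := Z)) k0
    have k6 := mul_le_mul_of_nonneg_right k2 hI₁
    have k7 := mul_le_mul_of_nonneg_right k3 hI₂
    have k8 := mul_le_mul_of_nonneg_right k4 hZ0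
    have k9 := mul_le_mul_of_nonneg_left
      (show 6 * I₁ ^ 2 + 6 * I₂ ^ 2 + Z ≤ 6 * N by linarith) k1
    linarith
  have kp : ∀ p p' : ℝ, 0 < p → 0 < p' → p ≤ 1 - f.t → p' ≤ 1 - f.t →
      (1 + f.τ) / f.A * (p * p') ≤ 1 / f.A := by
    intro p p' k1 k2 k3 k4
    rw [← e4, le_div_iff₀ (by linarith)] at k3
    rw [div_mul_eq_mul_div]
    gcongr
    nlinarith
  have kg : ∀ g g' : ℝ, 0 < g → 0 < g' → f.τ * g ≤ 1 → f.τ * g' ≤ 1 → g' ≤ f.T →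
      f.Φ * (g * g') ≤ f.T + 1 / f.κ := by
    intro g g' k1 k2 k3 k4 k5
    have : f.Φ * (g * g') = f.τ * g * g' + f.τ * g * (f.τ * g') / f.κ := by rw [e2]; ring
    rw [this]
    refine add_le_add (by nlinarith) ?_
    gcongr
    nlinarith [mul_nonneg hτ k1.le]
  have hΦ : 0 ≤ f.Φ := by rw [e2]; positivity
  have k1 := gen _ _ _ _ (by positivity) (by positivity) (kp _ _ hp₁ hp₁ a1 a1)
    (kp _ _ hp₂ hp₂ b1 b1) (kp _ _ hp₁ hp₂ a1 b1)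
  have k2 := gen _ _ _ _ hΦ (by positivity) (kg _ _ hg₁ hg₁ a8 a8 a7)
    (kg _ _ hg₂ hg₂ b8 b8 b7) (kg _ _ hg₁ hg₂ a8 b8 b7)
  have hN0 : 0 ≤ N := by linarith
  have k3 : 2 * (2 / f.κ) * I₀ ^ 2 ≤ 4 * (1 / f.κ * N) := by
    have := mul_le_mul_of_nonneg_left (show I₀ ^ 2 ≤ N by linarith) (by positivity : 0 ≤ 1 / f.κ)
    calc _ = 4 * (1 / f.κ * I₀ ^ 2) := by ring
      _ ≤ _ := by linarith
  have km : ∀ m V I : ℝ, 0 ≤ m → m ≤ 2 * (f.T + 1 / f.κ) → V + 2 * (I₀ ^ 2 + I ^ 2) ≤ 2 * N →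
      m * V + 4 * I₀ * (m * I) ≤ 2 * (f.T + 1 / f.κ) * (2 * N) := fun m V I k1 k2 k3 => by
    linarith [mul_nonneg k1 (sq_nonneg (I₀ - I)), mul_le_mul_of_nonneg_left k3 k1,
      mul_le_mul_of_nonneg_right k2 hN0]
  have k4 := km _ V₁ I₁ hm₁ a6 (by linarith)
  have k5 := km _ V₂ I₂ hm₂ b6 (by linarith)
  have k6 : 0 ≤ 1 / f.A * N := by positivity
  have k7 : 0 ≤ f.T * N := by positivity
  have k8 : 0 ≤ 1 / f.κ * N := by positivity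
  linarith

end Fr

end Crest.Agent.R245
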