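import Crest.Agent.R245.Main0

/-!
# R245: perturbation of the model tensor

Let `B` be a Christoffel map of `u`, `B' = B - B0` (`IsChr.cov`): `u.de (B' a c) b = F3 a c b`
with `F3 = (u.cov B0).dde`, and `mR u B a b c d = (u.cov B0).ddee a c b d - u.de (B' a c) (B' b d)`.
From `Re (u.de a a) ≥ (1-θ) nn a²` get `nn (B' a c) ≤ 2 θ √q nn a nn c`, so the last term is
bounded by `2 θ² q` times the product of the norms (`abs_Sf_le`).  Use `good_of_orth` with
`fun ξ η => (ip ξ η).re`; for orthogonal pairs `nn ξ² nn η² / 2 ≤ Wd ≤ 2 nn ξ² nn η²`, and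
`nn ξ² nn η² ≤ Q ≤ (2/κ) 5 nn ξ² nn η²` (`hn_vv_le`, `facts`).
-/

set_option autoImplicit false

namespace Crest.Agent.R245

open scoped ComplexConjugate

namespace Fr

variable {f : Fr}

theorem OK.pert (h : f.OK) {u : J (Fin 3 → ℂ)} (hl : u.Lin) (hh : u.Herm) {θ : ℝ} (hθ0 : 0 ≤ θ)
    (hθ : θ ≤ 1 / 4000)
    (h2 : ∀ a b, ‖u.de a b - ip a b‖ ≤ θ * (nn a * nn b))
    (h3 : ∀ a c b, ‖(u.cov f.B0).dde a c b‖ ≤ θ * √f.q * (nn a * nn c * nn b))
    (h4 : ∀ ξ η, |Sf (fun a b c d => (u.cov f.B0).ddee a c b d - f.R0 a b c d) ξ η| ≤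
      θ * f.Q ξ η) :
    Good u (1 / 4000) f.hi ∧ ∀ a, nn a ^ 2 / 2 ≤ (u.de a a).re := by
  have hre : ∀ a b, |(u.de a b).re - (ip a b).re| ≤ θ * (nn a * nn b) := fun a b => by
    rw [← Complex.sub_re]; exact (Complex.abs_re_le_norm _).trans (h2 a b)
  have hlo : ∀ a, (1 - θ) * nn a ^ 2 ≤ (u.de a a).re := fun a => by
    have := (abs_le.1 (hre a a)).1
    rw [ip_self_re] at this; nlinarith
  have hup : ∀ a, (u.de a a).re ≤ (1 + θ) * nn a ^ 2 := fun a => by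
    have := (abs_le.1 (hre a a)).2
    rw [ip_self_re] at this; nlinarith
  have hhalf : ∀ a, nn a ^ 2 / 2 ≤ (u.de a a).re := fun a => by
    nlinarith [hlo a, sq_nonneg (nn a)]
  have hp : ∀ a, a ≠ 0 → 0 < (u.de a a).re := fun a ha => by
    refine lt_of_lt_of_le (half_pos ?_) (hhalf a)
    rw [nn_sq]
    by_contra hc
    have n0 := Complex.normSq_nonneg (a 0)
    have n1 := Complex.normSq_nonneg (a 1)
    have n2 := Complex.normSq_nonneg (a 2)
    refine ha (funext fun i => ?_)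
    fin_cases i <;> exact Complex.normSq_eq_zero.1 (by simp only [Fin.reduceFinMk]; linarith)
  refine ⟨good_of_orth hl hh hp (fun ξ η => (ip ξ η).re) (fun ξ η t => ?_) (fun ξ η h0 => ?_)
    fun B hB ξ η h0 => ?_, hhalf⟩
  · rw [← Complex.re_ofReal_mul, ← Complex.add_re]
    congr 1
    simp only [ip, Pi.add_apply, Pi.smul_apply, smul_eq_mul, map_add, map_mul, Complex.conj_ofReal]
    ring
  · rw [ip_self_re, pow_eq_zero_iff two_ne_zero] at h0
    have := norm_ip_le ξ η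
    rw [h0, zero_mul, norm_le_zero_iff] at this
    rw [this, Complex.zero_re]
  obtain ⟨hB', hR⟩ := hB.cov hl hh f.B0
  obtain ⟨-, -, -, -, -, -, hq1, hqm, hmκ, -⟩ := h.facts
  set B' : (Fin 3 → ℂ) → (Fin 3 → ℂ) → Fin 3 → ℂ := fun a c => B a c - f.B0 a c with hB'd
  have hB2 : ∀ a c b, u.de (B' a c) b = (u.cov f.B0).dde a c b := hB'
  have hsq : 0 ≤ θ * √f.q := by positivity
  have hnB : ∀ a c, nn (B' a c) ≤ 2 * (θ * √f.q) * (nn a * nn c) := fun a c => by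
    have e1 := (hhalf (B' a c)).trans (Complex.re_le_norm _)
    rw [hB2] at e1
    have e2 := e1.trans (h3 a c _)
    have na := nn_nonneg a
    have nc := nn_nonneg c
    rcases (nn_nonneg (B' a c)).eq_or_lt with e3 | e3
    · rw [← e3]; positivity
    · refine le_of_mul_le_mul_right ?_ e3
      nlinarith
  have hE : |Sf (fun a b c d => u.de (B' a c) (B' b d)) ξ η| ≤
      2 * (2 * θ ^ 2 * f.q) * (nn ξ ^ 2 * nn η ^ 2) := by
    refine abs_Sf_le (n := nn) (fun a b c d => ?_) ξ η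
    rw [hB2]
    have na := nn_nonneg a
    have nc := nn_nonneg c
    refine (h3 a c _).trans ((mul_le_mul_of_nonneg_left
      (mul_le_mul_of_nonneg_left (hnB b d) (by positivity)) hsq).trans_eq ?_)
    have : √f.q * √f.q = f.q := Real.mul_self_sqrt (by linarith)
    linear_combination (2 * θ ^ 2 * (nn a * nn b * nn c * nn d)) * this
  have hS : Sf (mR u B) ξ η = Sf f.R0 ξ η +
      Sf (fun a b c d => (u.cov f.B0).ddee a c b d - f.R0 a b c d) ξ η -
      Sf (fun a b c d => u.de (B' a c) (B' b d)) ξ η := by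
    rw [← Sf_add, ← Sf_sub]
    congr 1
    funext a b c d
    rw [← hR, mR]
    change _ - u.de (B' a c) (B' b d) = _
    ring
  have hL := h.main_lower ξ η h0
  have hU := h.main_upper ξ η
  have h5 := abs_le.1 (h4 ξ η)
  have h6 := abs_le.1 hE
  have nξ := nn_nonneg ξ
  have nη := nn_nonneg η
  have hN : 0 ≤ nn ξ ^ 2 * nn η ^ 2 := by positivity
  have hv : hn (vv ξ η) ^ 2 ≤ 4 * (nn ξ ^ 2 * nn η ^ 2) :=
    (pow_le_pow_left₀ (hn_nonneg _) (hn_vv_le ξ η) 2).trans_eq (by ring)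
  have hQ1 : f.q * (nn ξ ^ 2 * nn η ^ 2) ≤ f.Q ξ η :=
    le_add_of_nonneg_right (mul_nonneg (by linarith) (sq_nonneg _))
  have hQ2 : nn ξ ^ 2 * nn η ^ 2 ≤ f.Q ξ η := le_trans (by nlinarith) hQ1
  have hW1 : Wd u ξ η ≤ 2 * (nn ξ ^ 2 * nn η ^ 2) := by
    have e1 := mul_le_mul (hup ξ) (hup η) (le_trans (by positivity) (hhalf η)) (by positivity)
    have e2 : (1 + θ) * (1 + θ) ≤ 2 := by nlinarith
    have e3 := mul_le_mul_of_nonneg_right e2 hN
    unfold Wd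
    nlinarith [sq_nonneg (u.de ξ η).re]
  have hW2 : nn ξ ^ 2 * nn η ^ 2 / 2 ≤ Wd u ξ η := by
    have e0 : 0 ≤ 1 - θ := by linarith
    have e1 := mul_le_mul (hlo ξ) (hlo η) (by positivity) (le_trans (by positivity) (hhalf ξ))
    have e2 := hre ξ η
    rw [show (ip ξ η).re = 0 from h0, sub_zero] at e2
    have e3 := pow_le_pow_left₀ (abs_nonneg _) e2 2
    rw [sq_abs] at e3
    have e4 := mul_le_mul_of_nonneg_right hθ hN
    unfold Wd
    nlinarith
  have hθ2 : θ ^ 2 ≤ 1 / 4000 * (1 / 4000) := by nlinarith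
  have hE2 : 2 * (2 * θ ^ 2 * f.q) * (nn ξ ^ 2 * nn η ^ 2) ≤ f.Q ξ η / 4000000 := by
    have e1 := mul_le_mul hθ2 hQ1 (mul_nonneg (by linarith) hN) (by norm_num)
    linarith
  have hE3 : θ * f.Q ξ η ≤ f.Q ξ η / 4000 := by
    have := mul_le_mul_of_nonneg_right hθ (hN.trans hQ2)
    linarith
  rw [hS]
  refine ⟨by linarith, ?_⟩
  have hA : 0 < 1 / f.A := one_div_pos.2 h.A_pos
  have hT := h.T_ge
  have hκ : 0 < 1 / f.κ := one_div_pos.2 h.κ_pos
  have hQ3 : f.Q ξ η ≤ 10 * ((1 / f.A + f.T + 1 / f.κ) * (nn ξ ^ 2 * nn η ^ 2)) := by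
    have e1 : f.mh ≤ 2 * (1 / f.A + f.T + 1 / f.κ) := by
      rw [show 2 / f.κ = 2 * (1 / f.κ) by ring] at hmκ; linarith
    have e2 := mul_le_mul_of_nonneg_right (hqm.trans e1) hN
    have e3 := mul_le_mul e1 hv (sq_nonneg _) (by linarith)
    unfold Q
    linarith
  have e4 := mul_le_mul_of_nonneg_left hW2 (show 0 ≤ 1 / f.A + f.T + 1 / f.κ by linarith)
  have e5 := mul_nonneg (show 0 ≤ 1 / f.A + f.T + 1 / f.κ by linarith) hN
  unfold hi
  linarith

/-- sectional combination of the "odd" forms of the first kind -/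
theorem Sf_odd1 {Y : (Fin 3 → ℂ) → (Fin 3 → ℂ) → (Fin 3 → ℂ) → ℂ}
    (hs : ∀ a c b, Y a c b = Y c a b) (hl : ∀ c b, IsL fun a => Y a c b) (ξ η : Fin 3 → ℂ) :
    Sf (fun a b c d => conj (d 0) * Y a c b + conj (b 0) * Y a c d) ξ η =
      (Y (vv ξ η) ξ η - Y (vv ξ η) η ξ).re := by
  unfold Sf vv
  congr 1
  rw [(hl ξ η).sub, (hl η ξ).sub, (hl ξ η).smul, (hl ξ η).smul, (hl η ξ).smul, (hl η ξ).smul,
    hs η ξ η]
  ring

/-- sectional combination of the "odd" forms of the second kind -/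
theorem Sf_odd2 {Z : (Fin 3 → ℂ) → (Fin 3 → ℂ) → (Fin 3 → ℂ) → ℂ}
    (hs : ∀ a b d, Z a b d = Z a d b) (hl : ∀ a d, IsA fun b => Z a b d) (ξ η : Fin 3 → ℂ) :
    Sf (fun a b c d => c 0 * Z a b d + a 0 * Z c b d) ξ η =
      (Z η (vv ξ η) ξ - Z ξ (vv ξ η) η).re := by
  unfold Sf vv
  congr 1
  rw [(hl η ξ).sub, (hl ξ η).sub, (hl η ξ).smul, (hl η ξ).smul, (hl ξ η).smul, (hl ξ η).smul,
    hs η η ξ]
  simp only [Complex.conj_conj]
  ring

/-- the odd forms with three vertical slots -/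
theorem Sf_odd3 {y : (Fin 3 → ℂ) → ℂ} (hy : IsL y) (ξ η : Fin 3 → ℂ) :
    Sf (fun a b c d => (a 0 * y c + c 0 * y a) * (conj (b 0) * conj (d 0))) ξ η =
      (-(vv ξ η 0) * y (vv ξ η)).re := by
  unfold Sf vv
  congr 1
  rw [hy.sub, hy.smul, hy.smul]
  simp only [Pi.sub_apply, Pi.smul_apply, smul_eq_mul]
  ring

theorem Sf_odd4 {y : (Fin 3 → ℂ) → ℂ} (hy : IsA y) (ξ η : Fin 3 → ℂ) :
    Sf (fun a b c d => (conj (b 0) * y d + conj (d 0) * y b) * (a 0 * c 0)) ξ η =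
      (-conj (vv ξ η 0) * y (vv ξ η)).re := by
  unfold Sf vv
  congr 1
  rw [hy.sub, hy.smul, hy.smul]
  simp only [Pi.sub_apply, Pi.smul_apply, smul_eq_mul, map_sub, map_mul, Complex.conj_conj]
  ring

end Fr

end Crest.Agent.R245
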