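import Crest.Agent.R245.Hart
import Crest.Agent.R245.CoreT
import Crest.Agent.R245.CoreW

/-!
# R245: pointwise curvature bounds for the Hartogs potential

Combine `hart` (with `Γ = GP p`), `exists_frame`, `comap_Pjet`, `coreT` / `coreW`,
`Good.of_comap`, `Good.of_cov`.
-/

set_option autoImplicit false

namespace Crest.Agent.R245

open scoped ComplexConjugate ContDiff Topology
open Filter

/-- what we need at every point: curvature bounds, bounded gradient, and the metric dominates the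
Bergman metric of the base -/
structure Nice (P : (Fin 3 → ℂ) → ℝ) (p : Fin 3 → ℂ) (hi C : ℝ) : Prop where
  good : Good (jr P p) (1 / 4000) hi
  grad : ∀ a, ‖(jr P p).d a‖ ≤ C * √((jr P p).de a a).re
  base : ∀ a, nP p a ≤ C * √((jr P p).de a a).re


theorem nP_pos {p : Fin 3 → ℂ} (hp : 0 < rho2 p) {a : Fin 3 → ℂ} (h0 : a 0 = 0) (ha : a ≠ 0) :
    0 < nP p a := by
  rcases (nP_nonneg p a).lt_or_eq with h | h
  · exact h
  · exfalso
    have h1 : a 1 = 0 := by
      have := norm_one_le_nP hp a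
      rw [← h, mul_zero] at this
      exact norm_le_zero_iff.1 this
    have h2 : sg p a = 0 := by
      have := norm_sg_le hp a
      rw [← h] at this
      exact norm_le_zero_iff.1 this
    have h3 : a 2 = 0 := by
      have hne : (rho2 p : ℂ) ≠ 0 := by exact_mod_cast hp.ne'
      simpa [sg, h1, hne] using h2
    apply ha
    funext i
    fin_cases i <;> simp [h0, h1, h3]

theorem GP_zero (p a c : Fin 3 → ℂ) : GP p a c 0 = 0 := by simp [GP, hor]

theorem isBase_rr : IsBase rr := fun p => by simp [rr, rho2, hor]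

/-- from the adapted frame back to the point -/
theorem nice_of_frame {P : (Fin 3 → ℂ) → ℝ} {p : Fin 3 → ℂ} (hP : Sm P p)
    (G : (Fin 3 → ℂ) → (Fin 3 → ℂ) → (Fin 3 → ℂ)) (M : (Fin 3 → ℂ) →ₗ[ℂ] (Fin 3 → ℂ))
    (hM : Function.Surjective M) {u : J (Fin 3 → ℂ)} (hu : ((jr P p).cov G).comap M = u)
    {hi hi' a₀ l : ℝ} (ha₀ : 0 < a₀) (ha1 : a₀ ≤ 1) (hl0 : 0 ≤ l) (hl : l ^ 2 = 2 / a₀)
    (hhi : hi ≤ hi') (h1 : Good u (1 / 4000) hi) (h2 : ∀ a, nn a ^ 2 / 2 ≤ (u.de a a).re)
    (h3 : ∀ a, ‖u.d a‖ ≤ (2 * l + 3) * nn a) (h4 : ∀ a, nP p (M a) ≤ l * nn a) :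
    Nice P p hi' (20 / a₀) := by
  subst hu
  have hl2 : l ≤ 2 / a₀ := by
    have h1 : 1 ≤ 2 / a₀ := by rw [le_div_iff₀ ha₀]; linarith
    nlinarith
  have h5 : ∀ a, nn a ≤ 2 * √((jr P p).de (M a) (M a)).re := by
    intro a
    have h := h2 a
    have e : (((jr P p).cov G).comap M).de a a = (jr P p).de (M a) (M a) := rfl
    rw [e] at h
    have h0 := nn_nonneg a
    have : nn a / 2 ≤ √((jr P p).de (M a) (M a)).re := Real.le_sqrt_of_sq_le (by nlinarith)
    linarith
  have hi0 : 1 ≤ 1 / a₀ := by rw [le_div_iff₀ ha₀]; linarith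
  have e2 : 2 / a₀ = 2 * (1 / a₀) := by ring
  have e20 : 20 / a₀ = 20 * (1 / a₀) := by ring
  refine ⟨((h1.of_comap M hM).of_cov (jr_lin hP) (jr_herm hP) G).mono (jr_lin hP) (jr_herm hP)
    le_rfl hhi, fun a => ?_, fun a => ?_⟩
  · obtain ⟨y, rfl⟩ := hM a
    have h := h3 y
    have e : (((jr P p).cov G).comap M).d y = (jr P p).d (M y) := rfl
    rw [e] at h
    refine h.trans ?_
    have := h5 y
    have h0 := Real.sqrt_nonneg ((jr P p).de (M y) (M y)).re
    calc (2 * l + 3) * nn y ≤ (2 * l + 3) * (2 * √((jr P p).de (M y) (M y)).re) := by gcongr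
      _ = (4 * l + 6) * √((jr P p).de (M y) (M y)).re := by ring
      _ ≤ _ := by gcongr; linarith
  · obtain ⟨y, rfl⟩ := hM a
    refine (h4 y).trans ?_
    have := h5 y
    have h0 := Real.sqrt_nonneg ((jr P p).de (M y) (M y)).re
    calc l * nn y ≤ l * (2 * √((jr P p).de (M y) (M y)).re) := by gcongr
      _ = (2 * l) * √((jr P p).de (M y) (M y)).re := by ring
      _ ≤ _ := by gcongr; linarith

theorem nP_le_of {p : Fin 3 → ℂ} {x : Fin 3 → ℂ} {a₀ l h n : ℝ} (ha₀ : 0 < a₀) (hl0 : 0 ≤ l)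
    (hl : l ^ 2 = 2 / a₀) (h1 : a₀ / 2 * nP p x ^ 2 ≤ h) (h2 : √h ≤ n) : nP p x ≤ l * n := by
  have h0 := nP_nonneg p x
  have hh : 0 ≤ h := le_trans (by positivity) h1
  refine le_trans ?_ (mul_le_mul_of_nonneg_left h2 hl0)
  refine (pow_le_pow_iff_left₀ h0 (by positivity) two_ne_zero).1 ?_
  rw [mul_pow, Real.sq_sqrt hh, hl]
  calc nP p x ^ 2 = 2 / a₀ * (a₀ / 2 * nP p x ^ 2) := by field_simp
    _ ≤ _ := by gcongr

theorem sub_add_smul {V : Type*} (u w : J V) (t : ℂ) : u = (u.sub (w.smul t)).add (w.smul t) := by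
  ext <;> simp [J.sub, J.add, J.smul]

/-- Transition region.  `H = ψ.de = a Psi + e`, `|e| ≤ θ nP nP`, so `nP² ≤ (2/a₀) H`; all errors
are `≤ 9 θ (2/a₀)²` (plus the discrepancy between `a Psi Psi` and `H H / a`). -/
theorem pointT {ψ η : (Fin 3 → ℂ) → ℝ} {p : Fin 3 → ℂ} (hp : 0 < rho2 p) (hψ : Sm ψ p)
    (hη : Sm η p) (bψ : IsBase ψ) (bη : IsBase η)
    (hs : Complex.normSq (p 0) * Real.exp (ψ p) < 1) {a₀ a θ : ℝ} (ha₀ : 0 < a₀) (ha : a₀ ≤ a)
    (ha1 : a ≤ 1) (hη0 : 0 < η p) (hη1 : η p ≤ 1) (hθ0 : 0 ≤ θ) (hθ : θ ≤ a₀ ^ 3 / 10 ^ 9)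
    (h1 : ((jr ψ p).sub ((jr rr p).smul a)).Bd (nP p) θ) (h2 : (jr η p).Bd (nP p) (θ * η p)) :
    Nice (Pot ψ ψ η) p (3000 / (a₀ * η p)) (20 / a₀) := by
  obtain ⟨G, hG⟩ := hart hψ hψ hη bψ bψ bη hs (GP p) (GP_zero p)
  have lψ := jr_lin hψ
  have hhψ := jr_herm hψ
  have lη := jr_lin hη
  have hhη := jr_herm hη
  have hb := bψ.jr hψ
  have ha0 : 0 < a := lt_of_lt_of_le ha₀ ha
  have ha₀1 : a₀ ≤ 1 := ha.trans ha1
  have hθa : θ ≤ a₀ / 10 ^ 9 := by
    refine hθ.trans (div_le_div_of_nonneg_right ?_ (by positivity))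
    have : a₀ ^ 2 ≤ 1 := pow_le_one₀ ha₀.le ha₀1
    nlinarith
  set E := (jr ψ p).sub ((jr rr p).smul a) with hE
  have hψE : jr ψ p = E.add ((jr rr p).smul a) := sub_add_smul _ _ _
  have hde : ∀ x y, (jr ψ p).de x y = E.de x y + a * Psi p x y := by
    intro x y
    rw [hψE]
    simp only [J.add, J.smul, jr_rr_de hp]
  have hlow : ∀ x, a₀ / 2 * nP p x ^ 2 ≤ ((jr ψ p).de x x).re := by
    intro x
    rw [hde, Complex.add_re, Complex.re_ofReal_mul, Psi_self_re hp]
    have h := (Complex.abs_re_le_norm _).trans (h1.de x x)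
    have h' := (abs_le.1 h).1
    have h0 := sq_nonneg (nP p x)
    nlinarith
  have hsE : Complex.normSq (p 0 * (Real.exp (ψ p / 2) : ℝ)) < 1 := by
    rw [map_mul, Complex.normSq_ofReal, ← Real.exp_add, add_halves]; exact hs
  obtain ⟨f, M, hf, fκ, fw, fA, fT, fg, hM, hH, -, hα, hn⟩ :=
    exists_frame (H := (jr ψ p).de) (K := (jr ψ p).de) lψ.de1 hhψ.de lψ.de1 hhψ.de
      (fun x y => (congrFun (congrFun (congrArg J.de hb) x) y).symm)
      (fun x y => (congrFun (congrFun (congrArg J.de hb) x) y).symm)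
      (fun x h0 hx => lt_of_lt_of_le (by have := nP_pos hp h0 hx; positivity) (hlow x))
      (T := 1) (fun x => ⟨le_rfl, by rw [one_mul]⟩) lψ.d
      (fun x => (congrFun (congrArg J.d hb) x).symm) (Real.exp_pos (ψ p / 2)) (p 0) hη0 hη1 hsE
      ha0 ha1 le_rfl (by simpa using hη1) (Or.inl rfl)
  obtain ⟨g1, g2⟩ := fg rfl
  set l := √(2 / a₀) with hl
  have hl0 : 0 ≤ l := Real.sqrt_nonneg _
  have hl2 : l ^ 2 = 2 / a₀ := Real.sq_sqrt (by positivity)
  have hl1 : 1 ≤ l := by
    apply Real.le_sqrt_of_sq_le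
    rw [le_div_iff₀ ha₀]; linarith
  have hl4 : l ^ 4 = 4 / a₀ ^ 2 := by
    rw [show l ^ 4 = (l ^ 2) ^ 2 by ring, hl2]; ring
  have hmax : max l (l ^ 4) = 4 / a₀ ^ 2 := by
    rw [max_eq_right, hl4]
    exact le_self_pow₀ hl1 (by norm_num)
  have hN : ∀ y, nP p (M y) ≤ l * f.n y := fun y => nP_le_of ha₀ hl0 hl2 (hlow _) (hn y)
  have hn0 : ∀ y, 0 ≤ f.n y := fun y => Fr.n_nonneg y
  have hEc := h1.cov (nP_nonneg p) hθ0 (nP_GP_le hp)
  have hEM := (hEc.comap M).scale (fun y => nP_nonneg p _) (by positivity) hl0 hN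
  have hEM0 := (h1.comap M).scale (fun y => nP_nonneg p _) hθ0 hl0 hN
  have hηc := h2.cov (nP_nonneg p) (by positivity) (nP_GP_le hp)
  have hηM := (hηc.comap M).scale (fun y => nP_nonneg p _) (by positivity) hl0 hN
  rw [hmax] at hEM hEM0 hηM
  obtain ⟨r3, r4⟩ := jr_rr_cov hp
  have hcov : (jr ψ p).cov (GP p) = (E.cov (GP p)).add (((jr rr p).cov (GP p)).smul a) := by
    rw [← J.cov_smul, ← J.cov_add, ← hψE]
  have key := hf.coreT g1 g2 (ψ := ((jr ψ p).cov (GP p)).comap M) (η := ((jr η p).cov (GP p)).comap M)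
    ((lψ.cov (isBil_GP p)).comap M) ((hhψ.cov _).comap M) ((lη.cov (isBil_GP p)).comap M)
    ((hhη.cov _).comap M) (by rw [fκ]; rfl) (θ := 60 * θ / a₀ ^ 2) (D := 2 * l) (by positivity)
    (by
      rw [div_le_iff₀ (by positivity)]
      have : a₀ ^ 3 ≤ a₀ ^ 2 := pow_le_pow_of_le_one ha₀.le ha₀1 (by norm_num)
      have h0 : 0 ≤ a₀ ^ 2 := by positivity
      nlinarith)
    hH
    (fun y => by
      have e : (((jr ψ p).cov (GP p)).comap M).d y = E.d (M y) + a * sg p (M y) := by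
        show (jr ψ p).d (M y) = _
        rw [hψE]
        simp only [J.add, J.smul, jr_rr_d hp]
      rw [e]
      refine (norm_add_le _ _).trans ?_
      rw [norm_mul, Complex.norm_real, Real.norm_of_nonneg ha0.le]
      have q1 := h1.d (M y)
      have q2 := norm_sg_le hp (M y)
      have q3 := hN y
      have q4 := nP_nonneg p (M y)
      have q5 : a * ‖sg p (M y)‖ ≤ 1 * nP p (M y) := by gcongr
      have q6 : θ * nP p (M y) ≤ 1 * nP p (M y) := by gcongr; linarith
      linarith)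
    (by positivity)
    (fun x z y => by
      have e : (((jr ψ p).cov (GP p)).comap M).dde x z y = ((E.cov (GP p)).comap M).dde x z y := by
        show ((jr ψ p).cov (GP p)).dde (M x) (M z) (M y) = (E.cov (GP p)).dde (M x) (M z) (M y)
        rw [hcov]
        simp only [J.add, J.smul, r3, mul_zero, add_zero]
      rw [e]
      refine (hEM.dde x z y).trans ?_
      have := hn0 x; have := hn0 z; have := hn0 y
      gcongr
      rw [show 60 * θ / a₀ ^ 2 = 15 * θ * (4 / a₀ ^ 2) by ring]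
      gcongr; norm_num)
    (fun x z y w => by
      have hac : (a : ℂ) ≠ 0 := by exact_mod_cast ha0.ne'
      have e : (((jr ψ p).cov (GP p)).comap M).ddee x z y w - ((1 / f.A : ℝ) : ℂ) *
          ((((jr ψ p).cov (GP p)).comap M).de x y * (((jr ψ p).cov (GP p)).comap M).de z w +
            (((jr ψ p).cov (GP p)).comap M).de x w * (((jr ψ p).cov (GP p)).comap M).de z y) =
          (E.cov (GP p)).ddee (M x) (M z) (M y) (M w) -
            (E.de (M x) (M y) * Psi p (M z) (M w) + Psi p (M x) (M y) * E.de (M z) (M w) +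
              E.de (M x) (M w) * Psi p (M z) (M y) + Psi p (M x) (M w) * E.de (M z) (M y)) -
            ((1 / a : ℝ) : ℂ) * (E.de (M x) (M y) * E.de (M z) (M w) +
              E.de (M x) (M w) * E.de (M z) (M y)) := by
        show ((jr ψ p).cov (GP p)).ddee (M x) (M z) (M y) (M w) - ((1 / f.A : ℝ) : ℂ) *
          ((jr ψ p).de (M x) (M y) * (jr ψ p).de (M z) (M w) +
            (jr ψ p).de (M x) (M w) * (jr ψ p).de (M z) (M y)) = _
        rw [hcov, fA]
        simp only [hde]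
        simp only [J.add, J.smul, r4]
        push_cast
        field_simp
        ring
      rw [e]
      set X := nP p (M x)
      set Y := nP p (M y)
      set Z := nP p (M z)
      set W := nP p (M w)
      have hX : 0 ≤ X := nP_nonneg _ _
      have hY : 0 ≤ Y := nP_nonneg _ _
      have hZ : 0 ≤ Z := nP_nonneg _ _
      have hW : 0 ≤ W := nP_nonneg _ _
      have q0 : ‖(E.cov (GP p)).ddee (M x) (M z) (M y) (M w)‖ ≤ 9 * θ * (X * Z * Y * W) :=
        hEc.ddee _ _ _ _
      have m1 : ∀ b c d e : Fin 3 → ℂ, ‖E.de b c * Psi p d e‖ ≤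
          θ * (nP p b * nP p c * nP p d * nP p e) := fun b c d e => by
        rw [norm_mul]
        calc _ ≤ θ * (nP p b * nP p c) * (nP p d * nP p e) :=
              mul_le_mul (h1.de b c) (norm_Psi_le hp d e) (norm_nonneg _)
                (by have := nP_nonneg p b; have := nP_nonneg p c; positivity)
          _ = _ := by ring
      have m2 : ∀ b c d e : Fin 3 → ℂ, ‖E.de b c * E.de d e‖ ≤
          θ ^ 2 * (nP p b * nP p c * nP p d * nP p e) := fun b c d e => by
        rw [norm_mul]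
        calc _ ≤ θ * (nP p b * nP p c) * (θ * (nP p d * nP p e)) :=
              mul_le_mul (h1.de b c) (h1.de d e) (norm_nonneg _)
                (by have := nP_nonneg p b; have := nP_nonneg p c; positivity)
          _ = _ := by ring
      have q1 : ‖E.de (M x) (M y) * Psi p (M z) (M w) + Psi p (M x) (M y) * E.de (M z) (M w) +
              E.de (M x) (M w) * Psi p (M z) (M y) + Psi p (M x) (M w) * E.de (M z) (M y)‖ ≤
            4 * θ * (X * Z * Y * W) := by
        have a1 := m1 (M x) (M y) (M z) (M w)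
        have a2 := m1 (M z) (M w) (M x) (M y)
        have a3 := m1 (M x) (M w) (M z) (M y)
        have a4 := m1 (M z) (M y) (M x) (M w)
        rw [mul_comm (E.de _ _)] at a2 a4
        refine (norm_add_le_of_le (norm_add_le_of_le (norm_add_le_of_le a1 a2) a3) a4).trans ?_
        apply le_of_eq; ring
      have q2 : ‖((1 / a : ℝ) : ℂ) * (E.de (M x) (M y) * E.de (M z) (M w) +
              E.de (M x) (M w) * E.de (M z) (M y))‖ ≤ 2 * θ * (X * Z * Y * W) := by
        rw [norm_mul, Complex.norm_real, Real.norm_of_nonneg (by positivity)]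
        have a1 := norm_add_le_of_le (m2 (M x) (M y) (M z) (M w)) (m2 (M x) (M w) (M z) (M y))
        have a2 : 1 / a * θ ≤ 1 := by
          rw [one_div, inv_mul_le_iff₀ ha0]; linarith
        calc _ ≤ 1 / a * (θ ^ 2 * (X * Y * Z * W) + θ ^ 2 * (X * W * Z * Y)) := by gcongr
          _ = (1 / a * θ) * (2 * θ * (X * Z * Y * W)) := by ring
          _ ≤ 1 * (2 * θ * (X * Z * Y * W)) := by gcongr
          _ = _ := one_mul _
      have q3 : X * Z * Y * W ≤ (l * f.n x) * (l * f.n z) * (l * f.n y) * (l * f.n w) := by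
        have := hN x; have := hN z; have := hN y; have := hN w
        have := hn0 x; have := hn0 z; have := hn0 y; have := hn0 w
        gcongr
      refine (norm_sub_le_of_le (norm_sub_le_of_le q0 q1) q2).trans ?_
      calc _ = 15 * θ * (X * Z * Y * W) := by ring
        _ ≤ 15 * θ * ((l * f.n x) * (l * f.n z) * (l * f.n y) * (l * f.n w)) := by gcongr
        _ = 15 * θ * l ^ 4 * (f.n x * f.n z * f.n y * f.n w) := by ring
        _ = _ := by rw [hl4]; ring)
    (hηM.mono hn0 (by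
      rw [fκ, show 60 * θ / a₀ ^ 2 * η p = 15 * (θ * η p) * (4 / a₀ ^ 2) by ring]
      gcongr; norm_num))
  obtain ⟨k1, k2, k3⟩ := key
  refine nice_of_frame (sm_Pot hψ hψ hη hs) G M hM ?_ ha₀ ha₀1 hl0 hl2 ?_ k1 k2 k3 ?_
  · rw [hG, comap_Pjet, fw]
    congr 1
    funext y
    exact hα y
  · rw [Fr.hi, fA, fT, fκ]
    have b0 : 0 < a₀ * η p := by positivity
    have b1 : 1 / a ≤ 1 / (a₀ * η p) := one_div_le_one_div_of_le b0 (by nlinarith)
    have b2 : 1 ≤ 1 / (a₀ * η p) := by rw [le_div_iff₀ b0]; nlinarith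
    have b3 : 1 / η p ≤ 1 / (a₀ * η p) := one_div_le_one_div_of_le b0 (by nlinarith)
    rw [show 3000 / (a₀ * η p) = 3000 * (1 / (a₀ * η p)) by ring]
    linarith
  · intro y
    refine (hN y).trans ?_
    gcongr
    exact (hf.n_le y).trans (hn_le_nn y)

/-- Region of the wells. -/
theorem pointW {ψ φ η v : (Fin 3 → ℂ) → ℝ} {p : Fin 3 → ℂ} (hp : 0 < rho2 p) {a₀ κ k B : ℝ}
    (ha₀ : 0 < a₀) (ha1 : a₀ ≤ 1) (hB : 1 ≤ B) (hκ : 0 < κ)
    (hκB : κ * (100 * B / a₀ ^ 2) ^ 6 ≤ (1 / 10 ^ 5) ^ 6)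
    (hψ : ψ =ᶠ[𝓝 p] fun x => a₀ * rr x + k) (hη : η =ᶠ[𝓝 p] fun _ => κ)
    (hφ : φ =ᶠ[𝓝 p] fun x => ψ x + v x) (hv : Sm v p)
    (bψ : IsBase ψ) (bφ : IsBase φ) (bη : IsBase η)
    (hs : Complex.normSq (p 0) * Real.exp (φ p) < 1)
    (h1 : (jr v p).Bd (nP p) B) (h2 : ∀ a, 0 ≤ ((jr v p).de a a).re) :
    Nice (Pot ψ φ η) p (3000 / (a₀ * κ)) (20 / a₀) ∧ (p 0 = 0 → Big (jr (Pot ψ φ η) p) (1 / κ)) := by
  have sR := sm_rr hp
  have sR' : Sm (fun x => a₀ * rr x) p := by
    filter_upwards [sR] with x hx using contDiffAt_const.mul hx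
  have sψ : Sm ψ p := by
    refine Sm.congr (u := fun x => a₀ * rr x + k) ?_ hψ
    filter_upwards [sR'] with x hx using hx.add contDiffAt_const
  have sη : Sm η p := Sm.congr (Sm.of_contDiff contDiff_const p) hη
  have sφ : Sm φ p := by
    refine Sm.congr (u := fun x => ψ x + v x) ?_ hφ
    filter_upwards [sψ, hv] with x hx hx' using hx.add hx'
  have jψ : jr ψ p = ((jr rr p).smul a₀).add (J.const k) := by
    rw [jr_congr hψ, jr_add sR' (Sm.of_contDiff contDiff_const p), jr_smul sR, jr_const]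
  have jη : jr η p = J.const κ := by rw [jr_congr hη, jr_const]
  have jφ : jr φ p = (jr ψ p).add (jr v p) := by rw [jr_congr hφ, jr_add sψ hv]
  obtain ⟨G, hG⟩ := hart sψ sφ sη bψ bφ bη hs (GP p) (GP_zero p)
  have lψ := jr_lin sψ
  have hhψ := jr_herm sψ
  have lφ := jr_lin sφ
  have hhφ := jr_herm sφ
  have hbψ := bψ.jr sψ
  have hbφ := bφ.jr sφ
  have hde : ∀ x y, (jr ψ p).de x y = a₀ * Psi p x y := by
    intro x y
    rw [jψ]
    simp only [J.add, J.smul, J.const, jr_rr_de hp, add_zero]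
  have hre : ∀ x, ((jr ψ p).de x x).re = a₀ * nP p x ^ 2 := by
    intro x
    rw [hde, Complex.re_ofReal_mul, Psi_self_re hp]
  have hlow : ∀ x, a₀ / 2 * nP p x ^ 2 ≤ ((jr ψ p).de x x).re := by
    intro x
    rw [hre]
    have h0 := sq_nonneg (nP p x)
    nlinarith
  have hsE : Complex.normSq (p 0 * (Real.exp (φ p / 2) : ℝ)) < 1 := by
    rw [map_mul, Complex.normSq_ofReal, ← Real.exp_add, add_halves]; exact hs
  set X := 100 * B / a₀ ^ 2 with hX
  have ha2 : a₀ ^ 2 ≤ a₀ := by nlinarith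
  have hBa : 1 ≤ B / a₀ := by rw [le_div_iff₀ ha₀]; linarith
  have hBX : 100 * (B / a₀) ≤ X := by
    rw [hX, mul_div_assoc]
    gcongr
  have hX1 : 1 ≤ X := by linarith
  have hTX : 1 + B / a₀ ≤ X := by linarith
  have hκX : ∀ j : ℕ, j ≤ 6 → κ * X ^ j ≤ 1 / 10 := fun j hj => by
    have : X ^ j ≤ X ^ 6 := pow_le_pow_right₀ hX1 hj
    have : κ * X ^ j ≤ κ * X ^ 6 := by gcongr
    norm_num at hκB ⊢
    linarith
  have hκ1 : κ ≤ 1 := by have := hκX 0 (by norm_num); simp only [pow_zero, mul_one] at this; linarith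
  have hT0 : 0 ≤ 1 + B / a₀ := by linarith
  obtain ⟨f, M, hf, fκ, fw, fA, fT, -, hM, hH, hK, hα, hn⟩ :=
    exists_frame (H := (jr ψ p).de) (K := (jr φ p).de) lψ.de1 hhψ.de lφ.de1 hhφ.de
      (fun x y => (congrFun (congrFun (congrArg J.de hbψ) x) y).symm)
      (fun x y => (congrFun (congrFun (congrArg J.de hbφ) x) y).symm)
      (fun x h0 hx => lt_of_lt_of_le (by have := nP_pos hp h0 hx; positivity) (hlow x))
      (T := 1 + B / a₀) (fun x => by
        have e : ((jr φ p).de x x).re = ((jr ψ p).de x x).re + ((jr v p).de x x).re := by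
          rw [jφ]; simp only [J.add, Complex.add_re]
        rw [e]
        refine ⟨by linarith [h2 x], ?_⟩
        have q := (Complex.re_le_norm _).trans (h1.de x x)
        rw [hre]
        have : (1 + B / a₀) * (a₀ * nP p x ^ 2) = a₀ * nP p x ^ 2 + B * (nP p x * nP p x) := by
          field_simp
        linarith) lφ.d
      (fun x => (congrFun (congrArg J.d hbφ) x).symm) (Real.exp_pos (φ p / 2)) (p 0) hκ hκ1 hsE
      ha₀ ha1 (by linarith)
      (by
        have : κ * (1 + B / a₀) ^ 3 ≤ κ * X ^ 3 := by gcongr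
        linarith [hκX 3 (by norm_num)])
      (Or.inr (by
        have : κ * (1 + B / a₀) ^ 2 ≤ κ * X ^ 2 := by gcongr
        linarith [hκX 2 (by norm_num)]))
  set l := √(2 / a₀) with hl
  have hl0 : 0 ≤ l := Real.sqrt_nonneg _
  have hl2 : l ^ 2 = 2 / a₀ := Real.sq_sqrt (by positivity)
  have hl1 : 1 ≤ l := by
    apply Real.le_sqrt_of_sq_le
    rw [le_div_iff₀ ha₀]; linarith
  have hl4 : l ^ 4 = 4 / a₀ ^ 2 := by
    rw [show l ^ 4 = (l ^ 2) ^ 2 by ring, hl2]; ring
  have hmax : max l (l ^ 4) = 4 / a₀ ^ 2 := by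
    rw [max_eq_right, hl4]
    exact le_self_pow₀ hl1 (by norm_num)
  have hN : ∀ y, nP p (M y) ≤ l * f.n y := fun y => nP_le_of ha₀ hl0 hl2 (hlow _) (hn y)
  have hn0 : ∀ y, 0 ≤ f.n y := fun y => Fr.n_nonneg y
  have hB0 : 0 ≤ B := by linarith
  have hvc := h1.cov (nP_nonneg p) hB0 (nP_GP_le hp)
  have hvM := ((hvc.comap M).scale (fun y => nP_nonneg p _) (by positivity) hl0 hN).mono hn0
    (B' := X) (by
      rw [hmax, hX, show 100 * B / a₀ ^ 2 = 25 * B * (4 / a₀ ^ 2) by ring]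
      gcongr; norm_num)
  obtain ⟨r3, r4⟩ := jr_rr_cov hp
  have hcov : (jr ψ p).cov (GP p) = (((jr rr p).cov (GP p)).smul a₀).add (J.const k) := by
    rw [jψ, J.cov_add, J.cov_smul, J.cov_const]
  have hcov' : (jr φ p).cov (GP p) = ((jr ψ p).cov (GP p)).add ((jr v p).cov (GP p)) := by
    rw [jφ, J.cov_add]
  have hψ3 : ∀ x z y, ((jr ψ p).cov (GP p)).dde x z y = 0 := fun x z y => by
    rw [hcov]
    simp only [J.add, J.smul, J.const, r3, mul_zero, add_zero]
  have key := hf.coreW (ψ := ((jr ψ p).cov (GP p)).comap M) (φ := ((jr φ p).cov (GP p)).comap M)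
    ((lψ.cov (isBil_GP p)).comap M) ((hhψ.cov _).comap M) ((lφ.cov (isBil_GP p)).comap M)
    ((hhφ.cov _).comap M) (B := X) (D := 2 * l) hX1 (by rw [fκ]; exact hκB) hH hK
    (fun y => by
      have e : (((jr ψ p).cov (GP p)).comap M).d y = a₀ * sg p (M y) := by
        show (jr ψ p).d (M y) = _
        rw [jψ]
        simp only [J.add, J.smul, J.const, jr_rr_d hp, add_zero]
      rw [e, norm_mul, Complex.norm_real, Real.norm_of_nonneg ha₀.le]
      have q2 := norm_sg_le hp (M y)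
      have q3 := hN y
      have q4 := nP_nonneg p (M y)
      have q5 : a₀ * ‖sg p (M y)‖ ≤ 1 * nP p (M y) := by gcongr
      linarith)
    (by positivity) (fun x z y => hψ3 _ _ _)
    (fun x z y w => by
      have hac : (a₀ : ℂ) ≠ 0 := by exact_mod_cast ha₀.ne'
      show ((jr ψ p).cov (GP p)).ddee (M x) (M z) (M y) (M w) = ((1 / f.A : ℝ) : ℂ) *
          ((jr ψ p).de (M x) (M y) * (jr ψ p).de (M z) (M w) +
            (jr ψ p).de (M x) (M w) * (jr ψ p).de (M z) (M y))
      rw [hcov, fA]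
      simp only [hde]
      simp only [J.add, J.smul, J.const, r4]
      push_cast
      field_simp
      ring)
    (fun x z y => by
      have e : (((jr φ p).cov (GP p)).comap M).dde x z y =
          (((jr v p).cov (GP p)).comap M).dde x z y := by
        show ((jr φ p).cov (GP p)).dde (M x) (M z) (M y) = ((jr v p).cov (GP p)).dde (M x) (M z) (M y)
        rw [hcov']
        simp only [J.add, hψ3, zero_add]
      rw [e]
      exact hvM.dde x z y)
    (fun x z y w => by
      have e : (((jr φ p).cov (GP p)).comap M).ddee x z y w -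
          (((jr ψ p).cov (GP p)).comap M).ddee x z y w =
          (((jr v p).cov (GP p)).comap M).ddee x z y w := by
        show ((jr φ p).cov (GP p)).ddee (M x) (M z) (M y) (M w) -
          ((jr ψ p).cov (GP p)).ddee (M x) (M z) (M y) (M w) =
            ((jr v p).cov (GP p)).ddee (M x) (M z) (M y) (M w)
        rw [hcov']
        simp only [J.add]
        ring
      rw [e]
      exact hvM.ddee x z y w)
  obtain ⟨k1, k2, k3, k4⟩ := key
  have sP := sm_Pot sψ sφ sη hs
  have hu : ((jr (Pot ψ φ η) p).cov G).comap M =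
      Pjet (((jr ψ p).cov (GP p)).comap M) (((jr φ p).cov (GP p)).comap M) (J.const f.κ) f.w f.α := by
    rw [hG, comap_Pjet, fw, jη, J.cov_const, J.comap_const, fκ]
    congr 1
    funext y
    exact hα y
  refine ⟨nice_of_frame sP G M hM hu ha₀ ha1 hl0 hl2 ?_ k1 k2 k3 ?_, fun h0 => ?_⟩
  · rw [Fr.hi, fA, fT, fκ]
    have b0 : 0 < a₀ * κ := by positivity
    have b1 : 1 / a₀ ≤ 1 / (a₀ * κ) := one_div_le_one_div_of_le b0 (by nlinarith)
    have b2 : 1 + B / a₀ ≤ 1 / (a₀ * κ) := by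
      rw [le_div_iff₀ b0]
      have : κ * (1 + B / a₀) ≤ κ * X ^ 1 := by rw [pow_one]; gcongr
      have := hκX 1 (by norm_num)
      have h3 : 0 ≤ κ * (1 + B / a₀) := by positivity
      nlinarith
    have b3 : 1 / κ ≤ 1 / (a₀ * κ) := one_div_le_one_div_of_le b0 (by nlinarith)
    rw [show 3000 / (a₀ * κ) = 3000 * (1 / (a₀ * κ)) by ring]
    linarith
  · intro y
    refine (hN y).trans ?_
    gcongr
    exact (hf.n_le y).trans (hn_le_nn y)
  · have := k4 (by rw [fw, h0, zero_mul])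
    rw [← hu, fκ] at this
    exact (this.of_comap M hM).of_cov (jr_lin sP) (jr_herm sP) G

/-- The standard potential. -/
theorem pointS {p : Fin 3 → ℂ} (hp : 0 < rho3 p) :
    Nice (fun x => -Real.log (rho3 x)) p 3000 20 := by
  have key : ∀ x, 0 < rho3 x → 0 < rho2 x ∧ Complex.normSq (x 0) * Real.exp (rr x) < 1 ∧
      -Real.log (rho3 x) = Pot rr rr (fun _ => 1) x := by
    intro x hx
    have h0 := Complex.normSq_nonneg (x 0)
    have hx' : Complex.normSq (x 0) < rho2 x := by unfold rho3 at hx; linarith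
    have h2 : 0 < rho2 x := by linarith
    have he : Real.exp (rr x) = 1 / rho2 x := by rw [rr, Real.exp_neg, Real.exp_log h2, one_div]
    refine ⟨h2, by rw [he, mul_one_div, div_lt_one h2]; exact hx', ?_⟩
    have e : 1 - Complex.normSq (x 0) * Real.exp (rr x) = rho3 x / rho2 x := by
      rw [he, rho3]; field_simp
    rw [Pot, e, Real.log_div hx.ne' h2.ne', rr]
    ring
  obtain ⟨h2, hs, -⟩ := key p hp
  have hev : (fun x => -Real.log (rho3 x)) =ᶠ[𝓝 p] Pot rr rr (fun _ => 1) := by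
    filter_upwards [(isOpen_lt continuous_const contDiff_rho3.continuous).mem_nhds hp] with x hx
      using (key x hx).2.2
  have h := pointT (ψ := rr) (η := fun _ => 1) h2 (sm_rr h2) (Sm.of_contDiff contDiff_const p)
    isBase_rr (fun _ => rfl) hs (a₀ := 1) (a := 1) (θ := 0) one_pos le_rfl le_rfl one_pos le_rfl
    le_rfl (by norm_num)
    (by constructor <;> intros <;> simp [J.sub, J.add, J.smul])
    (by rw [jr_const, zero_mul]; exact J.bd_const _)
  have e := jr_congr hev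
  obtain ⟨a, b, c⟩ := h
  norm_num at a b c
  refine ⟨?_, ?_, ?_⟩ <;> rw [e]
  · simpa using a
  · exact b
  · exact c

end Crest.Agent.R245
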