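import Mathlib

/-!
# R245: holomorphy along complex lines, identity theorem, a Schwarz-Pick type estimate
-/

set_option autoImplicit false

namespace Crest.Agent.R245

open scoped Topology
open Filter

variable {E : Type*} [NormedAddCommGroup E] [NormedSpace ℂ E]

/-- holomorphic along every complex line inside `S` -/
def LineHol (g : E → ℂ) (S : Set E) : Prop :=
  ∀ x u : E, DifferentiableOn ℂ (fun t : ℂ => g (x + t • u)) {t | x + t • u ∈ S}

theorem LineHol.of_differentiableOn {g : E → ℂ} {S : Set E} (h : DifferentiableOn ℂ g S) :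
    LineHol g S := by
  intro x u
  exact h.comp (f := fun t : ℂ => x + t • u) (by fun_prop) fun t ht => ht

theorem LineHol.comp_affine {F : Type*} [NormedAddCommGroup F] [NormedSpace ℂ F] {g : E → ℂ}
    {S : Set E} (h : LineHol g S) (L : F →L[ℂ] E) (x₀ : E) {S' : Set F}
    (hS : ∀ y ∈ S', L y + x₀ ∈ S) : LineHol (fun y => g (L y + x₀)) S' := by
  intro x u
  have h1 : ∀ t : ℂ, L (x + t • u) + x₀ = L x + x₀ + t • L u := fun t => by
    rw [map_add, map_smul]; abel
  simp only [h1]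
  exact (h (L x + x₀) (L u)).mono fun t ht => by
    have := hS _ ht
    rwa [h1] at this

private theorem scv_deriv {f : E → ℂ} {U : Set E} (hU : IsOpen U) (hf : DifferentiableOn ℂ f U)
    {p : E} (hp : p ∈ U) (v : E) : deriv (fun t : ℂ => f (p + t • v)) 0 = fderiv ℂ f p v := by
  have h1 : HasDerivAt (fun t : ℂ => p + t • v) v 0 := by
    simpa using ((hasDerivAt_id (0 : ℂ)).smul_const v).const_add p
  have h2 : HasFDerivAt f (fderiv ℂ f p) (p + (0 : ℂ) • v) := by
    simpa using (hf.differentiableAt (hU.mem_nhds hp)).hasFDerivAt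
  exact (h2.comp_hasDerivAt (0 : ℂ) h1).deriv

private theorem scv_maps {φ : ℂ → ℂ} {R C : ℝ} (hR : 0 < R)
    (hC : ∀ t ∈ Metric.ball (0 : ℂ) R, ‖φ t‖ ≤ C) :
    Set.MapsTo φ (Metric.ball 0 R) (Metric.closedBall (φ 0) (2 * C)) := by
  intro t ht
  rw [mem_closedBall_iff_norm]
  linarith [norm_sub_le (φ t) (φ 0), hC t ht, hC 0 (Metric.mem_ball_self hR)]

private theorem scv_quot {φ : ℂ → ℂ} {R C : ℝ} (hR : 0 < R)
    (hφ : DifferentiableOn ℂ φ (Metric.ball 0 R)) (hC : ∀ t ∈ Metric.ball (0 : ℂ) R, ‖φ t‖ ≤ C)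
    {z : ℂ} (hz : z ∈ Metric.ball (0 : ℂ) R) (hz0 : z ≠ 0) :
    dist (deriv φ 0) (z⁻¹ * (φ z - φ 0)) ≤ 2 * (2 * C / R) / R * ‖z‖ := by
  have h1 : DifferentiableOn ℂ (dslope φ 0) (Metric.ball 0 R) :=
    (Complex.differentiableOn_dslope (Metric.ball_mem_nhds _ hR)).2 hφ
  have h2 := Complex.dist_le_div_mul_dist_of_mapsTo_ball h1
    (scv_maps hR fun t ht => Complex.norm_dslope_le_div_of_mapsTo_ball hφ (scv_maps hR hC) ht) hz
  rw [dslope_same, dslope_of_ne _ hz0, slope_def_field, dist_zero_right, sub_zero,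
    div_eq_inv_mul] at h2
  rwa [dist_comm]

/-- Directional derivatives of a bounded holomorphic function are holomorphic along lines: the
difference quotients `(f (y + h v) - f y)/h` converge locally uniformly (Cauchy estimates / Schwarz
lemma in the variable `h`), `TendstoLocallyUniformlyOn.differentiableOn`. -/
theorem lineHol_fderiv {f : E → ℂ} {U : Set E} (hU : IsOpen U) (hf : DifferentiableOn ℂ f U)
    {C : ℝ} (hC : ∀ p ∈ U, ‖f p‖ ≤ C) (v : E) : LineHol (fun p => fderiv ℂ f p v) U := by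
  intro x u t₀ ht₀
  have hc : Continuous fun q : ℂ × ℂ => x + q.1 • u + q.2 • v := by fun_prop
  have hmem : (fun q : ℂ × ℂ => x + q.1 • u + q.2 • v) ⁻¹' U ∈ 𝓝 (t₀, (0 : ℂ)) :=
    hc.continuousAt.preimage_mem_nhds (hU.mem_nhds (by simpa using ht₀))
  obtain ⟨r, hr, hball⟩ := Metric.mem_nhds_iff.1 hmem
  have hin : ∀ t ∈ Metric.ball t₀ r, ∀ z ∈ Metric.ball (0 : ℂ) r, x + t • u + z • v ∈ U := by
    intro t ht z hz
    refine hball (a := (t, z)) ?_
    rw [← ball_prod_same]
    exact ⟨ht, hz⟩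
  have hl := LineHol.of_differentiableOn hf
  have hlim : TendstoUniformlyOn
      (fun (z : ℂ) (t : ℂ) => z⁻¹ * (f (x + t • u + z • v) - f (x + t • u)))
      (fun t => fderiv ℂ f (x + t • u) v) (𝓝[≠] 0) (Metric.ball t₀ r) := by
    rw [Metric.tendstoUniformlyOn_iff]
    intro ε hε
    have h1 : Tendsto (fun z : ℂ => 2 * (2 * C / r) / r * ‖z‖) (𝓝 0) (𝓝 0) := by
      have : Continuous fun z : ℂ => 2 * (2 * C / r) / r * ‖z‖ := by fun_prop
      simpa using this.tendsto 0
    filter_upwards [self_mem_nhdsWithin,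
      mem_nhdsWithin_of_mem_nhds (Metric.ball_mem_nhds (0 : ℂ) hr),
      mem_nhdsWithin_of_mem_nhds (h1.eventually (gt_mem_nhds hε))] with z hz0 hz hzε t ht
    have hp : x + t • u ∈ U := by simpa using hin t ht 0 (Metric.mem_ball_self hr)
    have h2 := scv_quot hr ((hl (x + t • u) v).mono fun w hw => hin t ht w hw)
      (fun w hw => hC _ (hin t ht w hw)) hz hz0
    rw [scv_deriv hU hf hp, zero_smul, add_zero] at h2
    exact h2.trans_lt hzε
  have hd := hlim.tendstoLocallyUniformlyOn.differentiableOn ?_ Metric.isOpen_ball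
  · exact (hd.differentiableAt (Metric.ball_mem_nhds _ hr)).differentiableWithinAt
  · filter_upwards [mem_nhdsWithin_of_mem_nhds (Metric.ball_mem_nhds (0 : ℂ) hr)] with z hz
    refine DifferentiableOn.const_mul (DifferentiableOn.sub ?_ ?_) _
    · have h1 : ∀ t : ℂ, x + t • u + z • v = x + z • v + t • u := fun t => by abel
      simp only [h1]
      exact (hl (x + z • v) u).mono fun t ht => by
        have := hin t ht z hz
        rwa [h1] at this
    · exact (hl x u).mono fun t ht => by simpa using hin t ht 0 (Metric.mem_ball_self hr)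

/-- Cauchy estimate along a disc -/
theorem norm_fderiv_le {f : E → ℂ} {U : Set E} (hU : IsOpen U) (hf : DifferentiableOn ℂ f U)
    {C : ℝ} (hC : ∀ p ∈ U, ‖f p‖ ≤ C) {p v : E} {R : ℝ} (hR : 0 < R)
    (h : ∀ t : ℂ, ‖t‖ < R → p + t • v ∈ U) : ‖fderiv ℂ f p v‖ ≤ 2 * C / R := by
  have hp : p ∈ U := by simpa using h 0 (by simpa using hR)
  rw [← scv_deriv hU hf hp]
  exact Complex.norm_deriv_le_div_of_mapsTo_ball
    ((LineHol.of_differentiableOn hf p v).mono fun t ht => h t (mem_ball_zero_iff.1 ht))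
    (scv_maps hR fun t ht => hC _ (h t (mem_ball_zero_iff.1 ht))) hR

/-- identity theorem on a convex open set -/
theorem LineHol.eq_of_convex [NormedSpace ℝ E] [IsScalarTower ℝ ℂ E] {g : E → ℂ} {S : Set E}
    (h : LineHol g S) (hS : IsOpen S) (hc : Convex ℝ S) {x : E} (hx : x ∈ S) {k : ℂ}
    (h0 : ∀ᶠ y in 𝓝 x, g y = k) : ∀ y ∈ S, g y = k := by
  intro y hy
  have hcont : Continuous fun t : ℂ => x + t • (y - x) := by fun_prop
  have hD : IsOpen {t : ℂ | x + t • (y - x) ∈ S} := hS.preimage hcont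
  have hconv : Convex ℝ {t : ℂ | x + t • (y - x) ∈ S} := by
    intro t₁ h₁ t₂ h₂ a b ha hb hab
    have := hc h₁ h₂ ha hb hab
    have h3 : a • (x + t₁ • (y - x)) + b • (x + t₂ • (y - x)) =
        x + (a • t₁ + b • t₂) • (y - x) := by
      rw [smul_add, smul_add, add_smul, smul_assoc, smul_assoc, add_add_add_comm, ← add_smul, hab,
        one_smul]
    rwa [h3] at this
  have han := (h x (y - x)).analyticOnNhd hD
  have hev : (fun t : ℂ => g (x + t • (y - x))) =ᶠ[𝓝 0] fun _ => k := by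
    have : Tendsto (fun t : ℂ => x + t • (y - x)) (𝓝 0) (𝓝 x) := by
      simpa using hcont.tendsto 0
    exact this.eventually h0
  have := han.eqOn_of_preconnected_of_eventuallyEq analyticOnNhd_const hconv.isPreconnected
    (z₀ := 0) (by simpa using hx) hev (x := 1) (by simpa using hy)
  simpa using this

/-- `|g| ≤ 1` on the disc of radius `R > 1` and `|g 1| ≤ 1/2` force `|g 0| ≤ 1 - (R-1)/(2(R+1))`
(`Complex.borelCaratheodory_zero` for `conj ω * g - ‖g 0‖`, `ω = g 0/‖g 0‖`). -/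
theorem norm_zero_le_of_half {g : ℂ → ℂ} {R : ℝ} (hR : 1 < R)
    (hg : DifferentiableOn ℂ g (Metric.ball 0 R)) (h1 : ∀ t ∈ Metric.ball (0 : ℂ) R, ‖g t‖ ≤ 1)
    (h2 : ‖g 1‖ ≤ 1 / 2) : ‖g 0‖ ≤ 1 - (R - 1) / (2 * (R + 1)) := by
  by_contra hlt
  push Not at hlt
  have hR1 : 0 < R - 1 := by linarith
  have hR2 : 0 < R + 1 := by linarith
  set m : ℝ := (R - 1) / (2 * (R + 1)) with hm
  have hm0 : 0 < m := by positivity
  have hm1 : m + 1 / (R + 1) = 1 / 2 := by rw [hm]; field_simp; ring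
  have hm2 : 0 < 1 / (R + 1) := by positivity
  set a : ℝ := ‖g 0‖ with ha
  have ha0 : 0 < a := by linarith
  have hsq : (starRingEnd ℂ) (g 0) * g 0 = ((a ^ 2 : ℝ) : ℂ) := by
    rw [Complex.conj_mul', ha]; push_cast; rfl
  have h3 := Complex.borelCaratheodory_zero (f := fun t => (starRingEnd ℂ) (g 0) * g t -
    ((a ^ 2 : ℝ) : ℂ)) (M := a * m) (R := R) (z := 1) (by positivity)
    ((hg.const_mul _).sub_const _) (fun t ht => ?_) (by linarith) (by simpa using hR)
    (by simp only [hsq, sub_self])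
  · have h4 : a ^ 2 - a * (1 / 2) ≤ ‖(starRingEnd ℂ) (g 0) * g 1 - ((a ^ 2 : ℝ) : ℂ)‖ := by
      have h5 := norm_sub_norm_le (((a ^ 2 : ℝ) : ℂ)) ((starRingEnd ℂ) (g 0) * g 1)
      rw [norm_sub_rev, Complex.norm_real, Real.norm_of_nonneg (by positivity), norm_mul,
        Complex.norm_conj, ← ha] at h5
      linarith [mul_le_mul_of_nonneg_left h2 ha0.le]
    have h6 : 2 * (a * m) * ‖(1 : ℂ)‖ / (R - ‖(1 : ℂ)‖) = a * (1 / (R + 1)) := by
      rw [norm_one, hm]; field_simp
    rw [h6] at h3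
    nlinarith
  · have h4 := Complex.re_le_norm ((starRingEnd ℂ) (g 0) * g t)
    rw [norm_mul, Complex.norm_conj, ← ha] at h4
    have h5 := mul_le_mul_of_nonneg_left (h1 t ht) ha0.le
    simp only [Set.mem_ofPred_eq, Complex.sub_re, Complex.ofReal_re]
    nlinarith

end Crest.Agent.R245
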