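import Crest.Agent.R245.CoreDefs

/-!
# R245: the Siegel domains and the jets of their Bergman potentials

`rho z₁ z₂ = 2 Re z₂ - |z₁|²`.  Points of `ℂ³` are `p = (p 0, p 1, p 2)`, the base point is
`(p 1, p 2)`.  Jets: write `rho2 = 2 re (p 2) - normSq (p 1)` (`jr_two_re`, `jr_normSq`,
`jet_aff` with `ContinuousLinearMap.proj`), then `jr_log`.
-/

set_option autoImplicit false

namespace Crest.Agent.R245

open scoped ComplexConjugate ContDiff Topology
open Filter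

noncomputable def rho (z₁ z₂ : ℂ) : ℝ := 2 * z₂.re - Complex.normSq z₁

noncomputable def rho2 (p : Fin 3 → ℂ) : ℝ := rho (p 1) (p 2)

noncomputable def rho3 (p : Fin 3 → ℂ) : ℝ := rho2 p - Complex.normSq (p 0)

/-- the Bergman potential of the base -/
noncomputable def rr (p : Fin 3 → ℂ) : ℝ := -Real.log (rho2 p)

/-- horizontal projection -/
def hor (a : Fin 3 → ℂ) : Fin 3 → ℂ := ![0, a 1, a 2]

/-- `∂ rr` -/
noncomputable def sg (p a : Fin 3 → ℂ) : ℂ := -(a 2 - conj (p 1) * a 1) / rho2 p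

/-- the Bergman metric of the base -/
noncomputable def Psi (p a b : Fin 3 → ℂ) : ℂ := a 1 * conj (b 1) / rho2 p + sg p a * conj (sg p b)

noncomputable def nP (p a : Fin 3 → ℂ) : ℝ :=
  √(Complex.normSq (a 1) / rho2 p + Complex.normSq (sg p a))

/-- its Christoffel map -/
noncomputable def GP (p a c : Fin 3 → ℂ) : Fin 3 → ℂ := sg p c • hor a + sg p a • hor c

theorem nP_nonneg (p a : Fin 3 → ℂ) : 0 ≤ nP p a := Real.sqrt_nonneg _

theorem sieg_contDiff_normSq (i : Fin 3) :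
    ContDiff ℝ ∞ fun p : Fin 3 → ℂ => Complex.normSq (p i) := by
  have h1 : ContDiff ℝ ∞ fun p : Fin 3 → ℂ => (p i).re :=
    Complex.reCLM.contDiff.comp (contDiff_apply ℝ ℂ i)
  have h2 : ContDiff ℝ ∞ fun p : Fin 3 → ℂ => (p i).im :=
    Complex.imCLM.contDiff.comp (contDiff_apply ℝ ℂ i)
  simp only [Complex.normSq_apply]
  exact (h1.mul h1).add (h2.mul h2)

theorem sieg_nP_sq {p : Fin 3 → ℂ} (hp : 0 < rho2 p) (a : Fin 3 → ℂ) :
    nP p a ^ 2 = (‖a 1‖ / √(rho2 p)) ^ 2 + ‖sg p a‖ ^ 2 := by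
  unfold nP
  rw [Real.sq_sqrt (add_nonneg (div_nonneg (Complex.normSq_nonneg _) hp.le)
    (Complex.normSq_nonneg _)), div_pow, Real.sq_sqrt hp.le, Complex.normSq_eq_norm_sq,
    Complex.normSq_eq_norm_sq]

theorem sieg_GP_one (p a c : Fin 3 → ℂ) : GP p a c 1 = sg p c * a 1 + sg p a * c 1 := by
  simp [GP, hor]

theorem sieg_GP_two (p a c : Fin 3 → ℂ) : GP p a c 2 = sg p c * a 2 + sg p a * c 2 := by
  simp [GP, hor]

theorem sieg_sg_GP (p a c : Fin 3 → ℂ) : sg p (GP p a c) = 2 * sg p a * sg p c := by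
  rw [sg, sieg_GP_one, sieg_GP_two]
  unfold sg
  ring

theorem sieg_Psi_GP_left (p a c b : Fin 3 → ℂ) :
    Psi p (GP p a c) b = sg p c * Psi p a b + sg p a * Psi p c b := by
  rw [Psi, sieg_GP_one, sieg_sg_GP]
  unfold Psi
  ring

theorem sieg_Psi_GP_right (p a b d : Fin 3 → ℂ) :
    Psi p a (GP p b d) = conj (sg p d) * Psi p a b + conj (sg p b) * Psi p a d := by
  rw [Psi, sieg_GP_one, sieg_sg_GP]
  unfold Psi
  simp only [map_add, map_mul, map_ofNat]
  ring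

theorem contDiff_rho2 : ContDiff ℝ ∞ rho2 := by
  unfold rho2 rho
  exact (contDiff_const.mul (Complex.reCLM.contDiff.comp (contDiff_apply ℝ ℂ 2))).sub
    (sieg_contDiff_normSq 1)

theorem contDiff_rho3 : ContDiff ℝ ∞ rho3 := by
  unfold rho3
  exact contDiff_rho2.sub (sieg_contDiff_normSq 0)

theorem sm_rr {p : Fin 3 → ℂ} (hp : 0 < rho2 p) : Sm rr p := by
  have hc : Tendsto rho2 (𝓝 p) (𝓝 (rho2 p)) := contDiff_rho2.continuous.continuousAt
  filter_upwards [hc.eventually (isOpen_ne.mem_nhds hp.ne')] with x hx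
    using (contDiff_rho2.contDiffAt.log hx).neg

theorem Psi_self_re {p : Fin 3 → ℂ} (hp : 0 < rho2 p) (a : Fin 3 → ℂ) :
    (Psi p a a).re = nP p a ^ 2 := by
  unfold nP Psi
  rw [Real.sq_sqrt (add_nonneg (div_nonneg (Complex.normSq_nonneg _) hp.le)
    (Complex.normSq_nonneg _)), Complex.mul_conj, Complex.mul_conj, ← Complex.ofReal_div,
    ← Complex.ofReal_add, Complex.ofReal_re]

theorem norm_Psi_le {p : Fin 3 → ℂ} (hp : 0 < rho2 p) (a b : Fin 3 → ℂ) :
    ‖Psi p a b‖ ≤ nP p a * nP p b := by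
  have hs : 0 < √(rho2 p) := Real.sqrt_pos.2 hp
  have h1 : ‖Psi p a b‖ ≤ ‖a 1‖ / √(rho2 p) * (‖b 1‖ / √(rho2 p)) + ‖sg p a‖ * ‖sg p b‖ := by
    unfold Psi
    refine (norm_add_le _ _).trans (le_of_eq ?_)
    rw [norm_div, norm_mul, norm_mul, Complex.norm_conj, Complex.norm_conj, Complex.norm_real,
      Real.norm_of_nonneg hp.le, div_mul_div_comm, Real.mul_self_sqrt hp.le]
  refine h1.trans (abs_le_of_sq_le_sq' ?_ (mul_nonneg (nP_nonneg _ _) (nP_nonneg _ _))).2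
  rw [mul_pow, sieg_nP_sq hp, sieg_nP_sq hp]
  nlinarith [sq_nonneg (‖a 1‖ / √(rho2 p) * ‖sg p b‖ - ‖b 1‖ / √(rho2 p) * ‖sg p a‖)]

theorem norm_sg_le {p : Fin 3 → ℂ} (hp : 0 < rho2 p) (a : Fin 3 → ℂ) : ‖sg p a‖ ≤ nP p a := by
  refine (abs_le_of_sq_le_sq' ?_ (nP_nonneg _ _)).2
  rw [sieg_nP_sq hp]
  nlinarith [sq_nonneg (‖a 1‖ / √(rho2 p))]

theorem norm_one_le_nP {p : Fin 3 → ℂ} (hp : 0 < rho2 p) (a : Fin 3 → ℂ) :
    ‖a 1‖ ≤ √(rho2 p) * nP p a := by
  have hs : 0 < √(rho2 p) := Real.sqrt_pos.2 hp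
  rw [← div_le_iff₀' hs]
  refine (abs_le_of_sq_le_sq' ?_ (nP_nonneg _ _)).2
  rw [sieg_nP_sq hp]
  nlinarith [sq_nonneg ‖sg p a‖]

theorem nP_GP_le {p : Fin 3 → ℂ} (hp : 0 < rho2 p) (a c : Fin 3 → ℂ) :
    nP p (GP p a c) ≤ 2 * (nP p a * nP p c) := by
  have hs : 0 < √(rho2 p) := Real.sqrt_pos.2 hp
  refine (abs_le_of_sq_le_sq' ?_
    (mul_nonneg (by norm_num) (mul_nonneg (nP_nonneg _ _) (nP_nonneg _ _)))).2
  rw [mul_pow, mul_pow, sieg_nP_sq hp, sieg_nP_sq hp, sieg_nP_sq hp, sieg_sg_GP, sieg_GP_one]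
  have h1 : ‖sg p c * a 1 + sg p a * c 1‖ / √(rho2 p)
      ≤ ‖sg p c‖ * (‖a 1‖ / √(rho2 p)) + ‖sg p a‖ * (‖c 1‖ / √(rho2 p)) := by
    rw [← mul_div_assoc, ← mul_div_assoc, ← add_div]
    gcongr
    refine (norm_add_le _ _).trans (le_of_eq ?_)
    rw [norm_mul, norm_mul]
  have h2 : (‖sg p c * a 1 + sg p a * c 1‖ / √(rho2 p)) ^ 2
      ≤ (‖sg p c‖ * (‖a 1‖ / √(rho2 p)) + ‖sg p a‖ * (‖c 1‖ / √(rho2 p))) ^ 2 := by gcongr
  rw [norm_mul, norm_mul, Complex.norm_two]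
  generalize ‖a 1‖ / √(rho2 p) = xa at *
  generalize ‖c 1‖ / √(rho2 p) = xc at *
  generalize ‖sg p a‖ = ya at *
  generalize ‖sg p c‖ = yc at *
  nlinarith [sq_nonneg (yc * xa - ya * xc), sq_nonneg (xa * xc), sq_nonneg (yc * xa),
    sq_nonneg (ya * xc)]

theorem isBil_GP (p : Fin 3 → ℂ) : IsBil (GP p) := by
  refine ⟨fun a c => add_comm _ _, fun a a' c => ?_, fun t a c => ?_⟩
  · funext i
    fin_cases i <;> simp [GP, hor, sg] <;> ring
  · funext i
    fin_cases i <;> simp [GP, hor, sg] <;> ring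

theorem sieg_jet_proj (i : Fin 3) (p : Fin 3 → ℂ) :
    jet (fun y : Fin 3 → ℂ => y i) p = J.aff (p i) fun a => a i := by
  have := jet_aff (ContinuousLinearMap.proj (R := ℂ) (φ := fun _ : Fin 3 => ℂ) i) 0 p
  simp only [add_zero] at this
  exact this

theorem sieg_sm_proj (i : Fin 3) (p : Fin 3 → ℂ) : Sm (fun y : Fin 3 → ℂ => y i) p :=
  Sm.of_contDiff (contDiff_apply ℝ ℂ i) p

theorem sieg_jr_normSq (i : Fin 3) (p : Fin 3 → ℂ) :
    jr (fun y : Fin 3 → ℂ => Complex.normSq (y i)) p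
      = (J.aff (p i) fun a => a i).mul (J.aff (p i) fun a : Fin 3 → ℂ => a i).bar := by
  rw [jr_normSq (sieg_sm_proj i p), sieg_jet_proj]

/-- the jet of `rho2` -/
noncomputable def siegR2 (p : Fin 3 → ℂ) : J (Fin 3 → ℂ) :=
  ⟨rho2 p, fun a => a 2 - conj (p 1) * a 1, fun b => conj (b 2) - p 1 * conj (b 1), fun _ _ => 0,
    fun a b => -(a 1 * conj (b 1)), fun _ _ => 0, fun _ _ _ => 0, fun _ _ _ => 0, fun _ _ _ _ => 0⟩

theorem sieg_jr_rho2 (p : Fin 3 → ℂ) : jr rho2 p = siegR2 p := by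
  have h0 : (jr rho2 p).v = (siegR2 p).v := rfl
  have h1 : jr rho2 p = (jr (fun x : Fin 3 → ℂ => 2 * (x 2).re) p).sub
      (jr (fun x => Complex.normSq (x 1)) p) :=
    jr_sub (Sm.of_contDiff
      (contDiff_const.mul (Complex.reCLM.contDiff.comp (contDiff_apply ℝ ℂ 2))) p)
      (Sm.of_contDiff (sieg_contDiff_normSq 1) p)
  rw [jr_two_re (sieg_sm_proj 2 p), sieg_jet_proj, sieg_jr_normSq] at h1
  ext
  · exact h0
  all_goals
    rw [h1]
    simp only [J.smul, J.sub, J.add, J.mul, J.bar, J.aff, siegR2, map_zero]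
    ring

/-- the jet of `rr` -/
noncomputable def siegRR (p : Fin 3 → ℂ) : J (Fin 3 → ℂ) where
  v := rr p
  d a := sg p a
  e b := conj (sg p b)
  dd a c := sg p a * sg p c
  de a b := Psi p a b
  ee b d := conj (sg p b) * conj (sg p d)
  dde a c b := Psi p a b * sg p c + Psi p c b * sg p a
  dee a b d := Psi p a b * conj (sg p d) + Psi p a d * conj (sg p b)
  ddee a c b d := Psi p a b * Psi p c d + Psi p a d * Psi p c b +
    (Psi p a b * sg p c * conj (sg p d) + Psi p a d * sg p c * conj (sg p b) +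
      Psi p c b * sg p a * conj (sg p d) + Psi p c d * sg p a * conj (sg p b))

theorem sieg_jr_rr {p : Fin 3 → ℂ} (hp : 0 < rho2 p) : jr rr p = siegRR p := by
  have h0 : (jr rr p).v = (siegRR p).v := rfl
  have h1 : Sm rho2 p := Sm.of_contDiff contDiff_rho2 p
  have h2 : Sm (fun x => Real.log (rho2 x)) p := by
    have hc : Tendsto rho2 (𝓝 p) (𝓝 (rho2 p)) := contDiff_rho2.continuous.continuousAt
    filter_upwards [hc.eventually (isOpen_ne.mem_nhds hp.ne')] with x hx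
      using contDiff_rho2.contDiffAt.log hx
  have h3 : rr = fun x => (-1 : ℝ) * Real.log (rho2 x) := by
    funext x; unfold rr; ring
  have h4 : jr rr p = ((siegR2 p).comp (logv (rho2 p))).smul ((-1 : ℝ) : ℂ) := by
    rw [h3, jr_smul h2, jr_log h1 hp.ne', sieg_jr_rho2]
  ext
  · exact h0
  all_goals
    rw [h4]
    simp only [J.smul, J.comp, siegR2, siegRR, logv, Psi, sg, map_div₀, map_neg, map_sub, map_mul,
      Complex.conj_conj, Complex.conj_ofReal]
    push_cast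
    ring

theorem jr_rr_d {p : Fin 3 → ℂ} (hp : 0 < rho2 p) (a : Fin 3 → ℂ) : (jr rr p).d a = sg p a := by
  rw [sieg_jr_rr hp]; rfl

theorem jr_rr_de {p : Fin 3 → ℂ} (hp : 0 < rho2 p) (a b : Fin 3 → ℂ) :
    (jr rr p).de a b = Psi p a b := by
  rw [sieg_jr_rr hp]; rfl

theorem jr_rr_cov {p : Fin 3 → ℂ} (hp : 0 < rho2 p) :
    (∀ a c b, ((jr rr p).cov (GP p)).dde a c b = 0) ∧
    ∀ a c b d, ((jr rr p).cov (GP p)).ddee a c b d =
      Psi p a b * Psi p c d + Psi p a d * Psi p c b := by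
  rw [sieg_jr_rr hp]
  refine ⟨fun a c b => ?_, fun a c b d => ?_⟩
  · simp only [J.cov, siegRR, sieg_Psi_GP_left]; ring
  · simp only [J.cov, siegRR, sieg_Psi_GP_left, sieg_Psi_GP_right]; ring

theorem jr_rr_bd {p : Fin 3 → ℂ} (hp : 0 < rho2 p) : (jr rr p).Bd (nP p) 6 := by
  rw [sieg_jr_rr hp]
  have hn := nP_nonneg p
  have h1 := norm_sg_le hp
  have h1' : ∀ a, ‖conj (sg p a)‖ ≤ nP p a := fun a => by rw [Complex.norm_conj]; exact h1 a
  have h2 := norm_Psi_le hp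
  have m2 : ∀ {x y : ℂ} {s t : ℝ}, ‖x‖ ≤ s → ‖y‖ ≤ t → ‖x * y‖ ≤ s * t := fun hx hy => by
    rw [norm_mul]; exact mul_le_mul hx hy (norm_nonneg _) ((norm_nonneg _).trans hx)
  have a2 : ∀ {x y : ℂ} {s t : ℝ}, ‖x‖ ≤ s → ‖y‖ ≤ t → ‖x + y‖ ≤ s + t := fun hx hy =>
    (norm_add_le _ _).trans (add_le_add hx hy)
  refine ⟨fun a => ?_, fun b => ?_, fun a c => ?_, fun a b => ?_, fun b d => ?_,
    fun a c b => ?_, fun a b d => ?_, fun a c b d => ?_⟩
  · exact (h1 a).trans (by linarith [hn a])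
  · exact (h1' b).trans (by linarith [hn b])
  · exact (m2 (h1 a) (h1 c)).trans (by linarith [mul_nonneg (hn a) (hn c)])
  · exact (h2 a b).trans (by linarith [mul_nonneg (hn a) (hn b)])
  · exact (m2 (h1' b) (h1' d)).trans (by linarith [mul_nonneg (hn b) (hn d)])
  · exact (a2 (m2 (h2 a b) (h1 c)) (m2 (h2 c b) (h1 a))).trans
      (by nlinarith [mul_nonneg (mul_nonneg (hn a) (hn c)) (hn b)])
  · exact (a2 (m2 (h2 a b) (h1' d)) (m2 (h2 a d) (h1' b))).trans
      (by nlinarith [mul_nonneg (mul_nonneg (hn a) (hn b)) (hn d)])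
  · exact (a2 (a2 (m2 (h2 a b) (h2 c d)) (m2 (h2 a d) (h2 c b)))
      (a2 (a2 (a2 (m2 (m2 (h2 a b) (h1 c)) (h1' d)) (m2 (m2 (h2 a d) (h1 c)) (h1' b)))
        (m2 (m2 (h2 c b) (h1 a)) (h1' d))) (m2 (m2 (h2 c d) (h1 a)) (h1' b)))).trans
      (le_of_eq (by ring))

/-- the Bergman metric of the three-dimensional Siegel domain dominates the vertical part -/
theorem jr_std_de {p : Fin 3 → ℂ} (hp : 0 < rho3 p) (a : Fin 3 → ℂ) :
    ((jr (fun x => -Real.log (rho3 x)) p).de a a).re =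
      (Complex.normSq (a 0) + Complex.normSq (a 1)) / rho3 p +
        Complex.normSq (a 2 - conj (p 0) * a 0 - conj (p 1) * a 1) / rho3 p ^ 2 := by
  have h1 : Sm rho3 p := Sm.of_contDiff contDiff_rho3 p
  have h2 : Sm (fun x => Real.log (rho3 x)) p := by
    have hc : Tendsto rho3 (𝓝 p) (𝓝 (rho3 p)) := contDiff_rho3.continuous.continuousAt
    filter_upwards [hc.eventually (isOpen_ne.mem_nhds hp.ne')] with x hx
      using contDiff_rho3.contDiffAt.log hx
  have h3 : (fun x => -Real.log (rho3 x)) = fun x => (-1 : ℝ) * Real.log (rho3 x) := by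
    funext x; ring
  have h4 : jr rho3 p = (jr rho2 p).sub (jr (fun x => Complex.normSq (x 0)) p) :=
    jr_sub (Sm.of_contDiff contDiff_rho2 p) (Sm.of_contDiff (sieg_contDiff_normSq 0) p)
  have h5 : ((rho3 p : ℝ) : ℂ) ≠ 0 := by exact_mod_cast hp.ne'
  have h6 : (jr (fun x => -Real.log (rho3 x)) p).de a a =
      (((Complex.normSq (a 0) + Complex.normSq (a 1)) / rho3 p +
        Complex.normSq (a 2 - conj (p 0) * a 0 - conj (p 1) * a 1) / rho3 p ^ 2 : ℝ) : ℂ) := by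
    rw [h3, jr_smul h2, jr_log h1 hp.ne', h4, sieg_jr_rho2, sieg_jr_normSq]
    simp only [J.smul, J.comp, J.sub, J.add, J.mul, J.bar, J.aff, siegR2, logv]
    push_cast
    simp only [← Complex.mul_conj, map_sub, map_mul, Complex.conj_conj, map_zero]
    field_simp
    ring
  rw [h6, Complex.ofReal_re]

/-- functions of the base point only -/
def IsBase (u : (Fin 3 → ℂ) → ℝ) : Prop := ∀ p, u p = u (hor p)

/-- `hor` as a continuous linear map -/
noncomputable def siegHor : (Fin 3 → ℂ) →L[ℂ] (Fin 3 → ℂ) :=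
  LinearMap.toContinuousLinearMap
    { toFun := hor
      map_add' := fun a b => by funext i; fin_cases i <;> simp [hor]
      map_smul' := fun t a => by funext i; fin_cases i <;> simp [hor] }

theorem siegHor_apply (a : Fin 3 → ℂ) : siegHor a = hor a := rfl

/-- jets of base functions only see the horizontal components (`jr_comap` for the linear map
`hor`, twice: `u = u ∘ hor` and `jr u p = (jr u (hor p)).comap hor`). -/
theorem IsBase.jr {u : (Fin 3 → ℂ) → ℝ} (hb : IsBase u) {p : Fin 3 → ℂ} (hu : Sm u p) :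
    (jr u p).comap hor = jr u p := by
  have h1 : siegHor p + (p - hor p) = p := by rw [siegHor_apply]; abel
  have h2 := jr_comap siegHor (p - hor p) (u := u) (p := p) (by rw [h1]; exact hu)
  have h3 : (fun y => u (siegHor y + (p - hor p))) = u := by
    funext y
    rw [hb y, hb (siegHor y + (p - hor p)), siegHor_apply]
    congr 1
    funext i
    fin_cases i <;> simp [hor, Matrix.vecHead, Matrix.vecTail]
  rw [h1, h3] at h2
  have h4 : (⇑siegHor) = hor := funext siegHor_apply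
  rw [h4] at h2
  exact h2.symm

/-- the Hartogs potential -/
noncomputable def Pot (ψ φ η : (Fin 3 → ℂ) → ℝ) (p : Fin 3 → ℂ) : ℝ :=
  ψ p + η p * -Real.log (1 - Complex.normSq (p 0) * Real.exp (φ p))

theorem sm_Pot {ψ φ η : (Fin 3 → ℂ) → ℝ} {p : Fin 3 → ℂ} (hψ : Sm ψ p) (hφ : Sm φ p) (hη : Sm η p)
    (hs : Complex.normSq (p 0) * Real.exp (φ p) < 1) : Sm (Pot ψ φ η) p := by
  have h1 : Sm (fun x : Fin 3 → ℂ => 1 - Complex.normSq (x 0) * Real.exp (φ x)) p := by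
    filter_upwards [hφ] with x hx
      using contDiffAt_const.sub ((sieg_contDiff_normSq 0).contDiffAt.mul hx.exp)
  have hc : Tendsto (fun x : Fin 3 → ℂ => 1 - Complex.normSq (x 0) * Real.exp (φ x)) (𝓝 p)
      (𝓝 (1 - Complex.normSq (p 0) * Real.exp (φ p))) := h1.contDiffAt.continuousAt
  have h2 : 1 - Complex.normSq (p 0) * Real.exp (φ p) ≠ 0 := by linarith
  filter_upwards [hψ, hη, h1, hc.eventually (isOpen_ne.mem_nhds h2)] with x h3 h4 h5 h6
    using h3.add (h4.mul (h5.log h6).neg)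

end Crest.Agent.R245
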