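import Crest.Agent.R245.SCV
import Crest.Agent.R245.BaseDefs

/-!
# R245: one step of the walk (unit scale)

Points `z : Fin 3 → ℂ` with `z 0 = 0` are not needed: we work on `ℂ × ℂ`.
* Maximum principle on horizontal discs: for `β ≤ rho z`, the points `(z₁ + u, z₂ + conj z₁ u)`
  have height `rho z - |u|²`; apply `Complex.norm_le_of_forall_mem_frontier_norm_le` (or the mean
  value property) on `|u|² ≤ rho z - β`.  For `‖z₁‖ ≤ 6`, `‖z₂‖ ≤ 310` the boundary circle lies in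
  the set of `h1`; for the apex `p = (c, 1/2 + iτ + |c|²/2)` it lies in the set of `h2`.
* The disc `t ↦ (0, 100) + t (p - (0, 100))`, `|t| < R = 1 + 1/1200`, stays in `rho ≥ 1/2`,
  `‖z₁‖ ≤ 6`, `‖z₂‖ ≤ 310`: with `t = X + iY`, `u = 1 - X ≥ -1/1200`, `k = |c|² ≤ 9`,
  `rho = 200 u + X + k (X - |t|²) - 2 Y τ`, `Y² ≤ 3/1200 + 2u`, `8|Y| ≤ 1/4 + 64 Y²`.
* `norm_zero_le_of_half`.
-/

set_option autoImplicit false

namespace Crest.Agent.R245

open scoped ComplexConjugate Topology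
open Filter

def S2 : Set (ℂ × ℂ) := {z | 0 < rho z.1 z.2}

theorem isOpen_S2 : IsOpen S2 := by
  refine isOpen_lt continuous_const ?_
  simp only [rho]
  fun_prop

theorem convex_S2 : Convex ℝ S2 := by
  intro x hx y hy a b ha hb hab
  simp only [S2, Set.mem_ofPred_eq, rho, Complex.normSq_apply, Prod.fst_add, Prod.snd_add,
    Prod.smul_fst, Prod.smul_snd, Complex.add_re, Complex.add_im, Complex.smul_re,
    Complex.smul_im, smul_eq_mul] at hx hy ⊢
  obtain rfl : b = 1 - a := by linarith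
  have h1 := mul_nonneg (mul_nonneg ha hb) (sq_nonneg (x.1.re - y.1.re))
  have h2 := mul_nonneg (mul_nonneg ha hb) (sq_nonneg (x.1.im - y.1.im))
  rcases ha.eq_or_lt with rfl | ha'
  · simpa using hy
  · have h3 := mul_pos ha' hx
    have h4 := mul_nonneg hb hy.le
    nlinarith

theorem st_rho_horiz (z₁ z₂ u : ℂ) :
    rho (z₁ + u) (z₂ + conj z₁ * u) = rho z₁ z₂ - Complex.normSq u := by
  simp only [rho, Complex.normSq_apply, Complex.add_re, Complex.add_im, Complex.mul_re,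
    Complex.conj_re, Complex.conj_im]
  ring

theorem horiz_max {g : ℂ × ℂ → ℂ} (hg : LineHol g S2) {β M : ℝ} (hβ : 0 < β) {z₁ z₂ : ℂ}
    (hz : β ≤ rho z₁ z₂)
    (h : ∀ u : ℂ, Complex.normSq u = rho z₁ z₂ - β → ‖g (z₁ + u, z₂ + conj z₁ * u)‖ ≤ M) :
    ‖g (z₁, z₂)‖ ≤ M := by
  have hd := hg (z₁, z₂) (1, conj z₁)
  have e : ∀ u : ℂ, ((z₁, z₂) : ℂ × ℂ) + u • ((1 : ℂ), conj z₁) = (z₁ + u, z₂ + conj z₁ * u) := by
    intro u
    simp [mul_comm]
  simp only [e] at hd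
  have h0 : 0 ≤ rho z₁ z₂ - β := sub_nonneg.2 hz
  have hsub : Metric.closedBall (0 : ℂ) √(rho z₁ z₂ - β) ⊆
      {t | (z₁ + t, z₂ + conj z₁ * t) ∈ S2} := by
    intro t ht
    rw [mem_closedBall_zero_iff, Real.le_sqrt (norm_nonneg _) h0,
      ← Complex.normSq_eq_norm_sq] at ht
    show 0 < rho _ _
    rw [st_rho_horiz]
    linarith
  have := Complex.norm_le_of_forall_mem_frontier_norm_le
    (U := Metric.closedBall (0 : ℂ) √(rho z₁ z₂ - β)) Metric.isBounded_closedBall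
    (DifferentiableOn.diffContOnCl (by rw [Metric.closure_closedBall]; exact hd.mono hsub)) (C := M)
    (fun u hu => by
      rw [frontier_closedBall', mem_sphere_zero_iff_norm] at hu
      exact h u (by rw [Complex.normSq_eq_norm_sq, hu, Real.sq_sqrt h0]))
    (z := 0) (subset_closure (Metric.mem_closedBall_self (Real.sqrt_nonneg _)))
  simpa using this

theorem st_ineq {k τ X Y : ℝ} (hk0 : 0 ≤ k) (hk : k ≤ 9) (hτ : |τ| ≤ 4)
    (h3 : X * X + Y * Y ≤ 1 + 1 / 400) (h4 : X ≤ 1 + 1 / 1200) :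
    1 / 2 ≤ 200 * (1 - X) + X + k * (X - (X * X + Y * Y)) - 2 * Y * τ := by
  have a1 : -(1 - X) - 1 / 400 ≤ X - (X * X + Y * Y) := by linarith
  have a2 : 9 * (-(1 - X) - 1 / 400) ≤ k * (X - (X * X + Y * Y)) := by
    have := mul_le_mul_of_nonneg_left a1 hk0
    nlinarith
  have a3 : Y * Y ≤ 1 / 400 + 2 * (1 - X) := by nlinarith [sq_nonneg (1 - X)]
  have a4 : 2 * Y * τ ≤ 1 / 4 + 64 * (Y * Y) := by
    have b1 : Y * τ ≤ |Y| * 4 := by
      refine (le_abs_self _).trans ?_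
      rw [abs_mul]; gcongr
    nlinarith [sq_nonneg (8 * |Y| - 1 / 2), abs_mul_abs_self Y]
  linarith

theorem step_unit {g : ℂ × ℂ → ℂ} (hg : LineHol g S2) {β τ : ℝ} (hβ : 0 < β) (hβ1 : β ≤ 1 / 2)
    {c : ℂ} (hc : ‖c‖ ≤ 3) (hτ : |τ| ≤ 4)
    (h1 : ∀ z₁ z₂ : ℂ, rho z₁ z₂ = β → ‖z₁‖ ≤ 500 → ‖z₂ - 100‖ ≤ 600 → ‖g (z₁, z₂)‖ ≤ 1)
    (h2 : ∀ z₁ z₂ : ℂ, rho z₁ z₂ = β → zeta c z₁ z₂ = 1 / 2 + τ * Complex.I → ‖z₁ - c‖ ≤ 1 →
      ‖g (z₁, z₂)‖ ≤ 1 / 2) :
    ‖g (0, 100)‖ ≤ 1 - 1 / 5000 := by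
  set p₂ : ℂ := 1 / 2 + τ * Complex.I + (Complex.normSq c / 2 : ℝ) with hp₂
  have hk0 := Complex.normSq_nonneg c
  have hk : Complex.normSq c ≤ 9 := by
    rw [Complex.normSq_eq_norm_sq]; nlinarith [norm_nonneg c]
  have hre : p₂.re = 1 / 2 + Complex.normSq c / 2 := by simp [hp₂]
  have him : p₂.im = τ := by simp [hp₂]
  have hrp : rho c p₂ = 1 := by rw [rho, hre]; ring
  have hp2 : ‖p₂‖ ≤ 9 := by
    refine (Complex.norm_le_abs_re_add_abs_im _).trans ?_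
    rw [hre, him, abs_of_nonneg (by positivity)]
    linarith
  have hA : ∀ z₁ z₂ : ℂ, 1 / 2 ≤ rho z₁ z₂ → ‖z₁‖ ≤ 6 → ‖z₂‖ ≤ 310 → ‖g (z₁, z₂)‖ ≤ 1 := by
    intro z₁ z₂ hz hz1 hz2
    refine horiz_max hg hβ (hβ1.trans hz) fun u hu => ?_
    have hu1 : ‖u‖ ≤ 25 := by
      refine (pow_le_pow_iff_left₀ (norm_nonneg _) (by norm_num) two_ne_zero).1 ?_
      rw [← Complex.normSq_eq_norm_sq, hu, rho]
      linarith [Complex.re_le_norm z₂, Complex.normSq_nonneg z₁]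
    refine h1 _ _ (by rw [st_rho_horiz, hu]; ring) ((norm_add_le _ _).trans (by linarith)) ?_
    have h3 : ‖conj z₁ * u‖ ≤ 6 * 25 := by
      rw [norm_mul, Complex.norm_conj]; gcongr
    have h4 := norm_sub_le (z₂ + conj z₁ * u) 100
    have h5 := norm_add_le z₂ (conj z₁ * u)
    have h6 : ‖(100 : ℂ)‖ = 100 := by simp
    linarith
  have hB : ‖g (c, p₂)‖ ≤ 1 / 2 := by
    refine horiz_max hg hβ (by rw [hrp]; linarith) fun u hu => ?_
    refine h2 _ _ (by rw [st_rho_horiz, hu]; ring) ?_ ?_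
    · rw [zeta, hp₂, mul_add (conj c), ← Complex.normSq_eq_conj_mul_self]
      push_cast
      ring
    · rw [add_sub_cancel_left]
      refine (pow_le_pow_iff_left₀ (norm_nonneg _) (by norm_num) two_ne_zero).1 ?_
      rw [← Complex.normSq_eq_norm_sq, hu, hrp]
      linarith
  have hd := hg (0, 100) (c, p₂ - 100)
  have e : ∀ t : ℂ, ((0, 100) : ℂ × ℂ) + t • (c, p₂ - 100) = (t * c, 100 + t * (p₂ - 100)) := by
    intro t
    simp
  simp only [e] at hd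
  have hrho : ∀ t ∈ Metric.ball (0 : ℂ) (1 + 1 / 1200),
      1 / 2 ≤ rho (t * c) (100 + t * (p₂ - 100)) := by
    intro t ht
    rw [mem_ball_zero_iff] at ht
    have h3 : t.re * t.re + t.im * t.im ≤ 1 + 1 / 400 := by
      rw [← Complex.normSq_apply, Complex.normSq_eq_norm_sq]
      nlinarith [norm_nonneg t]
    have h4 : t.re ≤ 1 + 1 / 1200 := (Complex.re_le_norm t).trans ht.le
    have e2 : rho (t * c) (100 + t * (p₂ - 100)) = 200 * (1 - t.re) + t.re +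
        Complex.normSq c * (t.re - (t.re * t.re + t.im * t.im)) - 2 * t.im * τ := by
      rw [rho, Complex.normSq_mul, Complex.normSq_apply t]
      simp only [Complex.add_re, Complex.mul_re, Complex.sub_re, Complex.sub_im, hre, him,
        Complex.re_ofNat, Complex.im_ofNat]
      ring
    rw [e2]
    exact st_ineq hk0 hk hτ h3 h4
  have hC := norm_zero_le_of_half (g := fun t => g (t * c, 100 + t * (p₂ - 100)))
    (R := 1 + 1 / 1200) (by norm_num)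
    (hd.mono fun t ht => show 0 < rho _ _ from lt_of_lt_of_le (by norm_num) (hrho t ht))
    (fun t ht => hA _ _ (hrho t ht) (by
      rw [mem_ball_zero_iff] at ht
      rw [norm_mul]
      nlinarith [norm_nonneg t, norm_nonneg c]) (by
      rw [mem_ball_zero_iff] at ht
      have h6 : ‖(100 : ℂ)‖ = 100 := by simp
      have h4 := norm_sub_le p₂ 100
      have h5 := norm_add_le 100 (t * (p₂ - 100))
      rw [norm_mul] at h5
      nlinarith [norm_nonneg t, norm_nonneg (p₂ - 100)]))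
    (by simpa using hB)
  simp only [zero_mul, add_zero] at hC
  refine hC.trans (by norm_num)

/-- the same at scale `h` around a point `x` of height `200 h`: compose with the affine map
`T z = (x₁ + √h z₁, x₂ + conj x₁ √h z₁ + h (z₂ - 100))`, for which `rho (T z) = h rho z` and
`zeta c (T z) = h zeta ĉ z + i (im x₂ - im (conj c x₁))`, `c = x₁ + √h ĉ`. -/
theorem step_scaled {g : ℂ × ℂ → ℂ} (hg : LineHol g S2) {h β : ℝ} (hh : 0 < h) (hβ : 0 < β)
    (hβ1 : β ≤ h / 2) {x₁ x₂ c : ℂ} (hx : rho x₁ x₂ = 200 * h) (hc : ‖x₁ - c‖ ≤ 3 * √h)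
    (h1 : ∀ z₁ z₂ : ℂ, rho z₁ z₂ = β → ‖z₁ - x₁‖ ≤ 500 * √h →
      ‖z₂ - x₂ - conj x₁ * (z₁ - x₁)‖ ≤ 600 * h → ‖g (z₁, z₂)‖ ≤ 1)
    (h2 : ∀ (z₁ z₂ : ℂ) (n : ℤ), rho z₁ z₂ = β →
      zeta c z₁ z₂ / h = 1 / 2 + 2 * Real.pi * n * Complex.I → ‖z₁ - c‖ ≤ √h →
      ‖z₁ - x₁‖ ≤ 500 * √h → ‖z₂ - x₂ - conj x₁ * (z₁ - x₁)‖ ≤ 600 * h → ‖g (z₁, z₂)‖ ≤ 1 / 2) :
    ‖g (x₁, x₂)‖ ≤ 1 - 1 / 5000 := by
  obtain ⟨s, hs, rfl⟩ : ∃ s : ℝ, 0 < s ∧ h = s ^ 2 :=
    ⟨√h, Real.sqrt_pos.2 hh, (Real.sq_sqrt hh.le).symm⟩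
  rw [Real.sqrt_sq hs.le] at hc h1 h2
  have hs' : (s : ℂ) ≠ 0 := by exact_mod_cast hs.ne'
  obtain ⟨d, rfl⟩ : ∃ d : ℂ, c = x₁ + s * d := ⟨(c - x₁) / s, by field_simp; ring⟩
  have hns : ∀ w : ℂ, ‖(s : ℂ) * w‖ = s * ‖w‖ := fun w => by
    rw [norm_mul, Complex.norm_of_nonneg hs.le]
  have hd : ‖d‖ ≤ 3 := by
    rw [sub_add_cancel_left, norm_neg, hns] at hc
    exact le_of_mul_le_mul_left (by linarith) hs
  let L : ℂ × ℂ →L[ℂ] ℂ × ℂ := ((s : ℂ) • ContinuousLinearMap.fst ℂ ℂ ℂ).prod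
    ((conj x₁ * s) • ContinuousLinearMap.fst ℂ ℂ ℂ + ((s : ℂ) ^ 2) • ContinuousLinearMap.snd ℂ ℂ ℂ)
  have hL : ∀ z₁ z₂ : ℂ, L (z₁, z₂) + (x₁, x₂ - 100 * s ^ 2) =
      (x₁ + s * z₁, x₂ + conj x₁ * (s * z₁) + s ^ 2 * (z₂ - 100)) := by
    intro z₁ z₂
    ext <;> simp [L] <;> ring
  have hrho : ∀ z₁ z₂ : ℂ, rho (x₁ + s * z₁) (x₂ + conj x₁ * (s * z₁) + s ^ 2 * (z₂ - 100)) =
      s ^ 2 * rho z₁ z₂ := by
    intro z₁ z₂
    simp only [rho, Complex.normSq_apply, Complex.add_re, Complex.add_im, Complex.mul_re,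
      Complex.mul_im, Complex.conj_re, Complex.conj_im, Complex.ofReal_re, Complex.ofReal_im,
      Complex.sub_re, Complex.sub_im, Complex.re_ofNat, Complex.im_ofNat, sq] at hx ⊢
    linear_combination hx
  have hg' : LineHol (fun y => g (L y + (x₁, x₂ - 100 * s ^ 2))) S2 :=
    hg.comp_affine L _ fun y hy => by
      obtain ⟨z₁, z₂⟩ := y
      rw [hL]
      show 0 < rho _ _
      rw [hrho]
      exact mul_pos hh hy
  set σ : ℝ := (x₂.im - (conj (x₁ + s * d) * x₁).im) / s ^ 2 with hσ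
  have hzeta : ∀ z₁ z₂ : ℂ,
      zeta (x₁ + s * d) (x₁ + s * z₁) (x₂ + conj x₁ * (s * z₁) + s ^ 2 * (z₂ - 100)) /
        ((s ^ 2 : ℝ) : ℂ) = zeta d z₁ z₂ + σ * Complex.I := by
    intro z₁ z₂
    have h3 : σ * (s * s) = x₂.im - (conj (x₁ + s * d) * x₁).im := by
      rw [hσ]; field_simp
    rw [div_eq_iff (by exact_mod_cast hh.ne')]
    clear_value σ
    apply Complex.ext <;>
    simp only [zeta, rho, Complex.normSq_apply, Complex.add_re, Complex.add_im, Complex.mul_re,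
      Complex.mul_im, Complex.conj_re, Complex.conj_im, Complex.ofReal_re, Complex.ofReal_im,
      Complex.sub_re, Complex.sub_im, Complex.re_ofNat, Complex.im_ofNat, sq, Complex.I_re,
      Complex.I_im] at hx h3 ⊢
    · linear_combination hx / 2
    · linear_combination -h3
  have hpi := Real.pi_pos
  set n : ℤ := round (σ / (2 * Real.pi)) with hn
  have hτ : |2 * Real.pi * n - σ| ≤ 4 := by
    have h3 := abs_sub_round (σ / (2 * Real.pi))
    have h4 : 2 * Real.pi * n - σ = -(2 * Real.pi) * (σ / (2 * Real.pi) - n) := by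
      field_simp; ring
    rw [h4, abs_mul, abs_neg, abs_of_pos (by positivity)]
    nlinarith [Real.pi_le_four]
  have hb : ∀ z₁ z₂ : ℂ, ‖z₁‖ ≤ 500 → ‖z₂ - 100‖ ≤ 600 → ‖x₁ + s * z₁ - x₁‖ ≤ 500 * s ∧
      ‖x₂ + conj x₁ * (s * z₁) + s ^ 2 * (z₂ - 100) - x₂ - conj x₁ * (x₁ + s * z₁ - x₁)‖ ≤
        600 * s ^ 2 := by
    intro z₁ z₂ a1 a2
    have e : x₂ + conj x₁ * (s * z₁) + s ^ 2 * (z₂ - 100) - x₂ - conj x₁ * (x₁ + s * z₁ - x₁) =
        s * (s * (z₂ - 100)) := by ring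
    rw [e, add_sub_cancel_left, hns, hns, hns]
    constructor <;> nlinarith [mul_pos hs hs]
  have hβ' : ∀ r : ℝ, r = β / s ^ 2 → s ^ 2 * r = β := fun r hr => by rw [hr]; field_simp
  have := step_unit hg' (β := β / s ^ 2) (τ := 2 * Real.pi * n - σ) (by positivity)
    (by rw [div_le_iff₀ hh]; linarith) hd hτ
    (fun z₁ z₂ a0 a1 a2 => by
      rw [hL]
      exact h1 _ _ (by rw [hrho, hβ' _ a0]) (hb z₁ z₂ a1 a2).1 (hb z₁ z₂ a1 a2).2)
    (fun z₁ z₂ a0 a1 a2 => by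
      rw [hL]
      have b1 : ‖z₁‖ ≤ 4 := by linarith [norm_le_norm_add_norm_sub' z₁ d, norm_sub_rev z₁ d]
      have b2 : ‖z₂ - 100‖ ≤ 600 := by
        have e : z₂ - 100 = ((1 / 2 - Complex.normSq d / 2 - 100 : ℝ) : ℂ) +
            ((2 * Real.pi * n - σ : ℝ) : ℂ) * Complex.I + conj d * z₁ := by
          rw [zeta] at a1
          push_cast at a1 ⊢
          linear_combination a1
        have c1 : Complex.normSq d ≤ 9 := by
          rw [Complex.normSq_eq_norm_sq]; nlinarith [norm_nonneg d]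
        have c2 : ‖conj d * z₁‖ ≤ 3 * 4 := by
          rw [norm_mul, Complex.norm_conj]; gcongr
        have c3 : |1 / 2 - Complex.normSq d / 2 - 100| ≤ 200 := by
          rw [abs_le]; constructor <;> linarith [Complex.normSq_nonneg d]
        rw [e]
        refine (norm_add₃_le).trans ?_
        rw [norm_mul, Complex.norm_I, Complex.norm_real, Complex.norm_real, Real.norm_eq_abs,
          Real.norm_eq_abs]
        linarith
      refine h2 _ _ n (by rw [hrho, hβ' _ a0]) ?_ ?_ (hb z₁ z₂ (by linarith) b2).1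
        (hb z₁ z₂ (by linarith) b2).2
      · rw [hzeta, a1]; push_cast; ring
      · rw [add_sub_add_left_eq_sub, ← mul_sub, hns]
        nlinarith)
  simpa [hL] using this

end Crest.Agent.R245
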